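import Vale.Agent.P193.PermD

/-! The normal closure of the even permutations of positions. -/

namespace Vale.Agent.P196

open Equiv Vale.Agent.P193

/-- the normal closure in `AP` of the unconditional three-cycles of positions -/
def AA (Sg : Type) {J Y : Type} [MulAction (FreeGroup Sg) Y] (e : J → Set Y) :
    Subgroup (Perm (Y × Pos)) :=
  Subgroup.closure
    {g | ∃ u ∈ AP Sg e Finset.univ, ∃ τ : T3, g = u * cnd Set.univ τ.1 * u⁻¹}

end Vale.Agent.P196
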