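import Vale.Agent.P196.AmenB

/-! Energy estimate and the package for one direction. -/

namespace Vale.Agent.P196

namespace AmenAux

open Equiv Real
open scoped Pointwise

variable {X A Q : Type} [AddAction V X] {lab : X → A} {dir : Bool} {c R : ℕ} {H h1 : ℤ}

theorem energy [Fintype Q] (G : Geo lab dir c R H h1) {θ0 : ℤ} (hθ : 0 < θ0) (hH : 0 < H)
    {χ : ℤ → ℝ} {E : ℝ}
    (hE : ∀ (B : Finset (ℤ × ℤ)) (n' : ℤ × ℤ → ℤ), (∀ v, abs (n' v - max |v.1| |v.2|) ≤ R) →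
      ∑ v ∈ B, (χ (n' v) - χ (max |v.1| |v.2|)) ^ 2 ≤ E)
    {g : Perm (X × Q)} {r : X × Q → ℤ × ℤ × Q} (hr : Rule lab dir R g r) :
    ∑ p ∈ DD c R H θ0 h1, (th H θ0 χ (kap G r p) - th H θ0 χ p) ^ 2 ≤
      Fintype.card Q * ((θ0 + 2 * R + 1) * H) * (2 * R / θ0) ^ 2 + c * Fintype.card Q * E := by
  rw [DD, Finset.sum_disjSum]
  have hθ' : (0 : ℝ) < θ0 := by exact_mod_cast hθ
  refine add_le_add ?_ ?_
  · refine (Finset.sum_le_card_nsmul _ _ ((2 * R / θ0 : ℝ) ^ 2) fun p hp => ?_).trans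
      (le_of_eq ?_)
    · obtain ⟨q, a, φ⟩ := p
      simp only [Finset.mem_product, Finset.mem_Ico] at hp
      have b := (hr.2.1 (vec dir φ a +ᵥ G.x0, q)).2
      simp only [kap, th]
      rw [if_pos hp.2.2, if_pos ⟨Int.emod_nonneg _ hH.ne', Int.emod_lt_of_pos _ hH⟩]
      generalize (r (vec dir φ a +ᵥ G.x0, q)).2.1 = s at b ⊢
      rw [← sq_abs, ← mul_sub, abs_mul]
      refine pow_le_pow_left₀ (by positivity) ?_ 2
      rw [mul_div_assoc]
      refine mul_le_mul ?_ ((cl_lip _ _).trans ?_) (abs_nonneg _) (by norm_num)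
      · rw [abs_of_pos pi_div_two_pos]
        linarith [pi_le_four]
      · rw [← sub_div, abs_div, abs_of_pos hθ']
        refine div_le_div_of_nonneg_right ?_ hθ'.le
        push_cast
        rw [add_sub_cancel_left]
        exact_mod_cast b
    · have hR : (0 : ℤ) ≤ R := Int.natCast_nonneg R
      have e1 : ((Finset.Icc (-(R : ℤ)) (θ0 + R)).card : ℤ) = θ0 + 2 * R + 1 := by
        rw [Int.card_Icc_of_le _ _ (by omega)]; ring
      have e2 : ((Finset.Ico 0 H).card : ℤ) = H := by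
        rw [Int.card_Ico_of_le _ _ hH.le]; ring
      have e1' : ((Finset.Icc (-(R : ℤ)) (θ0 + R)).card : ℝ) = θ0 + 2 * R + 1 := by
        exact_mod_cast e1
      have e2' : ((Finset.Ico 0 H).card : ℝ) = H := by exact_mod_cast e2
      rw [nsmul_eq_mul, Finset.card_product, Finset.card_product, Finset.card_univ]
      push_cast
      rw [e1', e2']
  · rw [Finset.sum_product]
    refine (Finset.sum_le_card_nsmul _ _ E fun t _ => ?_).trans (le_of_eq ?_)
    · refine hE _ (fun v => max |v.1 + (r (vec dir v.2 v.1 +ᵥ G.rep t.1, t.2)).2.1|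
        |v.2 + (r (vec dir v.2 v.1 +ᵥ G.rep t.1, t.2)).1|) fun v => ?_
      have b := hr.2.1 (vec dir v.2 v.1 +ᵥ G.rep t.1, t.2)
      refine (abs_max_sub_max_le_max _ _ _ _).trans (max_le ?_ ?_)
      · exact (abs_abs_sub_abs_le_abs_sub _ _).trans (by simpa using b.2)
      · exact (abs_abs_sub_abs_le_abs_sub _ _).trans (by simpa using b.1)
    · rw [nsmul_eq_mul, Finset.card_univ, Fintype.card_prod, Fintype.card_fin]
      push_cast
      ring

theorem one_dir [Finite Q] [Nonempty X] (hf : Free X) (dir : Bool) (ht : ∀ M, Thin lab dir c M)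
    (R : ℕ) {δ : ℝ} (hδ : 0 < δ) :
    ∃ (I : Type) (θ : I → ℝ) (Φ : (I → Bool) → X → Set (X × Q)) (B : ℕ),
      {p | θ p ≠ 0 ∧ θ p ≠ π / 2}.Finite ∧
      (∀ g : Perm (X × Q), Cx lab R g → Cx lab R g⁻¹ → ∃ (k : I → I) (D : Finset I),
        Set.InjOn k {p | θ (k p) ≠ 0 ∧ θ (k p) ≠ π / 2} ∧ (∀ p ∉ D, θ (k p) = θ p) ∧
        ∑ p ∈ D, (θ (k p) - θ p) ^ 2 ≤ δ ∧ ∀ η, Adm θ η → g • Φ η = Φ (η ∘ k)) ∧
      ∀ η, Adm θ η → ∀ g : Perm (X × Q), g • Φ η = Φ η → ∀ x q j a q',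
        g (x, q) = (vec dir j a +ᵥ x, q') → |a| ≤ B := by
  classical
  have := Fintype.ofFinite Q
  obtain ⟨m, hm1, hm2⟩ : ∃ m : ℕ, 2 * R + 2 ≤ m ∧
      (8 + 196 * c) * R ^ 2 * Fintype.card Q ≤ δ * m := by
    obtain ⟨n, hn⟩ := exists_nat_ge ((8 + 196 * c) * R ^ 2 * Fintype.card Q / δ)
    refine ⟨n + (2 * R + 2), by omega, ?_⟩
    rw [div_le_iff₀ hδ] at hn
    push_cast
    nlinarith [mul_nonneg hδ.le (Nat.cast_nonneg (α := ℝ) R)]
  have hpow : 1 ≤ 4 ^ m := Nat.one_le_pow _ _ (by norm_num)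
  obtain ⟨H, hH, ⟨G⟩⟩ := geo_exists (lab := lab) (dir := dir) R (4 ^ m * (m + 2 + 4 * R))
    (by nlinarith) (ht _)
  obtain ⟨h0, hh0⟩ : ∃ h0 : ℤ, h0 = (m + 2 + 4 * R) * H := ⟨_, rfl⟩
  obtain ⟨θ0, hθ0⟩ : ∃ θ0 : ℤ, θ0 = m * H := ⟨_, rfl⟩
  have hR : (0 : ℤ) ≤ R := Int.natCast_nonneg R
  have hm1' : 2 * (R : ℤ) + 2 ≤ m := by exact_mod_cast hm1
  have hθ : 0 < θ0 := by rw [hθ0]; nlinarith
  have n0 : θ0 + 2 * H + 4 * R ≤ h0 := by rw [hθ0, hh0]; nlinarith
  have e1 : ((4 ^ m * (m + 2 + 4 * R) : ℕ) : ℤ) * H = 4 ^ m * h0 := by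
    rw [hh0]; push_cast; ring
  generalize ((4 ^ m * (m + 2 + 4 * R) : ℕ) : ℤ) * H = h1 at G e1
  have n1 : h0 ≤ h1 := by
    have : (1 : ℤ) ≤ 4 ^ m := by exact_mod_cast hpow
    rw [e1]; nlinarith
  obtain ⟨χ', a1, a2, a3⟩ := cutoff R h0 (by omega) (by omega) m
  have hm0 : (0 : ℝ) < m := by exact_mod_cast (by omega : 0 < m)
  let χ : ℤ → ℝ := fun n => π / 2 / m * χ' n
  have c1 : ∀ n ≤ h0, χ n = π / 2 := fun n hn => by
    simp only [χ, a1 n hn]; field_simp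
  have c0 : ∀ n, h1 ≤ n → χ n = 0 := fun n hn => by
    simp only [χ, a2 n (by omega), mul_zero]
  have hE : ∀ (B : Finset (ℤ × ℤ)) (n' : ℤ × ℤ → ℤ), (∀ v, abs (n' v - max |v.1| |v.2|) ≤ R) →
      ∑ v ∈ B, (χ (n' v) - χ (max |v.1| |v.2|)) ^ 2 ≤ 196 * R ^ 2 / m := by
    intro B n' hn'
    simp only [χ, ← mul_sub, mul_pow, ← Finset.mul_sum]
    have b1 : (π / 2 / m) ^ 2 ≤ (2 / m) ^ 2 :=
      pow_le_pow_left₀ (by positivity) (div_le_div_of_nonneg_right (by linarith [pi_le_four])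
        hm0.le) 2
    refine (mul_le_mul b1 (a3 B n' hn') (Finset.sum_nonneg fun _ _ => sq_nonneg _)
      (sq_nonneg _)).trans (le_of_eq ?_)
    field_simp
    ring
  clear_value χ
  refine ⟨J c Q, th H θ0 χ, Ph G, (2 * h1 + G.N).toNat, ?_, fun g hg hg' => ?_,
    fun η hη g hg x q j a q' e => ?_⟩
  · refine (DD c R H θ0 h1 : Finset (J c Q)).finite_toSet.subset fun p hp => ?_
    by_contra k
    exact (th_det hθ c0 k).elim hp.1 hp.2
  · obtain ⟨e, he⟩ := exists_rule hg dir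
    obtain ⟨r, hr⟩ := exists_rule hg' dir
    refine ⟨fun p => if p ∈ DD c R H θ0 h1 then kap G r p else p, DD c R H θ0 h1, ?_,
      fun p hp => by simp only [if_neg hp], ?_,
      fun η hη => funext fun z => smul_Ph hf G hθ hH (by omega) n1 c1 c0 hr hη z⟩
    · have k : ∀ p ∈ {p | th H θ0 χ (if p ∈ DD c R H θ0 h1 then kap G r p else p) ≠ 0 ∧
          th H θ0 χ (if p ∈ DD c R H θ0 h1 then kap G r p else p) ≠ π / 2},
          p ∈ DD c R H θ0 h1 := by
        intro p hp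
        by_contra k
        simp only [Set.mem_ofPred_eq, if_neg k] at hp
        exact (th_det hθ c0 k).elim hp.1 hp.2
      intro p hp p' hp' h
      have k1 := k p hp
      have k2 := k p' hp'
      simp only [if_pos k1, if_pos k2] at h
      rcases p with ⟨q, a, φ⟩ | p <;> rcases p' with ⟨q', a', φ'⟩ | p'
      · rw [mem_DD_inl] at k1 k2
        rw [← kap_inl hf G hr he (q := q) (a := a) (by rw [abs_le]; omega) k1.2.1 k1.2.2, h,
          kap_inl hf G hr he (by rw [abs_le]; omega) k2.2.1 k2.2.2]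
      · simp [kap] at h
      · simp [kap] at h
      · rw [kap_inr hf G hr h]
    · refine (le_of_eq (Finset.sum_congr rfl fun p hp => by simp only [if_pos hp])).trans
        ((energy G hθ hH hE hr).trans ?_)
      have hH' : (1 : ℝ) ≤ H := by exact_mod_cast hH
      have hm' : 2 * (R : ℝ) + 2 ≤ m := by exact_mod_cast hm1
      have b1 : ((θ0 : ℝ) + 2 * R + 1) * H * (2 * R / θ0) ^ 2 ≤ 8 * R ^ 2 / m := by
        rw [hθ0]
        push_cast
        have b2 : (m : ℝ) * H + 2 * R + 1 ≤ 2 * (m * H) := by nlinarith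
        refine (mul_le_mul_of_nonneg_right (mul_le_mul_of_nonneg_right b2 (by positivity))
          (sq_nonneg _)).trans (le_of_eq ?_)
        field_simp
        ring
      have b3 := mul_le_mul_of_nonneg_left b1 (Nat.cast_nonneg (α := ℝ) (Fintype.card Q))
      have b4 : (8 + 196 * c) * R ^ 2 * Fintype.card Q / m ≤ δ := (div_le_iff₀ hm0).2 hm2
      calc _ ≤ Fintype.card Q * (8 * (R : ℝ) ^ 2 / m) + c * Fintype.card Q * (196 * R ^ 2 / m) := by
            rw [mul_assoc]; exact add_le_add b3 le_rfl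
        _ = (8 + 196 * c) * R ^ 2 * Fintype.card Q / m := by ring
        _ ≤ δ := b4
  · exact (stab_bound hf G hθ (by omega) c0 hη (fun z => congrFun hg z) x q j a q' e).trans
      (Int.self_le_toNat _)

end AmenAux

end Vale.Agent.P196
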