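import Mathlib

/-! From almost invariant measures with locally finite stabilizers to Følner sets. -/

namespace Vale.Agent.P196

open scoped Pointwise symmDiff

/-- Følner's condition -/
def Amen (G : Type) [Group G] : Prop :=
  ∀ (K : Finset G) (ε : ℝ), 0 < ε → ∃ D : Set G, D.Finite ∧ D.Nonempty ∧
    ∀ g ∈ K, (((g • D) ∆ D).ncard : ℝ) < ε * D.ncard

namespace FolnerAux

open Classical in
theorem namioka {α J : Type} (T : Finset J) (a b : J → α) (W : Finset α) (ε : ℝ) :
    ∀ (n : ℕ) (f : α → ℝ), (∀ x, 0 ≤ f x) → (∀ x, x ∉ W → f x = 0) →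
      (W.filter fun x => f x ≠ 0).card = n →
      ∑ j ∈ T, |f (a j) - f (b j)| < ε * ∑ x ∈ W, f x →
      ∃ D : Finset α, D ⊆ W ∧
        ∑ j ∈ T, |(if a j ∈ D then (1 : ℝ) else 0) - if b j ∈ D then 1 else 0| < ε * D.card := by
  intro n
  induction n using Nat.strong_induction_on with
  | _ n ih =>
    intro f h0 hW hn hlt
    set D := W.filter fun x => f x ≠ 0 with hD
    have hmem : ∀ x, x ∈ D ↔ f x ≠ 0 := fun x => by
      rw [hD, Finset.mem_filter]
      exact ⟨fun h => h.2, fun h => ⟨by_contra fun k => h (hW x k), h⟩⟩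
    have hne : D.Nonempty := by
      rw [Finset.nonempty_iff_ne_empty]
      intro he
      have hz : ∀ x, f x = 0 := fun x => by
        by_contra k
        have := (hmem x).2 k
        rw [he] at this
        simp at this
      simp [hz] at hlt
    obtain ⟨x0, hx0, hmin⟩ := D.exists_min_image f hne
    have hm : 0 < f x0 := lt_of_le_of_ne (h0 x0) (Ne.symm ((hmem x0).1 hx0))
    let f' : α → ℝ := fun x => if x ∈ D then f x - f x0 else 0
    have hz : ∀ x, x ∉ D → f x = 0 := fun x k => by_contra fun k' => k ((hmem x).2 k')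
    have h0' : ∀ x, 0 ≤ f' x := fun x => by
      simp only [f']
      split_ifs with k
      · linarith [hmin x k]
      · exact le_rfl
    have split : ∀ x y, |f x - f y| = f x0 *
        |(if x ∈ D then (1 : ℝ) else 0) - if y ∈ D then 1 else 0| + |f' x - f' y| := by
      intro x y
      by_cases kx : x ∈ D <;> by_cases ky : y ∈ D
      · simp [f', kx, ky]
      · have := hmin x kx
        simp only [f', if_pos kx, if_neg ky, hz y ky, sub_zero, abs_one, mul_one]
        rw [abs_of_nonneg (h0 x), abs_of_nonneg (by linarith)]; ring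
      · have := hmin y ky
        simp only [f', if_pos ky, if_neg kx, hz x kx, zero_sub, abs_neg, abs_one, mul_one]
        rw [abs_of_nonneg (h0 y), abs_of_nonneg (by linarith)]; ring
      · simp [f', kx, ky, hz x kx, hz y ky]
    have hsum : ∑ x ∈ W, f x = f x0 * D.card + ∑ x ∈ W, f' x := by
      have e1 : ∀ x, f x = (if x ∈ D then f x0 else 0) + f' x := fun x => by
        by_cases k : x ∈ D
        · simp [f', k]
        · simp [f', k, hz x k]
      rw [Finset.sum_congr rfl fun x _ => e1 x, Finset.sum_add_distrib, Finset.sum_ite_mem,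
        Finset.inter_eq_right.2 (Finset.filter_subset _ _), Finset.sum_const, nsmul_eq_mul,
        mul_comm]
    rw [Finset.sum_congr rfl fun j _ => split (a j) (b j), Finset.sum_add_distrib,
      ← Finset.mul_sum, hsum] at hlt
    by_cases k : ∑ j ∈ T, |(if a j ∈ D then (1 : ℝ) else 0) - if b j ∈ D then 1 else 0| <
        ε * D.card
    · exact ⟨D, Finset.filter_subset _ _, k⟩
    · push Not at k
      refine ih _ ?_ f' h0' (fun x hx => ?_) rfl ?_
      · rw [← hn]
        refine Finset.card_lt_card ⟨fun x hx => ?_, fun hsub => ?_⟩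
        · by_contra k'
          exact (Finset.mem_filter.1 hx).2 (if_neg k')
        · have := (Finset.mem_filter.1 (hsub hx0)).2
          simp [f', hx0] at this
      · exact if_neg fun k' => hx (Finset.mem_filter.1 k').1
      · nlinarith [mul_le_mul_of_nonneg_left k hm.le]

theorem cosets {G S : Type} [Group G] [MulAction G S] (K : Finset G) (P : Finset S)
    (hs : ∀ s ∈ P, ∀ T : Finset G, (∀ g ∈ T, g • s = s) →
      (Subgroup.closure (T : Set G) : Set G).Finite) :
    ∃ C : S → Finset G, (∀ s, (C s).Nonempty) ∧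
      ∀ g ∈ K, ∀ s ∈ P, ∀ x, x ∈ C (g • s) ↔ g⁻¹ * x ∈ C s := by
  classical
  have h1 : ∀ c : MulAction.orbitRel.Quotient G S, ∃ o : S, Quotient.mk'' o = c ∧
      ∀ s ∈ P, Quotient.mk'' s = c → o ∈ P := by
    intro c
    by_cases k : ∃ s ∈ P, Quotient.mk'' s = c
    · obtain ⟨s, k1, k2⟩ := k
      exact ⟨s, k2, fun _ _ _ => k1⟩
    · exact ⟨c.out, Quotient.out_eq' c, fun s k1 k2 => absurd ⟨s, k1, k2⟩ k⟩
  choose o' ho1 ho2 using h1
  let o : S → S := fun s => o' (Quotient.mk'' s)
  have hoP : ∀ s ∈ P, o s ∈ P := fun s hs => ho2 _ s hs rfl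
  have hog : ∀ (g : G) s, o (g • s) = o s := fun g s => by
    simp only [o]
    congr 1
    exact Quotient.sound' ⟨g, rfl⟩
  have h2 : ∀ s, ∃ t : G, t • o s = s := fun s =>
    (Quotient.exact' (ho1 (Quotient.mk'' s)).symm : s ∈ MulAction.orbit G (o s))
  choose t ht using h2
  let T : S → Finset G := fun z =>
    (K ×ˢ (P.filter fun s => o s = z)).image fun p => (t (p.1 • p.2))⁻¹ * p.1 * t p.2
  have hfin : ∀ z, (Subgroup.closure (T z : Set G) : Set G).Finite := by
    intro z
    by_cases hz : z ∈ P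
    · refine hs z hz _ fun g hg => ?_
      obtain ⟨⟨k, s⟩, hp, rfl⟩ := Finset.mem_image.1 hg
      obtain rfl : o s = z := (Finset.mem_filter.1 (Finset.mem_product.1 hp).2).2
      dsimp only
      rw [mul_smul, mul_smul, ht, inv_smul_eq_iff, ← hog k s, ht]
    · have : T z = ∅ := by
        refine Finset.image_eq_empty.2 (Finset.eq_empty_of_forall_notMem fun p hp => ?_)
        obtain ⟨k1, k2⟩ := Finset.mem_filter.1 (Finset.mem_product.1 hp).2
        exact hz (k2 ▸ hoP _ k1)
      rw [this]
      simp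
  refine ⟨fun s => (hfin (o s)).toFinset.image fun x => t s * x, fun s => ?_, fun g hg s hsP x => ?_⟩
  · exact ⟨_, Finset.mem_image_of_mem _ ((hfin (o s)).mem_toFinset.2 (one_mem _))⟩
  · have hm : ∀ s x, x ∈ (hfin (o s)).toFinset.image (fun x => t s * x) ↔
        (t s)⁻¹ * x ∈ Subgroup.closure (T (o s) : Set G) := by
      intro s x
      simp only [Finset.mem_image, Set.Finite.mem_toFinset, SetLike.mem_coe]
      constructor
      · rintro ⟨y, hy, rfl⟩
        simpa using hy
      · intro hy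
        exact ⟨_, hy, by simp⟩
    have hel : (t (g • s))⁻¹ * g * t s ∈ Subgroup.closure (T (o s) : Set G) :=
      Subgroup.subset_closure (Finset.mem_coe.2 (Finset.mem_image.2 ⟨(g, s),
        Finset.mem_product.2 ⟨hg, Finset.mem_filter.2 ⟨hsP, rfl⟩⟩, rfl⟩))
    rw [hm, hm, hog,
      show (t (g • s))⁻¹ * x = (t (g • s))⁻¹ * g * t s * ((t s)⁻¹ * (g⁻¹ * x)) by group,
      Subgroup.mul_mem_cancel_left _ hel]

end FolnerAux

/-- a finitely supported probability on a `G`-set that is almost invariant under `K` and whose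
atoms have locally finite stabilizers yields a Følner set -/
theorem folner_of_reiter {G S : Type} [Group G] [MulAction G S] (K : Finset G) {ε δ : ℝ}
    (hε : 0 < ε) (hδ : δ * K.card < ε) (μ : S →₀ ℝ) (h0 : ∀ s, 0 ≤ μ s)
    (h1 : μ.sum (fun _ r => r) = 1)
    (hs : ∀ s ∈ μ.support, ∀ T : Finset G, (∀ g ∈ T, g • s = s) →
      (Subgroup.closure (T : Set G) : Set G).Finite)
    (hK : ∀ g ∈ K, (μ.mapDomain (g • ·) - μ).sum (fun _ r => |r|) ≤ δ) :
    ∃ D : Set G, D.Finite ∧ D.Nonempty ∧
      ∀ g ∈ K, (((g • D) ∆ D).ncard : ℝ) < ε * D.ncard := by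
  classical
  obtain ⟨C, hC, hCg⟩ := FolnerAux.cosets K μ.support hs
  have hcard : ∀ g ∈ K, ∀ s ∈ μ.support, (C (g • s)).card = (C s).card := by
    intro g hg s hsP
    have : C (g • s) = (C s).image fun x => g * x := by
      ext x
      rw [hCg g hg s hsP, Finset.mem_image]
      constructor
      · intro k
        exact ⟨_, k, by simp⟩
      · rintro ⟨y, hy, rfl⟩
        simpa using hy
    rw [this, Finset.card_image_of_injective _ (mul_right_injective g)]
  let u : S → G → ℝ := fun s x => if x ∈ C s then ((C s).card : ℝ)⁻¹ else 0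
  have hu0 : ∀ s x, 0 ≤ u s x := fun s x => by
    simp only [u]
    split_ifs
    · positivity
    · exact le_rfl
  have hpos : ∀ s, (0 : ℝ) < (C s).card := fun s => by exact_mod_cast (hC s).card_pos
  have hu1 : ∀ s (W : Finset G), ∑ x ∈ W, u s x = (W ∩ C s).card * ((C s).card : ℝ)⁻¹ := by
    intro s W
    simp only [u]
    rw [Finset.sum_ite_mem, Finset.sum_const, nsmul_eq_mul]
  have hu2 : ∀ s (W : Finset G), ∑ x ∈ W, u s x ≤ 1 := by
    intro s W
    rw [hu1, mul_inv_le_iff₀ (hpos s), one_mul]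
    exact_mod_cast Finset.card_le_card Finset.inter_subset_right
  have hug : ∀ g ∈ K, ∀ s ∈ μ.support, ∀ x, u (g • s) x = u s (g⁻¹ * x) := by
    intro g hg s hsP x
    simp only [u, hCg g hg s hsP, hcard g hg s hsP]
  let f : G → ℝ := fun x => μ.sum fun s r => r * u s x
  let W : Finset G := μ.support.biUnion C
  let W' : Finset G := W ∪ (K ×ˢ W).image fun p => p.1 * p.2
  have hf0 : ∀ x, 0 ≤ f x := fun x => Finset.sum_nonneg fun s _ => mul_nonneg (h0 s) (hu0 s x)
  have hfW : ∀ x, x ∉ W → f x = 0 := fun x hx => Finset.sum_eq_zero fun s hsP => by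
    have : x ∉ C s := fun k => hx (Finset.mem_biUnion.2 ⟨s, hsP, k⟩)
    simp [u, this]
  have hf1 : ∑ x ∈ W, f x = 1 := by
    simp only [f, Finsupp.sum]
    rw [Finset.sum_comm, ← h1]
    refine Finset.sum_congr rfl fun s hsP => ?_
    rw [← Finset.mul_sum, hu1, Finset.inter_eq_right.2 (Finset.subset_biUnion_of_mem C hsP),
      mul_inv_cancel₀ (hpos s).ne', mul_one]
  have hfg : ∀ g ∈ K, ∑ x ∈ W', |f (g⁻¹ * x) - f x| ≤ δ := by
    intro g hg
    refine le_trans ?_ (hK g hg)
    have e : ∀ x, f (g⁻¹ * x) - f x = (μ.mapDomain (g • ·) - μ).sum fun s r => r * u s x := by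
      intro x
      rw [Finsupp.sum_sub_index fun _ _ _ => sub_mul _ _ _,
        Finsupp.sum_mapDomain_index (fun _ => zero_mul _) fun _ _ _ => add_mul _ _ _]
      congr 1
      exact Finset.sum_congr rfl fun s hsP => by simp only [hug g hg s hsP]
    simp only [e]
    generalize μ.mapDomain (g • ·) - μ = ν
    simp only [Finsupp.sum]
    refine (Finset.sum_le_sum fun x _ => Finset.abs_sum_le_sum_abs _ _).trans ?_
    rw [Finset.sum_comm]
    refine Finset.sum_le_sum fun s _ => ?_
    simp only [abs_mul, abs_of_nonneg (hu0 s _)]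
    rw [← Finset.mul_sum]
    exact mul_le_of_le_one_right (abs_nonneg _) (hu2 s W')
  obtain ⟨D, hDW, hD⟩ := FolnerAux.namioka (K ×ˢ W') (fun p => p.1⁻¹ * p.2) (fun p => p.2) W ε _ f
    hf0 hfW rfl (by
      rw [hf1, mul_one, Finset.sum_product]
      refine lt_of_le_of_lt (Finset.sum_le_sum hfg) ?_
      rw [Finset.sum_const, nsmul_eq_mul, mul_comm]
      exact hδ)
  rw [Finset.sum_product] at hD
  refine ⟨D, D.finite_toSet, ?_, fun g hg => ?_⟩
  · rw [Finset.coe_nonempty, Finset.nonempty_iff_ne_empty]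
    rintro rfl
    simp at hD
  · rw [Set.ncard_coe_finset]
    refine lt_of_le_of_lt ?_ hD
    refine le_trans ?_ (Finset.single_le_sum
      (f := fun g => ∑ x ∈ W', |(if g⁻¹ * x ∈ D then (1 : ℝ) else 0) - if x ∈ D then 1 else 0|)
      (fun g _ => Finset.sum_nonneg fun x _ => abs_nonneg _) hg)
    have e1 : (g • (D : Set G)) ∆ D =
        ↑(W'.filter fun x => ¬ (g⁻¹ * x ∈ D ↔ x ∈ D)) := by
      ext x
      simp only [Set.mem_symmDiff, Set.mem_smul_set_iff_inv_smul_mem, smul_eq_mul,
        Finset.mem_coe, Finset.mem_filter]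
      constructor
      · rintro (⟨k1, k2⟩ | ⟨k1, k2⟩)
        · refine ⟨Finset.mem_union_right _ (Finset.mem_image.2 ⟨(g, g⁻¹ * x),
            Finset.mem_product.2 ⟨hg, hDW k1⟩, by simp⟩), by tauto⟩
        · exact ⟨Finset.mem_union_left _ (hDW k1), by tauto⟩
      · tauto
    rw [e1, Set.ncard_coe_finset, Finset.card_filter]
    push_cast
    refine le_of_eq (Finset.sum_congr rfl fun x _ => ?_)
    by_cases k1 : g⁻¹ * x ∈ D <;> by_cases k2 : x ∈ D <;> simp [k1, k2]

end Vale.Agent.P196
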