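import Mathlib

/-! Product Bernoulli measures given by angles, and the Hellinger bound. -/

namespace Vale.Agent.P196

open Real

/-- configurations compatible with the deterministic angles -/
def Adm {I : Type} (θ : I → ℝ) (η : I → Bool) : Prop :=
  ∀ p, (θ p = 0 → η p = false) ∧ (θ p = π / 2 → η p = true)

namespace RandAux

/-- amplitude of one coordinate -/
noncomputable def amp (t : ℝ) (b : Bool) : ℝ := if b then sin t else cos t

theorem amp_sum (t t' : ℝ) : ∑ b, amp t b * amp t' b = cos (t - t') := by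
  simp [amp, cos_sub, add_comm]

theorem marg {α β M : Type} [Fintype α] [Fintype β] [DecidableEq α] [DecidableEq β]
    [AddCommGroup M] [Module ℝ M] (e : β → α)
    (he : Function.Injective e) (a : α → Bool → ℝ) (ha : ∀ q, ∑ b, a q b = 1)
    (F : (β → Bool) → M) :
    ∑ T : α → Bool, (∏ q, a q (T q)) • F (T ∘ e) = ∑ U : β → Bool, (∏ p, a (e p) (U p)) • F U := by
  have key : ∀ U : β → Bool, ∑ T : α → Bool, (∏ q, a q (T q)) * (if T ∘ e = U then 1 else 0) =
      ∏ p, a (e p) (U p) := by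
    intro U
    let b : α → Bool → ℝ := fun q c => a q c * if ∀ p, e p = q → U p = c then 1 else 0
    have e1 : ∀ T : α → Bool, (∏ q, a q (T q)) * (if T ∘ e = U then 1 else 0) = ∏ q, b q (T q) := by
      intro T
      simp only [b]
      rw [Finset.prod_mul_distrib, Finset.prod_ite_zero, Finset.prod_const_one]
      congr 1
      by_cases k : T ∘ e = U
      · rw [if_pos k, if_pos]
        subst k
        rintro q - p rfl; rfl
      · rw [if_neg k, if_neg]
        intro k'
        exact k (funext fun p => (k' (e p) (Finset.mem_univ _) p rfl).symm)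
    rw [Finset.sum_congr rfl fun T _ => e1 T, ← Fintype.prod_sum]
    symm
    refine Fintype.prod_of_injective e he _ _ (fun q hq => ?_) fun p => ?_
    · rw [← ha q]
      refine Finset.sum_congr rfl fun c _ => ?_
      simp only [b]
      rw [if_pos fun p hp => absurd ⟨p, hp⟩ hq, mul_one]
    · have : ∀ c, (∀ p', e p' = e p → U p' = c) ↔ U p = c := fun c =>
        ⟨fun k => k p rfl, fun k p' hp => by rw [he hp, k]⟩
      simp only [b, this, mul_ite, mul_one, mul_zero]
      rw [Finset.sum_ite_eq]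
      simp
  calc ∑ T : α → Bool, (∏ q, a q (T q)) • F (T ∘ e)
      = ∑ T : α → Bool, ∑ U : β → Bool,
          ((∏ q, a q (T q)) * (if T ∘ e = U then 1 else 0)) • F U := by
        refine Finset.sum_congr rfl fun T _ => ?_
        simp only [mul_ite, mul_one, mul_zero, ite_smul, zero_smul]
        rw [Finset.sum_ite_eq]
        simp
    _ = _ := by
        rw [Finset.sum_comm]
        refine Finset.sum_congr rfl fun U _ => ?_
        rw [← Finset.sum_smul, key]

theorem one_sub_prod {α : Type} (s : Finset α) (x : α → ℝ) (h0 : ∀ i, 0 ≤ x i) (h1 : ∀ i, x i ≤ 1) :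
    1 - ∑ i ∈ s, x i ≤ ∏ i ∈ s, (1 - x i) := by
  classical
  induction s using Finset.induction_on with
  | empty => simp
  | insert a s ha ih =>
    rw [Finset.sum_insert ha, Finset.prod_insert ha]
    have := Finset.sum_nonneg (s := s) fun i _ => h0 i
    nlinarith [mul_le_mul_of_nonneg_left ih (sub_nonneg.2 (h1 a)), h0 a]

theorem cs {β : Type} [Fintype β] (u v : β → ℝ) {ρ δ : ℝ} (hu : ∑ T, u T * u T = 1)
    (hv : ∑ T, v T * v T = 1) (hρ : ∑ T, v T * u T = ρ) (hδ : 0 ≤ δ) (h : 1 - ρ ^ 2 ≤ δ ^ 2) :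
    ∑ T, |v T ^ 2 - u T ^ 2| ≤ 2 * δ := by
  have h1 := Finset.sum_mul_sq_le_sq_mul_sq Finset.univ (fun T => |v T - u T|) fun T => |v T + u T|
  have e1 : ∑ T, |v T - u T| ^ 2 = 2 - 2 * ρ := by
    have : ∀ T, |v T - u T| ^ 2 = u T * u T + v T * v T - 2 * (v T * u T) := fun T => by
      rw [sq_abs]; ring
    simp only [this, Finset.sum_sub_distrib, Finset.sum_add_distrib, ← Finset.mul_sum, hu, hv, hρ]
    ring
  have e2 : ∑ T, |v T + u T| ^ 2 = 2 + 2 * ρ := by
    have : ∀ T, |v T + u T| ^ 2 = u T * u T + v T * v T + 2 * (v T * u T) := fun T => by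
      rw [sq_abs]; ring
    simp only [this, Finset.sum_add_distrib, ← Finset.mul_sum, hu, hv, hρ]
    ring
  have e3 : ∀ T, |v T ^ 2 - u T ^ 2| = |v T - u T| * |v T + u T| := fun T => by
    rw [← abs_mul]; congr 1; ring
  simp only [e3]
  rw [e1, e2] at h1
  refine abs_le_of_sq_le_sq' (h1.trans ?_) (by positivity) |>.2
  nlinarith

theorem hell {α : Type} [Fintype α] [DecidableEq α] (t t' : α → ℝ) {δ : ℝ} (hδ : 0 ≤ δ)
    (h : ∑ p, (t' p - t p) ^ 2 ≤ δ ^ 2) :
    ∑ T : α → Bool, |∏ p, amp (t' p) (T p) ^ 2 - ∏ p, amp (t p) (T p) ^ 2| ≤ 2 * δ := by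
  have ip : ∀ s s' : α → ℝ, ∑ T : α → Bool, (∏ p, amp (s p) (T p)) * ∏ p, amp (s' p) (T p) =
      ∏ p, cos (s p - s' p) := by
    intro s s'
    simp only [← Finset.prod_mul_distrib]
    rw [← Fintype.prod_sum fun p b => amp (s p) b * amp (s' p) b]
    simp only [amp_sum]
  have i1 := ip t t
  have i2 := ip t' t'
  have i3 := ip t' t
  simp only [sub_self, cos_zero, Finset.prod_const_one] at i1 i2
  simp only [Finset.prod_pow]
  generalize hρ : ∏ p, cos (t' p - t p) = ρ at i3
  have hρ2 : 1 - ρ ^ 2 ≤ δ ^ 2 := by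
    rw [← hρ, ← Finset.prod_pow]
    have := one_sub_prod Finset.univ (fun p => sin (t' p - t p) ^ 2) (fun _ => sq_nonneg _)
      fun _ => sin_sq_le_one _
    simp only [← cos_sq'] at this
    have h2 : ∑ p, sin (t' p - t p) ^ 2 ≤ ∑ p, (t' p - t p) ^ 2 :=
      Finset.sum_le_sum fun p _ => sin_sq_le_sq
    linarith
  exact cs _ _ i1 i2 i3 hδ hρ2

open Classical in
/-- extension of a finite configuration by the deterministic values -/
noncomputable def ext {I : Type} (θ : I → ℝ) (E : Finset I) (T : E → Bool) : I → Bool :=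
  fun p => if h : p ∈ E then T ⟨p, h⟩ else decide (θ p = π / 2)

open Classical in
/-- the measure -/
noncomputable def meas {I S : Type} (θ : I → ℝ) (E : Finset I) (Φ : (I → Bool) → S) : S →₀ ℝ :=
  ∑ T : E → Bool, (∏ p : E, amp (θ p) (T p) ^ 2) • Finsupp.single (Φ (ext θ E T)) 1

theorem amp_sq_sum (t : ℝ) : ∑ b, amp t b ^ 2 = 1 := by simp [amp]

theorem meas_eq {I S : Type} (θ : I → ℝ) {E0 E : Finset I} (Φ : (I → Bool) → S)
    (h0 : ∀ p, θ p ≠ 0 → θ p ≠ π / 2 → p ∈ E0) (hE : E0 ⊆ E) : meas θ E Φ = meas θ E0 Φ := by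
  classical
  let e : E0 → E := fun p => ⟨p.1, hE p.2⟩
  have he : Function.Injective e := fun p q k => Subtype.ext (congrArg Subtype.val k :)
  have := marg e he (fun p b => amp (θ p) b ^ 2) (fun p => amp_sq_sum _)
    fun U => (Finsupp.single (Φ (ext θ E0 U)) 1 : S →₀ ℝ)
  unfold meas
  refine Eq.trans (Finset.sum_congr rfl fun T _ => ?_) this
  by_cases hw : ∏ p : E, amp (θ p) (T p) ^ 2 = 0
  · rw [hw, zero_smul, zero_smul]
  · congr 3
    funext p
    by_cases k0 : p ∈ E0
    · simp only [ext, dif_pos k0, dif_pos (hE k0)]; rfl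
    · by_cases k : p ∈ E
      · simp only [ext, dif_pos k, dif_neg k0]
        have h1 := Finset.prod_ne_zero_iff.1 hw ⟨p, k⟩ (Finset.mem_univ _)
        by_cases k1 : θ p = π / 2
        · cases h2 : T ⟨p, k⟩
          · simp [h2, amp, k1] at h1
          · simp [k1]
        · have k2 : θ p = 0 := by_contra fun k2 => k0 (h0 p k2 k1)
          cases h2 : T ⟨p, k⟩
          · simp [k1]
          · simp [h2, amp, k2] at h1
      · simp only [ext, dif_neg k, dif_neg k0]

theorem norm_le {α S : Type} [Fintype α] (c : α → ℝ) (s : α → S) :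
    (∑ T, c T • (Finsupp.single (s T) 1 : S →₀ ℝ)).sum (fun _ r => |r|) ≤ ∑ T, |c T| := by
  classical
  generalize hν : (∑ T, c T • (Finsupp.single (s T) 1 : S →₀ ℝ)) = ν
  have h1 : ∀ x, |ν x| ≤ ∑ T, if s T = x then |c T| else 0 := by
    intro x
    rw [← hν, Finsupp.finsetSum_apply]
    refine (Finset.abs_sum_le_sum_abs _ _).trans (Finset.sum_le_sum fun T _ => ?_)
    rw [Finsupp.smul_apply, Finsupp.single_apply]
    split_ifs <;> simp
  refine (Finset.sum_le_sum fun x _ => h1 x).trans ?_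
  rw [Finset.sum_comm]
  refine Finset.sum_le_sum fun T _ => ?_
  rw [Finset.sum_ite_eq]
  split_ifs
  · exact le_rfl
  · exact abs_nonneg _

end RandAux

theorem exists_measure {I G S : Type} [Group G] [MulAction G S] (θ : I → ℝ)
    (hθ : {p | θ p ≠ 0 ∧ θ p ≠ π / 2}.Finite) (Φ : (I → Bool) → S) (K : Finset G) {δ : ℝ}
    (hδ : 0 ≤ δ)
    (hk : ∀ g ∈ K, ∃ (k : I → I) (D : Finset I),
      Set.InjOn k {p | θ (k p) ≠ 0 ∧ θ (k p) ≠ π / 2} ∧ (∀ p ∉ D, θ (k p) = θ p) ∧
      ∑ p ∈ D, (θ (k p) - θ p) ^ 2 ≤ δ ^ 2 ∧ ∀ η, Adm θ η → g • Φ η = Φ (η ∘ k)) :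
    ∃ μ : S →₀ ℝ, (∀ s, 0 ≤ μ s) ∧ μ.sum (fun _ r => r) = 1 ∧
      (∀ s ∈ μ.support, ∃ η, Adm θ η ∧ s = Φ η) ∧
      ∀ g ∈ K, (μ.mapDomain (g • ·) - μ).sum (fun _ r => |r|) ≤ 2 * δ := by
  classical
  let E0 := hθ.toFinset
  have hE0 : ∀ p, p ∈ E0 ↔ θ p ≠ 0 ∧ θ p ≠ π / 2 := fun p => hθ.mem_toFinset
  have hpi : (0 : ℝ) ≠ π / 2 := by have := pi_pos; positivity
  have hadm : ∀ T, Adm θ (RandAux.ext θ E0 T) := by
    intro T p
    constructor
    · intro k
      have : p ∉ E0 := fun k' => ((hE0 p).1 k').1 k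
      simp only [RandAux.ext, dif_neg this, k, hpi, decide_false]
    · intro k
      have : p ∉ E0 := fun k' => ((hE0 p).1 k').2 k
      simp only [RandAux.ext, dif_neg this, k, decide_true]
  refine ⟨RandAux.meas θ E0 Φ, fun s => ?_, ?_, fun s hs => ?_, fun g hg => ?_⟩
  · rw [RandAux.meas, Finsupp.finsetSum_apply]
    refine Finset.sum_nonneg fun T _ => ?_
    rw [Finsupp.smul_apply, Finsupp.single_apply, smul_eq_mul]
    refine mul_nonneg (Finset.prod_nonneg fun _ _ => sq_nonneg _) ?_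
    split_ifs <;> norm_num
  · rw [RandAux.meas, ← Finsupp.sum_finsetSum_index (fun _ => rfl) fun _ _ _ => rfl]
    simp only [Finsupp.smul_single, smul_eq_mul, mul_one, Finsupp.sum_single_index]
    rw [← Fintype.prod_sum fun (p : E0) b => RandAux.amp (θ p) b ^ 2]
    simp only [RandAux.amp_sq_sum, Finset.prod_const_one]
  · by_contra k
    push Not at k
    refine Finsupp.mem_support_iff.1 hs ?_
    rw [RandAux.meas, Finsupp.finsetSum_apply]
    refine Finset.sum_eq_zero fun T _ => ?_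
    rw [Finsupp.smul_apply, Finsupp.single_eq_of_ne (k _ (hadm T)), smul_zero]
  · obtain ⟨k, D, h1, h2, h3, h4⟩ := hk g hg
    let E := E0 ∪ D
    let E1 := E.filter fun p => θ (k p) ≠ 0 ∧ θ (k p) ≠ π / 2
    have hE1 : ∀ p, p ∈ E1 ↔ θ (k p) ≠ 0 ∧ θ (k p) ≠ π / 2 := by
      intro p
      rw [Finset.mem_filter]
      refine ⟨fun h => h.2, fun h => ⟨?_, h⟩⟩
      by_cases hp : p ∈ D
      · exact Finset.mem_union_right _ hp
      · rw [h2 p hp] at h
        exact Finset.mem_union_left _ ((hE0 p).2 h)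
    let e : E1 → E0 := fun p => ⟨k p.1, (hE0 _).2 ((hE1 _).1 p.2)⟩
    have he : Function.Injective e := fun p q h =>
      Subtype.ext (h1 ((hE1 _).1 p.2) ((hE1 _).1 q.2) (congrArg Subtype.val h :))
    have a1 : (RandAux.meas θ E0 Φ).mapDomain (g • ·) = RandAux.meas (θ ∘ k) E1 Φ := by
      have := RandAux.marg e he (fun p b => RandAux.amp (θ p) b ^ 2)
        (fun p => RandAux.amp_sq_sum _)
        fun U => (Finsupp.single (Φ (RandAux.ext (θ ∘ k) E1 U)) 1 : S →₀ ℝ)
      unfold RandAux.meas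
      rw [Finsupp.mapDomain_finsetSum]
      refine Eq.trans (Finset.sum_congr rfl fun T _ => ?_) this
      rw [Finsupp.mapDomain_smul, Finsupp.mapDomain_single, h4 _ (hadm T)]
      congr 3
      funext p
      by_cases hp : p ∈ E1
      · simp only [RandAux.ext, Function.comp, dif_pos hp, dif_pos ((hE0 _).2 ((hE1 _).1 hp))]
        rfl
      · simp only [RandAux.ext, Function.comp, dif_neg hp,
          dif_neg fun h => hp ((hE1 _).2 ((hE0 _).1 h))]
    rw [a1, ← RandAux.meas_eq (θ ∘ k) (E := E) Φ (fun p k1 k2 => (hE1 p).2 ⟨k1, k2⟩)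
      (Finset.filter_subset _ _), ← RandAux.meas_eq θ (E := E) Φ (fun p k1 k2 => (hE0 p).2 ⟨k1, k2⟩)
      Finset.subset_union_left]
    have a2 : ∀ T, RandAux.ext (θ ∘ k) E T = RandAux.ext θ E T := by
      intro T
      funext p
      by_cases hp : p ∈ E
      · simp only [RandAux.ext, dif_pos hp]
      · simp only [RandAux.ext, dif_neg hp, Function.comp,
          h2 p fun h => hp (Finset.mem_union_right _ h)]
    unfold RandAux.meas
    simp only [a2]
    rw [← Finset.sum_sub_distrib]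
    simp only [← sub_smul]
    refine (RandAux.norm_le _ _).trans ?_
    refine RandAux.hell (fun p : E => θ p) (fun p : E => θ (k p)) hδ (le_trans (le_of_eq ?_) h3)
    rw [Finset.sum_coe_sort E fun p => (θ (k p) - θ p) ^ 2]
    symm
    refine Finset.sum_subset Finset.subset_union_right fun p _ hp => ?_
    rw [h2 p hp]; simp

end Vale.Agent.P196
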