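import Vale.Agent.P196.SSL
import Vale.Agent.P196.Folner
import Vale.Agent.P196.Rand
import Vale.Agent.P196.AmenC

/-! Thin cuts in both directions give amenability. -/

namespace Vale.Agent.P196

open Equiv

variable {X A Q : Type} [AddAction V X] {lab : X → A}

open scoped Pointwise in
theorem amen_A3 [Finite A] [Finite Q] [Nonempty X] (hf : Free X) {c : ℕ}
    (ht : ∀ dir M, Thin lab dir c M) : Amen (A3 lab Q) := by
  classical
  intro K ε hε
  obtain ⟨R, hR⟩ : ∃ R, ∀ g ∈ K, Cx lab R (g : Perm (X × Q)) ∧ Cx lab R (g : Perm (X × Q))⁻¹ := by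
    have : ∀ g : K, ∃ R, Cx lab R (g.1 : Perm (X × Q)) := fun g => cx_of_mem g.1.2
    choose r hr using this
    obtain ⟨B, hB⟩ := (Set.finite_range r).bddAbove
    refine ⟨2 * B, fun g hg => ?_⟩
    have : r ⟨g, hg⟩ ≤ B := hB ⟨_, rfl⟩
    exact ⟨(hr ⟨g, hg⟩).mono (by omega), (hr ⟨g, hg⟩).inv.mono (by omega)⟩
  obtain ⟨δ, hδ, hδε⟩ : ∃ δ : ℝ, 0 < δ ∧ 2 * δ * K.card < ε := by
    have hK : (0 : ℝ) ≤ K.card := Nat.cast_nonneg _
    refine ⟨ε / (2 * K.card + 1), by positivity, ?_⟩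
    rw [mul_div_assoc', div_mul_eq_mul_div, div_lt_iff₀ (by positivity)]
    nlinarith
  have hδ2 : 0 < δ ^ 2 / 2 := by positivity
  obtain ⟨I1, θ1, Φ1, B1, f1, k1, s1⟩ := AmenAux.one_dir (Q := Q) hf false (ht false) R hδ2
  obtain ⟨I2, θ2, Φ2, B2, f2, k2, s2⟩ := AmenAux.one_dir (Q := Q) hf true (ht true) R hδ2
  have ad1 : ∀ η, Adm (Sum.elim θ1 θ2) η → Adm θ1 (η ∘ Sum.inl) := fun η h p => h (Sum.inl p)
  have ad2 : ∀ η, Adm (Sum.elim θ1 θ2) η → Adm θ2 (η ∘ Sum.inr) := fun η h p => h (Sum.inr p)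
  obtain ⟨μ, m0, m1, m2, m3⟩ := exists_measure (G := A3 lab Q)
    (S := (X → Set (X × Q)) × (X → Set (X × Q))) (Sum.elim θ1 θ2)
    (((f1.image Sum.inl).union (f2.image Sum.inr)).subset (by
      rintro (p | p) hp
      · exact Or.inl ⟨p, hp, rfl⟩
      · exact Or.inr ⟨p, hp, rfl⟩))
    (fun η => (Φ1 (η ∘ Sum.inl), Φ2 (η ∘ Sum.inr))) K hδ.le (fun g hg => by
      obtain ⟨u1, D1, a1, b1, c1, d1⟩ := k1 g (hR g hg).1 (hR g hg).2
      obtain ⟨u2, D2, a2, b2, c2, d2⟩ := k2 g (hR g hg).1 (hR g hg).2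
      refine ⟨Sum.map u1 u2, D1.disjSum D2, ?_, ?_, ?_, fun η hη => ?_⟩
      · rintro (p | p) hp (p' | p') hp' h
        · exact congrArg _ (a1 hp hp' (Sum.inl_injective h))
        · exact absurd h Sum.inl_ne_inr
        · exact absurd h Sum.inr_ne_inl
        · exact congrArg _ (a2 hp hp' (Sum.inr_injective h))
      · rintro (p | p) hp
        · exact b1 p fun h => hp (Finset.inl_mem_disjSum.2 h)
        · exact b2 p fun h => hp (Finset.inr_mem_disjSum.2 h)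
      · rw [Finset.sum_disjSum]
        exact (add_le_add c1 c2).trans (le_of_eq (add_halves _))
      · exact Prod.ext (d1 _ (ad1 η hη)) (d2 _ (ad2 η hη)))
  refine folner_of_reiter K hε hδε μ m0 m1 (fun s hs T hT => ?_) m3
  obtain ⟨η, hη, rfl⟩ := m2 s hs
  have hfin := finite_of_disp (lab := lab) hf (Γ := (MulAction.stabilizer (A3 lab Q)
    (Φ1 (η ∘ Sum.inl), Φ2 (η ∘ Sum.inr))).map (A3 lab Q).subtype) (B1 + B2) (by
      rintro _ ⟨g, hg, rfl⟩ ⟨x, q⟩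
      obtain ⟨_, r, hr, -⟩ := cx_of_mem g.2
      have e := Prod.ext_iff.1 (MulAction.mem_stabilizer_iff.1 hg)
      have e1 := s1 _ (ad1 η hη) g e.1 x q (r (x, q)).1.1 (r (x, q)).1.2 _ (hr (x, q))
      have e2 := s2 _ (ad2 η hη) g e.2 x q (r (x, q)).1.2 (r (x, q)).1.1 _ (hr (x, q))
      refine ⟨r (x, q), ?_, ?_, hr (x, q)⟩ <;> push_cast <;> omega)
    (T.image (A3 lab Q).subtype) (by
      intro g hg
      obtain ⟨g', hg', rfl⟩ := Finset.mem_image.1 hg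
      exact ⟨⟨g', hT g' hg', rfl⟩, g'.2⟩)
  rw [Finset.coe_image, ← MonoidHom.map_closure, Subgroup.coe_map] at hfin
  exact Set.Finite.of_finite_image hfin (A3 lab Q).subtype_injective.injOn

end Vale.Agent.P196
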