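import Vale.Agent.P196.SSL

/-! Geometry of one cutting direction, and the cutoff function. -/

namespace Vale.Agent.P196

namespace AmenAux

open Equiv

variable {X A Q : Type} [AddAction V X] {lab : X → A} {dir : Bool}

theorem vec_add (j a j' a' : ℤ) : vec dir j a + vec dir j' a' = vec dir (j + j') (a + a') := by
  cases dir <;> simp [vec]

theorem vv (j a j' a' : ℤ) (x : X) :
    vec dir j a +ᵥ (vec dir j' a' +ᵥ x) = vec dir (j + j') (a + a') +ᵥ x := by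
  rw [← add_vadd, vec_add]

theorem v0 (x : X) : vec dir 0 0 +ᵥ x = x := by
  have : vec dir 0 0 = 0 := by cases dir <;> rfl
  rw [this, zero_vadd]

theorem vinj (hf : Free X) {j a j' a' : ℤ} {x : X} (h : vec dir j a +ᵥ x = vec dir j' a' +ᵥ x) :
    j = j' ∧ a = a' := by
  have h1 : vec dir (-j' + j) (-a' + a) +ᵥ x = x := by
    rw [← vv, h, vv, neg_add_cancel, neg_add_cancel, v0]
  have h2 := hf _ _ h1
  cases dir <;> simp [vec] at h2 <;> omega

theorem agree_of {R : ℕ} {x y : X}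
    (h : ∀ j a : ℤ, |j| ≤ R → |a| ≤ R → lab (vec dir j a +ᵥ x) = lab (vec dir j a +ᵥ y)) :
    Agree lab R x y := by
  intro v h1 h2
  cases dir
  · exact h v.1 v.2 h1 h2
  · exact h v.2 v.1 h2 h1

/-- a local rule written in the coordinates of a direction -/
def Rule (lab : X → A) (dir : Bool) (R : ℕ) (g : Perm (X × Q)) (c : X × Q → ℤ × ℤ × Q) : Prop :=
  (∀ ω, g ω = (vec dir (c ω).1 (c ω).2.1 +ᵥ ω.1, (c ω).2.2)) ∧
    (∀ ω, |(c ω).1| ≤ R ∧ |(c ω).2.1| ≤ R) ∧ ∀ x y q, Agree lab R x y → c (x, q) = c (y, q)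

theorem exists_rule {R : ℕ} {g : Perm (X × Q)} (h : Cx lab R g) (dir : Bool) :
    ∃ c, Rule lab dir R g c := by
  obtain ⟨c, h1, h2, h3⟩ := h
  cases dir
  · exact ⟨fun ω => ((c ω).1.1, (c ω).1.2, (c ω).2), h1, h2,
      fun x y q k => by simp only [h3 x y q k]⟩
  · exact ⟨fun ω => ((c ω).1.2, (c ω).1.1, (c ω).2), h1, fun ω => (h2 ω).symm,
      fun x y q k => by simp only [h3 x y q k]⟩

/-- clamping to the unit interval -/
noncomputable def cl (t : ℝ) : ℝ := max 0 (min 1 t)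

theorem cl_zero {t : ℝ} (h : t ≤ 0) : cl t = 0 := max_eq_left ((min_le_right _ _).trans h)

theorem cl_one {t : ℝ} (h : 1 ≤ t) : cl t = 1 := by
  rw [cl, min_eq_left h, max_eq_right zero_le_one]

theorem cl_lip (s t : ℝ) : |cl s - cl t| ≤ |s - t| := by
  unfold cl
  rw [max_comm 0, max_comm 0]
  refine (abs_max_sub_max_le_abs _ _ _).trans ?_
  simpa using abs_min_sub_min_le_max 1 s 1 t

theorem cutoff (R : ℕ) (h0 : ℤ) (h4 : 4 * (R : ℤ) ≤ h0) (h1 : 1 ≤ h0) (m : ℕ) :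
    ∃ χ : ℤ → ℝ, (∀ n ≤ h0, χ n = m) ∧ (∀ n, 4 ^ m * h0 ≤ 2 * n → χ n = 0) ∧
      ∀ (B : Finset (ℤ × ℤ)) (n' : ℤ × ℤ → ℤ), (∀ v, abs (n' v - max |v.1| |v.2|) ≤ R) →
        ∑ v ∈ B, (χ (n' v) - χ (max |v.1| |v.2|)) ^ 2 ≤ 49 * R ^ 2 * m := by
  induction m with
  | zero => exact ⟨fun _ => 0, by simp, by simp, by simp⟩
  | succ m ih =>
    obtain ⟨χ, a1, a2, a3⟩ := ih
    obtain ⟨r, hr⟩ : ∃ r : ℤ, r = 4 ^ m * h0 := ⟨_, rfl⟩
    have hr0 : h0 ≤ r := by
      have : (1 : ℤ) ≤ 4 ^ m := one_le_pow₀ (by norm_num)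
      nlinarith
    have hrp : (0 : ℝ) < r := by exact_mod_cast (by omega : (0 : ℤ) < r)
    let τ : ℤ → ℝ := fun n => cl (2 - n / r)
    have t1 : ∀ n ≤ r, τ n = 1 := fun n hn => cl_one (by
      have : (n : ℝ) / r ≤ 1 := (div_le_one hrp).2 (by exact_mod_cast hn)
      linarith)
    have t0 : ∀ n, 2 * r ≤ n → τ n = 0 := fun n hn => cl_zero (by
      have : 2 ≤ (n : ℝ) / r := (le_div_iff₀ hrp).2 (by exact_mod_cast hn)
      linarith)
    have tl : ∀ n n' : ℤ, |n' - n| ≤ R → (τ n' - τ n) ^ 2 ≤ (R / r) ^ 2 := by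
      intro n n' h
      rw [← sq_abs]
      refine pow_le_pow_left₀ (abs_nonneg _) ((cl_lip _ _).trans ?_) 2
      have : (2 - (n' : ℝ) / r) - (2 - n / r) = -(n' - n) / r := by ring
      rw [this, abs_div, abs_neg, abs_of_pos hrp]
      refine div_le_div_of_nonneg_right ?_ hrp.le
      exact_mod_cast h
    refine ⟨fun n => χ n + τ n, fun n hn => ?_, fun n hn => ?_, fun B n' hn' => ?_⟩
    · simp only [a1 n hn, t1 n (hn.trans hr0)]; push_cast; ring
    · rw [pow_succ, mul_assoc, mul_comm 4, ← mul_assoc, ← hr] at hn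
      simp only [a2 n (by omega), t0 n (by omega), add_zero]
    · have e : ∀ v : ℤ × ℤ, (χ (n' v) + τ (n' v) - (χ (max |v.1| |v.2|) + τ (max |v.1| |v.2|))) ^ 2 =
          (χ (n' v) - χ (max |v.1| |v.2|)) ^ 2 + (τ (n' v) - τ (max |v.1| |v.2|)) ^ 2 := by
        intro v
        have k := abs_le.1 (hn' v)
        generalize max |v.1| |v.2| = n at k ⊢
        by_cases hn : n ≤ r - R
        · rw [t1 n (by omega), t1 (n' v) (by omega)]; ring
        · rw [a2 n (by omega), a2 (n' v) (by omega)]; ring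
      simp only [e, Finset.sum_add_distrib]
      have b1 : ∑ v ∈ B, (τ (n' v) - τ (max |v.1| |v.2|)) ^ 2 ≤ 49 * R ^ 2 := by
        let F := Finset.Icc (-(3 * r)) (3 * r) ×ˢ Finset.Icc (-(3 * r)) (3 * r)
        have c1 : ∑ v ∈ B, (τ (n' v) - τ (max |v.1| |v.2|)) ^ 2 ≤
            ∑ v ∈ F, (τ (n' v) - τ (max |v.1| |v.2|)) ^ 2 := by
          rw [← Finset.sum_subset (Finset.inter_subset_left (s₂ := F))]
          · exact Finset.sum_le_sum_of_subset_of_nonneg Finset.inter_subset_right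
              fun _ _ _ => sq_nonneg _
          · intro v hv hv'
            have k := abs_le.1 (hn' v)
            have k2 : 3 * r < max |v.1| |v.2| := by
              by_contra k2
              rw [not_lt, max_le_iff, abs_le, abs_le] at k2
              exact hv' (Finset.mem_inter.2 ⟨hv, Finset.mem_product.2
                ⟨Finset.mem_Icc.2 k2.1, Finset.mem_Icc.2 k2.2⟩⟩)
            rw [t0 _ (by omega), t0 _ (by omega)]; simp
        refine c1.trans ((Finset.sum_le_card_nsmul _ _ _ fun v _ => tl _ _ (hn' v)).trans ?_)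
        have c2 : (F.card : ℝ) = (6 * r + 1) ^ 2 := by
          have : ((Finset.Icc (-(3 * r)) (3 * r)).card : ℤ) = 6 * r + 1 := by
            rw [Int.card_Icc_of_le _ _ (by omega)]; ring
          have h' : ((Finset.Icc (-(3 * r)) (3 * r)).card : ℝ) = 6 * r + 1 := by exact_mod_cast this
          rw [Finset.card_product, Nat.cast_mul, h', sq]
        have c3 : (1 : ℝ) ≤ r := by exact_mod_cast (by omega : (1 : ℤ) ≤ r)
        rw [nsmul_eq_mul, c2, div_pow, ← mul_div_assoc, div_le_iff₀ (by positivity)]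
        have c4 : (6 * (r : ℝ) + 1) ^ 2 ≤ 49 * r ^ 2 := by nlinarith
        nlinarith [mul_le_mul_of_nonneg_right c4 (sq_nonneg (R : ℝ))]
      have b2 := a3 B n' hn'
      push_cast
      linarith

/-- geometric data extracted from thin cuts -/
structure Geo (lab : X → A) (dir : Bool) (c R : ℕ) (H h1 : ℤ) where
  C : Set X
  ph : X → ℤ
  js : X → ℤ
  ty : X → Fin c
  x0 : X
  rep : Fin c → X
  N : ℤ
  C_T : ∀ x ∈ C, ∀ j, vec dir j 0 +ᵥ x ∈ C
  synd : ∀ x, ∃ a, 0 ≤ a ∧ a ≤ N ∧ vec dir 0 a +ᵥ x ∈ C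
  ph_mem : ∀ y, 0 ≤ ph y ∧ ph y < H
  ph_T : ∀ y j, ph (vec dir j 0 +ᵥ y) = (ph y + j) % H
  js_T : ∀ y j, |js y + j| ≤ h1 + 2 * R → js (vec dir j 0 +ᵥ y) = js y + j
  ty_T : ∀ y j, |js y + j| ≤ h1 + 2 * R → ty (vec dir j 0 +ᵥ y) = ty y
  genA : ∀ y ∈ C, 2 * H + R < |js y| → ∀ a, |a| ≤ h1 + R →
    Agree lab R (vec dir 0 a +ᵥ y) (vec dir (ph y) a +ᵥ x0)
  x0_C : x0 ∈ C
  ph_x0 : ph x0 = 0
  js_x0 : ∀ i, -(R : ℤ) ≤ i → i ≤ H + R → 2 * H + R < |js (vec dir i 0 +ᵥ x0)|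
  locB : ∀ y ∈ C, |js y| ≤ h1 + R → ∀ a, |a| ≤ h1 + R →
    Agree lab R (vec dir 0 a +ᵥ y) (vec dir (js y) a +ᵥ rep (ty y))

theorem geo_exists [Nonempty X] {c : ℕ} (R P : ℕ) (hP : 4 + 2 * R ≤ P)
    (ht : Thin lab dir c (2 * P + 4 * R + 1)) :
    ∃ H : ℤ, 0 < H ∧ Nonempty (Geo lab dir c R H (P * H)) := by
  classical
  obtain ⟨H, L, N, C, ψ, ty, hH, hdvd, hL, hC, hsyn, hψ, hA, hB⟩ := ht
  refine ⟨H, hH, ?_⟩
  obtain ⟨h1, hh1⟩ : ∃ h1 : ℤ, h1 = P * H := ⟨_, rfl⟩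
  obtain ⟨W, hW⟩ : ∃ W : ℤ, W = ((2 * P + 4 * R + 1 : ℕ) : ℤ) * H := ⟨_, rfl⟩
  obtain ⟨u, hu⟩ : ∃ u : ℤ, u = (3 + 2 * R) * H := ⟨_, rfl⟩
  rw [← hW] at hL hA hB
  rw [← hh1]
  have hR0 : (0 : ℤ) ≤ R := Int.natCast_nonneg R
  have hP' : 4 + 2 * (R : ℤ) ≤ P := by exact_mod_cast hP
  have n1 : 2 * (h1 + 2 * R) < W := by rw [hh1, hW]; push_cast; nlinarith
  have n2 : u + H ≤ h1 := by rw [hh1, hu]; nlinarith
  have n3 : 3 * H + 2 * R ≤ u := by rw [hu]; nlinarith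
  have n4 : H ∣ u := by rw [hu]; exact Dvd.intro_left _ rfl
  clear hW hh1 hu hP' hP
  let js : X → ℤ := fun y => (ψ y + (h1 + 2 * R)) % L - (h1 + 2 * R)
  have j1 : ∀ y, ψ y ≡ js y [ZMOD L] := fun y => by
    have := (Int.mod_modEq (ψ y + (h1 + 2 * R)) L).sub_right (h1 + 2 * R)
    rw [add_sub_cancel_right] at this
    exact this.symm
  have j2 : ∀ y j, ψ y ≡ j [ZMOD L] → |j| ≤ h1 + 2 * R → js y = j := fun y j k1 k2 => by
    have k3 : (ψ y + (h1 + 2 * R)) % L = (j + (h1 + 2 * R)) % L := k1.add_right _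
    rw [abs_le] at k2
    simp only [js]
    rw [k3, Int.emod_eq_of_lt (by omega) (by omega)]
    ring
  clear_value js
  have jT : ∀ y j, |js y + j| ≤ h1 + 2 * R → js (vec dir j 0 +ᵥ y) = js y + j := fun y j k =>
    j2 _ _ ((hψ y j).trans ((j1 y).add_right j)) k
  have gen : ∀ y, 2 * H + R < |js y| → ∀ j : ℤ, |j| ≤ R →
      2 * H ≤ ψ (vec dir j 0 +ᵥ y) % L := by
    intro y hy j hj
    by_contra k
    have k0 := Int.emod_nonneg (ψ (vec dir j 0 +ᵥ y)) (by omega : L ≠ 0)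
    have k1 : ψ y ≡ ψ (vec dir j 0 +ᵥ y) % L - j [ZMOD L] := by
      have := ((Int.mod_modEq _ L).trans (hψ y j)).sub_right j
      rw [add_sub_cancel_right] at this
      exact this.symm
    rw [abs_le] at hj
    have k2 := j2 y _ k1 (by rw [abs_le]; omega)
    rw [k2, lt_abs] at hy
    omega
  have keyA : ∀ y ∈ C, ∀ y' ∈ C, ψ y ≡ ψ y' [ZMOD H] → 2 * H + R < |js y| → 2 * H + R < |js y'| →
      ∀ a, |a| ≤ h1 + R → Agree lab R (vec dir 0 a +ᵥ y) (vec dir 0 a +ᵥ y') := by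
    intro y hy y' hy' e g1 g2 a ha
    refine agree_of (dir := dir) fun j b hj hb => ?_
    have := hA _ (hC y hy j) _ (hC y' hy' j)
      ((((hψ y j).of_dvd hdvd).trans (e.add_right j)).trans ((hψ y' j).of_dvd hdvd).symm)
      (gen y g1 j hj) (gen y' g2 j hj) (b + a) (by rw [abs_le] at *; omega)
    simpa only [vv, add_zero, zero_add] using this
  have keyB : ∀ y ∈ C, ∀ y' ∈ C, ψ y % L = 0 → ψ y' % L = 0 → ty y = ty y' → ∀ j, |j| ≤ h1 + R →
      ∀ a, |a| ≤ h1 + R → Agree lab R (vec dir j a +ᵥ y) (vec dir j a +ᵥ y') := by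
    intro y hy y' hy' e1 e2 e3 j hj a ha
    refine agree_of (dir := dir) fun i b hi hb => ?_
    rw [vv, vv]
    have hba : |b + a| ≤ W := by rw [abs_le] at *; omega
    by_cases k : 0 ≤ i + j ∧ i + j < 2 * H
    · exact hB y hy y' hy' e1 e2 e3 _ _ k.1 k.2 hba
    · have f : ∀ z, ψ z % L = 0 → ψ (vec dir (i + j) 0 +ᵥ z) ≡ i + j [ZMOD L] := fun z hz => by
        have : ψ z ≡ 0 [ZMOD L] := by rw [Int.ModEq, hz, Int.zero_emod]
        simpa using (hψ z (i + j)).trans (this.add_right (i + j))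
      have f2 : 2 * H ≤ (i + j) % L := by
        rw [abs_le] at hi hj
        by_cases k' : 0 ≤ i + j
        · rw [Int.emod_eq_of_lt k' (by omega)]; omega
        · rw [← Int.add_emod_right, Int.emod_eq_of_lt (by omega) (by omega)]; omega
      have := hA _ (hC y hy (i + j)) _ (hC y' hy' (i + j))
        (((f y e1).trans (f y' e2).symm).of_dvd hdvd) (by rw [f y e1]; exact f2)
        (by rw [f y' e2]; exact f2) (b + a) hba
      simpa only [vv, add_zero, zero_add] using this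
  obtain ⟨x0, hx0, hx0'⟩ : ∃ x0 ∈ C, ψ x0 ≡ u [ZMOD L] := by
    obtain ⟨a, -, -, hz⟩ := hsyn (Classical.arbitrary X)
    refine ⟨_, hC _ hz (u - ψ (vec dir 0 a +ᵥ Classical.arbitrary X)), ?_⟩
    simpa using hψ (vec dir 0 a +ᵥ Classical.arbitrary X)
      (u - ψ (vec dir 0 a +ᵥ Classical.arbitrary X))
  have hrep : ∀ t : Fin c, ∃ z, ∀ y ∈ C, ψ y % L = 0 → ty y = t →
      z ∈ C ∧ ψ z % L = 0 ∧ ty z = t := by
    intro t
    by_cases k : ∃ z, z ∈ C ∧ ψ z % L = 0 ∧ ty z = t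
    · obtain ⟨z, hz⟩ := k
      exact ⟨z, fun _ _ _ _ => hz⟩
    · exact ⟨x0, fun y k1 k2 k3 => absurd ⟨y, k1, k2, k3⟩ k⟩
  choose rep hrep using hrep
  have jx : ∀ i, -(R : ℤ) ≤ i → i ≤ H + R → 2 * H + R < |js (vec dir i 0 +ᵥ x0)| := by
    intro i k1 k2
    rw [j2 _ (u + i) ((hψ x0 i).trans (hx0'.add_right i)) (by rw [abs_le]; omega), lt_abs]
    omega
  have px0 : ψ x0 ≡ 0 [ZMOD H] := (hx0'.of_dvd hdvd).trans (Int.modEq_zero_iff_dvd.2 n4)
  refine ⟨⟨C, fun y => ψ y % H, js, fun y => ty (vec dir (-js y) 0 +ᵥ y), x0, rep, N, hC, hsyn,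
    fun y => ⟨Int.emod_nonneg _ hH.ne', Int.emod_lt_of_pos _ hH⟩, fun y j => ?_, jT,
    fun y j k => ?_, fun y hy k a ha => ?_, hx0, ?_, jx, fun y hy k a ha => ?_⟩⟩
  · rw [Int.emod_add_emod]
    exact (hψ y j).of_dvd hdvd
  · rw [jT y j k, vv]
    congr 3; ring
  · have p0 := Int.emod_nonneg (ψ y) hH.ne'
    have p1 := Int.emod_lt_of_pos (ψ y) hH
    have := keyA y hy _ (hC x0 hx0 (ψ y % H)) (by
      refine Int.ModEq.symm (((hψ x0 _).of_dvd hdvd).trans ?_)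
      simpa using (px0.add_right (ψ y % H)).trans (by simpa using Int.mod_modEq (ψ y) H)) k
      (jx _ (by omega) (by omega)) a ha
    simpa only [vv, add_zero, zero_add] using this
  · exact px0
  · have p0 : ψ (vec dir (-js y) 0 +ᵥ y) % L = 0 := by
      have := (hψ y (-js y)).trans ((j1 y).add_right (-js y))
      rw [add_neg_cancel] at this
      rw [this, Int.zero_emod]
    obtain ⟨r1, r2, r3⟩ := hrep _ _ (hC y hy (-js y)) p0 rfl
    have := keyB _ (hC y hy (-js y)) _ r1 p0 r2 r3.symm (js y) k a ha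
    simpa only [vv, add_zero, add_neg_cancel] using this

end AmenAux

end Vale.Agent.P196
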