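import Vale.Agent.P196.AmenA
import Vale.Agent.P196.Rand

/-! Random half spaces along the cuts of one direction. -/

namespace Vale.Agent.P196

namespace AmenAux

open Equiv Real
open scoped Pointwise

variable {X A Q : Type} [AddAction V X] {lab : X → A} {dir : Bool} {c R : ℕ} {H h1 : ℤ}

/-- indices of the random bits -/
abbrev J (c : ℕ) (Q : Type) : Type := (Q × ℤ × ℤ) ⊕ ((Fin c × Q) × ℤ × ℤ)

/-- the periodic index of a point -/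
def cyl (G : Geo lab dir c R H h1) (y : X) (a : ℤ) (q : Q) : J c Q := Sum.inl (q, a, G.ph y)

/-- the local index of a point -/
def loc (G : Geo lab dir c R H h1) (y : X) (a : ℤ) (q : Q) : J c Q :=
  Sum.inr ((G.ty y, q), a, G.js y)

/-- the action of a rule on indices -/
def kap (G : Geo lab dir c R H h1) (r : X × Q → ℤ × ℤ × Q) : J c Q → J c Q
  | Sum.inl p => Sum.inl ((r (vec dir p.2.2 p.2.1 +ᵥ G.x0, p.1)).2.2,
      p.2.1 + (r (vec dir p.2.2 p.2.1 +ᵥ G.x0, p.1)).2.1,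
      (p.2.2 + (r (vec dir p.2.2 p.2.1 +ᵥ G.x0, p.1)).1) % H)
  | Sum.inr p => Sum.inr ((p.1.1, (r (vec dir p.2.2 p.2.1 +ᵥ G.rep p.1.1, p.1.2)).2.2),
      p.2.1 + (r (vec dir p.2.2 p.2.1 +ᵥ G.rep p.1.1, p.1.2)).2.1,
      p.2.2 + (r (vec dir p.2.2 p.2.1 +ᵥ G.rep p.1.1, p.1.2)).1)

/-- the random half space along the cut through `z` -/
def Ph (G : Geo lab dir c R H h1) (η : J c Q → Bool) (z : X) : Set (X × Q) :=
  {ω | z ∈ G.C ∧ ∃ j a, ω.1 = vec dir j a +ᵥ z ∧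
    (η (cyl G (vec dir j 0 +ᵥ z) a ω.2) = true ∨ η (loc G (vec dir j 0 +ᵥ z) a ω.2) = true)}

/-- the angles -/
noncomputable def th (H θ0 : ℤ) (χ : ℤ → ℝ) : J c Q → ℝ
  | Sum.inl p => if 0 ≤ p.2.2 ∧ p.2.2 < H then π / 2 * cl (p.2.1 / θ0) else 0
  | Sum.inr p => χ (max |p.2.1| |p.2.2|)

/-- the region where indices move -/
noncomputable def DD [Fintype Q] (c R : ℕ) (H θ0 h1 : ℤ) : Finset (J c Q) :=
  (Finset.univ ×ˢ Finset.Icc (-(R : ℤ)) (θ0 + R) ×ˢ Finset.Ico 0 H).disjSum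
    (Finset.univ ×ˢ Finset.Icc (-(h1 + R)) (h1 + R) ×ˢ Finset.Icc (-(h1 + R)) (h1 + R))

theorem mem_DD_inl [Fintype Q] {θ0 : ℤ} {q : Q} {a φ : ℤ} :
    (Sum.inl (q, a, φ) : J c Q) ∈ DD c R H θ0 h1 ↔
      (-(R : ℤ) ≤ a ∧ a ≤ θ0 + R) ∧ 0 ≤ φ ∧ φ < H := by
  simp [DD]

theorem mem_DD_inr [Fintype Q] {θ0 : ℤ} {t : Fin c × Q} {a j : ℤ} :
    (Sum.inr (t, a, j) : J c Q) ∈ DD c R H θ0 h1 ↔ |a| ≤ h1 + R ∧ |j| ≤ h1 + R := by
  simp only [DD, Finset.inr_mem_disjSum, Finset.mem_product, Finset.mem_univ, true_and,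
    Finset.mem_Icc, abs_le]

theorem mem_Ph (hf : Free X) (G : Geo lab dir c R H h1) (η : J c Q → Bool) {z : X}
    (hz : z ∈ G.C) (j a : ℤ) (q : Q) : (vec dir j a +ᵥ z, q) ∈ Ph G η z ↔
      (η (cyl G (vec dir j 0 +ᵥ z) a q) = true ∨ η (loc G (vec dir j 0 +ᵥ z) a q) = true) := by
  constructor
  · rintro ⟨-, j', a', e, h⟩
    obtain ⟨rfl, rfl⟩ := vinj hf e
    exact h
  · intro h
    exact ⟨hz, j, a, rfl, h⟩

theorem kap_cyl (G : Geo lab dir c R H h1) {g : Perm (X × Q)} {r : X × Q → ℤ × ℤ × Q}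
    (hr : Rule lab dir R g r) {y : X} (hy : y ∈ G.C) (hg : 2 * H + R < |G.js y|) {a : ℤ}
    (ha : |a| ≤ h1 + R) (q : Q) :
    kap G r (cyl G y a q) = cyl G (vec dir (r (vec dir 0 a +ᵥ y, q)).1 0 +ᵥ y)
      (a + (r (vec dir 0 a +ᵥ y, q)).2.1) (r (vec dir 0 a +ᵥ y, q)).2.2 := by
  rw [hr.2.2 _ _ q (G.genA y hy hg a ha)]
  simp only [kap, cyl, G.ph_T]

theorem kap_loc (G : Geo lab dir c R H h1) {g : Perm (X × Q)} {r : X × Q → ℤ × ℤ × Q}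
    (hr : Rule lab dir R g r) {y : X} (hy : y ∈ G.C) (hg : |G.js y| ≤ h1 + R) {a : ℤ}
    (ha : |a| ≤ h1 + R) (q : Q) :
    kap G r (loc G y a q) = loc G (vec dir (r (vec dir 0 a +ᵥ y, q)).1 0 +ᵥ y)
      (a + (r (vec dir 0 a +ᵥ y, q)).2.1) (r (vec dir 0 a +ᵥ y, q)).2.2 := by
  have k : |G.js y + (r (vec dir 0 a +ᵥ y, q)).1| ≤ h1 + 2 * R := by
    have := (hr.2.1 (vec dir 0 a +ᵥ y, q)).1
    rw [abs_le] at *
    omega
  simp only [kap, loc, G.js_T _ _ k, G.ty_T _ _ k]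
  rw [← hr.2.2 _ _ q (G.locB y hy hg a ha)]

theorem kap_inl (hf : Free X) (G : Geo lab dir c R H h1) {g : Perm (X × Q)}
    {r e : X × Q → ℤ × ℤ × Q} (hr : Rule lab dir R g⁻¹ r) (he : Rule lab dir R g e) {q : Q}
    {a φ : ℤ} (ha : |a| ≤ h1) (h0 : 0 ≤ φ) (hφ : φ < H) :
    kap G e (kap G r (Sum.inl (q, a, φ))) = Sum.inl (q, a, φ) := by
  obtain ⟨ω, hω⟩ : ∃ ω : X × Q, ω = (vec dir φ a +ᵥ G.x0, q) := ⟨_, rfl⟩
  have b := hr.2.1 ω
  have e1 : kap G r (Sum.inl (q, a, φ)) =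
      cyl G (vec dir (φ + (r ω).1) 0 +ᵥ G.x0) (a + (r ω).2.1) (r ω).2.2 := by
    simp only [kap, cyl, G.ph_T, G.ph_x0, zero_add, hω]
  have e2 : g⁻¹ ω = (vec dir 0 (a + (r ω).2.1) +ᵥ (vec dir (φ + (r ω).1) 0 +ᵥ G.x0), (r ω).2.2) := by
    rw [hr.1 ω, vv]
    congr 1
    rw [hω, vv, ← hω]
    congr 2 <;> ring
  rw [abs_le, abs_le] at b
  rw [e1, kap_cyl G he (G.C_T _ G.x0_C _) (G.js_x0 _ (by omega) (by omega))
    (by rw [abs_le] at *; omega), ← e2]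
  have e3 := he.1 (g⁻¹ ω)
  rw [SSLAux.apply_inv] at e3
  generalize e (g⁻¹ ω) = s at e3 ⊢
  rw [e2, vv, vv] at e3
  have e4 := e3.symm.trans hω
  obtain ⟨e5, e6⟩ := Prod.ext_iff.1 e4
  obtain ⟨e7, e8⟩ := vinj hf e5
  dsimp only at e6
  rw [cyl, vv, add_zero, G.ph_T, G.ph_x0, e6, show a + (r ω).2.1 + s.2.1 = a by omega,
    show 0 + (s.1 + (φ + (r ω).1)) = φ by omega, Int.emod_eq_of_lt h0 hφ]

theorem kap_inr (hf : Free X) (G : Geo lab dir c R H h1) {g : Perm (X × Q)}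
    {r : X × Q → ℤ × ℤ × Q} (hr : Rule lab dir R g r) {p p' : (Fin c × Q) × ℤ × ℤ}
    (h : kap G r (Sum.inr p) = kap G r (Sum.inr p')) : p = p' := by
  obtain ⟨⟨t, q⟩, a, j⟩ := p
  obtain ⟨⟨t', q'⟩, a', j'⟩ := p'
  simp only [kap, Sum.inr.injEq, Prod.mk.injEq] at h
  obtain ⟨⟨rfl, k1⟩, k2, k3⟩ := h
  have : g (vec dir j a +ᵥ G.rep t, q) = g (vec dir j' a' +ᵥ G.rep t, q') := by
    rw [hr.1, hr.1, vv, vv, k1, add_comm _ j, add_comm _ a, k2, k3, add_comm _ j', add_comm _ a']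
  obtain ⟨e1, e2⟩ := Prod.ext_iff.1 (g.injective this)
  obtain ⟨rfl, rfl⟩ := vinj hf e1
  obtain rfl : q = q' := e2
  rfl

theorem th_cyl0 (G : Geo lab dir c R H h1) {θ0 : ℤ} (hθ : 0 < θ0) (χ : ℤ → ℝ) (y : X) {a : ℤ}
    (ha : a ≤ 0) (q : Q) : th H θ0 χ (cyl G y a q) = 0 := by
  simp only [th, cyl, if_pos (G.ph_mem y)]
  rw [cl_zero, mul_zero]
  exact div_nonpos_of_nonpos_of_nonneg (by exact_mod_cast ha) (by exact_mod_cast hθ.le)

theorem th_cyl1 (G : Geo lab dir c R H h1) {θ0 : ℤ} (hθ : 0 < θ0) (χ : ℤ → ℝ) (y : X) {a : ℤ}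
    (ha : θ0 ≤ a) (q : Q) : th H θ0 χ (cyl G y a q) = π / 2 := by
  simp only [th, cyl, if_pos (G.ph_mem y)]
  rw [cl_one, mul_one]
  exact (one_le_div (by exact_mod_cast hθ)).2 (by exact_mod_cast ha)

theorem th_loc (G : Geo lab dir c R H h1) (θ0 : ℤ) (χ : ℤ → ℝ) (y : X) (a : ℤ) (q : Q) :
    th H θ0 χ (loc G y a q) = χ (max |a| |G.js y|) := rfl

theorem th_det [Fintype Q] {θ0 : ℤ} (hθ : 0 < θ0) {χ : ℤ → ℝ} (c0 : ∀ n, h1 ≤ n → χ n = 0)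
    {p : J c Q} (hp : p ∉ DD c R H θ0 h1) : th H θ0 χ p = 0 ∨ th H θ0 χ p = π / 2 := by
  have hR : (0 : ℤ) ≤ R := Int.natCast_nonneg R
  rcases p with ⟨q, a, φ⟩ | ⟨t, a, j⟩
  · rw [mem_DD_inl] at hp
    simp only [th]
    split_ifs with k
    · by_cases k1 : a ≤ 0
      · left
        rw [cl_zero, mul_zero]
        exact div_nonpos_of_nonpos_of_nonneg (by exact_mod_cast k1) (by exact_mod_cast hθ.le)
      · right
        rw [cl_one, mul_one]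
        exact (one_le_div (by exact_mod_cast hθ)).2 (by exact_mod_cast (by omega : θ0 ≤ a))
    · exact Or.inl rfl
  · rw [mem_DD_inr] at hp
    exact Or.inl (c0 _ (by dsimp only; omega))

open Classical in
theorem equi [Fintype Q] (G : Geo lab dir c R H h1) {θ0 h0 : ℤ} (hθ : 0 < θ0) (hH : 0 < H)
    (n0 : θ0 + 2 * H + 2 * R ≤ h0) (n1 : h0 ≤ h1) {χ : ℤ → ℝ} (c1 : ∀ n ≤ h0, χ n = π / 2)
    (c0 : ∀ n, h1 ≤ n → χ n = 0) {g : Perm (X × Q)} {r : X × Q → ℤ × ℤ × Q}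
    (hr : Rule lab dir R g r) {η : J c Q → Bool} (hη : Adm (th H θ0 χ) η) {y : X} (hy : y ∈ G.C)
    (a : ℤ) (q : Q) :
    (η (cyl G (vec dir (r (vec dir 0 a +ᵥ y, q)).1 0 +ᵥ y)
        (a + (r (vec dir 0 a +ᵥ y, q)).2.1) (r (vec dir 0 a +ᵥ y, q)).2.2) = true ∨
      η (loc G (vec dir (r (vec dir 0 a +ᵥ y, q)).1 0 +ᵥ y)
        (a + (r (vec dir 0 a +ᵥ y, q)).2.1) (r (vec dir 0 a +ᵥ y, q)).2.2) = true) ↔
    (η (if cyl G y a q ∈ DD c R H θ0 h1 then kap G r (cyl G y a q) else cyl G y a q) = true ∨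
      η (if loc G y a q ∈ DD c R H θ0 h1 then kap G r (loc G y a q) else loc G y a q) = true) := by
  have kc := fun k1 k2 => kap_cyl G hr hy k1 (a := a) k2 q
  have kl := fun k1 k2 => kap_loc G hr hy k1 (a := a) k2 q
  have b := hr.2.1 (vec dir 0 a +ᵥ y, q)
  generalize r (vec dir 0 a +ᵥ y, q) = s at *
  obtain ⟨i, b', q'⟩ := s
  dsimp only at *
  rw [abs_le, abs_le] at b
  have s1 : η (if loc G y a q ∈ DD c R H θ0 h1 then kap G r (loc G y a q) else loc G y a q) =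
      η (loc G (vec dir i 0 +ᵥ y) (a + b') q') := by
    split_ifs with k
    · rw [loc, mem_DD_inr] at k
      rw [kl k.2 k.1]
    · rw [loc, mem_DD_inr] at k
      rw [(hη _).1 ((th_loc G θ0 χ _ _ _).trans (c0 _ (by omega))),
        (hη _).1 ((th_loc G θ0 χ _ _ _).trans (c0 _ ?_))]
      by_contra k'
      rw [not_le, max_lt_iff, abs_lt, abs_lt] at k'
      have := G.js_T (vec dir i 0 +ᵥ y) (-i) (by rw [abs_le]; omega)
      rw [vv, neg_add_cancel, add_zero, v0] at this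
      rw [abs_le, abs_le] at k
      omega
  rw [s1]
  by_cases k : cyl G y a q ∈ DD c R H θ0 h1
  · rw [if_pos k]
    rw [cyl, mem_DD_inl] at k
    by_cases k2 : 2 * H + R < |G.js y|
    · rw [kc k2 (by rw [abs_le]; omega)]
    · have : η (loc G (vec dir i 0 +ᵥ y) (a + b') q') = true := by
        refine (hη _).2 ((th_loc G θ0 χ _ _ _).trans (c1 _ ?_))
        rw [not_lt, abs_le] at k2
        rw [G.js_T y i (by rw [abs_le]; omega), max_le_iff, abs_le, abs_le]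
        omega
      simp only [this, or_true]
  · rw [if_neg k]
    rw [cyl, mem_DD_inl] at k
    have := G.ph_mem y
    by_cases k2 : a < -R
    · rw [(hη _).1 (th_cyl0 G hθ χ _ (by omega) _), (hη _).1 (th_cyl0 G hθ χ _ (by omega) _)]
    · rw [(hη _).2 (th_cyl1 G hθ χ _ (by omega) _), (hη _).2 (th_cyl1 G hθ χ _ (by omega) _)]

theorem vec_surj (dir : Bool) (v : V) : ∃ j a, v = vec dir j a := by
  cases dir
  · exact ⟨v.1, v.2, rfl⟩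
  · exact ⟨v.2, v.1, rfl⟩

open Classical in
theorem smul_Ph [Fintype Q] (hf : Free X) (G : Geo lab dir c R H h1) {θ0 h0 : ℤ} (hθ : 0 < θ0)
    (hH : 0 < H) (n0 : θ0 + 2 * H + 2 * R ≤ h0) (n1 : h0 ≤ h1) {χ : ℤ → ℝ}
    (c1 : ∀ n ≤ h0, χ n = π / 2) (c0 : ∀ n, h1 ≤ n → χ n = 0) {g : Perm (X × Q)}
    {r : X × Q → ℤ × ℤ × Q} (hr : Rule lab dir R g⁻¹ r) {η : J c Q → Bool}
    (hη : Adm (th H θ0 χ) η) (z : X) :
    g • Ph G η z = Ph G (η ∘ fun p => if p ∈ DD c R H θ0 h1 then kap G r p else p) z := by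
  ext ⟨x, q⟩
  rw [Set.mem_smul_set_iff_inv_smul_mem, Perm.smul_def]
  by_cases hz : z ∈ G.C
  swap
  · exact ⟨fun h => absurd h.1 hz, fun h => absurd h.1 hz⟩
  by_cases hx : ∃ j a, x = vec dir j a +ᵥ z
  · obtain ⟨j, a, rfl⟩ := hx
    have := equi G hθ hH n0 n1 c1 c0 hr hη (G.C_T z hz j) a q
    rw [mem_Ph hf G _ hz, hr.1, vv, mem_Ph hf G _ hz]
    simp only [vv, zero_add, add_zero] at this
    simp only [Function.comp]
    rw [← this, add_comm a]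
  · constructor
    · rintro ⟨-, j, a, e, -⟩
      rw [hr.1] at e
      refine absurd ⟨-(r (x, q)).1 + j, -(r (x, q)).2.1 + a, ?_⟩ hx
      rw [← vv, ← e, vv, neg_add_cancel, neg_add_cancel, v0]
    · rintro ⟨-, j, a, e, -⟩
      exact absurd ⟨j, a, e⟩ hx

theorem stab_bound (hf : Free X) (G : Geo lab dir c R H h1) {θ0 : ℤ} (hθ : 0 < θ0)
    (n1 : θ0 ≤ h1) {χ : ℤ → ℝ} (c0 : ∀ n, h1 ≤ n → χ n = 0) {η : J c Q → Bool}
    (hη : Adm (th H θ0 χ) η) {g : Perm (X × Q)} (hg : ∀ z, g • Ph G η z = Ph G η z)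
    (x : X) (q : Q) (j a : ℤ) (q' : Q) (e : g (x, q) = (vec dir j a +ᵥ x, q')) :
    |a| ≤ 2 * h1 + G.N := by
  have k1 : ∀ b, vec dir 0 b +ᵥ x ∈ G.C → ∀ j a q, h1 ≤ a - b →
      (vec dir j a +ᵥ x, q) ∈ Ph G η (vec dir 0 b +ᵥ x) := by
    intro b hz j a q ha
    have := (mem_Ph hf G η hz j (a - b) q).2
      (Or.inl ((hη _).2 (th_cyl1 G hθ χ _ (by omega) _)))
    rwa [vv j, add_zero, sub_add_cancel] at this
  have k0 : ∀ b, vec dir 0 b +ᵥ x ∈ G.C → ∀ j a q, a - b ≤ -h1 →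
      (vec dir j a +ᵥ x, q) ∉ Ph G η (vec dir 0 b +ᵥ x) := by
    intro b hz j a q ha k
    have := mem_Ph hf G η hz j (a - b) q
    rw [(hη _).1 (th_cyl0 G hθ χ _ (by omega) _), (hη _).1 ((th_loc G θ0 χ _ _ _).trans
      (c0 _ (le_max_of_le_left (le_abs.2 (Or.inr (by omega)))))), vv j, add_zero,
      sub_add_cancel] at this
    simpa using this.1 k
  have k : ∀ z, (vec dir j a +ᵥ x, q') ∈ Ph G η z ↔ (vec dir 0 0 +ᵥ x, q) ∈ Ph G η z := fun z => by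
    rw [← e, v0]
    conv_lhs => rw [← hg z]
    exact Set.smul_mem_smul_set_iff
  rw [abs_le]
  constructor
  · by_contra h
    obtain ⟨b, b0, b1, hb⟩ := G.synd (vec dir 0 (-h1 - G.N) +ᵥ x)
    rw [vv, add_zero] at hb
    exact k0 _ hb j a q' (by omega) ((k _).2 (k1 _ hb 0 0 q (by omega)))
  · by_contra h
    obtain ⟨b, b0, b1, hb⟩ := G.synd (vec dir 0 h1 +ᵥ x)
    rw [vv, add_zero] at hb
    exact k0 _ hb 0 0 q (by omega) ((k _).1 (k1 _ hb j a q' (by omega)))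

end AmenAux

end Vale.Agent.P196
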