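import Vale.Agent.P196.SS

/-! Basic calculus of local sets, frames and local permutations. -/

namespace Vale.Agent.P196

open Equiv

variable {X A Q : Type} [AddAction V X] {lab : X → A}

theorem SSLAux.inv_apply {α : Type} (g : Perm α) (x : α) : g⁻¹ (g x) = x := g.symm_apply_apply x

theorem SSLAux.apply_inv {α : Type} (g : Perm α) (x : α) : g (g⁻¹ x) = x := g.apply_symm_apply x

theorem Agree.refl (ρ : ℕ) (x : X) : Agree lab ρ x x := by
  intro v _ _; rfl

theorem Agree.symm {ρ : ℕ} {x y : X} (h : Agree lab ρ x y) : Agree lab ρ y x := by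
  intro v h1 h2; exact (h v h1 h2).symm

theorem Agree.trans {ρ : ℕ} {x y z : X} (h : Agree lab ρ x y) (h' : Agree lab ρ y z) :
    Agree lab ρ x z := by
  intro v h1 h2; exact (h v h1 h2).trans (h' v h1 h2)

theorem Agree.mono {ρ ρ' : ℕ} {x y : X} (h : Agree lab ρ' x y) (hρ : ρ ≤ ρ') :
    Agree lab ρ x y := by
  intro v h1 h2
  have : (ρ : ℤ) ≤ ρ' := by exact_mod_cast hρ
  exact h v (h1.trans this) (h2.trans this)

theorem Agree.shift {ρ r : ℕ} {x y : X} (h : Agree lab (ρ + r) x y) {v : V} (h1 : |v.1| ≤ r)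
    (h2 : |v.2| ≤ r) : Agree lab ρ (v +ᵥ x) (v +ᵥ y) := by
  intro w k1 k2
  rw [← add_vadd, ← add_vadd]
  refine h (w + v) ?_ ?_
  · push_cast
    exact (abs_add_le _ _).trans (add_le_add k1 h1)
  · push_cast
    exact (abs_add_le _ _).trans (add_le_add k2 h2)

theorem Loc.univ : Loc lab Set.univ := by
  exact ⟨0, fun _ _ _ h => h⟩

theorem Loc.empty : Loc lab ∅ := by
  exact ⟨0, fun _ _ _ h => h⟩

theorem Loc.inter {d d' : Set X} (h : Loc lab d) (h' : Loc lab d') : Loc lab (d ∩ d') := by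
  obtain ⟨ρ, h⟩ := h
  obtain ⟨ρ', h'⟩ := h'
  exact ⟨ρ + ρ', fun x y k hx => ⟨h x y (k.mono (by omega)) hx.1, h' x y (k.mono (by omega)) hx.2⟩⟩

theorem Loc.union {d d' : Set X} (h : Loc lab d) (h' : Loc lab d') : Loc lab (d ∪ d') := by
  obtain ⟨ρ, h⟩ := h
  obtain ⟨ρ', h'⟩ := h'
  exact ⟨ρ + ρ', fun x y k hx => hx.imp (h x y (k.mono (by omega))) (h' x y (k.mono (by omega)))⟩

theorem Loc.compl {d : Set X} (h : Loc lab d) : Loc lab dᶜ := by
  obtain ⟨ρ, h⟩ := h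
  exact ⟨ρ, fun x y k hx hy => hx (h y x k.symm hy)⟩

theorem Loc.diff {d d' : Set X} (h : Loc lab d) (h' : Loc lab d') : Loc lab (d \ d') := by
  exact h.inter h'.compl

theorem Loc.shift {d : Set X} (h : Loc lab d) (w : V) : Loc lab {x | w +ᵥ x ∈ d} := by
  obtain ⟨ρ, h⟩ := h
  refine ⟨ρ + (w.1.natAbs + w.2.natAbs), fun x y k hx => h _ _ (k.shift ?_ ?_) hx⟩
  · push_cast; have := abs_nonneg w.2; omega
  · push_cast; have := abs_nonneg w.1; omega

theorem Loc.agree (ρ : ℕ) (x : X) : Loc lab {y | Agree lab ρ x y} := by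
  exact ⟨ρ, fun _ _ k h => Agree.trans h k⟩

theorem Loc.at (v : V) (S : Set A) : Loc lab {x | lab (v +ᵥ x) ∈ S} := by
  refine ⟨v.1.natAbs + v.2.natAbs, fun x y k hx => ?_⟩
  have := k v (by push_cast; have := abs_nonneg v.2; omega)
    (by push_cast; have := abs_nonneg v.1; omega)
  show lab (v +ᵥ y) ∈ S
  rw [← this]; exact hx

theorem Loc.of_fun {B : Type} {f : X → B} {ρ : ℕ} (h : ∀ x y, Agree lab ρ x y → f x = f y)
    (S : Set B) : Loc lab {x | f x ∈ S} := by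
  refine ⟨ρ, fun x y k hx => ?_⟩
  show f y ∈ S
  rw [← h x y k]; exact hx

theorem SSLAux.box_finite (ρ : ℕ) : Finite {v : V // |v.1| ≤ ρ ∧ |v.2| ≤ ρ} := by
  have : {v : V | |v.1| ≤ ρ ∧ |v.2| ≤ ρ}.Finite := by
    refine ((Set.finite_Icc (-(ρ : ℤ)) ρ).prod (Set.finite_Icc (-(ρ : ℤ)) ρ)).subset ?_
    rintro v ⟨h1, h2⟩
    exact ⟨abs_le.1 h1, abs_le.1 h2⟩
  exact this

/-- finitely many points represent all patterns of radius `ρ` -/
theorem exists_reps [Finite A] (ρ : ℕ) : ∃ F : Finset X, ∀ x, ∃ y ∈ F, Agree lab ρ y x := by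
  classical
  have := SSLAux.box_finite ρ
  let φ : X → ({v : V // |v.1| ≤ ρ ∧ |v.2| ≤ ρ} → A) := fun x v => lab (v.1 +ᵥ x)
  have hfin : (Set.range φ).Finite := Set.toFinite _
  have := hfin.to_subtype
  have := Fintype.ofFinite (Set.range φ)
  refine ⟨Finset.univ.image fun p : Set.range φ => p.2.choose, fun x => ?_⟩
  refine ⟨_, Finset.mem_image_of_mem _ (Finset.mem_univ ⟨φ x, x, rfl⟩), fun v h1 h2 => ?_⟩
  exact congrFun (Exists.choose_spec (⟨x, rfl⟩ : φ x ∈ Set.range φ)) ⟨v, h1, h2⟩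

/-- induction over a finite cover by local sets -/
theorem Loc.ind_cover {I : Type} (F : Finset I) (e : I → Set X) (he : ∀ i ∈ F, Loc lab (e i))
    {P : Set X → Prop} (h0 : P ∅)
    (h1 : ∀ d d', Loc lab d → Loc lab d' → Disjoint d d' → P d → P d' → P (d ∪ d'))
    {d : Set X} (hd : Loc lab d) (hc : ∀ x ∈ d, ∃ i ∈ F, x ∈ e i)
    (h2 : ∀ i ∈ F, ∀ d' ⊆ d ∩ e i, Loc lab d' → P d') : P d := by
  classical
  induction F using Finset.induction_on generalizing d with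
  | empty =>
    have : d = ∅ := Set.eq_empty_of_forall_notMem fun x hx => by simpa using hc x hx
    rw [this]; exact h0
  | insert a F ha ih =>
    have hea := he a (Finset.mem_insert_self _ _)
    rw [← Set.inter_union_sdiff d (e a)]
    refine h1 _ _ (hd.inter hea) (hd.diff hea) Set.disjoint_sdiff_inter.symm
      (h2 a (Finset.mem_insert_self _ _) _ subset_rfl (hd.inter hea)) ?_
    refine ih (fun i hi => he i (Finset.mem_insert_of_mem hi)) (hd.diff hea) (fun x hx => ?_)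
      fun i hi d' hd' hl => h2 i (Finset.mem_insert_of_mem hi) d'
        (hd'.trans (Set.inter_subset_inter_left _ Set.sdiff_subset)) hl
    obtain ⟨i, hi, hx'⟩ := hc x hx.1
    rcases Finset.mem_insert.1 hi with rfl | hi
    · exact absurd hx' hx.2
    · exact ⟨i, hi, hx'⟩

/-- induction over the partition by patterns of radius `ρ` -/
theorem Loc.ind [Finite A] (ρ : ℕ) {P : Set X → Prop} (h0 : P ∅)
    (h1 : ∀ d d', Loc lab d → Loc lab d' → Disjoint d d' → P d → P d' → P (d ∪ d'))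
    {d : Set X} (hd : Loc lab d)
    (h2 : ∀ d' ⊆ d, Loc lab d' → (∀ x ∈ d', ∀ y ∈ d', Agree lab ρ x y) → P d') : P d := by
  obtain ⟨F, hF⟩ := exists_reps (lab := lab) ρ
  refine Loc.ind_cover F (fun y => {x | Agree lab ρ y x}) (fun y _ => Loc.agree ρ y) h0 h1 hd
    (fun x _ => hF x) fun y _ d' hd' hl => h2 d' (fun x hx => (hd' hx).1) hl fun x hx z hz => ?_
  exact Agree.trans (Agree.symm (hd' hx).2) (hd' hz).2

theorem Lev.loc_px (h : Lev lab) (s : ℕ) (S : Set ℤ) : Loc lab {x | h.px s x ∈ S} := by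
  obtain ⟨ρ, k⟩ := h.loc s
  exact Loc.of_fun (fun x y e => (k x y e).1) S

theorem Lev.loc_py (h : Lev lab) (s : ℕ) (S : Set ℤ) : Loc lab {x | h.py s x ∈ S} := by
  obtain ⟨ρ, k⟩ := h.loc s
  exact Loc.of_fun (fun x y e => (k x y e).2) S

theorem Lev.a_dvd_le (h : Lev lab) {s t : ℕ} (hst : s ≤ t) : h.a s ∣ h.a t := by
  induction hst with
  | refl => exact dvd_rfl
  | step _ ih => exact ih.trans (h.a_dvd _)

theorem Lev.b_dvd_le (h : Lev lab) {s t : ℕ} (hst : s ≤ t) : h.b s ∣ h.b t := by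
  induction hst with
  | refl => exact dvd_rfl
  | step _ ih => exact ih.trans (h.b_dvd _)

theorem Lev.px_nest_le (h : Lev lab) {s t : ℕ} (hst : s ≤ t) (x : X) :
    h.px t x ≡ h.px s x [ZMOD h.a s] := by
  induction hst with
  | refl => rfl
  | step k ih => exact ((h.px_nest _ x).of_dvd (h.a_dvd_le k)).trans ih

theorem Lev.py_nest_le (h : Lev lab) {s t : ℕ} (hst : s ≤ t) (x : X) :
    h.py t x ≡ h.py s x [ZMOD h.b s] := by
  induction hst with
  | refl => rfl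
  | step k ih => exact ((h.py_nest _ x).of_dvd (h.b_dvd_le k)).trans ih

theorem Mini.dense (h : Mini lab) (ρ : ℕ) (x y : X) : ∃ v : V, Agree lab ρ y (v +ᵥ x) := by
  obtain ⟨F, hF⟩ := h _ (Loc.agree ρ y) ⟨y, Agree.refl ρ y⟩
  obtain ⟨v, -, hv⟩ := hF x
  exact ⟨v, hv⟩

section frames

variable {I : Type} {d d' : Set X} {s s' : I → V × Q}

theorem Fr.mono (h : Fr d s) (hd : d' ⊆ d) : Fr d' s := by
  exact fun i j x hx y hy e => h i j x (hd hx) y (hd hy) e

theorem Fr.comp {I' : Type} (h : Fr d s) {e : I' → I} (he : Function.Injective e) :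
    Fr d (s ∘ e) := by
  exact fun i j x hx y hy k => he (h _ _ x hx y hy k)

theorem Fr.of_inj (h : Function.Injective fun i => (s i).2) : Fr d s := by
  exact fun i j x _ y _ k => h (congrArg Prod.snd k :)

/-- adding sheets at fresh positions -/
theorem Fr.sum {I' : Type} (h : Fr d s) {t : I' → V × Q}
    (ht : Function.Injective fun i => (t i).2) (hst : ∀ i i', (s i).2 ≠ (t i').2) :
    Fr d (Sum.elim s t) := by
  rintro (i | i) (j | j) x hx y hy k
  · exact congrArg _ (h i j x hx y hy k)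
  · exact absurd (congrArg Prod.snd k) (hst i j)
  · exact absurd (congrArg Prod.snd k).symm (hst j i)
  · exact congrArg _ (ht (congrArg Prod.snd k :))

theorem SSLAux.sh_shift (t : V × Q) (w : V) (x : X) :
    sh (t.1 + w, t.2) x = sh t (w +ᵥ x) := by
  simp only [sh, add_vadd]

theorem SSLAux.fq_not (h : ¬ Fr d s) (σ : X → Perm I) : fq d s σ = 1 := by
  rw [fq, dif_neg h]; rfl

theorem Fr.shift (h : Fr d s) (w : V) : Fr {x | w +ᵥ x ∈ d} fun i => ((s i).1 + w, (s i).2) := by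
  intro i j x hx y hy k
  refine h i j _ hx _ hy ?_
  simpa only [sh, add_vadd] using k

theorem fq_shift (w : V) (σ : X → Perm I) :
    fq {x | w +ᵥ x ∈ d} (fun i => ((s i).1 + w, (s i).2)) (fun x => σ (w +ᵥ x)) = fq d s σ := by
  by_cases h : Fr d s
  · refine (eq_fq (h.shift w) (fun i x hx => ?_) fun ω hω => fq_other σ fun i x hx e => ?_).symm
    · rw [SSLAux.sh_shift, SSLAux.sh_shift, fq_apply h σ hx]
    · refine hω i (-w +ᵥ x) (by simpa using hx) ?_
      rw [SSLAux.sh_shift, e]; simp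
  · rw [SSLAux.fq_not h, SSLAux.fq_not]
    intro k
    refine h fun i j x hx y hy e => k i j (-w +ᵥ x) (by simpa using hx) (-w +ᵥ y)
      (by simpa using hy) ?_
    rw [SSLAux.sh_shift, SSLAux.sh_shift]; simpa using e

theorem fq_congr {σ σ' : X → Perm I} (h : ∀ x ∈ d, σ x = σ' x) : fq d s σ = fq d s σ' := by
  by_cases k : Fr d s
  · refine eq_fq k (fun i x hx => ?_) fun ω hω => fq_other σ hω
    rw [fq_apply k σ hx, h x hx]
  · rw [SSLAux.fq_not k, SSLAux.fq_not k]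

theorem fq_restrict (h : Fr d s) (hd : d' ⊆ d) {σ : X → Perm I} (hσ : ∀ x ∈ d, x ∉ d' → σ x = 1) :
    fq d s σ = fq d' s σ := by
  refine eq_fq (h.mono hd) (fun i x hx => fq_apply h σ (hd hx) i) fun ω hω => ?_
  by_cases k : ∀ i, ∀ x ∈ d, ω ≠ sh (s i) x
  · exact fq_other σ k
  · push Not at k
    obtain ⟨i, x, hx, rfl⟩ := k
    rw [fq_apply h σ hx, hσ x hx fun hx' => hω i x hx' rfl]; rfl

theorem fq_union (h : Fr (d ∪ d') s) (hd : Disjoint d d') (σ : X → Perm I) :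
    fq (d ∪ d') s σ = fq d s σ * fq d' s σ := by
  have h1 : Fr d s := h.mono Set.subset_union_left
  have h2 : Fr d' s := h.mono Set.subset_union_right
  refine (eq_fq h (fun i x hx => ?_) fun ω hω => ?_).symm
  · rw [Perm.mul_apply]
    rcases hx with hx | hx
    · rw [fq_other (d := d') σ, fq_apply h1 σ hx]
      intro j y hy e
      obtain rfl := h i j x (Or.inl hx) y (Or.inr hy) e
      obtain rfl := sh_inj e
      exact Set.disjoint_left.1 hd hx hy
    · rw [fq_apply h2 σ hx, fq_other]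
      intro j y hy e
      obtain rfl := h _ j x (Or.inr hx) y (Or.inl hy) e
      obtain rfl := sh_inj e
      exact Set.disjoint_left.1 hd hy hx
  · rw [Perm.mul_apply, fq_other (d := d') σ fun i x hx => hω i x (Or.inr hx),
      fq_other σ fun i x hx => hω i x (Or.inl hx)]

theorem fq_empty (σ : X → Perm I) : fq (∅ : Set X) s σ = 1 := by
  exact Equiv.ext fun ω => fq_other σ fun i x hx => hx.elim

theorem fq_eq_one (h : Fr d s) {σ : X → Perm I} (h1 : fq d s σ = 1) : ∀ x ∈ d, σ x = 1 := by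
  intro x hx
  refine Equiv.ext fun i => ?_
  have := fq_apply h σ hx i
  rw [h1] at this
  exact (h _ _ x hx x hx this).symm

theorem Fr.conj (h : Fr d s) {u : Perm (X × Q)} (hu : ∀ i, ∀ x ∈ d, u (sh (s i) x) = sh (s' i) x) :
    Fr d s' := by
  intro i j x hx y hy e
  rw [← hu i x hx, ← hu j y hy] at e
  exact h i j x hx y hy (u.injective e)

theorem fq_conj (h : Fr d s) {u : Perm (X × Q)}
    (hu : ∀ i, ∀ x ∈ d, u (sh (s i) x) = sh (s' i) x) (σ : X → Perm I) :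
    u * fq d s σ * u⁻¹ = fq d s' σ := by
  refine eq_fq (h.conj hu) (fun i x hx => ?_) fun ω hω => ?_
  · rw [Perm.mul_apply, Perm.mul_apply, ← hu i x hx, SSLAux.inv_apply, fq_apply h σ hx,
      hu _ x hx]
  · rw [Perm.mul_apply, Perm.mul_apply, fq_other σ, SSLAux.apply_inv]
    intro i x hx e
    refine hω i x hx ?_
    rw [← hu i x hx, ← e, SSLAux.apply_inv]

/-- permutations of a subfamily of sheets -/
theorem fp_comp {I' : Type} (h : Fr d s) (e : I' ↪ I) (π : Perm I') :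
    fp d (s ∘ e) π = fp d s (π.viaEmbedding e) := by
  refine eq_fq h (σ := fun _ => π.viaEmbedding e) (fun i x hx => ?_)
    fun ω hω => fp_other π fun i x hx => hω (e i) x hx
  by_cases k : i ∈ Set.range e
  · obtain ⟨i, rfl⟩ := k
    rw [Perm.viaEmbedding_apply]
    exact fp_apply (h.comp e.injective) π hx i
  · rw [Perm.viaEmbedding_apply_of_notMem _ _ _ k]
    refine fp_other π fun j y hy e' => k ⟨j, (h _ _ x hx y hy e').symm⟩

theorem cyc_eq [DecidableEq I] (h : Fr d s) {i j k : I} (ij : i ≠ j) (ik : i ≠ k) (jk : j ≠ k) :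
    cyc d (s ∘ ![i, j, k]) = fp d s (swap i j * swap j k) := by
  have hinj : Function.Injective ![i, j, k] := by
    intro a b e
    fin_cases a <;> fin_cases b <;> simp_all
  have h3 := h.comp hinj
  refine eq_fq h (σ := fun _ => swap i j * swap j k) (fun a x hx => ?_)
    fun ω hω => fp_other _ fun a x hx => hω _ x hx
  by_cases ai : a = i
  · subst ai
    have := fp_apply h3 (finRotate 3) hx 0
    simp only [Perm.mul_apply, swap_apply_of_ne_of_ne ij ik, swap_apply_left]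
    exact this
  by_cases aj : a = j
  · subst aj
    have := fp_apply h3 (finRotate 3) hx 1
    simp only [Perm.mul_apply, swap_apply_of_ne_of_ne ik.symm jk.symm, swap_apply_left]
    exact this
  by_cases ak : a = k
  · subst ak
    have := fp_apply h3 (finRotate 3) hx 2
    simp only [Perm.mul_apply, swap_apply_right]
    exact this
  simp only [Perm.mul_apply, swap_apply_of_ne_of_ne aj ak, swap_apply_of_ne_of_ne ai aj]
  refine fp_other _ fun b y hy e => ?_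
  have := h _ _ x hx y hy e
  fin_cases b <;> simp_all

theorem cyc_mem_A3 {s : Fin 3 → V × Q} (hd : Loc lab d) (h : Fr d s) : cyc d s ∈ A3 lab Q :=
  Subgroup.subset_closure ⟨d, s, hd, h, rfl⟩

theorem fp_mem_A3 [Fintype I] [DecidableEq I] (hd : Loc lab d) (h : Fr d s) {π : Perm I}
    (hπ : Perm.sign π = 1) : fp d s π ∈ A3 lab Q := by
  have h1 : π ∈ Subgroup.closure {σ : Perm I | σ.IsThreeCycle} := by
    rw [Perm.closure_three_cycles_eq_alternating]; exact hπ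
  refine (Subgroup.closure_le ((A3 lab Q).comap (fp d s))).2 (fun g hg => ?_) h1
  obtain ⟨a, ha⟩ := hg.isCycle.nonempty_support
  have hn := hg.nodup_iff_mem_support.2 ha
  simp only [List.nodup_cons, List.mem_cons, List.not_mem_nil, or_false, not_or] at hn
  have hinj : Function.Injective ![a, g a, g (g a)] := by
    intro b c e
    obtain ⟨⟨h1, h2⟩, h3, -⟩ := hn
    generalize g (g a) = a2 at *
    generalize g a = a1 at *
    fin_cases b <;> fin_cases c <;> simp_all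
  show fp d s g ∈ A3 lab Q
  rw [hg.eq_swap_mul_swap_iff_mem_support.2 ha, ← cyc_eq h hn.1.1 hn.1.2 hn.2.1]
  exact cyc_mem_A3 hd (h.comp hinj)

theorem fq_mem_A3 [Finite A] [Fintype I] [DecidableEq I] (hd : Loc lab d) (h : Fr d s)
    {σ : X → Perm I} {ρ : ℕ} (hσ : ∀ x ∈ d, ∀ y ∈ d, Agree lab ρ x y → σ x = σ y)
    (hπ : ∀ x ∈ d, Perm.sign (σ x) = 1) : fq d s σ ∈ A3 lab Q := by
  refine Loc.ind (lab := lab) ρ (P := fun d' => d' ⊆ d → fq d' s σ ∈ A3 lab Q) (fun _ => ?_)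
    (fun d1 d2 _ _ hdis k1 k2 k => ?_) hd (fun d' hd' hl ha _ => ?_) subset_rfl
  · rw [fq_empty]; exact one_mem _
  · rw [fq_union (h.mono k) hdis]
    exact mul_mem (k1 (Set.subset_union_left.trans k)) (k2 (Set.subset_union_right.trans k))
  · rcases d'.eq_empty_or_nonempty with rfl | ⟨x, hx⟩
    · rw [fq_empty]; exact one_mem _
    · rw [fq_congr (σ' := fun _ => σ x) fun y hy => hσ y (hd' hy) x (hd' hx) (ha y hy x hx)]
      exact fp_mem_A3 hl (h.mono hd') (hπ x (hd' hx))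

end frames

section cx

variable {R R' : ℕ} {g g' : Perm (X × Q)}

theorem Cx.one : Cx lab 0 (1 : Perm (X × Q)) := by
  refine ⟨fun ω => (0, ω.2), fun ω => ?_, fun ω => by simp, fun _ _ _ _ => rfl⟩
  simp [sh]

theorem Cx.mono (h : Cx lab R g) (hR : R ≤ R') : Cx lab R' g := by
  obtain ⟨c, h1, h2, h3⟩ := h
  have : (R : ℤ) ≤ R' := by exact_mod_cast hR
  exact ⟨c, h1, fun ω => ⟨(h2 ω).1.trans this, (h2 ω).2.trans this⟩,
    fun x y q k => h3 x y q (k.mono hR)⟩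

theorem Cx.mul (h : Cx lab R g) (h' : Cx lab R' g') : Cx lab (R + R') (g * g') := by
  obtain ⟨c, h1, h2, h3⟩ := h
  obtain ⟨c', h1', h2', h3'⟩ := h'
  refine ⟨fun ω => ((c (g' ω)).1 + (c' ω).1, (c (g' ω)).2), fun ω => ?_, fun ω => ⟨?_, ?_⟩,
    fun x y q k => ?_⟩
  · rw [Perm.mul_apply, h1, SSLAux.sh_shift]
    congr 1
    rw [h1']; rfl
  · push_cast
    exact (abs_add_le _ _).trans (add_le_add (h2 _).1 (h2' _).1)
  · push_cast
    exact (abs_add_le _ _).trans (add_le_add (h2 _).2 (h2' _).2)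
  · have e := h3' x y q (k.mono (by omega))
    have e2 : c (g' (x, q)) = c (g' (y, q)) := by
      rw [h1', h1', ← e]
      exact h3 _ _ _ (k.shift (h2' _).1 (h2' _).2)
    simp only [e, e2]

theorem Cx.inv (h : Cx lab R g) : Cx lab (2 * R) g⁻¹ := by
  obtain ⟨c, h1, h2, h3⟩ := h
  have key : ∀ ω, (g⁻¹ ω).1 = -(c (g⁻¹ ω)).1 +ᵥ ω.1 := fun ω => by
    have := h1 (g⁻¹ ω)
    rw [SSLAux.apply_inv] at this
    generalize g⁻¹ ω = ω' at this ⊢
    rw [this]
    simp [sh]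
  refine ⟨fun ω => (-(c (g⁻¹ ω)).1, (g⁻¹ ω).2), fun ω => Prod.ext (key ω) rfl, fun ω => ⟨?_, ?_⟩,
    fun x y q k => ?_⟩
  · have := (h2 (g⁻¹ ω)).1
    simp only [Prod.fst_neg, abs_neg]; push_cast; have := Int.natCast_nonneg R; omega
  · have := (h2 (g⁻¹ ω)).2
    simp only [Prod.snd_neg, abs_neg]; push_cast; have := Int.natCast_nonneg R; omega
  · obtain ⟨ω, hω⟩ : ∃ ω, ω = g⁻¹ (x, q) := ⟨_, rfl⟩
    have k1 : Agree lab R ω.1 (-(c ω).1 +ᵥ y) := by
      have := key (x, q)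
      rw [← hω] at this
      rw [this]
      refine Agree.shift (r := R) (k.mono (by omega)) ?_ ?_
      · simpa using (h2 ω).1
      · simpa using (h2 ω).2
    have k2 : c ω = c (-(c ω).1 +ᵥ y, ω.2) := h3 _ _ ω.2 k1
    have k3 : (c ω).2 = q := by
      have := h1 ω
      conv_lhs at this => rw [hω, SSLAux.apply_inv]
      exact (congrArg Prod.snd this).symm
    have k4 : g⁻¹ (y, q) = (-(c ω).1 +ᵥ y, ω.2) := by
      rw [Perm.inv_eq_iff_eq, h1, ← k2]
      simp [sh, k3]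
    simp only [k4, ← k2, ← hω]

theorem SSLAux.cx_fq' {I : Type} {ρ : ℕ} {d : Set X} {s : I → V × Q}
    (hd : ∀ x y, Agree lab ρ x y → x ∈ d → y ∈ d) (h : Fr d s)
    (hs : ∀ i, |(s i).1.1| ≤ ρ ∧ |(s i).1.2| ≤ ρ) {σ : X → Perm I}
    (hσ : ∀ x ∈ d, ∀ y ∈ d, Agree lab ρ x y → σ x = σ y) : Cx lab (2 * ρ) (fq d s σ) := by
  classical
  let c : X × Q → V × Q := fun ω =>
    if k : ∃ p : I × X, p.2 ∈ d ∧ ω = sh (s p.1) p.2 then
      ((s (σ k.choose.2 k.choose.1)).1 - (s k.choose.1).1, (s (σ k.choose.2 k.choose.1)).2)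
    else (0, ω.2)
  have c1 : ∀ i, ∀ x ∈ d, c (sh (s i) x) = ((s (σ x i)).1 - (s i).1, (s (σ x i)).2) := by
    intro i x hx
    have k : ∃ p : I × X, p.2 ∈ d ∧ sh (s i) x = sh (s p.1) p.2 := ⟨(i, x), hx, rfl⟩
    have k0 := k.choose_spec
    simp only [c, dif_pos k]
    generalize k.choose = p at k0 ⊢
    obtain ⟨j, y⟩ := p
    obtain ⟨k1, k2⟩ := k0
    obtain rfl := h _ _ x hx _ k1 k2
    obtain rfl := sh_inj k2
    rfl
  have c2 : ∀ ω, (∀ i, ∀ x ∈ d, ω ≠ sh (s i) x) → c ω = (0, ω.2) := by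
    intro ω hω
    simp only [c]
    rw [dif_neg]
    rintro ⟨p, k1, k2⟩
    exact hω _ _ k1 k2
  have tr : ∀ x y q i, ∀ z ∈ d, Agree lab (2 * ρ) x y → (x, q) = sh (s i) z →
      ∃ z' ∈ d, Agree lab ρ z z' ∧ (y, q) = sh (s i) z' := by
    intro x y q i z hz k e
    obtain ⟨rfl, rfl⟩ := Prod.ext_iff.1 e
    have k1 : Agree lab ρ z (-(s i).1 +ᵥ y) := by
      have := Agree.shift (ρ := ρ) (r := ρ) (v := -(s i).1) (k.mono (by omega))
        (by simpa using (hs i).1) (by simpa using (hs i).2)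
      simpa [sh] using this
    exact ⟨_, hd _ _ k1 hz, k1, by simp [sh]⟩
  refine ⟨c, fun ω => ?_, fun ω => ?_, fun x y q k => ?_⟩
  · by_cases hω : ∀ i, ∀ x ∈ d, ω ≠ sh (s i) x
    · rw [fq_other σ hω, c2 ω hω]; simp [sh]
    · push Not at hω
      obtain ⟨i, x, hx, rfl⟩ := hω
      rw [fq_apply h σ hx, c1 i x hx]
      simp [sh, ← add_vadd]
  · by_cases hω : ∀ i, ∀ x ∈ d, ω ≠ sh (s i) x
    · rw [c2 ω hω]; simp
    · push Not at hω
      obtain ⟨i, x, hx, rfl⟩ := hω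
      rw [c1 i x hx]
      have a1 := hs i
      have a2 := hs (σ x i)
      simp only [abs_le] at a1 a2 ⊢
      simp only [Prod.fst_sub, Prod.snd_sub]
      push_cast
      omega
  · by_cases hω : ∀ i, ∀ z ∈ d, (x, q) ≠ sh (s i) z
    · rw [c2 _ hω, c2]
      intro i z hz e
      obtain ⟨z', hz', -, e'⟩ := tr y x q i z hz k.symm e
      exact hω i z' hz' e'
    · push Not at hω
      obtain ⟨i, z, hz, e⟩ := hω
      obtain ⟨z', hz', k', e'⟩ := tr x y q i z hz k e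
      rw [e, e', c1 i z hz, c1 i z' hz', hσ z hz z' hz' k']

theorem SSLAux.exists_bound {I : Type} [Finite I] (s : I → V × Q) :
    ∃ B : ℕ, ∀ i, |(s i).1.1| ≤ B ∧ |(s i).1.2| ≤ B := by
  obtain ⟨B, hB⟩ := (Set.finite_range fun i => (s i).1.1.natAbs + (s i).1.2.natAbs).bddAbove
  refine ⟨B, fun i => ?_⟩
  have : (s i).1.1.natAbs + (s i).1.2.natAbs ≤ B := hB ⟨i, rfl⟩
  rw [Int.abs_eq_natAbs, Int.abs_eq_natAbs]
  omega

theorem cx_fq {I : Type} [Finite I] {d : Set X} {s : I → V × Q} (hd : Loc lab d) (h : Fr d s)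
    {σ : X → Perm I} {ρ : ℕ} (hσ : ∀ x ∈ d, ∀ y ∈ d, Agree lab ρ x y → σ x = σ y) :
    ∃ R, Cx lab R (fq d s σ) := by
  obtain ⟨ρ', hd⟩ := hd
  obtain ⟨B, hB⟩ := SSLAux.exists_bound s
  refine ⟨2 * (ρ + ρ' + B), SSLAux.cx_fq' (fun x y k => hd x y (k.mono (by omega))) h
    (fun i => ?_) fun x hx y hy k => hσ x hx y hy (k.mono (by omega))⟩
  have := hB i
  push_cast
  omega

theorem cx_fq' {I : Type} {ρ : ℕ} {d : Set X} {s : I → V × Q}
    (hd : ∀ x y, Agree lab ρ x y → x ∈ d → y ∈ d) (h : Fr d s)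
    (hs : ∀ i, |(s i).1.1| ≤ ρ ∧ |(s i).1.2| ≤ ρ) {σ : X → Perm I}
    (hσ : ∀ x ∈ d, ∀ y ∈ d, Agree lab ρ x y → σ x = σ y) : Cx lab (2 * ρ) (fq d s σ) := by
  exact SSLAux.cx_fq' hd h hs hσ

theorem SSLAux.restrict (h : Cx lab R g) (S : Set A)
    (hS : ∀ ω : X × Q, lab (g ω).1 ∈ S ↔ lab ω.1 ∈ S) :
    ∃ g0 : Perm (X × Q), Cx lab R g0 ∧ (∀ ω, lab ω.1 ∈ S → g0 ω = g ω) ∧
      ∀ ω, lab ω.1 ∉ S → g0 ω = ω := by
  classical
  have hS' : ∀ ω : X × Q, lab (g⁻¹ ω).1 ∈ S ↔ lab ω.1 ∈ S := fun ω => by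
    rw [← hS, SSLAux.apply_inv]
  let g0 : Perm (X × Q) :=
    { toFun := fun ω => if lab ω.1 ∈ S then g ω else ω
      invFun := fun ω => if lab ω.1 ∈ S then g⁻¹ ω else ω
      left_inv := fun ω => by
        by_cases k : lab ω.1 ∈ S
        · simp only [if_pos k, if_pos ((hS ω).2 k), SSLAux.inv_apply]
        · simp only [if_neg k]
      right_inv := fun ω => by
        by_cases k : lab ω.1 ∈ S
        · simp only [if_pos k, if_pos ((hS' ω).2 k), SSLAux.apply_inv]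
        · simp only [if_neg k] }
  have e : ∀ ω, g0 ω = if lab ω.1 ∈ S then g ω else ω := fun _ => rfl
  obtain ⟨c, h1, h2, h3⟩ := h
  refine ⟨g0, ⟨fun ω => if lab ω.1 ∈ S then c ω else (0, ω.2), fun ω => ?_, fun ω => ?_,
    fun x y q k => ?_⟩, fun ω k => by rw [e, if_pos k], fun ω k => by rw [e, if_neg k]⟩
  · rw [e]
    dsimp only
    split_ifs
    · exact h1 ω
    · simp [sh]
  · dsimp only
    split_ifs
    · exact h2 ω
    · simp
  · have : lab x = lab y := by simpa using k 0 (by simp) (by simp)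
    simp only [this, h3 x y q k]

/-- restriction of a local permutation to an invariant set given by the label at the origin -/
theorem Cx.restrict (h : Cx lab R g) (S : Set A)
    (hS : ∀ ω : X × Q, lab (g ω).1 ∈ S ↔ lab ω.1 ∈ S) :
    ∃ g0 g1 : Perm (X × Q), Cx lab R g0 ∧ Cx lab R g1 ∧ g = g0 * g1 ∧ Commute g0 g1 ∧
      (∀ ω, lab ω.1 ∈ S → g0 ω = g ω ∧ g1 ω = ω) ∧
      ∀ ω, lab ω.1 ∉ S → g0 ω = ω ∧ g1 ω = g ω := by
  obtain ⟨g0, a0, b0, c0⟩ := SSLAux.restrict h S hS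
  obtain ⟨g1, a1, b1, c1⟩ := SSLAux.restrict h Sᶜ fun ω => not_congr (hS ω)
  have e1 : g = g0 * g1 := by
    refine Equiv.ext fun ω => ?_
    rw [Perm.mul_apply]
    by_cases k : lab ω.1 ∈ S
    · rw [c1 ω (not_not.2 k), b0 ω k]
    · rw [b1 ω k, c0 _ (mt (hS ω).1 k)]
  have e2 : g = g1 * g0 := by
    refine Equiv.ext fun ω => ?_
    rw [Perm.mul_apply]
    by_cases k : lab ω.1 ∈ S
    · rw [b0 ω k, c1 _ (not_not.2 ((hS ω).2 k))]
    · rw [c0 ω k, b1 ω k]
  exact ⟨g0, g1, a0, a1, e1, e1.symm.trans e2, fun ω k => ⟨b0 ω k, c1 ω (not_not.2 k)⟩,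
    fun ω k => ⟨c0 ω k, b1 ω k⟩⟩

theorem cx_cyc {ρ : ℕ} {d : Set X} {s : Fin 3 → V × Q}
    (hd : ∀ x y, Agree lab ρ x y → x ∈ d → y ∈ d) (h : Fr d s)
    (hs : ∀ i, |(s i).1.1| ≤ ρ ∧ |(s i).1.2| ≤ ρ) : Cx lab (2 * ρ) (cyc d s) := by
  exact cx_fq' hd h hs fun _ _ _ _ _ => rfl

theorem cx_of_mem (h : g ∈ A3 lab Q) : ∃ R, Cx lab R g := by
  induction h using Subgroup.closure_induction with
  | mem g hg =>
    obtain ⟨d, s, hd, hs, rfl⟩ := hg
    exact cx_fq (ρ := 0) hd hs fun _ _ _ _ _ => rfl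
  | one => exact ⟨0, Cx.one⟩
  | mul g g' _ _ k k' =>
    obtain ⟨R, k⟩ := k
    obtain ⟨R', k'⟩ := k'
    exact ⟨_, k.mul k'⟩
  | inv g _ k =>
    obtain ⟨R, k⟩ := k
    exact ⟨_, k.inv⟩

theorem cx_finite [Finite A] [Finite Q] (R : ℕ) : {g : Perm (X × Q) | Cx lab R g}.Finite := by
  obtain ⟨F, hF⟩ := exists_reps (lab := lab) R
  choose r hr hr' using hF
  have := SSLAux.box_finite R
  let Φ : (F × Q → {v : V // |v.1| ≤ R ∧ |v.2| ≤ R} × Q) → X × Q → X × Q := fun t ω =>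
    sh ((t (⟨r ω.1, hr ω.1⟩, ω.2)).1.1, (t (⟨r ω.1, hr ω.1⟩, ω.2)).2) ω.1
  refine ((Set.finite_range Φ).preimage (f := fun g : Perm (X × Q) => (g : X × Q → X × Q))
    DFunLike.coe_injective.injOn).subset ?_
  rintro g ⟨c, h1, h2, h3⟩
  refine ⟨fun p => (⟨(c (p.1.1, p.2)).1, h2 _⟩, (c (p.1.1, p.2)).2), funext fun ω => ?_⟩
  obtain ⟨x, q⟩ := ω
  simp only [Φ]
  rw [h1, h3 _ _ q (hr' x)]

/-- a local permutation is uniform on the sheets of a frame over small pieces -/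
theorem Cx.pieces (h : Cx lab R g) {I : Type} [Finite I] (s : I → V × Q) :
    ∃ ρ, ∀ x, ∃ s' : I → V × Q, ∀ y, Agree lab ρ x y → ∀ i, g (sh (s i) y) = sh (s' i) y := by
  obtain ⟨c, h1, h2, h3⟩ := h
  obtain ⟨B, hB⟩ := SSLAux.exists_bound s
  refine ⟨R + B, fun x => ⟨fun i => ((c (sh (s i) x)).1 + (s i).1, (c (sh (s i) x)).2),
    fun y k i => ?_⟩⟩
  have : c (sh (s i) x) = c (sh (s i) y) := h3 _ _ _ (k.shift (hB i).1 (hB i).2)
  rw [SSLAux.sh_shift, h1, this]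
  rfl

theorem Cx.conj_mem [Finite A] (h : Cx lab R g) (h' : g' ∈ A3 lab Q) : g * g' * g⁻¹ ∈ A3 lab Q := by
  induction h' using Subgroup.closure_induction with
  | mem g' hg =>
    obtain ⟨d, s, hd, hs, rfl⟩ := hg
    obtain ⟨ρ, hρ⟩ := h.pieces s
    refine Loc.ind (lab := lab) ρ (P := fun d' => d' ⊆ d → g * cyc d' s * g⁻¹ ∈ A3 lab Q)
      (fun _ => ?_) (fun d1 d2 _ _ hdis k1 k2 k => ?_) hd (fun d' hd' hl ha _ => ?_) subset_rfl
    · rw [cyc, fp_eq, fq_empty, mul_one, mul_inv_cancel]; exact one_mem _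
    · have := mul_mem (k1 (Set.subset_union_left.trans k)) (k2 (Set.subset_union_right.trans k))
      rw [cyc, fp_eq, fq_union (hs.mono k) hdis]
      convert this using 1
      simp only [cyc, fp_eq]
      group
    · rcases d'.eq_empty_or_nonempty with rfl | ⟨x, hx⟩
      · rw [cyc, fp_eq, fq_empty, mul_one, mul_inv_cancel]; exact one_mem _
      · obtain ⟨s', hs'⟩ := hρ x
        have hu : ∀ i, ∀ y ∈ d', g (sh (s i) y) = sh (s' i) y := fun i y hy =>
          hs' y (ha x hx y hy) i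
        rw [cyc, fp_eq, fq_conj (hs.mono hd') hu]
        exact cyc_mem_A3 hl ((hs.mono hd').conj hu)
  | one => rw [mul_one, mul_inv_cancel]; exact one_mem _
  | mul a b _ _ k k' =>
    convert mul_mem k k' using 1
    group
  | inv a _ k =>
    convert inv_mem k using 1
    group

/-- finitely generated subgroups of a group of bounded displacement are finite -/
theorem finite_of_disp [Finite A] [Finite Q] (hf : Free X) {Γ : Subgroup (Perm (X × Q))} (D : ℕ)
    (hD : ∀ g ∈ Γ, ∀ ω, ∃ c : V × Q, |c.1.1| ≤ D ∧ |c.1.2| ≤ D ∧ g ω = sh c ω.1)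
    (S : Finset (Perm (X × Q))) (hS : ∀ g ∈ S, g ∈ Γ ∧ g ∈ A3 lab Q) :
    (Subgroup.closure (S : Set (Perm (X × Q))) : Set (Perm (X × Q))).Finite := by
  have hR : ∃ R, ∀ g ∈ S, Cx lab R g ∧ Cx lab R g⁻¹ := by
    have : ∀ g : S, ∃ R, Cx lab R g.1 := fun g => cx_of_mem (hS g.1 g.2).2
    choose r hr using this
    obtain ⟨B, hB⟩ := (Set.finite_range r).bddAbove
    refine ⟨2 * B, fun g hg => ?_⟩
    have : r ⟨g, hg⟩ ≤ B := hB ⟨_, rfl⟩
    exact ⟨(hr ⟨g, hg⟩).mono (by omega), (hr ⟨g, hg⟩).inv.mono (by omega)⟩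
  obtain ⟨R, hR⟩ := hR
  have hle : Subgroup.closure (S : Set (Perm (X × Q))) ≤ Γ :=
    (Subgroup.closure_le _).2 fun g hg => (hS g hg).1
  let P : Perm (X × Q) → Prop := fun g => ∃ c : X × Q → V × Q, (∀ ω, g ω = sh (c ω) ω.1) ∧
    (∀ ω, |(c ω).1.1| ≤ D ∧ |(c ω).1.2| ≤ D) ∧
    ∀ x y q, Agree lab (R + D) x y → c (x, q) = c (y, q)
  have step : ∀ a b, Cx lab R a → P b → a * b ∈ Γ → P (a * b) := by
    rintro a b ⟨c, h1, -, h3⟩ ⟨c', h1', h2', h3'⟩ hab
    have e0 : ∀ ω, (a * b) ω = sh ((c (b ω)).1 + (c' ω).1, (c (b ω)).2) ω.1 := fun ω => by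
      rw [Perm.mul_apply, h1, SSLAux.sh_shift]
      congr 1
      rw [h1']; rfl
    refine ⟨fun ω => ((c (b ω)).1 + (c' ω).1, (c (b ω)).2), e0, fun ω => ?_, fun x y q k => ?_⟩
    · obtain ⟨c0, k1, k2, k3⟩ := hD _ hab ω
      rw [e0] at k3
      have k4 : ((c (b ω)).1 + (c' ω).1) +ᵥ ω.1 = c0.1 +ᵥ ω.1 := congrArg Prod.fst k3
      have k5 := hf (-c0.1 + ((c (b ω)).1 + (c' ω).1)) ω.1 (by rw [add_vadd, k4]; simp)
      have k6 : (c (b ω)).1 + (c' ω).1 = c0.1 := (neg_add_eq_zero.1 k5).symm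
      dsimp only
      rw [k6]
      exact ⟨k1, k2⟩
    · have e := h3' x y q k
      have e2 : c (b (x, q)) = c (b (y, q)) := by
        rw [h1', h1', ← e]
        exact h3 _ _ _ (k.shift (h2' _).1 (h2' _).2)
      simp only [e, e2]
  refine (cx_finite (lab := lab) (R + D)).subset fun g hg => ?_
  have : P g := by
    induction hg using Subgroup.closure_induction_left with
    | one => exact ⟨fun ω => (0, ω.2), fun ω => by simp [sh], fun ω => by simp, fun _ _ _ _ => rfl⟩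
    | mul_left a ha b hb k =>
      exact step a b (hR a ha).1 k (mul_mem (hS a ha).1 (hle hb))
    | inv_mul_cancel a ha b hb k =>
      exact step a⁻¹ b (hR a ha).2 k (mul_mem (inv_mem (hS a ha).1) (hle hb))
  obtain ⟨c, h1, h2, h3⟩ := this
  refine ⟨c, h1, fun ω => ?_, h3⟩
  have := h2 ω
  push_cast
  omega

end cx

/-- fresh elements of a large finite type -/
theorem exists_fresh [Fintype Q] (T : Finset Q) (n : ℕ) (h : T.card + n ≤ Fintype.card Q) :
    ∃ t : Fin n → Q, Function.Injective t ∧ ∀ i, t i ∉ T := by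
  classical
  obtain ⟨e⟩ : Nonempty (Fin n ↪ (Tᶜ : Finset Q)) := by
    refine Function.Embedding.nonempty_of_card_le ?_
    rw [Fintype.card_fin, Fintype.card_coe, Finset.card_compl]
    omega
  exact ⟨fun i => (e i).1, fun i j k => e.injective (Subtype.ext k),
    fun i => Finset.mem_compl.1 (e i).2⟩

/-- it suffices to use three-cycles whose positions have distinct classes -/
theorem A3_le [Fintype Q] {B : Type} (κ : Q → B) (hκ : ∀ T : Finset B, T.card ≤ 10 → ∃ q, κ q ∉ T)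
    {K : Subgroup (Perm (X × Q))}
    (h : ∀ (d : Set X) (s : Fin 3 → V × Q), Loc lab d →
      Function.Injective (fun i => κ (s i).2) → cyc d s ∈ K) : A3 lab Q ≤ K := by
  classical
  refine (Subgroup.closure_le K).2 ?_
  rintro g ⟨d, s, hd, hs, rfl⟩
  have card3 : ∀ a b c : B, ({a, b, c} : Finset B).card ≤ 3 := fun a b c => Finset.card_le_three
  obtain ⟨qa, ha⟩ := hκ {κ (s 0).2, κ (s 1).2, κ (s 2).2} ((card3 _ _ _).trans (by norm_num))
  obtain ⟨qb, hb⟩ := hκ (insert (κ qa) {κ (s 0).2, κ (s 1).2, κ (s 2).2})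
    ((Finset.card_insert_le _ _).trans (by have := card3 (κ (s 0).2) (κ (s 1).2) (κ (s 2).2); omega))
  obtain ⟨qc, hc⟩ := hκ (insert (κ qb) (insert (κ qa) {κ (s 0).2, κ (s 1).2, κ (s 2).2}))
    ((Finset.card_insert_le _ _).trans (by
      have := card3 (κ (s 0).2) (κ (s 1).2) (κ (s 2).2)
      have := Finset.card_insert_le (κ qa) {κ (s 0).2, κ (s 1).2, κ (s 2).2}
      omega))
  obtain ⟨qd, hd'⟩ := hκ (insert (κ qc) (insert (κ qb)
      (insert (κ qa) {κ (s 0).2, κ (s 1).2, κ (s 2).2})))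
    ((Finset.card_insert_le _ _).trans (by
      have := card3 (κ (s 0).2) (κ (s 1).2) (κ (s 2).2)
      have := Finset.card_insert_le (κ qa) {κ (s 0).2, κ (s 1).2, κ (s 2).2}
      have := Finset.card_insert_le (κ qb) (insert (κ qa) {κ (s 0).2, κ (s 1).2, κ (s 2).2})
      omega))
  simp only [Finset.mem_insert, Finset.mem_singleton, not_or] at ha hb hc hd'
  obtain ⟨a0, a1, a2⟩ := ha
  obtain ⟨ba, b0, b1, b2⟩ := hb
  obtain ⟨cb, ca, c0, c1, c2⟩ := hc
  obtain ⟨dc, db, da, d0, d1, d2⟩ := hd'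
  let t : Fin 4 → V × Q := fun i => (0, ![qa, qb, qc, qd] i)
  have hF : Fr d (Sum.elim s t) := by
    refine hs.sum (fun i j e => ?_) fun i j e => ?_
    · have e' := congrArg κ e
      fin_cases i <;> fin_cases j <;> first | rfl | (exfalso; simp [t] at e'; simp_all)
    · have e' := congrArg κ e
      fin_cases i <;> fin_cases j <;> (simp [t] at e'; simp_all)
  have key : ∀ i j k : Fin 3 ⊕ Fin 4, κ (Sum.elim s t i).2 ≠ κ (Sum.elim s t j).2 →
      κ (Sum.elim s t i).2 ≠ κ (Sum.elim s t k).2 → κ (Sum.elim s t j).2 ≠ κ (Sum.elim s t k).2 →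
      fp d (Sum.elim s t) (swap i j * swap j k) ∈ K := by
    intro i j k ij ik jk
    rw [← cyc_eq hF (fun e => ij (by rw [e])) (fun e => ik (by rw [e])) (fun e => jk (by rw [e]))]
    refine h _ _ hd fun a b e => ?_
    fin_cases a <;> fin_cases b <;> first | rfl | (exfalso; simp at e; simp_all)
  have e1 : cyc d s = cyc d (Sum.elim s t ∘ ![Sum.inl 0, Sum.inl 1, Sum.inl 2]) := by
    congr 1
    funext i
    fin_cases i <;> rfl
  have e2 : (swap (Sum.inl 0) (Sum.inl 1) * swap (Sum.inl 1) (Sum.inl 2) :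
      Perm (Fin 3 ⊕ Fin 4)) =
      ((swap (Sum.inr 0) (Sum.inl 1) * swap (Sum.inl 1) (Sum.inr 1)) *
        (swap (Sum.inr 2) (Sum.inl 2) * swap (Sum.inl 2) (Sum.inr 3))) *
      (swap (Sum.inl 0) (Sum.inr 0) * swap (Sum.inr 0) (Sum.inr 2)) *
      ((swap (Sum.inr 0) (Sum.inl 1) * swap (Sum.inl 1) (Sum.inr 1)) *
        (swap (Sum.inr 2) (Sum.inl 2) * swap (Sum.inl 2) (Sum.inr 3)))⁻¹ := by
    decide
  have k1 := key (Sum.inr 0) (Sum.inl 1) (Sum.inr 1) a1 (Ne.symm ba) (Ne.symm b1)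
  have k2 := key (Sum.inr 2) (Sum.inl 2) (Sum.inr 3) c2 (Ne.symm dc) (Ne.symm d2)
  have k3 := key (Sum.inl 0) (Sum.inr 0) (Sum.inr 2) (Ne.symm a0) (Ne.symm c0) (Ne.symm ca)
  show cyc d s ∈ K
  rw [e1, cyc_eq hF (by decide) (by decide) (by decide), e2, map_mul, map_mul, map_inv, map_mul]
  exact mul_mem (mul_mem (mul_mem k1 k2) k3) (inv_mem (mul_mem k1 k2))

end Vale.Agent.P196
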