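import Vale.Agent.P196.CompD
import Vale.Agent.P196.AltD
import Vale.Agent.P196.SSL
import Vale.Agent.P193.PermL

/-! The two descriptions of the alternating group agree. -/

namespace Vale.Agent.P196

open Equiv Vale.Agent.P193

variable {X A : Type} [AddAction V X] {lab : X → A}

/-- regrouping the coordinates -/
def reg (X : Type) : Perm (YY X × Pos) ≃* Perm (X × (Bool × Pos)) :=
  (Equiv.prodAssoc X Bool Pos).permCongrHom

namespace BridgeAux

open scoped Pointwise

omit [AddAction V X] in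
theorem reg_apply (g : Perm (YY X × Pos)) (x : X) (β : Bool) (i : Pos) :
    reg X g (x, (β, i)) = Equiv.prodAssoc X Bool Pos (g ((x, β), i)) := rfl

theorem cx_lab (i : Pos) (s : Fin 3) :
    Cx lab 1 (reg X (Lab (FreeGroup (Fin 3)) (YY X) (Pi.mulSingle i (FreeGroup.of s)))) := by
  refine ⟨fun ω => if ω.2.2 = i then (if ω.2.1 then gv s else -gv s, (!ω.2.1, ω.2.2))
    else (0, ω.2), ?_, ?_, fun _ _ _ _ => rfl⟩
  · rintro ⟨x, β, k⟩
    rw [reg_apply, Lab_apply]
    by_cases hk : k = i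
    · subst hk
      cases β
      · simp [of_smul_false, sh]
      · simp [of_smul_true, sh]
    · simp [hk, sh]
  · rintro ⟨x, β, k⟩
    dsimp only
    split_ifs
    · fin_cases s <;> simp [gv]
    · fin_cases s <;> simp [gv]
    · simp

theorem cx_cnd {d : Set (YY X)} (hd : ∀ x y β, lab x = lab y → ((x, β) ∈ d ↔ (y, β) ∈ d))
    (π : Perm Pos) : Cx lab 0 (reg X (cnd d π)) := by
  classical
  refine ⟨fun ω => (0, (ω.2.1, if (ω.1, ω.2.1) ∈ d then π ω.2.2 else ω.2.2)), ?_, fun _ => by simp,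
    ?_⟩
  · rintro ⟨x, β, k⟩
    rw [reg_apply]
    by_cases h : (x, β) ∈ d
    · rw [cnd_apply_mem π h]; simp [sh, h]
    · rw [cnd_apply_not_mem π h]; simp [sh, h]
  · rintro x y ⟨β, k⟩ h
    have : lab x = lab y := by simpa using h 0 (by simp) (by simp)
    simp only [hd x y β this]

theorem cx_AP {u : Perm (YY X × Pos)} (hu : u ∈ AP (Fin 3) (eY lab) Finset.univ) :
    ∃ R, Cx lab R (reg X u) := by
  induction hu using Subgroup.closure_induction with
  | mem g hg =>
    rcases hg with (⟨i, -, s, rfl⟩ | ⟨π, -, rfl⟩) | ⟨j, τ, -, rfl⟩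
    · exact ⟨1, cx_lab i s⟩
    · exact ⟨0, cx_cnd (fun _ _ _ _ => Iff.rfl) π⟩
    · refine ⟨0, cx_cnd (fun x y β h => ?_) _⟩
      cases j with
      | none => rfl
      | some a => simp only [eY, Set.mem_ofPred_eq, h]
  | one => exact ⟨0, by rw [map_one]; exact Cx.one⟩
  | mul g g' _ _ k k' =>
    obtain ⟨R, k⟩ := k
    obtain ⟨R', k'⟩ := k'
    exact ⟨_, by rw [map_mul]; exact k.mul k'⟩
  | inv g _ k =>
    obtain ⟨R, k⟩ := k
    exact ⟨_, by rw [map_inv]; exact k.inv⟩

theorem univ_mem (π : Perm Pos) : reg X (cnd Set.univ π) ∈ A3 lab (Bool × Pos) := by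
  have hF : Fr (Set.univ : Set X) fun q : Bool × Pos => ((0 : V), q) := Fr.of_inj fun _ _ h => h
  have h1 : reg X (cnd Set.univ π) = fp (Set.univ : Set X) (fun q : Bool × Pos => ((0 : V), q))
      (Equiv.prodCongrRight fun _ : Bool => π) := by
    rw [fp_eq]
    refine eq_fq hF ?_ ?_
    · rintro ⟨β, k⟩ x -
      simp only [sh, zero_vadd]
      rw [reg_apply, cnd_apply_mem π (Set.mem_univ _)]
      rfl
    · rintro ⟨x, q⟩ h
      exact absurd (by simp [sh]) (h q x (Set.mem_univ _))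
  rw [h1]
  refine fp_mem_A3 Loc.univ hF ?_
  rw [Perm.sign_prodCongrRight]
  simp

theorem le_A3 [Finite A] :
    (AA (Fin 3) (eY lab)).map (reg X).toMonoidHom ≤ A3 lab (Bool × Pos) := by
  rw [Subgroup.map_le_iff_le_comap]
  refine (Subgroup.closure_le _).2 ?_
  rintro _ ⟨u, hu, τ, rfl⟩
  obtain ⟨R, hR⟩ := cx_AP hu
  show reg X (u * cnd Set.univ τ.1 * u⁻¹) ∈ A3 lab (Bool × Pos)
  rw [map_mul, map_mul, map_inv]
  exact hR.conj_mem (univ_mem _)

theorem gv0 : gv 0 = 0 := rfl

/-- every translation of the first copy is induced by a word -/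
theorem exists_word (v : V) :
    ∃ γ : FreeGroup (Fin 3), ∀ x : X, γ • ((x, true) : YY X) = (v +ᵥ x, true) := by
  let K : AddSubgroup V :=
    { carrier := {v | ∃ γ : FreeGroup (Fin 3), ∀ x : X, γ • ((x, true) : YY X) = (v +ᵥ x, true)}
      zero_mem' := ⟨1, fun x => by simp⟩
      add_mem' := by
        rintro a b ⟨γ, h⟩ ⟨δ, k⟩
        exact ⟨γ * δ, fun x => by rw [mul_smul, k, h, add_vadd]⟩
      neg_mem' := by
        rintro a ⟨γ, h⟩
        exact ⟨γ⁻¹, fun x => by rw [inv_smul_eq_iff, h]; simp⟩ }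
  have h : ∀ i, gv i ∈ K := fun i => ⟨FreeGroup.of 0 * FreeGroup.of i, fun x => by
    rw [mul_smul, of_smul_true, of_smul_false, gv0, neg_zero, zero_vadd]⟩
  have := K.add_mem (K.zsmul_mem (h 1) v.1) (K.zsmul_mem (h 2) v.2)
  have e : v.1 • gv 1 + v.2 • gv 2 = v := by simp [gv]
  rwa [e] at this

theorem exists_word' (v : V) (β : Bool) :
    ∃ γ : FreeGroup (Fin 3), ∀ x : X, γ • ((x, true) : YY X) = (v +ᵥ x, β) := by
  obtain ⟨γ, h⟩ := exists_word (X := X) v
  cases β
  · exact ⟨FreeGroup.of 0 * γ, fun x => by rw [mul_smul, h, of_smul_true, gv0, zero_vadd]⟩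
  · exact ⟨γ, h⟩

/-- a subset of the first copy -/
def up (d : Set X) : Set (YY X) := {p | p.2 = true ∧ p.1 ∈ d}

theorem defn_at (v : V) (a : A) :
    Defn (FreeGroup (Fin 3)) (eY lab) (up {x | lab (v +ᵥ x) = a}) := by
  obtain ⟨γ, h⟩ := exists_word (X := X) v
  have := ((Defn.basic (F := FreeGroup (Fin 3)) (e := eY lab) (some a)).smul γ⁻¹).inter
    (Defn.basic none)
  convert this using 1
  ext ⟨x, β⟩
  cases β
  · simp [up, eY]
  · simp [up, eY, Set.mem_smul_set_iff_inv_smul_mem, h]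

theorem defn_agree (ρ : ℕ) (x : X) :
    Defn (FreeGroup (Fin 3)) (eY lab) (up {y | Agree lab ρ x y}) := by
  classical
  have key : ∀ F : Finset V, Defn (FreeGroup (Fin 3)) (eY lab)
      (up {y | ∀ v ∈ F, lab (v +ᵥ y) = lab (v +ᵥ x)}) := by
    intro F
    induction F using Finset.induction_on with
    | empty =>
      convert Defn.basic (F := FreeGroup (Fin 3)) (e := eY lab) none using 1
      ext p; simp [up, eY]
    | insert v F _ ih =>
      convert (defn_at v (lab (v +ᵥ x))).inter ih using 1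
      ext p; simp only [up, Finset.forall_mem_insert, Set.mem_ofPred_eq, Set.mem_inter_iff]; tauto
  convert key (Finset.Icc (-(ρ : ℤ)) ρ ×ˢ Finset.Icc (-(ρ : ℤ)) ρ) using 3 with y
  simp only [Agree, Finset.mem_product, Finset.mem_Icc, ← abs_le, and_imp, eq_comm]

theorem defn_loc [Finite A] {d : Set X} (hd : Loc lab d) :
    Defn (FreeGroup (Fin 3)) (eY lab) (up d) := by
  classical
  obtain ⟨ρ, hd⟩ := hd
  obtain ⟨F, hF⟩ := exists_reps (lab := lab) ρ
  have key : ∀ G : Finset X, Defn (FreeGroup (Fin 3)) (eY lab)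
      (up {y | ∃ x ∈ G, Agree lab ρ x y}) := by
    intro G
    induction G using Finset.induction_on with
    | empty =>
      convert Defn.empty (F := FreeGroup (Fin 3)) (e := eY lab) using 1
      ext p; simp [up]
    | insert x G _ ih =>
      convert (defn_agree ρ x).union ih using 1
      ext p
      simp only [up, Finset.exists_mem_insert, Set.mem_ofPred_eq, Set.mem_union]
      tauto
  convert key (F.filter (· ∈ d)) using 2
  ext y
  constructor
  · intro hy
    obtain ⟨x, hx, k⟩ := hF y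
    exact ⟨x, Finset.mem_filter.2 ⟨hx, hd _ _ k.symm hy⟩, k⟩
  · rintro ⟨x, hx, k⟩
    exact hd _ _ k (Finset.mem_filter.1 hx).2

theorem conj_AA {u g : Perm (YY X × Pos)} (hu : u ∈ AP (Fin 3) (eY lab) Finset.univ)
    (hg : g ∈ AA (Fin 3) (eY lab)) : u * g * u⁻¹ ∈ AA (Fin 3) (eY lab) := by
  induction hg using Subgroup.closure_induction with
  | mem g hg =>
    obtain ⟨w, hw, τ, rfl⟩ := hg
    exact Subgroup.subset_closure ⟨u * w, mul_mem hu hw, τ, by group⟩
  | one => rw [mul_one, mul_inv_cancel]; exact one_mem _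
  | mul a b _ _ k k' =>
    convert mul_mem k k' using 1
    group
  | inv a _ k =>
    convert inv_mem k using 1
    group

theorem cnd_mem_AA {d : Set (YY X)} (hd : Defn (FreeGroup (Fin 3)) (eY lab) d) (τ : T3) :
    cnd d τ.1 ∈ AA (Fin 3) (eY lab) := by
  obtain ⟨ρ, σ, -, -, h⟩ := PA.exists_comm τ (P := Finset.univ) (Finset.subset_univ _) (by simp)
  have h1 : cnd Set.univ σ.1 ∈ AA (Fin 3) (eY lab) :=
    Subgroup.subset_closure ⟨1, one_mem _, σ, by group⟩
  rw [← Set.inter_univ d, h, PA.cnd_inter]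
  exact mul_mem (conj_AA (PA.cnd_three_mem_AP (by simp) hd ρ (Finset.subset_univ _)) h1)
    (inv_mem h1)

theorem reg_cnd (d : Set X) {p : Fin 3 → Pos} (hp : Function.Injective p) :
    reg X (cnd (up d) (swap (p 0) (p 1) * swap (p 1) (p 2))) =
      cyc d fun i => ((0 : V), (true, p i)) := by
  have ab : p 0 ≠ p 1 := hp.ne (by decide)
  have ac : p 0 ≠ p 2 := hp.ne (by decide)
  have bc : p 1 ≠ p 2 := hp.ne (by decide)
  rw [cyc, fp_eq]
  refine eq_fq (Fr.of_inj fun i j h => hp (congrArg Prod.snd h)) (fun i x hx => ?_) ?_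
  · simp only [sh, zero_vadd]
    rw [reg_apply, cnd_apply_mem _ (show ((x, true) : YY X) ∈ up d from ⟨rfl, hx⟩)]
    have : (swap (p 0) (p 1) * swap (p 1) (p 2)) (p i) = p (finRotate 3 i) := by
      fin_cases i
      · show (swap (p 0) (p 1) * swap (p 1) (p 2)) (p 0) = p 1
        rw [Perm.mul_apply, swap_apply_of_ne_of_ne ab ac, swap_apply_left]
      · show (swap (p 0) (p 1) * swap (p 1) (p 2)) (p 1) = p 2
        rw [Perm.mul_apply, swap_apply_left, swap_apply_of_ne_of_ne ac.symm bc.symm]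
      · show (swap (p 0) (p 1) * swap (p 1) (p 2)) (p 2) = p 0
        rw [Perm.mul_apply, swap_apply_right, swap_apply_right]
    rw [this]
    rfl
  · rintro ⟨x, β, k⟩ h
    rw [reg_apply]
    by_cases hx : ((x, β) : YY X) ∈ up d
    · obtain ⟨rfl, hx'⟩ := hx
      have hk : ∀ i, k ≠ p i := fun i e => h i x hx' (by simp [sh, e])
      rw [cnd_apply_mem _ (show ((x, true) : YY X) ∈ up d from ⟨rfl, hx'⟩), Perm.mul_apply,
        swap_apply_of_ne_of_ne (hk 1) (hk 2), swap_apply_of_ne_of_ne (hk 0) (hk 1)]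
      rfl
    · rw [cnd_apply_not_mem _ hx]
      rfl

theorem A3_le' [Finite A] :
    A3 lab (Bool × Pos) ≤ (AA (Fin 3) (eY lab)).map (reg X).toMonoidHom := by
  refine A3_le Prod.snd (fun T hT => ?_) fun d s hd hs => ?_
  · obtain ⟨t, -, ht⟩ := exists_fresh T 1 (by simp; omega)
    exact ⟨(true, t 0), ht 0⟩
  · choose γ hγ using fun i => exists_word' (X := X) (s i).1 (s i).2.1
    let p : Fin 3 → Pos := fun i => (s i).2.2
    have hp : Function.Injective p := hs
    let v : Pos → FreeGroup (Fin 3) := Function.extend p γ 1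
    have hv : ∀ i, v (p i) = γ i := fun i => hp.extend_apply γ 1 i
    have ab : p 0 ≠ p 1 := hp.ne (by decide)
    have ac : p 0 ≠ p 2 := hp.ne (by decide)
    have bc : p 1 ≠ p 2 := hp.ne (by decide)
    refine ⟨_, conj_AA (PA.Lab_mem_AP v fun i hi => absurd (Finset.mem_univ i) hi)
      (cnd_mem_AA (defn_loc hd) (PA.cyc ab ac bc)), ?_⟩
    show reg X _ = _
    rw [map_mul, map_mul, map_inv, PA.cyc_val, reg_cnd d hp, cyc, cyc, fp_eq, fp_eq]
    have hF : Fr d fun i => ((0 : V), (true, p i)) :=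
      Fr.of_inj fun i j h => hp (Prod.ext_iff.1 h).2
    refine fq_conj hF (fun i x _ => ?_) _
    simp only [sh, zero_vadd]
    rw [reg_apply, Lab_apply]
    dsimp only
    rw [hv, hγ]
    rfl

end BridgeAux

theorem map_AA [Finite A] :
    (AA (Fin 3) (eY lab)).map (reg X).toMonoidHom = A3 lab (Bool × Pos) :=
  le_antisymm BridgeAux.le_A3 BridgeAux.A3_le'

end Vale.Agent.P196
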