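import Vale.Agent.P196.Stage
import Vale.Agent.P196.SSL

/-! Grids and thin cuts in the subshift of all tilings. -/

namespace Vale.Agent.P196

theorem HierAAux.lab0_vadd (v : V) (x : X0) : lab0 (v +ᵥ x) = x.1 v := by
  rw [lab0, X0.vadd_apply, zero_add]

theorem HierAAux.loc_P0 (v : V) (S : Set Tile) : Loc lab0 (P0 v S) := by
  have := Loc.at (lab := lab0) v S
  simp only [HierAAux.lab0_vadd] at this
  exact this

theorem loc_at (s : ℕ) (o : V) : Loc lab0 (At P0 s o) := by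
  induction s with
  | zero => exact HierAAux.loc_P0 _ _
  | succ s ih => exact ih.inter (HierAAux.loc_P0 _ _)

theorem HierAAux.exists_cover (s : ℕ) : ∃ F : Finset V, ∀ x : X0, ∃ o ∈ F, x ∈ At P0 s o := by
  obtain ⟨F, hF⟩ := conf_P0.at_cover s
  refine ⟨F, fun x => ?_⟩
  by_contra hn
  push Not at hn
  have : x ∈ (Set.univ : Set X0) ⊓ (F.inf fun o => (At P0 s o)ᶜ) :=
    ⟨trivial, Set.singleton_subset_iff.1 (Finset.le_inf (a := ({x} : Set X0))
      fun o ho => Set.singleton_subset_iff.2 (hn o ho))⟩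
  rw [hF] at this
  exact this

theorem exists_at (s : ℕ) (x : X0) : ∃ o, x ∈ At P0 s o := by
  obtain ⟨F, hF⟩ := HierAAux.exists_cover s
  obtain ⟨o, -, h⟩ := hF x
  exact ⟨o, h⟩

theorem lat_of_at {s : ℕ} {x : X0} {o o' : V} (h : x ∈ At P0 s o) (h' : x ∈ At P0 s o') :
    Lat s (o - o') := by
  by_contra hn
  exact conf_P0.at_orth s hn h h'

/-- pointwise form of `Conf.fate` -/
theorem fate0 (ρ s1 : ℕ) : ∃ s0, s1 ≤ s0 ∧ ∀ x : X0, ∃ s' o', s0 ≤ s' ∧ s' ≤ s0 + 6 ∧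
    x ∈ At P0 s' o' ∧ ∀ y ∈ At P0 s' o', ∀ z ∈ At P0 s' o', y.1 o' = z.1 o' →
      Agree lab0 ρ y z := by
  obtain ⟨s0, h0, h⟩ := conf_P0.fate ρ s1
  refine ⟨s0, h0, fun x => ?_⟩
  obtain ⟨o, ho⟩ := exists_at (s0 + 6) x
  obtain ⟨s', o', h1, h2, h3, h4⟩ := h o
  refine ⟨s', o', h1, h2, h3 ho, fun y hy z hz e v k1 k2 => ?_⟩
  rw [HierAAux.lab0_vadd, HierAAux.lab0_vadd]
  have := (gen_agree (h4 v k1 k2 {y.1 v}) (x := y) (y := z) ?_).1 ⟨hy, rfl⟩
  · exact this.2.symm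
  · rintro d (rfl | ⟨S, rfl⟩)
    · exact iff_of_true hy hz
    · show y.1 o' ∈ S ↔ z.1 o' ∈ S
      rw [e]

namespace HierAAux

open Vale.Agent.P193

theorem at_eq {s : ℕ} {x : X0} {o o' : V} (h : x ∈ At P0 s o) (h' : x ∈ At P0 s o') :
    At P0 s o = At P0 s o' := by
  rw [← conf_P0.at_per s o' (lat_of_at h h'), add_sub_cancel]

theorem at_of_lat {s : ℕ} {x : X0} {o o' : V} (h : x ∈ At P0 s o) (h' : Lat s (o' - o)) :
    x ∈ At P0 s o' := by
  rwa [← conf_P0.at_per s o h', add_sub_cancel] at h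

/-- the junction at a site of a stage -/
def cr (s : ℕ) (o : V) (x : X0) (i j : ℤ) : Core :=
  tps s (x.1 (o + sw s (sA s * i, sB s * j))).1

theorem mem_wg {s : ℕ} {o : V} {x : X0} {i j : ℤ} {S : Set Core} :
    x ∈ Wg P0 s o (i, j) S ↔ x ∈ At P0 s o ∧ cr s o x i j ∈ S := Iff.rfl

theorem win0 {s : ℕ} {o : V} {x y : X0} (hx : x ∈ At P0 s o) (hy : y ∈ At P0 s o) {i j : ℤ}
    (h0 : cr s o x i j = cr s o y i j)
    (h1 : x ∈ lam (Wg P0 s o) i ↔ y ∈ lam (Wg P0 s o) i)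
    (h2 : x ∈ lam (Wg P0 s o) (i - 1) ↔ y ∈ lam (Wg P0 s o) (i - 1)) {X Y : ℤ}
    (hX : |X| < sA s) (hY : |Y| < sB s) :
    x.1 (o + sw s (sA s * i + X, sB s * j + Y)) = y.1 (o + sw s (sA s * i + X, sB s * j + Y)) := by
  have := (gen_agree (conf_P0.window s o i j X Y hX hY
    {x.1 (o + sw s (sA s * i + X, sB s * j + Y))}) (x := x) (y := y) ?_).1 ⟨hx, rfl⟩
  · exact this.2.symm
  · rintro d ((rfl | rfl | rfl) | ⟨S, rfl⟩)
    · exact iff_of_true hx hy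
    · exact h1
    · exact h2
    · rw [mem_wg, mem_wg, h0]
      exact and_congr_left fun _ => iff_of_true hx hy

theorem rank (s δ : ℕ) (hδ : 2 * (δ : ℤ) < sB s) (y1 : ℤ) :
    ∃ ty : X0 → Fin 5 → Tile, ∀ x y, x ∈ At P0 s 0 → y ∈ At P0 s 0 → ty x = ty y →
      ∀ w : V, -sA s < w.1 → w.1 < 2 * sA s → |w.2 - y1| ≤ δ → x.1 (sw s w) = y.1 (sw s w) := by
  have hB := sB_pos s
  obtain ⟨j, hj1, hj2⟩ : ∃ j : ℤ, sB s * j ≤ y1 + δ ∧ y1 + δ < sB s * j + sB s :=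
    ⟨(y1 + δ) / sB s, Int.mul_ediv_self_le hB.ne', Int.lt_mul_ediv_self_add hB⟩
  let st : Fin 5 → V := ![(0, j), (1, j), (-1, 1), (0, 1), (1, 1)]
  refine ⟨fun x k => x.1 (0 + sw s (sA s * (st k).1, sB s * (st k).2)),
    fun x y hx hy e w k1 k2 k3 => ?_⟩
  have e' : ∀ k, cr s 0 x (st k).1 (st k).2 = cr s 0 y (st k).1 (st k).2 := fun k =>
    congrArg (fun t : Tile => tps s t.1) (congrFun e k)
  have hl : ∀ i, cr s 0 x i 1 = cr s 0 y i 1 →
      (x ∈ lam (Wg P0 s 0) i ↔ y ∈ lam (Wg P0 s 0) i) := fun i h => by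
    rw [lam, mem_wg, mem_wg, h]
    exact and_congr_left fun _ => iff_of_true hx hy
  have hY : |w.2 - sB s * j| < sB s := by
    rw [abs_le] at k3
    rw [abs_lt]
    omega
  by_cases hw : w.1 < sA s
  · have := win0 hx hy (e' 0) (hl 0 (e' 3)) (hl (0 - 1) (e' 2)) (X := w.1) (abs_lt.2 ⟨k1, hw⟩) hY
    simpa [st] using this
  · have := win0 hx hy (e' 1) (hl 1 (e' 4)) (hl (1 - 1) (e' 3)) (X := w.1 - sA s)
      (abs_lt.2 ⟨by omega, by omega⟩) hY
    simpa [st] using this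

theorem part (ρ : ℕ) : ∃ (D : Fin 7 × Tile → Set X0) (F : Finset (V × (Fin 7 × Tile))),
    (∀ t, Loc lab0 (D t)) ∧ (∀ x, ∃! p, p ∈ F ∧ p.1 +ᵥ x ∈ D p.2) ∧
    ∀ p ∈ F, ∀ x y, p.1 +ᵥ x ∈ D p.2 → p.1 +ᵥ y ∈ D p.2 → Agree lab0 ρ x y := by
  classical
  obtain ⟨s0, -, h⟩ := fate0 ρ 0
  let G : ℕ → V → Prop := fun s o =>
    ∀ y ∈ At P0 s o, ∀ z ∈ At P0 s o, y.1 o = z.1 o → Agree lab0 ρ y z
  have hQ : ∀ x : X0, ∃ i, ∃ o, x ∈ At P0 (s0 + i) o ∧ G (s0 + i) o := fun x => by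
    obtain ⟨s', o', h1, -, h3, h4⟩ := h x
    obtain ⟨i, rfl⟩ := Nat.exists_eq_add_of_le h1
    exact ⟨i, o', h3, h4⟩
  let ix : X0 → ℕ := fun x => Nat.find (hQ x)
  have ix_le : ∀ x, ix x ≤ 6 := fun x => by
    obtain ⟨s', o', h1, h2, h3, h4⟩ := h x
    obtain ⟨i, rfl⟩ := Nat.exists_eq_add_of_le h1
    exact (Nat.find_min' (hQ x) ⟨o', h3, h4⟩).trans (by omega)
  let ox : X0 → V := fun x =>
    Classical.epsilon fun o => x ∈ At P0 (s0 + ix x) o ∧ G (s0 + ix x) o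
  have hox : ∀ x, x ∈ At P0 (s0 + ix x) (ox x) ∧ G (s0 + ix x) (ox x) := fun x =>
    Classical.epsilon_spec (Nat.find_spec (hQ x))
  have same : ∀ x y o, x ∈ At P0 (s0 + ix y) o → y ∈ At P0 (s0 + ix y) o →
      ix x = ix y ∧ ox x = ox y := by
    intro x y o hx hy
    have tr : ∀ i ≤ ix y, ∀ o', x ∈ At P0 (s0 + i) o' ↔ y ∈ At P0 (s0 + i) o' := by
      intro i hi o'
      have hx' := conf_P0.at_anti (Nat.add_le_add_left hi s0) o hx
      have hy' := conf_P0.at_anti (Nat.add_le_add_left hi s0) o hy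
      exact ⟨fun k => at_eq hx' k ▸ hy', fun k => at_eq hy' k ▸ hx'⟩
    have l1 : ix x ≤ ix y := Nat.find_min' (hQ x) ⟨ox y, (tr _ le_rfl _).2 (hox y).1, (hox y).2⟩
    have l2 : ix y ≤ ix x := Nat.find_min' (hQ y) ⟨ox x, (tr _ l1 _).1 (hox x).1, (hox x).2⟩
    have e : ix x = ix y := le_antisymm l1 l2
    refine ⟨e, ?_⟩
    simp only [ox, e, tr _ le_rfl]
  let π : X0 → V × (Fin 7 × Tile) := fun x =>
    (ox x, (⟨ix x, Nat.lt_succ_of_le (ix_le x)⟩, x.1 (ox x)))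
  have hfin : (Set.range π).Finite := by
    obtain ⟨F, hF⟩ := exists_cover (s0 + 6)
    have h1 : (Set.range ox).Finite := by
      refine (F.finite_toSet.biUnion (t := fun o => ox '' At P0 (s0 + 6) o) fun o _ =>
        Set.Subsingleton.finite ?_).subset ?_
      · rintro _ ⟨x, hx, rfl⟩ _ ⟨y, hy, rfl⟩
        have := Nat.add_le_add_left (ix_le y) s0
        exact (same x y o (conf_P0.at_anti this o hx) (conf_P0.at_anti this o hy)).2
      · rintro _ ⟨x, rfl⟩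
        obtain ⟨o, ho, hx⟩ := hF x
        exact Set.mem_biUnion ho ⟨x, hx, rfl⟩
    refine (h1.prod Set.finite_univ).subset ?_
    rintro _ ⟨x, rfl⟩
    exact ⟨⟨x, rfl⟩, trivial⟩
  have mem : ∀ (p : V × (Fin 7 × Tile)) (x : X0),
      p.1 +ᵥ x ∈ At P0 (s0 + p.2.1) 0 ∩ P0 0 {p.2.2} ↔
        x ∈ At P0 (s0 + p.2.1) p.1 ∧ x.1 p.1 = p.2.2 := fun p x => by
    rw [Set.mem_inter_iff, At_shift, zero_add]
    refine and_congr_right fun _ => ?_
    show (p.1 +ᵥ x).1 0 = _ ↔ _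
    rw [X0.vadd_apply, zero_add]
  refine ⟨fun t => At P0 (s0 + t.1) 0 ∩ P0 0 {t.2}, hfin.toFinset,
    fun t => (loc_at _ _).inter (loc_P0 _ _), fun x => ⟨π x, ⟨hfin.mem_toFinset.2 ⟨x, rfl⟩,
      (mem _ _).2 ⟨(hox x).1, rfl⟩⟩, ?_⟩, ?_⟩
  · rintro p ⟨hp, hx⟩
    obtain ⟨y, rfl⟩ := hfin.mem_toFinset.1 hp
    obtain ⟨k1, k2⟩ := (mem _ _).1 hx
    obtain ⟨e1, e2⟩ := same x y _ k1 (hox y).1
    refine Prod.ext e2.symm (Prod.ext (Fin.ext e1.symm) ?_)
    show y.1 (ox y) = x.1 (ox x)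
    rw [e2]
    exact k2.symm
  · intro p hp x y hx hy
    obtain ⟨z, rfl⟩ := hfin.mem_toFinset.1 hp
    obtain ⟨k1, k2⟩ := (mem _ _).1 hx
    obtain ⟨k3, k4⟩ := (mem _ _).1 hy
    exact (hox z).2 x k1 y k3 (k2.trans k4.symm)

theorem part_map {X A K K' : Type} [AddAction V X] {lab : X → A} {ρ : ℕ} (ι : K ↪ K')
    (h : ∃ (D : K → Set X) (F : Finset (V × K)),
      (∀ t, Loc lab (D t)) ∧ (∀ x, ∃! p, p ∈ F ∧ p.1 +ᵥ x ∈ D p.2) ∧
      ∀ p ∈ F, ∀ x y, p.1 +ᵥ x ∈ D p.2 → p.1 +ᵥ y ∈ D p.2 → Agree lab ρ x y) :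
    ∃ (D : K' → Set X) (F : Finset (V × K')),
      (∀ t, Loc lab (D t)) ∧ (∀ x, ∃! p, p ∈ F ∧ p.1 +ᵥ x ∈ D p.2) ∧
      ∀ p ∈ F, ∀ x y, p.1 +ᵥ x ∈ D p.2 → p.1 +ᵥ y ∈ D p.2 → Agree lab ρ x y := by
  obtain ⟨D, F, h1, h2, h3⟩ := h
  have e : ∀ t, Function.extend ι D (fun _ => ∅) (ι t) = D t := fun t =>
    ι.injective.extend_apply _ _ t
  refine ⟨Function.extend ι D fun _ => ∅, F.map ((Function.Embedding.refl V).prodMap ι),
    fun t => ?_, fun x => ?_, ?_⟩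
  · by_cases k : ∃ t', ι t' = t
    · obtain ⟨t', rfl⟩ := k
      rw [e]; exact h1 t'
    · rw [Function.extend_apply' _ _ _ k]; exact Loc.empty
  · obtain ⟨p, ⟨k1, k2⟩, k3⟩ := h2 x
    refine ⟨(p.1, ι p.2), ⟨Finset.mem_map.2 ⟨p, k1, rfl⟩, by rw [e]; exact k2⟩, ?_⟩
    rintro _ ⟨k4, k5⟩
    obtain ⟨p', k7, rfl⟩ := Finset.mem_map.1 k4
    have k6 : p'.1 +ᵥ x ∈ Function.extend ι D (fun _ => ∅) (ι p'.2) := k5
    rw [e] at k6
    rw [k3 p' ⟨k7, k6⟩]
    rfl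
  · intro p hp x y hx hy
    obtain ⟨p', k4, rfl⟩ := Finset.mem_map.1 hp
    have k5 : p'.1 +ᵥ x ∈ Function.extend ι D (fun _ => ∅) (ι p'.2) := hx
    have k6 : p'.1 +ᵥ y ∈ Function.extend ι D (fun _ => ∅) (ι p'.2) := hy
    rw [e] at k5 k6
    exact h3 p' k4 x y k5 k6

/-- horizontal mesh -/
def ma (s : ℕ) : ℤ := if s % 2 = 0 then sA s else sA (s + 1)

/-- vertical mesh -/
def mb (s : ℕ) : ℤ := if s % 2 = 0 then sA (s + 1) else sA s

theorem lat_iff {s : ℕ} {v : V} : Lat s v ↔ ma s ∣ v.1 ∧ mb s ∣ v.2 := by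
  unfold Lat ma mb sw
  split_ifs
  · rfl
  · exact and_comm

theorem lt_ma (s : ℕ) : (s : ℤ) < ma s := by
  have := lt_sA s
  have := lt_sA (s + 1)
  unfold ma
  split_ifs <;> omega

theorem lt_mb (s : ℕ) : (s : ℤ) < mb s := by
  have := lt_sA s
  have := lt_sA (s + 1)
  unfold mb
  split_ifs <;> omega

theorem sA_dvd (s : ℕ) : sA s ∣ sA (s + 1 + 1) := by
  rw [sA_succ, sB_succ]
  exact dvd_mul_left _ _

theorem ma_dvd (s : ℕ) : ma s ∣ ma (s + 1) := by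
  unfold ma
  split_ifs
  · omega
  · exact sA_dvd s
  · exact dvd_rfl
  · omega

theorem mb_dvd (s : ℕ) : mb s ∣ mb (s + 1) := by
  unfold mb
  split_ifs
  · omega
  · exact dvd_rfl
  · exact sA_dvd s
  · omega

/-- a corner -/
noncomputable def cor (s : ℕ) (x : X0) : V := (exists_at s x).choose

theorem cor_spec (s : ℕ) (x : X0) : x ∈ At P0 s (cor s x) := (exists_at s x).choose_spec

theorem px_eq {s : ℕ} {x : X0} {o : V} (h : x ∈ At P0 s o) :
    -(cor s x).1 % ma s = -o.1 % ma s ∧ -(cor s x).2 % mb s = -o.2 % mb s := by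
  obtain ⟨h1, h2⟩ := lat_iff.1 (lat_of_at (cor_spec s x) h)
  refine ⟨Int.modEq_iff_dvd.2 ?_, Int.modEq_iff_dvd.2 ?_⟩
  · convert h1 using 1
    simp only [Prod.fst_sub]; ring
  · convert h2 using 1
    simp only [Prod.snd_sub]; ring

theorem at_zero {s : ℕ} {x : X0} (h1 : -(cor s x).1 % ma s = 0) (h2 : -(cor s x).2 % mb s = 0) :
    x ∈ At P0 s 0 := by
  refine at_of_lat (cor_spec s x) (lat_iff.2 ⟨?_, ?_⟩)
  · simpa using Int.dvd_of_emod_eq_zero h1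
  · simpa using Int.dvd_of_emod_eq_zero h2

theorem common_radius {X A I : Type} [AddAction V X] {lab : X → A} (F : Finset I) (d : I → Set X)
    (h : ∀ i, Loc lab (d i)) : ∃ ρ, ∀ i ∈ F, ∀ x y, Agree lab ρ x y → x ∈ d i → y ∈ d i := by
  choose r hr using h
  exact ⟨F.sup r, fun i hi x y k => hr i x y (k.mono (Finset.le_sup hi))⟩

end HierAAux

open HierAAux in
theorem lev0 : Nonempty (Lev lab0) := by
  let e := Finite.equivFin (Fin 7 × (Fin 5 → Tile))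
  have ha : ∀ s, 0 < ma s := fun s => (Int.natCast_nonneg s).trans_lt (lt_ma s)
  have hb : ∀ s, 0 < mb s := fun s => (Int.natCast_nonneg s).trans_lt (lt_mb s)
  have shift : ∀ s (v : V) (x : X0), v +ᵥ x ∈ At P0 s (cor s x - v) := fun s v x => by
    rw [At_shift, sub_add_cancel]; exact cor_spec s x
  have nest : ∀ s (x : X0), x ∈ At P0 s (cor (s + 1) x) := fun s x => (cor_spec (s + 1) x).1
  refine ⟨{
    a := ma
    b := mb
    px := fun s x => -(cor s x).1 % ma s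
    py := fun s x => -(cor s x).2 % mb s
    a_ge := lt_ma
    b_ge := lt_mb
    a_dvd := ma_dvd
    b_dvd := mb_dvd
    px_mem := fun s x => ⟨Int.emod_nonneg _ (ha s).ne', Int.emod_lt_of_pos _ (ha s)⟩
    py_mem := fun s x => ⟨Int.emod_nonneg _ (hb s).ne', Int.emod_lt_of_pos _ (hb s)⟩
    px_add := fun s v x => ?_
    py_add := fun s v x => ?_
    px_nest := fun s x => ?_
    py_nest := fun s x => ?_
    loc := fun s => ?_
    c := Nat.card (Fin 7 × (Fin 5 → Tile))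
    rankH := fun δ s0 => ?_
    rankV := fun δ s0 => ?_
    part := fun ρ => part_map ⟨fun t => e (t.1, fun _ => t.2), fun t t' k => ?_⟩ (part ρ) }⟩
  · rw [(px_eq (shift s v x)).1]
    refine (Int.mod_modEq _ _).trans (Int.ModEq.symm ?_)
    convert (Int.mod_modEq (-(cor s x).1) (ma s)).add_right v.1 using 1
    simp only [Prod.fst_sub]; ring
  · rw [(px_eq (shift s v x)).2]
    refine (Int.mod_modEq _ _).trans (Int.ModEq.symm ?_)
    convert (Int.mod_modEq (-(cor s x).2) (mb s)).add_right v.2 using 1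
    simp only [Prod.snd_sub]; ring
  · rw [(px_eq (nest s x)).1]
    exact ((Int.mod_modEq _ _).of_dvd (ma_dvd s)).trans (Int.mod_modEq _ _).symm
  · rw [(px_eq (nest s x)).2]
    exact ((Int.mod_modEq _ _).of_dvd (mb_dvd s)).trans (Int.mod_modEq _ _).symm
  · obtain ⟨F, hF⟩ := exists_cover s
    obtain ⟨ρ, hρ⟩ := common_radius F (At P0 s) (loc_at s)
    refine ⟨ρ, fun x y k => ?_⟩
    obtain ⟨o, ho, hx⟩ := hF x
    have hy := hρ o ho x y k hx
    exact ⟨(px_eq hx).1.trans (px_eq hy).1.symm, (px_eq hx).2.trans (px_eq hy).2.symm⟩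
  · refine ⟨2 * (s0 + δ + 1), by omega, fun y1 => ?_⟩
    have hs : 2 * (s0 + δ + 1) % 2 = 0 := by omega
    obtain ⟨ty, hty⟩ := rank (2 * (s0 + δ + 1)) δ (by have := le_sB (2 * (s0 + δ + 1)); omega) y1
    refine ⟨fun x => e (0, ty x), fun x y x1 x2 y1 y2 k v k1 k2 k3 => ?_⟩
    rw [ma, if_pos hs] at k1 k2
    have := hty x y (at_zero x1 x2) (at_zero y1 y2) (Prod.ext_iff.1 (e.injective k)).2 v k1 k2 k3
    rwa [sw, if_pos hs, ← lab0_vadd, ← lab0_vadd] at this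
  · refine ⟨2 * (s0 + δ) + 1, by omega, fun y1 => ?_⟩
    have hs : ¬(2 * (s0 + δ) + 1) % 2 = 0 := by omega
    obtain ⟨ty, hty⟩ := rank (2 * (s0 + δ) + 1) δ (by have := le_sB (2 * (s0 + δ) + 1); omega) y1
    refine ⟨fun x => e (0, ty x), fun x y x1 x2 y1 y2 k v k1 k2 k3 => ?_⟩
    rw [mb, if_neg hs] at k2 k3
    have := hty x y (at_zero x1 x2) (at_zero y1 y2) (Prod.ext_iff.1 (e.injective k)).2 v.swap
      k2 k3 k1
    rwa [sw, if_neg hs, Prod.swap_swap, ← lab0_vadd, ← lab0_vadd] at this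
  · obtain ⟨k1, k2⟩ := Prod.ext_iff.1 (e.injective k)
    exact Prod.ext k1 (congrFun k2 0)

namespace HierAAux

open Vale.Agent.P193

theorem sw_mk (s : ℕ) (a b c d : ℤ) : sw s (a, b) + sw s (c, d) = sw s (a + c, b + d) :=
  (sw_add s _ _).symm

theorem cr_shift (s : ℕ) (o : V) (x : X0) (i k j : ℤ) :
    cr s 0 ((o + sw s (sA s * i, 0)) +ᵥ x) k j = cr s o x (i + k) j := by
  rw [cr, cr, X0.vadd_apply, zero_add, add_comm, add_assoc, sw_mk, zero_add,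
    mul_add]

theorem at_col {s : ℕ} {o : V} {x : X0} (hx : x ∈ At P0 s o) (i : ℤ) :
    (o + sw s (sA s * i, 0)) +ᵥ x ∈ At P0 s 0 := by
  rw [At_shift, zero_add, conf_P0.at_per]
  · exact hx
  · rw [Lat, sw_sw]
    exact ⟨dvd_mul_right _ _, dvd_zero _⟩

/-- on a lowest row the junction determines its whole window -/
theorem win1 {s : ℕ} {o o' : V} {x y : X0} (hx : x ∈ At P0 s o) (hy : y ∈ At P0 s o')
    {i i' j : ℤ} (hj : res (ee s) j ≠ 0) (h0 : cr s o x i j = cr s o' y i' j) {X Y : ℤ}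
    (hX : |X| < sA s) (hY : |Y| < sB s) :
    x.1 (o + sw s (sA s * i + X, sB s * j + Y)) =
      y.1 (o' + sw s (sA s * i' + X, sB s * j + Y)) := by
  have hx' := at_col hx i
  have hy' := at_col hy i'
  have e : cr s 0 ((o + sw s (sA s * i, 0)) +ᵥ x) 0 j =
      cr s 0 ((o' + sw s (sA s * i', 0)) +ᵥ y) 0 j := by
    rw [cr_shift, cr_shift, add_zero, add_zero, h0]
  have hG := conf_P0.grid s 0
  have := win0 hx' hy' e
    (by
      rw [← hG.lam 0 j hj, mem_wg, mem_wg, e]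
      exact and_congr_left fun _ => iff_of_true hx' hy')
    (by
      rw [← hG.hi_ty 0 j hj, mem_wg, mem_wg, e]
      exact and_congr_left fun _ => iff_of_true hx' hy') hX hY
  have k : ∀ (o : V) (i : ℤ), 0 + sw s (sA s * 0 + X, sB s * j + Y) + (o + sw s (sA s * i, 0)) =
      o + sw s (sA s * i + X, sB s * j + Y) := fun o i => by
    rw [zero_add, add_comm, add_assoc, sw_mk, mul_zero, zero_add, zero_add]
  rwa [X0.vadd_apply, X0.vadd_apply, k, k] at this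

theorem sw_zero (s : ℕ) : sw s (0, 0) = 0 := by
  unfold sw
  split_ifs <;> rfl

theorem low_eq {s : ℕ} {o : V} {x : X0} (hx : x ∈ At P0 (s + 1) o) (k : ℤ) {r : ℕ} (h1 : 1 ≤ r)
    (hr : r < per (ee s)) : ∃ σ, cr s o x k r =
      lowT (ee s) (ee (s + 1)) (res (ee (s + 1)) k) r (cr s o x k 0).vo σ := by
  classical
  have hG := conf_P0.grid s o
  have he := ee_succ s
  have hk := res_spec (ee (s + 1)) k
  have ha : x ∈ atm (Wg P0 s o) (per (ee (s + 1)) * (k / per (ee (s + 1)))) := by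
    have := hG.atm_per he 0 (k / per (ee (s + 1)))
    rw [zero_add] at this
    rwa [this, conf_P0.atm_wg, mul_zero, sw_zero, add_zero]
  refine ⟨decide (x ∈ sig (ee s) (Wg P0 s o) 0), ?_⟩
  have := hG.low_det he (per (ee (s + 1)) * (k / per (ee (s + 1)))) 0 (res_lt (ee (s + 1)) k) h1 hr
    (cr s o x k 0).vo (decide (x ∈ sig (ee s) (Wg P0 s o) 0)) (a := x) ⟨⟨ha, ?_⟩, ?_⟩
  · rw [← hk, mul_zero, zero_add] at this
    exact this.2
  · rw [← hk, mul_zero]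
    exact ⟨hx.1, rfl⟩
  · by_cases h : x ∈ sig (ee s) (Wg P0 s o) 0
    · rw [decide_eq_true h]; exact h
    · rw [decide_eq_false h]; exact h

theorem quiet_eq {s : ℕ} {o : V} {x : X0} (hx : x ∈ At P0 (s + 1) o) (k : ℤ) {r r' : ℕ}
    (h1 : 2 ^ (2 * ee s + 2) ≤ r) (hr : r < per (ee s)) (h1' : 2 ^ (2 * ee s + 2) ≤ r')
    (hr' : r' < per (ee s)) : cr s o x k r = cr s o x k r' := by
  obtain ⟨σ, e⟩ := low_eq hx k (Nat.one_le_two_pow.trans h1) hr
  obtain ⟨σ', e'⟩ := low_eq hx k (Nat.one_le_two_pow.trans h1') hr'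
  rw [e, e']
  exact lowT_quiet (ee_succ s) h1 h1' _ _ _

theorem quiet_gen {s : ℕ} {o : V} {x : X0} (hx : x ∈ At P0 (s + 1 + 1) o) {k : ℤ}
    (hk : 2 ≤ k % 2 ^ (ee (s + 1) + 1)) {r : ℕ} (h1 : 2 ^ (2 * ee s + 2) ≤ r)
    (hr : r < per (ee s)) : cr s o x k r = genT := by
  obtain ⟨σ, e⟩ := low_eq hx.1 k (Nat.one_le_two_pow.trans h1) hr
  have hk' : 2 ≤ res (ee (s + 1)) k % 2 ^ (ee (s + 1) + 1) := by
    have h2 := res_spec (ee (s + 1)) k
    have h3 : (per (ee (s + 1)) : ℤ) = 2 ^ (ee (s + 1) + 1) * 2 ^ (ee (s + 1) + 2) := by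
      rw [per, ← pow_add]; push_cast; congr 1; ring
    rw [h2, h3, mul_assoc, Int.mul_add_emod_self_left] at hk
    exact_mod_cast hk
  have h0 : res (ee (s + 1)) k ≠ 0 := fun h => by simp [h] at hk'
  have h0' : res (ee (s + 1)) k ≠ 1 := fun h => by
    rw [h] at hk'
    exact absurd (hk'.trans (Nat.mod_le _ _)) (by norm_num)
  have hG := conf_P0.grid (s + 1) o
  have hc : cr (s + 1) o x 0 k = (cr s o x k 0).tp := by
    rw [cr, cr, tps_succ, sw_succ, Prod.swap_prod_mk, sB_succ, mul_zero, mul_zero]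
  have h4 : x ∈ Wg P0 (s + 1) o (0, k) _ := (hG.low 0 k h0).symm ▸ hx.1
  have h5 : x ∈ Wg P0 (s + 1) o (0, k) {t | t.ho.ty = false} := by
    rwa [hG.atm_low 0 k h0, conf_P0.atm_wg, mul_zero, sw_zero, add_zero]
  rw [mem_wg, hc] at h4 h5
  obtain ⟨-, hJ, hf⟩ := h4
  rw [patN_generic (by omega) (by omega)] at hf
  have hf' : (cr s o x k 0).tp.hi.fl = ⟨false, false, false, false⟩ := hJ.l_fl.symm.trans hf
  rw [e]
  exact lowT_gen (ee_succ s) h1 h0 h0' hf (hJ.l_bit0 (by rw [hf'])).2 h5.2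
    (hJ.l_sg.trans (hJ.l_sg0 (by rw [hf']))) σ

theorem vec_eq (dir : Bool) (M : ℕ) (j a : ℤ) :
    vec dir j a = sw (2 * M + if dir then 1 else 0) (j, a) := by
  unfold vec sw
  cases dir
  · simp
  · simp

theorem sw_two (s : ℕ) (v : V) : sw (s + 1 + 1) v = sw s v := by
  rw [sw_succ, sw_succ, Prod.swap_swap]

theorem row_split {s : ℕ} {a : ℤ} (ha : |a| < 2 ^ (2 * ee s + 1) * sB s) :
    ∃ (r : ℕ) (Y : ℤ), 2 ^ (2 * ee s + 2) ≤ r ∧ r < per (ee s) ∧ |Y| < sB s ∧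
      sB s * r + Y = sB s * (3 * 2 ^ (2 * ee s + 1) : ℕ) + a := by
  have hB := sB_pos s
  rw [abs_lt] at ha
  have h1 : -2 ^ (2 * ee s + 1) ≤ a / sB s := Int.le_ediv_of_mul_le hB (by linarith)
  have h2 : a / sB s < 2 ^ (2 * ee s + 1) := Int.ediv_lt_of_lt_mul hB ha.2
  have h3 : (0 : ℤ) < 2 ^ (2 * ee s + 1) := by positivity
  obtain ⟨r, hr⟩ := Int.eq_ofNat_of_zero_le (a := 3 * 2 ^ (2 * ee s + 1) + a / sB s) (by omega)
  refine ⟨r, a % sB s, ?_, ?_, ?_, ?_⟩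
  · zify
    rw [← hr, pow_succ _ (2 * ee s + 1)]
    omega
  · zify
    rw [← hr, per]
    push_cast
    rw [pow_succ _ (2 * ee s + 2), pow_succ _ (2 * ee s + 1)]
    omega
  · rw [abs_of_nonneg (Int.emod_nonneg _ hB.ne')]
    exact Int.emod_lt_of_pos _ hB
  · rw [← hr]
    push_cast
    have := Int.mul_ediv_add_emod a (sB s)
    linarith

theorem thin_aux (s M : ℕ) (hM : M ≤ s) (dir : Bool) (hd : ∀ j a, vec dir j a = sw s (j, a))
    {c : ℕ} (e : Tile × Tile ≃ Fin c) : Thin lab0 dir c M := by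
  have hA := sA_pos s
  have hB := sB_pos s
  obtain ⟨q, hq⟩ : ∃ q : ℕ, q = 3 * 2 ^ (2 * ee s + 1) := ⟨_, rfl⟩
  obtain ⟨n, hn⟩ : ∃ n : ℤ, n = 2 ^ (ee (s + 1) + 1) := ⟨_, rfl⟩
  have hn0 : 0 < n := by rw [hn]; positivity
  have q1 : 2 ^ (2 * ee s + 2) ≤ q := by rw [hq, pow_succ _ (2 * ee s + 1)]; omega
  have q2 : q < per (ee s) := by
    have : 0 < 2 ^ (2 * ee s + 1) := by positivity
    rw [hq, per, pow_succ _ (2 * ee s + 2), pow_succ _ (2 * ee s + 1)]; omega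
  have hL : sA s * n ∣ sA (s + 1 + 1) := by
    rw [sA_succ, sB_succ, mul_comm, hn, per]
    push_cast
    exact mul_dvd_mul_right (pow_dvd_pow _ (by omega)) _
  have hMH : (M : ℤ) * sA s < 2 ^ (2 * ee s + 1) * sB s := by
    have h1 := growth s
    have h2 : (M : ℤ) ≤ 2 ^ s := by exact_mod_cast hM.trans Nat.lt_two_pow_self.le
    have h3 : (2 : ℤ) ^ ee s < 2 ^ (2 * ee s + 1) := pow_lt_pow_right₀ (by norm_num) (by omega)
    have h4 : (0 : ℤ) < 2 ^ s := by positivity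
    have h5 : (0 : ℤ) < 2 ^ (2 * ee s + 1) := by positivity
    calc (M : ℤ) * sA s ≤ 2 ^ s * sA s * 1 := by rw [mul_one]; gcongr
      _ ≤ 2 ^ s * sA s * sB s := by gcongr; omega
      _ ≤ 2 ^ ee s := by linarith
      _ < 2 ^ (2 * ee s + 1) * 1 := by rwa [mul_one]
      _ ≤ _ := by gcongr; omega
  have hψ : ∀ (x : X0) (o : V), x ∈ At P0 (s + 1 + 1) o →
      -(sw s (cor (s + 1 + 1) x)).1 ≡ -(sw s o).1 [ZMOD sA s * n] := by
    intro x o hx
    have := (lat_of_at (cor_spec _ x) hx).1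
    rw [sw_two, sub_eq_add_neg, sw_add, sw_neg, Prod.fst_add, Prod.fst_neg] at this
    refine Int.modEq_iff_dvd.2 (hL.trans ?_)
    rwa [neg_sub_neg, sub_eq_add_neg]
  have pos : ∀ (i k X Y a : ℤ) (r : ℕ), sB s * r + Y = sB s * q + a →
      sw s (-i, -(sB s * q)) + sw s (sA s * k + X, sB s * r + Y) =
        sw s (sA s * k + X - i, a) := fun i k X Y a r h => by
    rw [sw_mk, h]
    rw [show -i + (sA s * k + X) = sA s * k + X - i by ring, neg_add_cancel_left]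
  have hres : ∀ r : ℕ, 2 ^ (2 * ee s + 2) ≤ r → r < per (ee s) → res (ee s) r ≠ 0 := by
    intro r h1 h2
    have := res_add (ee s) 0 h2
    rw [mul_zero, zero_add] at this
    have : 0 < 2 ^ (2 * ee s + 2) := by positivity
    omega
  refine ⟨sA s, sA s * n, sA (s + 1 + 1 + 1),
    {x | ∃ i, x ∈ At P0 (s + 1 + 1) (sw s (-i, -(sB s * q)))},
    fun x => -(sw s (cor (s + 1 + 1) x)).1, fun x => e (x.1 0, x.1 (sw s (sA s, 0))), hA,
    dvd_mul_right _ _, ?_, ?_, fun x => ?_, fun x j => ?_, ?_, ?_⟩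
  · rw [mul_comm, hn]
    have h1 := le_ee (s + 1)
    have h2 : (M : ℤ) ≤ 2 ^ (ee (s + 1) + 1) := by
      exact_mod_cast (show M ≤ ee (s + 1) + 1 by omega).trans Nat.lt_two_pow_self.le
    gcongr
  · rintro x ⟨i, hi⟩ j
    refine ⟨i + j, ?_⟩
    rw [hd, At_shift, sw_mk]
    rwa [show -(i + j) + j = -i by ring, add_zero]
  · have hp := sA_pos (s + 1 + 1 + 1)
    refine ⟨((sw s (cor (s + 1 + 1) x)).2 + sB s * q) % sA (s + 1 + 1 + 1),
      Int.emod_nonneg _ hp.ne', (Int.emod_lt_of_pos _ hp).le,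
      -(sw s (cor (s + 1 + 1) x)).1, ?_⟩
    rw [hd, At_shift, ← sw_add]
    refine at_of_lat (cor_spec _ x) ?_
    rw [Lat, sw_two, sub_eq_add_neg, sw_add, sw_sw, sw_neg]
    refine ⟨by simp, ?_⟩
    have := (Int.mod_modEq ((sw s (cor (s + 1 + 1) x)).2 + sB s * q)
      (sA (s + 1 + 1 + 1))).symm.dvd
    convert this using 1
    simp only [Prod.snd_add, Prod.snd_neg]; ring
  · have := hψ (vec dir j 0 +ᵥ x) (cor (s + 1 + 1) x - vec dir j 0) (by
      rw [At_shift, sub_add_cancel]; exact cor_spec _ x)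
    convert this using 1
    rw [hd, sub_eq_add_neg, sw_add, sw_neg, sw_sw]
    simp only [Prod.fst_add, Prod.fst_neg]; ring
  · rintro x ⟨i, hi⟩ y ⟨i', hi'⟩ h1 h2 h3 a ha
    have e1 := hψ x _ hi
    have e2 := hψ y _ hi'
    rw [sw_sw] at e1 e2
    simp only [neg_neg] at e1 e2
    rw [e1.eq] at h2
    rw [e2.eq] at h3
    have h4 : i % sA s = i' % sA s :=
      ((e1.of_mul_right n).symm.trans h1).trans (e2.of_mul_right n)
    have gen : ∀ i : ℤ, 2 * sA s ≤ i % (sA s * n) → 2 ≤ i / sA s % n := fun i h => by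
      by_contra hn'
      have k1 := Int.mul_ediv_add_emod i (sA s)
      have k2 := Int.mul_ediv_add_emod (i / sA s) n
      have k3 := Int.emod_nonneg i hA.ne'
      have k4 := Int.emod_lt_of_pos i hA
      have k5 := Int.emod_nonneg (i / sA s) hn0.ne'
      have k6 : i = (sA s * (i / sA s % n) + i % sA s) + sA s * n * (i / sA s / n) := by
        linear_combination (-1 : ℤ) * k1 - sA s * k2
      have k7 : sA s * (i / sA s % n) ≤ sA s * 1 := by gcongr; omega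
      have k8 : sA s * (i / sA s % n) + i % sA s < sA s * n := by
        have k9 := Int.emod_lt_of_pos (i / sA s) hn0
        have : sA s * (i / sA s % n + 1) ≤ sA s * n := by gcongr; omega
        linarith
      rw [k6, Int.add_mul_emod_self_left, Int.emod_eq_of_lt (by positivity) k8] at h
      linarith
    obtain ⟨r, Y, r1, r2, hY, r3⟩ := row_split (ha.trans_lt hMH)
    rw [← hq] at r3
    have c1 := quiet_gen hi (hn ▸ gen i h2) r1 r2
    have c2 := quiet_gen hi' (hn ▸ gen i' h3) r1 r2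
    have := win1 hi.1.1 hi'.1.1 (hres r r1 r2) (c1.trans c2.symm) (X := i % sA s) (by
      rw [abs_of_nonneg (Int.emod_nonneg _ hA.ne')]; exact Int.emod_lt_of_pos _ hA) hY
    rw [pos _ _ _ _ _ _ r3, pos _ _ _ _ _ _ r3, Int.mul_ediv_add_emod, h4, Int.mul_ediv_add_emod,
      sub_self, sub_self] at this
    rwa [hd, lab0_vadd, lab0_vadd]
  · rintro x ⟨i, hi⟩ y ⟨i', hi'⟩ h1 h2 h3 j a j1 j2 ha
    have e1 := hψ x _ hi
    have e2 := hψ y _ hi'
    rw [sw_sw] at e1 e2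
    simp only [neg_neg] at e1 e2
    rw [e1.eq] at h1
    rw [e2.eq] at h2
    obtain ⟨k, rfl⟩ := (dvd_mul_right (sA s) n).trans (Int.dvd_of_emod_eq_zero h1)
    obtain ⟨k', rfl⟩ := (dvd_mul_right (sA s) n).trans (Int.dvd_of_emod_eq_zero h2)
    obtain ⟨t1, t2⟩ := Prod.ext_iff.1 (e.injective h3)
    obtain ⟨r, Y, r1, r2, hY, r3⟩ := row_split (ha.trans_lt hMH)
    rw [← hq] at r3
    have cq : ∀ (z : X0) (k m : ℤ), cr s (sw s (-(sA s * k), -(sB s * q))) z (k + m) q =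
        tps s (z.1 (sw s (sA s * m, 0))).1 := fun z k m => by
      rw [cr, sw_mk]
      rw [show -(sA s * k) + sA s * (k + m) = sA s * m by ring, neg_add_cancel]
    have fin : ∀ m X : ℤ, x.1 (sw s (sA s * m, 0)) = y.1 (sw s (sA s * m, 0)) → |X| < sA s →
        x.1 (sw s (sA s * m + X, a)) = y.1 (sw s (sA s * m + X, a)) := fun m X h hX => by
      have c : cr s (sw s (-(sA s * k), -(sB s * q))) x (k + m) r =
          cr s (sw s (-(sA s * k'), -(sB s * q))) y (k' + m) r := by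
        rw [quiet_eq hi.1 _ r1 r2 q1 q2, quiet_eq hi'.1 _ r1 r2 q1 q2, cq, cq, h]
      have := win1 hi.1.1 hi'.1.1 (hres r r1 r2) c hX hY
      rw [pos _ _ _ _ _ _ r3, pos _ _ _ _ _ _ r3] at this
      rwa [show sA s * (k + m) + X - sA s * k = sA s * m + X by ring,
        show sA s * (k' + m) + X - sA s * k' = sA s * m + X by ring] at this
    rw [hd, lab0_vadd, lab0_vadd]
    by_cases hj : j < sA s
    · have := fin 0 j (by rw [mul_zero, sw_zero]; exact t1) (abs_lt.2 ⟨by omega, hj⟩)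
      rwa [mul_zero, zero_add] at this
    · have := fin 1 (j - sA s) (by rw [mul_one]; exact t2) (abs_lt.2 ⟨by omega, by omega⟩)
      rwa [mul_one, add_sub_cancel] at this

end HierAAux

theorem thin0 : ∃ c, ∀ dir M, Thin lab0 dir c M :=
  ⟨_, fun dir M => HierAAux.thin_aux (2 * M + if dir then 1 else 0) M (by omega) dir
    (HierAAux.vec_eq dir M) (Finite.equivFin (Tile × Tile))⟩

section restrict

variable {X X' A : Type} [AddAction V X] [AddAction V X'] {lab : X → A} (f : X' → X)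
  (hf : ∀ (v : V) x, f (v +ᵥ x) = v +ᵥ f x)
include hf

theorem HierAAux.agree_iff {ρ : ℕ} {x y : X'} :
    Agree (lab ∘ f) ρ x y ↔ Agree lab ρ (f x) (f y) := by
  simp only [Agree, Function.comp, hf]

theorem Lev.restrict (h : Lev lab) : Nonempty (Lev (lab ∘ f)) := by
  refine ⟨{
    a := h.a
    b := h.b
    px := fun s x => h.px s (f x)
    py := fun s x => h.py s (f x)
    a_ge := h.a_ge
    b_ge := h.b_ge
    a_dvd := h.a_dvd
    b_dvd := h.b_dvd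
    px_mem := fun s x => h.px_mem s _
    py_mem := fun s x => h.py_mem s _
    px_add := fun s v x => by rw [hf]; exact h.px_add s v _
    py_add := fun s v x => by rw [hf]; exact h.py_add s v _
    px_nest := fun s x => h.px_nest s _
    py_nest := fun s x => h.py_nest s _
    loc := fun s => ?_
    c := h.c
    rankH := fun δ s0 => ?_
    rankV := fun δ s0 => ?_
    part := fun ρ => ?_ }⟩
  · obtain ⟨ρ, k⟩ := h.loc s
    exact ⟨ρ, fun x y e => k _ _ ((HierAAux.agree_iff f hf).1 e)⟩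
  · obtain ⟨s, k1, k2⟩ := h.rankH δ s0
    refine ⟨s, k1, fun y1 => ?_⟩
    obtain ⟨ty, k⟩ := k2 y1
    refine ⟨ty ∘ f, fun x y a1 a2 a3 a4 a5 v a6 a7 a8 => ?_⟩
    simp only [Function.comp, hf]
    exact k _ _ a1 a2 a3 a4 a5 v a6 a7 a8
  · obtain ⟨s, k1, k2⟩ := h.rankV δ s0
    refine ⟨s, k1, fun y1 => ?_⟩
    obtain ⟨ty, k⟩ := k2 y1
    refine ⟨ty ∘ f, fun x y a1 a2 a3 a4 a5 v a6 a7 a8 => ?_⟩
    simp only [Function.comp, hf]
    exact k _ _ a1 a2 a3 a4 a5 v a6 a7 a8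
  · obtain ⟨D, F, k1, k2, k3⟩ := h.part ρ
    refine ⟨fun t => f ⁻¹' D t, F, fun t => ?_, fun x => ?_, fun p hp x y hx hy => ?_⟩
    · obtain ⟨r, k⟩ := k1 t
      exact ⟨r, fun x y e => k _ _ ((HierAAux.agree_iff f hf).1 e)⟩
    · simp only [Set.mem_preimage, hf]
      exact k2 (f x)
    · rw [Set.mem_preimage, hf] at hx hy
      exact (HierAAux.agree_iff f hf).2 (k3 p hp _ _ hx hy)

theorem Thin.restrict {dir : Bool} {c M : ℕ} (h : Thin lab dir c M) : Thin (lab ∘ f) dir c M := by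
  obtain ⟨H, L, N, C, ψ, ty, h1, h2, h3, h4, h5, h6, h7, h8⟩ := h
  refine ⟨H, L, N, f ⁻¹' C, ψ ∘ f, ty ∘ f, h1, h2, h3, ?_⟩
  simp only [Set.mem_preimage, Function.comp, hf]
  exact ⟨fun x => h4 _, fun x => h5 _, fun x => h6 _, fun x hx y => h7 _ hx _,
    fun x hx y => h8 _ hx _⟩

end restrict

end Vale.Agent.P196
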