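import Vale.Agent.P196.CompD
import Vale.Agent.P196.HierA

/-! A finite complete axiomatization of the subshift. -/

namespace Vale.Agent.P196

open Vale.Agent.P193

namespace CompAux

open scoped Pointwise

set_option linter.unusedSectionVars false

/-- the acting group -/
abbrev FF : Type := FreeGroup (Fin 3)

/-- the flip -/
def fl : Bool → FF
  | true => 1
  | false => FreeGroup.of 0

/-- the word for a translation -/
def shv (v : V) : FF :=
  (FreeGroup.of 0 * FreeGroup.of 1) ^ v.1 * (FreeGroup.of 0 * FreeGroup.of 2) ^ v.2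

theorem shv_zero : shv 0 = 1 := by simp [shv]

section join

variable {L T : Type} [SemilatticeInf L] [BoundedOrder L] [Compl L] [QL L] [Finite T]

/-- the join of the basic elements with index in `S` -/
noncomputable def join (b : T → L) (S : Set T) : L :=
  ((Set.toFinite S).toFinset.inf fun t => (b t)ᶜ)ᶜ

variable {b : T → L} {E : L}

theorem le_join {S : Set T} {t : T} (h : t ∈ S) : b t ≤ join b S :=
  q_le_compl_comm.1 (Finset.inf_le (f := fun t => (b t)ᶜ) ((Set.toFinite S).mem_toFinset.2 h))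

theorem join_le {S : Set T} {z : L} (h : ∀ t ∈ S, b t ≤ z) : join b S ≤ z := by
  rw [join, ← q_compl_le_compl, QL.cc]
  exact Finset.le_inf fun t ht => QL.anti (h t ((Set.toFinite S).mem_toFinset.1 ht))

theorem join_single (t : T) : join b {t} = b t :=
  le_antisymm (join_le fun _ h => h ▸ le_rfl) (le_join rfl)

theorem le_join_compl (ho : ∀ t t', t ≠ t' → b t ≤ (b t')ᶜ) {S : Set T} {t : T} (h : t ∉ S) :
    b t ≤ (join b S)ᶜ :=
  q_le_compl_comm.1 (join_le fun _ ht' => ho _ _ fun e => h (e ▸ ht'))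

theorem join_mem (B : BSub L) (hb : ∀ t, b t ∈ B.car) (S : Set T) : join b S ∈ B.car :=
  B.compl_mem (B.finf_mem _ fun t _ => B.compl_mem (hb t))

theorem dec_le (B : BSub L) (hb : ∀ t, b t ∈ B.car) (hc : E ⊓ (join b Set.univ)ᶜ ≤ ⊥) {z w : L}
    (hz : z ∈ B.car) (hE : z ≤ E) (H : ∀ t, b t ≤ w ∨ b t ≤ zᶜ) : z ≤ w := by
  refine B.dec_fin (Set.toFinite (Set.univ : Set T)).toFinset (fun t _ => hb t) hz (fun t _ => ?_)
    ?_
  · rcases H t with h | h
    · exact inf_le_right.trans h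
    · exact (q_eq_bot inf_le_left (inf_le_right.trans h)).le.trans bot_le
  · rw [join, QL.cc] at hc
    exact ((inf_le_inf_right _ hE).trans hc).trans bot_le

theorem site_join (B : BSub L) (hb : ∀ t, b t ∈ B.car) (hE : E ∈ B.car) (hle : ∀ t, b t ≤ E)
    (ho : ∀ t t', t ≠ t' → b t ≤ (b t')ᶜ) (hc : E ⊓ (join b Set.univ)ᶜ ≤ ⊥) :
    Site E (join b) := by
  have le : ∀ S, join b S ≤ E := fun S => join_le fun t _ => hle t
  refine ⟨le_antisymm (le _) (dec_le B hb hc hE le_rfl fun t => Or.inl (le_join trivial)),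
    fun S S' => le_antisymm (join_le fun t ht => le_inf (le_join ht.1) (le_join ht.2)) ?_,
    fun S => le_antisymm (join_le fun t ht => le_inf (hle t) (le_join_compl ho ht)) ?_,
    fun S S' => B.cm (join_mem B hb S) (join_mem B hb S')⟩
  · refine dec_le B hb hc (B.inf_mem (join_mem B hb S) (join_mem B hb S'))
      (inf_le_left.trans (le S)) fun t => ?_
    by_cases h : t ∈ S
    · by_cases h' : t ∈ S'
      · exact Or.inl (le_join ⟨h, h'⟩)
      · exact Or.inr ((le_join_compl ho h').trans (QL.anti inf_le_right))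
    · exact Or.inr ((le_join_compl ho h).trans (QL.anti inf_le_left))
  · refine dec_le B hb hc (B.inf_mem hE (B.compl_mem (join_mem B hb S))) inf_le_left fun t => ?_
    by_cases h : t ∈ S
    · exact Or.inr ((le_join h).trans (q_le_compl_comm.1 inf_le_right))
    · exact Or.inl (le_join h)

theorem mem_join {M : Type} {b : T → Set M} {S : Set T} {p : M} :
    p ∈ join b S ↔ ∃ t ∈ S, p ∈ b t := by
  constructor
  · intro h
    exact join_le (b := b) (z := {p | ∃ t ∈ S, p ∈ b t}) (fun t ht q hq => ⟨t, ht, hq⟩) h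
  · rintro ⟨t, ht, h⟩
    exact le_join (b := b) ht h

end join

section model

variable {L : Type} [SemilatticeInf L] [BoundedOrder L] [Compl L] [QL L] [MulAction FF L]
  [QM FF L]

theorem site_smul {T : Type} {E : L} {f : Set T → L} (h : Site E f) {γ : FF} (hγ : γ • E = E) :
    Site E fun S => γ • f S :=
  ⟨by rw [h.univ, hγ], fun S S' => by rw [h.inter, q_smul_inf],
    fun S => by rw [h.compl, q_smul_inf, q_smul_compl, hγ], fun S S' => (h.cm S S').smul γ⟩

theorem zpow_fix {E : L} {α : FF} (h : α • E = E) (n : ℤ) : α ^ n • E = E :=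
  (MulAction.stabilizer FF E).zpow_mem h n

theorem eqv_zpow {E : L} {α β : FF} (hα : α • E = E) (h : Eqv (α * β) (β * α) E) (n : ℤ) :
    Eqv (α ^ n * β) (β * α ^ n) E := by
  let K : Subgroup FF :=
    { carrier := {δ | δ • E = E ∧ Eqv (δ * β) (β * δ) E}
      one_mem' := ⟨one_smul _ _, Eqv.of_eq (by simp) E⟩
      mul_mem' := by
        rintro δ δ' ⟨h1, h2⟩ ⟨h3, h4⟩
        refine ⟨by rw [mul_smul, h3, h1], ?_⟩
        have a := h4.mul_left δ
        have c := h2.mul_right δ' h3.le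
        simp only [mul_assoc] at a c ⊢
        exact a.trans c
      inv_mem' := by
        rintro δ ⟨h1, h2⟩
        have h3 : δ⁻¹ • E = E := by rw [inv_smul_eq_iff, h1]
        refine ⟨h3, ?_⟩
        have := ((h2.mul_right δ⁻¹ h3.le).mul_left δ⁻¹).symm
        simpa [mul_assoc] using this }
  exact (K.zpow_mem (show α ∈ K from ⟨hα, h⟩) n).2

/-- the tiling attached to a model -/
noncomputable def Pm (b : Option Tile → L) (v : V) (S : Set Tile) : L :=
  (shv v)⁻¹ • join (fun τ => b (some τ)) S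

/-- the axioms -/
structure Ax (t : ℕ) (J : Set Tile) (b : Option Tile → L) : Prop where
  inv : ∀ i : Fin 3, Tv (FreeGroup.of i * FreeGroup.of i : FF) (⊤ : L)
  flip : ∀ i : Fin 3, (FreeGroup.of i : FF) • b none = (b none)ᶜ
  comm : Tv ((shv (1, 0) * shv (0, 1))⁻¹ * (shv (0, 1) * shv (1, 0))) (b none)
  le : ∀ τ, b (some τ) ≤ b none
  orth : ∀ τ τ', τ ≠ τ' → b (some τ) ≤ (b (some τ'))ᶜ
  cover : b none ⊓ (join (fun τ => b (some τ)) Set.univ)ᶜ ≤ ⊥
  valid : ∀ τ, ¬TV τ → b (some τ) ≤ ⊥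
  hor : ∀ S, Pm b (0, 0) (hOut ⁻¹' S) = Pm b (1, 0) (hIn ⁻¹' S)
  ver : ∀ S, Pm b (0, 0) (vOut ⁻¹' S) = Pm b (0, 1) (vIn ⁻¹' S)
  corner : ∀ τ, τ ∉ J → At (Pm b) t 0 ⊓ b (some τ) ≤ ⊥

theorem shv_10 : shv (1, 0) = FreeGroup.of 0 * FreeGroup.of 1 := by simp [shv]

theorem shv_01 : shv (0, 1) = FreeGroup.of 0 * FreeGroup.of 2 := by simp [shv]

theorem Pm_zero (b : Option Tile → L) (S : Set Tile) :
    Pm b 0 S = join (fun τ => b (some τ)) S := by
  rw [Pm, shv_zero, inv_one, one_smul]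

namespace Ax

variable {t : ℕ} {J : Set Tile} {b : Option Tile → L} (h : Ax t J b)
include h

theorem invol (i : Fin 3) (z : L) : (FreeGroup.of i : FF) • (FreeGroup.of i : FF) • z = z := by
  rw [← mul_smul]
  exact (h.inv i).smul_eq le_top

theorem inv_smul (i : Fin 3) (z : L) :
    (FreeGroup.of i : FF)⁻¹ • z = (FreeGroup.of i : FF) • z := by
  rw [inv_smul_eq_iff, h.invol]

theorem pair_fix (i : Fin 3) : (FreeGroup.of 0 * FreeGroup.of i : FF) • b none = b none := by
  rw [mul_smul, h.flip, q_smul_compl, h.flip, QL.cc]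

theorem shv_fix (v : V) : shv v • b none = b none := by
  rw [shv, mul_smul, zpow_fix (h.pair_fix 2), zpow_fix (h.pair_fix 1)]

theorem shv_fix' (v : V) : (shv v)⁻¹ • b none = b none := by
  rw [inv_smul_eq_iff, h.shv_fix]

theorem shv_add (v w : V) : Eqv (shv (v + w)) (shv v * shv w) (b none) := by
  have h0 : Eqv (shv (1, 0) * shv (0, 1)) (shv (0, 1) * shv (1, 0)) (b none) := h.comm
  rw [shv_10, shv_01] at h0
  have h1 := (eqv_zpow (h.pair_fix 2) (eqv_zpow (h.pair_fix 1) h0 w.1).symm v.2).symm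
  have h2 := (h1.mul_right ((FreeGroup.of 0 * FreeGroup.of 2) ^ w.2)
    (zpow_fix (h.pair_fix 2) _).le).mul_left ((FreeGroup.of 0 * FreeGroup.of 1) ^ v.1)
  simpa only [shv, Prod.fst_add, Prod.snd_add, zpow_add, mul_assoc] using h2

theorem join_le' (S : Set Tile) : join (fun τ => b (some τ)) S ≤ b none :=
  join_le fun τ _ => h.le τ

theorem pm_le (v : V) (S : Set Tile) : Pm b v S ≤ b none :=
  h.shv_fix' v ▸ q_smul_le.2 (h.join_le' S)

theorem pm_shift (v w : V) (S : Set Tile) : (shv w)⁻¹ • Pm b v S = Pm b (v + w) S := by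
  have := (h.shv_add v w).inv
  rw [h.shv_fix] at this
  rw [Pm, Pm, this.smul_eq (h.join_le' S), mul_inv_rev, mul_smul]

theorem flip_of (i : Fin 3) : Eqv (FreeGroup.of 0 * FreeGroup.of i : FF) (shv (gv i)) (⊤ : L) := by
  fin_cases i
  · have : shv (gv 0) = 1 := shv_zero
    exact this ▸ (h.inv 0).eqv.symm
  · exact Eqv.of_eq shv_10.symm _
  · exact Eqv.of_eq shv_01.symm _

theorem conf (hc : ∀ i j, Cm (b i) (b j)) : Conf (b none) (Pm b) := by
  let B : BSub L := genSub (Set.range b) (by rintro _ ⟨i, rfl⟩ _ ⟨j, rfl⟩; exact hc i j)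
  have hB : ∀ j, b j ∈ B.car := fun j => Gen.base ⟨j, rfl⟩
  have hs : Site (b none) (join fun τ => b (some τ)) :=
    site_join B (fun τ => hB _) (hB _) h.le h.orth h.cover
  refine ⟨fun v => site_smul hs (h.shv_fix' v), fun v => ?_, fun x y S => ?_, fun x y S => ?_⟩
  · have : join (fun τ => b (some τ)) {τ | TV τ} = b none := by
      refine le_antisymm (h.join_le' _) (dec_le B (fun τ => hB _) h.cover (hB _) le_rfl fun τ => ?_)
      by_cases k : TV τ
      · exact Or.inl (le_join (b := fun τ => b (some τ)) k)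
      · exact Or.inl ((h.valid τ k).trans bot_le)
    rw [Pm, this, h.shv_fix']
  · have := congrArg (fun z => (shv (x, y))⁻¹ • z) (h.hor S)
    simp only [h.pm_shift, Prod.mk_add_mk, zero_add] at this
    rwa [add_comm 1 x] at this
  · have := congrArg (fun z => (shv (x, y))⁻¹ • z) (h.ver S)
    simp only [h.pm_shift, Prod.mk_add_mk, zero_add] at this
    rwa [add_comm 1 y] at this

theorem gen_smul (γ : FF) {z : L}
    (hz : Gen {x | ∃ v S, x = Pm b v S ∨ x = (FreeGroup.of 0 : FF) • Pm b v S} z) :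
    Gen {x | ∃ v S, x = Pm b v S ∨ x = (FreeGroup.of 0 : FF) • Pm b v S} (γ • z) := by
  have key : ∀ (i : Fin 3) {z : L},
      Gen {x | ∃ v S, x = Pm b v S ∨ x = (FreeGroup.of 0 : FF) • Pm b v S} z →
      Gen {x | ∃ v S, x = Pm b v S ∨ x = (FreeGroup.of 0 : FF) • Pm b v S}
        ((FreeGroup.of i : FF) • z) := by
    intro i z hz
    induction hz with
    | base hx =>
      obtain ⟨v, S, rfl | rfl⟩ := hx
      · refine Gen.base ⟨v - gv i, S, Or.inr ?_⟩
        rw [← h.invol 0 ((FreeGroup.of i : FF) • Pm b v S), ← mul_smul _ (FreeGroup.of i),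
          (h.flip_of i).smul_eq le_top]
        congr 1
        rw [smul_eq_iff_eq_inv_smul, h.pm_shift, sub_add_cancel]
      · refine Gen.base ⟨v + gv i, S, Or.inl ?_⟩
        rw [← h.pm_shift, eq_inv_smul_iff, ← (h.flip_of i).smul_eq le_top, mul_smul, h.invol]
        exact h.invol 0 _
    | top => rw [q_smul_top]; exact Gen.top
    | inf _ _ h1 h2 => rw [q_smul_inf]; exact h1.inf h2
    | compl _ h1 => rw [q_smul_compl]; exact h1.compl
  induction γ using FreeGroup.induction_on generalizing z with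
  | C1 => rwa [one_smul]
  | of i => exact key i hz
  | inv_of i _ => rw [h.inv_smul]; exact key i hz
  | mul γ δ h1 h2 => rw [mul_smul]; exact h1 (h2 hz)

theorem cm_eval (hc : ∀ i j, Cm (b i) (b j)) (s s' : Tm FF (Option Tile)) :
    Cm (s.eval b) (s'.eval b) := by
  have hC := h.conf hc
  have key : ∀ s : Tm FF (Option Tile),
      Gen {x | ∃ v S, x = Pm b v S ∨ x = (FreeGroup.of 0 : FF) • Pm b v S} (s.eval b) := by
    intro s
    induction s with
    | top => exact Gen.top
    | basic j =>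
      cases j with
      | none => exact Gen.base ⟨0, Set.univ, Or.inl (hC.site 0).univ.symm⟩
      | some τ => exact Gen.base ⟨0, {τ}, Or.inl (by rw [Pm_zero, join_single]; rfl)⟩
    | act γ s ih => exact h.gen_smul γ ih
    | inf s s' h1 h2 => exact h1.inf h2
    | compl s h1 => exact h1.compl
  have mix : ∀ v S v' S', Cm (Pm b v S) ((FreeGroup.of 0 : FF) • Pm b v' S') := by
    intro v S v' S'
    refine (hC.comm v v S S).of_orth ((hC.comm v' v' S' S').smul _) ((h.pm_le v S).trans ?_)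
    rw [q_le_compl_comm, ← h.flip 0]
    exact q_smul_le.2 (h.pm_le v' S')
  refine Gen.cm ?_ (key s) (key s')
  rintro _ ⟨v, S, rfl | rfl⟩ _ ⟨v', S', rfl | rfl⟩
  · exact hC.comm _ _ _ _
  · exact mix _ _ _ _
  · exact (mix _ _ _ _).symm
  · exact (hC.comm _ _ _ _).smul _

end Ax

end model

theorem isTm_join (S : Set Tile) :
    IsTm fun m : Mdl FF (Option Tile) => join (fun τ => m.b (some τ)) S :=
  (IsTm.finf _ fun τ => (IsTm.basic (some τ)).compl).compl

theorem isTm_pm (v : V) (S : Set Tile) : IsTm fun m : Mdl FF (Option Tile) => Pm m.b v S :=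
  (isTm_join S).act _

theorem isTm_at (s : ℕ) (o : V) : IsTm fun m : Mdl FF (Option Tile) => At (Pm m.b) s o := by
  induction s with
  | zero => exact isTm_pm _ _
  | succ s ih => exact ih.inf (isTm_pm _ _)

theorem finAx (t : ℕ) (J : Set Tile) : FinAx fun m : Mdl FF (Option Tile) => Ax t J m.b := by
  have b := fun j => IsTm.basic (F := FF) (J := Option Tile) j
  refine (((((((((
    (FinAx.all fun i : Fin 3 => FinAx.tv (FreeGroup.of i * FreeGroup.of i) IsTm.top).and
    (FinAx.all fun i : Fin 3 => FinAx.eq ((b none).act (FreeGroup.of i)) (b none).compl)).and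
    (FinAx.tv ((shv (1, 0) * shv (0, 1))⁻¹ * (shv (0, 1) * shv (1, 0))) (b none))).and
    (FinAx.all fun τ => FinAx.le (b (some τ)) (b none))).and
    (FinAx.all fun τ => FinAx.all fun τ' => FinAx.all fun _ : τ ≠ τ' =>
      FinAx.le (b (some τ)) (b (some τ')).compl)).and
    (FinAx.le ((b none).inf (isTm_join Set.univ).compl) IsTm.bot)).and
    (FinAx.all fun τ => FinAx.all fun _ : ¬TV τ => FinAx.le (b (some τ)) IsTm.bot)).and
    (FinAx.all fun S => FinAx.eq (isTm_pm (0, 0) (hOut ⁻¹' S)) (isTm_pm (1, 0) (hIn ⁻¹' S)))).and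
    (FinAx.all fun S => FinAx.eq (isTm_pm (0, 0) (vOut ⁻¹' S)) (isTm_pm (0, 1) (vIn ⁻¹' S)))).and
    (FinAx.all fun τ => FinAx.all fun _ : τ ∉ J =>
      FinAx.le ((isTm_at t 0).inf (b (some τ))) IsTm.bot)).congr fun m => ?_
  exact ⟨fun h => ⟨⟨⟨⟨⟨⟨⟨⟨⟨h.1, h.2⟩, h.3⟩, h.4⟩, h.5⟩, h.6⟩, h.7⟩, h.8⟩, h.9⟩, h.10⟩,
    fun ⟨⟨⟨⟨⟨⟨⟨⟨⟨h1, h2⟩, h3⟩, h4⟩, h5⟩, h6⟩, h7⟩, h8⟩, h9⟩, h10⟩ =>
      ⟨h1, h2, h3, h4, h5, h6, h7, h8, h9, h10⟩⟩

section yy

variable {X : Type} [AddAction V X]

theorem zpow_smul_yy {α : FF} {w : V} {β : Bool} (h : ∀ x : X, α • ((x, β) : YY X) = (w +ᵥ x, β))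
    (n : ℤ) (x : X) : α ^ n • ((x, β) : YY X) = (n • w +ᵥ x, β) := by
  induction n using Int.induction_on generalizing x with
  | zero => simp
  | succ n ih => rw [zpow_add_one, mul_smul, h, ih, ← add_vadd, add_zsmul, one_zsmul]
  | pred n ih =>
    rw [zpow_sub_one, mul_smul, show α⁻¹ • ((x, β) : YY X) = (-w +ᵥ x, β) by
      rw [inv_smul_eq_iff, h]; simp, ih, ← add_vadd, sub_zsmul, one_zsmul]

theorem gv0 : gv 0 = 0 := rfl

theorem shv_true (v : V) (x : X) : shv v • ((x, true) : YY X) = (v +ᵥ x, true) := by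
  have h : ∀ (i : Fin 3) (x : X), (FreeGroup.of 0 * FreeGroup.of i : FF) • ((x, true) : YY X) =
      (gv i +ᵥ x, true) := fun i x => by
    rw [mul_smul, of_smul_true, of_smul_false, gv0, neg_zero, zero_vadd]
  rw [shv, mul_smul, zpow_smul_yy (h 2), zpow_smul_yy (h 1), ← add_vadd]
  simp [gv]

theorem shv_false (v : V) (x : X) : shv v • ((x, false) : YY X) = (-v +ᵥ x, false) := by
  have h : ∀ (i : Fin 3) (x : X), (FreeGroup.of 0 * FreeGroup.of i : FF) • ((x, false) : YY X) =
      (-gv i +ᵥ x, false) := fun i x => by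
    rw [mul_smul, of_smul_false, of_smul_true, gv0, zero_vadd]
  rw [shv, mul_smul, zpow_smul_yy (h 2), zpow_smul_yy (h 1), ← add_vadd]
  congr 2
  ext <;> simp [gv]

theorem fl_smul (β : Bool) (x : X) : fl β • ((x, true) : YY X) = (x, β) := by
  cases β
  · rw [fl, of_smul_true, gv0, zero_vadd]
  · exact one_smul _ _

theorem mem_pm_yy {lab : X → Tile} (v : V) (S : Set Tile) (x : X) (β : Bool) :
    ((x, β) : YY X) ∈ Pm (eY lab) v S ↔ β = true ∧ lab (v +ᵥ x) ∈ S := by
  rw [Pm, Set.mem_inv_smul_set_iff, mem_join]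
  cases β
  · simp [shv_false, eY]
  · simp [shv_true, eY]

end yy

theorem mem_at {M : Type} {P : V → Set Tile → Set M} {p : M} {x : X0}
    (h : ∀ v S, p ∈ P v S ↔ x.1 v ∈ S) (s : ℕ) (o : V) : p ∈ At P s o ↔ x ∈ At P0 s o := by
  induction s with
  | zero => exact h _ _
  | succ s ih => exact and_congr ih (h _ _)

theorem lab1_vadd {t : ℕ} {J : Set Tile} (v : V) (x : X1 t J) : lab1 t J (v +ᵥ x) = x.1.1 v := by
  rw [lab1, lab0, X1.vadd_val, X0.vadd_apply, zero_add]

theorem ax_yy (t : ℕ) (J : Set Tile) : Ax t J (eY (lab1 t J)) := by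
  refine ⟨fun i p _ => by rw [mul_smul, of_invol], fun i => ?_, ?_, fun τ p hp => hp.1,
    fun τ τ' k p hp hp' => k (hp.2.symm.trans hp'.2), ?_, fun τ k p hp => k ?_, fun S => ?_,
    fun S => ?_, fun τ k => ?_⟩
  · ext ⟨x, β⟩
    rw [Set.mem_smul_set_iff_inv_smul_mem, show (FreeGroup.of i : FF)⁻¹ • ((x, β) : YY _) =
      (FreeGroup.of i : FF) • (x, β) by rw [inv_smul_eq_iff, of_invol]]
    cases β
    · simp [of_smul_false, eY]
    · simp [of_smul_true, eY]
  · rintro ⟨x, β⟩ hp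
    obtain rfl : β = true := hp
    simp only [mul_smul, inv_smul_eq_iff, shv_true, ← add_vadd]
    rw [add_comm]
  · rintro p ⟨hp, hp'⟩
    exact hp' (mem_join.2 ⟨_, trivial, hp, rfl⟩)
  · exact hp.2 ▸ p.1.1.2.1 0
  · ext ⟨x, β⟩
    simp only [mem_pm_yy, lab1_vadd, Set.mem_preimage]
    rw [x.1.2.2.1 0 0, zero_add]
  · ext ⟨x, β⟩
    simp only [mem_pm_yy, lab1_vadd, Set.mem_preimage]
    rw [x.1.2.2.2 0 0, zero_add]
  · rintro ⟨x, β⟩ ⟨hp, hβ, hp'⟩
    obtain rfl : β = true := hβ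
    refine k (hp' ▸ x.2 0 ((mem_at (fun v S => ?_) t 0).1 hp))
    rw [mem_pm_yy, lab1_vadd]
    simp

section sets

variable {M : Type} [MulAction FF M] {t : ℕ} {J : Set Tile} {b : Option Tile → Set M}

/-- the point `p` of the first half has the tiling `x` around it -/
def R0 (b : Option Tile → Set M) (p : M) (x : X0) : Prop :=
  p ∈ b none ∧ ∀ v S, p ∈ Pm b v S ↔ x.1 v ∈ S

namespace Ax

variable (h : Ax t J b)
include h

theorem invol' (i : Fin 3) (p : M) : (FreeGroup.of i : FF) • (FreeGroup.of i : FF) • p = p := by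
  rw [← mul_smul]
  exact h.inv i p trivial

theorem fl_fl (β : Bool) (p : M) : fl β • fl β • p = p := by
  cases β
  · exact h.invol' 0 p
  · simp [fl]

theorem flip_of' (i : Fin 3) (p : M) :
    (FreeGroup.of 0 : FF) • (FreeGroup.of i : FF) • p = shv (gv i) • p := by
  rw [← mul_smul]
  exact set_eqv.1 (h.flip_of i) p trivial

theorem shv_mem (v : V) (p : M) : shv v • p ∈ b none ↔ p ∈ b none := by
  rw [← Set.mem_inv_smul_set_iff, h.shv_fix']

theorem flip_mem (p : M) : (FreeGroup.of 0 : FF) • p ∈ b none ↔ p ∉ b none := by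
  rw [← Set.mem_inv_smul_set_iff, h.inv_smul, h.flip]
  rfl

theorem r0_shift (w : V) (p : M) (x : X0) : R0 b (shv w • p) (w +ᵥ x) ↔ R0 b p x := by
  refine and_congr (h.shv_mem w p) ?_
  simp only [← Set.mem_inv_smul_set_iff, h.pm_shift, X0.vadd_apply]
  exact ⟨fun k v S => by simpa using k (v - w) S, fun k v S => k _ _⟩

theorem exists_r0 {p : M} (hp : p ∈ b none) : ∃ x : X1 t J, R0 b p x.1 := by
  classical
  have hC := h.conf fun _ _ => trivial
  have := Fintype.ofFinite Tile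
  have key : ∀ v, ∃ τ, ∀ S, p ∈ Pm b v S ↔ τ ∈ S := by
    intro v
    have hs := hC.site v
    obtain ⟨τ, hτ⟩ : ∃ τ, p ∈ Pm b v {τ} := by
      by_contra hn
      push Not at hn
      have : p ∈ b none ⊓ (Finset.univ.inf fun τ => (Pm b v {τ})ᶜ) :=
        ⟨hp, Set.singleton_subset_iff.1 (Finset.le_inf (a := ({p} : Set M))
          fun τ _ => Set.singleton_subset_iff.2 (hn τ))⟩
      rw [hs.cover] at this
      exact this
    refine ⟨τ, fun S => ⟨fun k => ?_, fun k => hs.mono (Set.singleton_subset_iff.2 k) hτ⟩⟩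
    by_contra hn
    exact hs.orth (Set.disjoint_singleton_left.2 hn) hτ k
  choose x hx using key
  have hT : IsT x := by
    refine ⟨fun v => (hx v {τ | TV τ}).1 (by rw [hC.valid]; exact hp), fun i j => ?_, fun i j => ?_⟩
    · have := (hx (i, j) (hOut ⁻¹' {hOut (x (i, j))})).2 rfl
      rw [hC.hor, hx] at this
      exact this.symm
    · have := (hx (i, j) (vOut ⁻¹' {vOut (x (i, j))})).2 rfl
      rw [hC.ver, hx] at this
      exact this.symm
  obtain ⟨x', hR⟩ : ∃ x' : X0, R0 b p x' := ⟨⟨x, hT⟩, hp, hx⟩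
  refine ⟨⟨x', fun o ho => ?_⟩, hR⟩
  by_contra hn
  have hR' := (h.r0_shift o p _).2 hR
  refine h.corner _ hn (a := shv o • p) ⟨(mem_at hR'.2 t 0).2 ?_, ?_⟩
  · rw [At_shift, zero_add]; exact ho
  · have := (hR'.2 0 {x'.1 o}).2 (by rw [X0.vadd_apply, zero_add]; rfl)
    rwa [Pm_zero, join_single] at this

theorem exists_rel (p : M) : ∃ y : YY (X1 t J), R0 b (fl y.2 • p) y.1.1 := by
  by_cases hp : p ∈ b none
  · obtain ⟨x, hx⟩ := h.exists_r0 hp
    exact ⟨(x, true), by simpa [fl] using hx⟩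
  · obtain ⟨x, hx⟩ := h.exists_r0 ((h.flip_mem p).2 hp)
    exact ⟨(x, false), hx⟩

theorem rel_smul (γ : FF) {p : M} {y : YY (X1 t J)} (k : R0 b (fl y.2 • p) y.1.1) :
    R0 b (fl (γ • y).2 • γ • p) (γ • y).1.1 := by
  have key : ∀ (i : Fin 3) {p : M} {y : YY (X1 t J)}, R0 b (fl y.2 • p) y.1.1 →
      R0 b (fl ((FreeGroup.of i : FF) • y).2 • (FreeGroup.of i : FF) • p)
        ((FreeGroup.of i : FF) • y).1.1 := by
    rintro i p ⟨x, β⟩ k
    cases β
    · rw [of_smul_false, ← h.r0_shift (gv i), X1.vadd_val, vadd_neg_vadd, fl, one_smul,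
        ← h.flip_of', h.invol']
      exact k
    · rw [of_smul_true, X1.vadd_val, fl, h.flip_of', h.r0_shift]
      simpa [fl] using k
  induction γ using FreeGroup.induction_on generalizing p y with
  | C1 => simpa using k
  | of i => exact key i k
  | inv_of i _ =>
    rw [show (FreeGroup.of i : FF)⁻¹ • y = (FreeGroup.of i : FF) • y by
      rw [inv_smul_eq_iff, of_invol], show (FreeGroup.of i : FF)⁻¹ • p = (FreeGroup.of i : FF) • p by
      rw [inv_smul_eq_iff, h.invol']]
    exact key i k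
  | mul γ δ h1 h2 => rw [mul_smul, mul_smul]; exact h1 (h2 k)

theorem rel_eval (s : Tm FF (Option Tile)) {p : M} {y : YY (X1 t J)}
    (k : R0 b (fl y.2 • p) y.1.1) : p ∈ s.eval b ↔ y ∈ s.eval (eY (lab1 t J)) := by
  induction s generalizing p y with
  | top => exact ⟨fun _ => trivial, fun _ => trivial⟩
  | basic j =>
    obtain ⟨x, β⟩ := y
    cases β
    · have hp : p ∉ b none := (h.flip_mem p).1 k.1
      refine iff_of_false (fun k' => hp ?_) ?_
      · cases j with
        | none => exact k'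
        | some τ => exact h.le τ k'
      · cases j with
        | none => exact Bool.false_ne_true
        | some τ => exact fun k' => Bool.false_ne_true k'.1
    · rw [fl, one_smul] at k
      cases j with
      | none => exact iff_of_true k.1 rfl
      | some τ =>
        have := k.2 0 {τ}
        rw [Pm_zero, join_single] at this
        exact this.trans ⟨fun e => ⟨rfl, e⟩, fun e => e.2⟩
  | act γ s ih =>
    exact Set.mem_smul_set_iff_inv_smul_mem.trans
      ((ih (h.rel_smul γ⁻¹ k)).trans Set.mem_smul_set_iff_inv_smul_mem.symm)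
  | inf s s' h1 h2 => exact and_congr (h1 k) (h2 k)
  | compl s h1 => exact not_congr (h1 k)

end Ax

end sets

theorem normal_form (t : ℕ) (J : Set Tile) (γ : FF) (β : Bool) :
    ∃ (v : V) (β' : Bool), ∀ (M : Type) [MulAction FF M] (b : Option Tile → Set M), Ax t J b →
      ∀ q ∈ b none, γ • fl β • q = fl β' • shv v • q := by
  have key : ∀ (i : Fin 3) (β : Bool), ∃ (v : V) (β' : Bool), ∀ (M : Type) [MulAction FF M]
      (b : Option Tile → Set M), Ax t J b →
      ∀ q ∈ b none, (FreeGroup.of i : FF) • fl β • q = fl β' • shv v • q := by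
    intro i β
    cases β
    · refine ⟨-gv i, true, fun M _ b h q hq => ?_⟩
      have e := set_eqv.1 (h.shv_add (gv i) (-gv i)) q hq
      rw [add_neg_cancel, shv_zero, one_smul, mul_smul, ← h.flip_of'] at e
      rw [fl, fl, one_smul]
      conv_lhs => rw [e, h.invol', h.invol']
    · refine ⟨gv i, false, fun M _ b h q hq => ?_⟩
      rw [fl, fl, one_smul, ← h.flip_of', h.invol']
  induction γ using FreeGroup.induction_on generalizing β with
  | C1 => exact ⟨0, β, fun M _ b h q hq => by rw [shv_zero, one_smul, one_smul]⟩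
  | of i => exact key i β
  | inv_of i _ =>
    obtain ⟨v, β', k⟩ := key i β
    exact ⟨v, β', fun M _ b h q hq => by rw [← k M b h q hq, inv_smul_eq_iff, h.invol']⟩
  | mul γ δ h1 h2 =>
    obtain ⟨v, β', k⟩ := h2 β
    obtain ⟨v', β'', k'⟩ := h1 β'
    refine ⟨v' + v, β'', fun M _ b h q hq => ?_⟩
    rw [mul_smul, k M b h q hq, k' M b h _ ((h.shv_mem v q).2 hq),
      set_eqv.1 (h.shv_add v' v) q hq, mul_smul]

end CompAux

open scoped Pointwise in
open CompAux in
theorem exists_complete (t : ℕ) (J : Set Tile) :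
    ∃ P : Mdl (FreeGroup (Fin 3)) (Option Tile) → Prop, FinAx P ∧ Complete P (eY (lab1 t J)) := by
  refine ⟨fun m => CompAux.Ax t J m.b, finAx t J, ax_yy t J, fun m h hc => h.cm_eval hc,
    fun M _ b h s hs => ?_, fun M _ b h γ s hs p hp => ?_⟩
  · have h : CompAux.Ax t J b := h
    refine Set.eq_empty_of_forall_notMem fun p hp => ?_
    obtain ⟨y, hy⟩ := h.exists_rel p
    have := (h.rel_eval s hy).1 hp
    rw [hs] at this
    exact this
  · have h : CompAux.Ax t J b := h
    obtain ⟨⟨x, β⟩, hy⟩ := h.exists_rel p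
    have h1 := hs _ ((h.rel_eval s hy).1 hp)
    obtain ⟨v, β', k⟩ := normal_form t J γ β
    have h2 := k _ _ (ax_yy t J) (x, true) rfl
    rw [fl_smul, h1, shv_true, fl_smul] at h2
    obtain ⟨h3, rfl⟩ := Prod.ext_iff.1 h2
    obtain ⟨hl⟩ := lev0
    obtain rfl : v = 0 := hl.free v x.1 (congrArg Subtype.val h3).symm
    have h4 := k M b h _ hy.1
    rwa [h.fl_fl, shv_zero, one_smul, h.fl_fl] at h4

end Vale.Agent.P196
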