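import Vale.Agent.P196.Tiles

/-! The action of three involutions on two copies of a `ℤ²`-set. -/

namespace Vale.Agent.P196

open Equiv

/-- two copies of a `ℤ²`-set -/
abbrev YY (X : Type) : Type := X × Bool

variable {X : Type} [AddAction V X]

/-- the involution exchanging `(x, true)` and `(v +ᵥ x, false)` -/
def flipBy (v : V) : Perm (YY X) where
  toFun p := if p.2 then (v +ᵥ p.1, false) else (-v +ᵥ p.1, true)
  invFun p := if p.2 then (v +ᵥ p.1, false) else (-v +ᵥ p.1, true)
  left_inv p := by obtain ⟨x, b⟩ := p; cases b <;> simp
  right_inv p := by obtain ⟨x, b⟩ := p; cases b <;> simp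

/-- the translation vectors of the three generators -/
def gv : Fin 3 → V := ![(0, 0), (1, 0), (0, 1)]

instance : MulAction (FreeGroup (Fin 3)) (YY X) :=
  MulAction.compHom (YY X) (FreeGroup.lift fun i => (flipBy (gv i) : Perm (YY X)))

theorem of_smul (i : Fin 3) (p : YY X) : FreeGroup.of i • p = flipBy (gv i) p := by
  show (FreeGroup.lift fun i => (flipBy (gv i) : Perm (YY X))) (FreeGroup.of i) p = _
  rw [FreeGroup.lift_apply_of]

theorem of_smul_true (i : Fin 3) (x : X) :
    FreeGroup.of i • ((x, true) : YY X) = (gv i +ᵥ x, false) := of_smul i _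

theorem of_smul_false (i : Fin 3) (x : X) :
    FreeGroup.of i • ((x, false) : YY X) = (-gv i +ᵥ x, true) := of_smul i _

theorem of_invol (i : Fin 3) (p : YY X) : FreeGroup.of i • FreeGroup.of i • p = p := by
  rw [of_smul, of_smul]
  exact (flipBy (gv i)).left_inv p

/-- the basic sets: the first copy, and the points of the first copy with a given label -/
def eY {A : Type} (lab : X → A) : Option A → Set (YY X)
  | none => {p | p.2 = true}
  | some a => {p | p.2 = true ∧ lab p.1 = a}

end Vale.Agent.P196
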