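import Vale.Agent.P196.TileA

/-! The plane can be tiled. -/

namespace Vale.Agent.P196

namespace ExistAux

/-- the rules at one junction -/
def Ok (e : ℕ) (W : V → Core) (l : ℤ → Bool) (x y : ℤ) : Prop :=
  Valid (W (x, y)) ∧ (W (x, y)).vo = (W (x, y + 1)).vi ∧
    (res e y = 0 → (W (x, y)).ho = (W (x + 1, y)).hi) ∧
    (res e y ≠ 0 → (W (x + 1, y)).hi = (W (x, y)).ho.set .fin ∧ ColH (W (x, y)) ∧
      (W (x, y)).ho.fl = PatN e (res e y) ∧ (W (x, y)).ho.ty = l x)

/-- inflation of a configuration -/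
def infl (e e' : ℕ) (W : V → Core) (l : ℤ → Bool) (v : V) : Core :=
  if res e v.2 = 0 then (W (v.2 / per e, v.1)).tp
  else lowT e e' (res e' v.1) (res e v.2) (W (v.2 / per e, v.1)).ho (l (v.2 / per e))

theorem eight_le (e : ℕ) : 8 ≤ per e := by
  unfold per
  rw [pow_add]
  have : 1 ≤ 2 ^ (2 * e) := Nat.one_le_two_pow
  omega

theorem div_add (e : ℕ) (x : ℤ) {r : ℕ} (hr : r < per e) : (per e * x + r) / per e = x := by
  have h1 := res_spec e (per e * x + r)
  rw [res_add e x hr] at h1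
  have h2 : (per e : ℤ) ≠ 0 := by exact_mod_cast (per_pos e).ne'
  exact (mul_left_cancel₀ h2 (add_right_cancel h1)).symm

theorem succ_lt {e : ℕ} {y : ℤ} (h : res e y + 1 < per e) :
    res e (y + 1) = res e y + 1 ∧ (y + 1) / per e = y / per e := by
  have e1 : y + 1 = per e * (y / per e) + ((res e y + 1 : ℕ) : ℤ) := by
    have := res_spec e y
    push_cast
    linarith
  refine ⟨?_, ?_⟩
  · rw [e1]; exact res_add e _ h
  · conv_lhs => rw [e1]
    exact div_add e _ h

theorem succ_eq {e : ℕ} {y : ℤ} (h : ¬ res e y + 1 < per e) :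
    res e y + 1 = per e ∧ res e (y + 1) = 0 ∧ (y + 1) / per e = y / per e + 1 := by
  have h0 : res e y + 1 = per e := by have := res_lt e y; omega
  have e1 : y + 1 = per e * (y / per e + 1) + ((0 : ℕ) : ℤ) := by
    have h1 := res_spec e y
    have h2 : ((res e y : ℕ) : ℤ) + 1 = per e := by exact_mod_cast h0
    push_cast
    linarith
  refine ⟨h0, ?_, ?_⟩
  · rw [e1]; exact res_add e _ (per_pos e)
  · conv_lhs => rw [e1]
    exact div_add e _ (per_pos e)

variable {e e' : ℕ} {W : V → Core} {l : ℤ → Bool}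

theorem infl_zero {x y : ℤ} (h : res e y = 0) : infl e e' W l (x, y) = (W (y / per e, x)).tp :=
  if_pos h

theorem infl_ne {x y : ℤ} (h : res e y ≠ 0) : infl e e' W l (x, y) =
    lowT e e' (res e' x) (res e y) (W (y / per e, x)).ho (l (y / per e)) := if_neg h

/-- the rules on a lowest row, given the vertical matching -/
theorem ok_low (he : e' + 2 = 2 ^ e) {x y : ℤ} (h : res e y ≠ 0)
    (hc : res e' x ≠ 0 → (W (y / per e, x)).ho.fl = PatN e' (res e' x) ∧
      (W (y / per e, x)).ho.ty = l (y / per e))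
    (hv : (infl e e' W l (x, y)).vo = (infl e e' W l (x, y + 1)).vi) :
    Ok e (infl e e' W l) (fun x => decide (res e' x ≠ 0)) x y := by
  have hcol : ColH (infl e e' W l (x, y)) := by
    rw [infl_ne h]
    exact lowT_colH he (res_lt e' x) (by omega) hc
  refine ⟨Or.inl hcol, hv, fun h0 => absurd h0 h, fun _ => ⟨?_, hcol, ?_, ?_⟩⟩
  · rw [infl_ne h, infl_ne h]
    have h8 := eight_le e'
    have k1 : (if res e' (x + 1) = 0 then per e' - 1 else res e' (x + 1) - 1) = res e' x := by
      by_cases h1 : res e' x + 1 < per e'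
      · rw [(succ_lt h1).1]; simp
      · have := succ_eq h1
        rw [if_pos this.2.1]; omega
    have k2 : decide (res e' (x + 1) ≠ 1) = decide (res e' x ≠ 0) := by
      rw [decide_eq_decide]
      by_cases h1 : res e' x + 1 < per e'
      · rw [(succ_lt h1).1]; omega
      · have := succ_eq h1
        omega
    simp only [lowT, Col.set, k1, k2]
  · rw [infl_ne h]; rfl
  · rw [infl_ne h]; rfl

theorem vert_mid {x y : ℤ} (h : res e y ≠ 0) (h1 : res e y + 1 < per e) :
    (infl e e' W l (x, y)).vo = (infl e e' W l (x, y + 1)).vi := by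
  have h2 := succ_lt h1
  rw [infl_ne h, infl_ne (by omega), h2.1, h2.2]
  rfl

theorem ok_infl (he : e' + 2 = 2 ^ e) {x y : ℤ} (h : Ok e' W l (y / per e) x) :
    Ok e (infl e e' W l) (fun x => decide (res e' x ≠ 0)) x y := by
  obtain ⟨a1, a2, a3, a4⟩ := h
  have h8 := eight_le e
  by_cases h0 : res e y = 0
  · have h2 := succ_lt (e := e) (y := y) (by omega)
    refine ⟨?_, ?_, fun _ => ?_, fun h => absurd h0 h⟩
    · rw [infl_zero h0]; exact valid_tp.2 a1
    · rw [infl_zero h0, infl_ne (by omega), h2.1, h2.2, h0]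
      show (W (y / per e, x)).ho = if res e' x = 0 then (W (y / per e, x)).ho
        else (W (y / per e, x)).ho.set .start
      split_ifs with h3
      · rfl
      · have h4 := (a4 h3).2.1.lo_tr
        rw [← h4]
        rfl
    · rw [infl_zero h0, infl_zero h0]
      exact a2
  · refine ok_low he h0 (fun h3 => (a4 h3).2.2) ?_
    by_cases h1 : res e y + 1 < per e
    · exact vert_mid h0 h1
    · have h2 := succ_eq h1
      rw [infl_ne h0, infl_zero h2.2.1, h2.2.2]
      show (if res e' x = 0 then (W (y / per e, x)).ho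
        else (W (y / per e, x)).ho.set (trk e (res e' x) (res e y))) = (W (y / per e + 1, x)).hi
      split_ifs with h3
      · exact a3 h3
      · have h4 : 2 ^ (e + 1) * (2 * e' + 3) < 2 ^ (2 * e + 2) :=
          used_row_lt he (i := 2 * e' + 2) (by omega)
        have h5 : per e = 2 ^ (2 * e + 2) * 2 := pow_succ 2 _
        rw [trk_fin he (by omega), (a4 h3).1]

/-- the rules hold on a square -/
def Sq (n s : ℕ) : Prop :=
  ∃ (W : V → Core) (l : ℤ → Bool) (a b : ℤ), ∀ x y, a ≤ x → x ≤ a + n → b ≤ y → y ≤ b + n →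
    Ok (ee s) W l x y

theorem sq_seed (n : ℕ) : Sq n n := by
  refine ⟨infl (ee n) (ee (n + 1)) (fun v => ⟨genT.vi, genT.vi, genT.vi,
    ⟨PatN (ee (n + 1)) (res (ee (n + 1)) v.2), false, .start, true, false⟩⟩) (fun _ => true),
    fun x => decide (res (ee (n + 1)) x ≠ 0), 0, 1, fun x y _ _ h1 h2 => ?_⟩
  have h3 : n + 3 ≤ per (ee n) := by
    have h4 := le_ee n
    have h5 : 2 * ee n + 3 < per (ee n) := Nat.lt_two_pow_self
    omega
  obtain ⟨r, rfl⟩ : ∃ r : ℕ, y = r := ⟨y.toNat, (Int.toNat_of_nonneg (by omega)).symm⟩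
  have h6 : res (ee n) r = r := by
    have := res_add (ee n) 0 (r := r) (by omega)
    simpa using this
  exact ok_low (ee_succ n) (by omega) (fun _ => ⟨rfl, rfl⟩) (vert_mid (by omega) (by omega))

theorem sq_down {n s : ℕ} (h : Sq n (s + 1)) : Sq n s := by
  obtain ⟨W, l, a, b, h⟩ := h
  refine ⟨_, _, b, per (ee s) * a, fun x y h1 h2 h3 h4 => ok_infl (ee_succ s) (h _ _ ?_ ?_ h1 h2)⟩
  · have hp : (0 : ℤ) < per (ee s) := by exact_mod_cast per_pos _
    rw [Int.le_ediv_iff_mul_le hp]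
    linarith
  · have hp : (0 : ℤ) < per (ee s) := by exact_mod_cast per_pos _
    apply Int.ediv_le_of_le_mul hp
    have : (n : ℤ) ≤ n * per (ee s) := le_mul_of_one_le_right (Int.natCast_nonneg n) hp
    linarith

theorem sq_zero (n : ℕ) : Sq n 0 := by
  have : ∀ s, Sq n s → Sq n 0 := by
    intro s
    induction s with
    | zero => exact id
    | succ s ih => exact fun h => ih (sq_down h)
  exact this n (sq_seed n)

/-- the rules for tiles at one site -/
def Loc0 (t : V → Tile) (i j : ℤ) : Prop :=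
  TV (t (i, j)) ∧ hOut (t (i, j)) = hIn (t (i + 1, j)) ∧ vOut (t (i, j)) = vIn (t (i, j + 1))

theorem val_eq (y : ℤ) : (y : ZMod (per (ee 0))).val = res (ee 0) y := by
  unfold res
  rw [← ZMod.val_intCast, Int.toNat_natCast]

theorem exists_box (m : ℕ) : ∃ t : V → Tile, ∀ i j : ℤ, |i| ≤ m → |j| ≤ m → Loc0 t i j := by
  obtain ⟨W, l, a, b, h⟩ := sq_zero (2 * m)
  refine ⟨fun v => (W (v.1 + (a + m), v.2 + (b + m)), ((v.2 + (b + m) : ℤ) : ZMod _),
    l (v.1 + (a + m))), fun i j hi hj => ?_⟩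
  rw [abs_le] at hi hj
  obtain ⟨a1, a2, a3, a4⟩ := h (i + (a + m)) (j + (b + m)) (by omega) (by push_cast; omega)
    (by omega) (by push_cast; omega)
  have hz : ((j + (b + m) : ℤ) : ZMod (per (ee 0))) = 0 ↔ res (ee 0) (j + (b + m)) = 0 := by
    rw [← val_eq, ZMod.val_eq_zero]
  refine ⟨⟨a1, fun h0 => ?_⟩, ?_, ?_⟩
  · have := a4 (fun h1 => h0 (hz.2 h1))
    exact ⟨this.2.1, by rw [this.2.2.1, ← val_eq], this.2.2.2⟩
  · simp only [hOut, hIn, Prod.mk.injEq, true_and]
    rw [add_right_comm i 1]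
    split_ifs with h0
    · exact a3 (hz.1 h0)
    · exact (a4 (fun h1 => h0 (hz.2 h1))).1.symm
  · simp only [vOut, vIn, Prod.mk.injEq, true_and]
    rw [add_right_comm j 1]
    exact ⟨by push_cast; rfl, a2⟩

end ExistAux

open ExistAux in
theorem nonempty_X0 : Nonempty X0 := by
  choose t ht using exists_box
  have hlim : ∀ v : V, ∃ τ : Tile, {m | t m v = τ} ∈ Filter.hyperfilter ℕ := by
    intro v
    obtain ⟨τ, hτ⟩ := ((Filter.hyperfilter ℕ).map fun m => t m v).eq_pure_of_finite
    refine ⟨τ, ?_⟩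
    have : ({τ} : Set Tile) ∈ (Filter.hyperfilter ℕ).map fun m => t m v := by
      rw [hτ]; exact Ultrafilter.mem_pure.2 rfl
    exact this
  choose τ hτ using hlim
  have key : ∀ i j, Loc0 τ i j := by
    intro i j
    have h1 : {m : ℕ | i.natAbs + j.natAbs ≤ m} ∈ Filter.hyperfilter ℕ := by
      apply Filter.hyperfilter_le_cofinite
      rw [Nat.cofinite_eq_atTop]
      exact Filter.mem_atTop _
    obtain ⟨m, ⟨⟨k1, k2⟩, k3⟩, k4⟩ := Ultrafilter.nonempty_of_mem (Filter.inter_mem
      (Filter.inter_mem (Filter.inter_mem (hτ (i, j)) (hτ (i + 1, j))) (hτ (i, j + 1))) h1)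
    have k5 : i.natAbs + j.natAbs ≤ m := k4
    have := ht m i j (by rw [Int.abs_eq_natAbs]; omega) (by rw [Int.abs_eq_natAbs]; omega)
    unfold Loc0 at this ⊢
    rw [← k1, ← k2, ← k3]
    exact this
  exact ⟨⟨τ, fun v => (key v.1 v.2).1, fun i j => (key i j).2.1, fun i j => (key i j).2.2⟩⟩

end Vale.Agent.P196
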