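import Mathlib

/-! Subgroups of finite index in finitely presented groups. -/

namespace Vale.Agent.P196

open Subgroup

theorem FIAux.finite_of_fg {α : Type} [h : Group.FG (FreeGroup α)] : Finite α := by
  classical
  obtain ⟨S, hS⟩ := h.out
  refine Set.finite_univ_iff.1 ((S.biUnion fun x => (x.toWord.map Prod.fst).toFinset).finite_toSet.subset
    fun a _ => by_contra fun ha => ?_)
  let χ : FreeGroup α →* Multiplicative ℤ :=
    FreeGroup.lift fun b => if b = a then Multiplicative.ofAdd 1 else 1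
  have : closure (S : Set (FreeGroup α)) ≤ χ.ker := (closure_le _).2 fun x hx => by
    rw [SetLike.mem_coe, MonoidHom.mem_ker, ← FreeGroup.mk_toWord (x := x), FreeGroup.lift_mk]
    refine List.prod_eq_one fun y hy => ?_
    obtain ⟨z, hz, rfl⟩ := List.mem_map.1 hy
    have : z.1 ≠ a := fun e => ha (by
      simp only [Finset.coe_biUnion, Set.mem_iUnion, Finset.mem_coe, List.mem_toFinset]
      exact ⟨x, hx, List.mem_map.2 ⟨z, hz, e⟩⟩)
    simp [this]
  have h1 : χ (FreeGroup.of a) = 1 := this (hS ▸ mem_top (FreeGroup.of a))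
  simp [χ] at h1

theorem fp_of_finiteIndex {H : Type} [Group H] [Group.IsFinitelyPresented H] (N : Subgroup H)
    [N.FiniteIndex] : Group.IsFinitelyPresented N := by
  obtain ⟨n, φ, hφ, S, hS, hK⟩ := Group.IsFinitelyPresented.out (G := H)
  let F := N.comap φ
  have : F.FiniteIndex := ⟨by rw [index_comap_of_surjective _ hφ]; exact FiniteIndex.index_ne_zero⟩
  have : Group.FG (FreeGroup (IsFreeGroup.Generators F)) :=
    Group.fg_of_surjective (f := (IsFreeGroup.toFreeGroup F).toMonoidHom)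
      (IsFreeGroup.toFreeGroup F).surjective
  have : Finite (IsFreeGroup.Generators F) := FIAux.finite_of_fg
  have : Group.IsFinitelyPresented F := .equiv (IsFreeGroup.mulEquiv F)
  have hs : ∀ s ∈ S, φ s = 1 := fun s h => by
    rw [← MonoidHom.mem_ker, ← hK]; exact subset_normalClosure h
  refine .of_surjective ((φ.comp F.subtype).codRestrict N fun x => x.2) (fun y => ?_)
    ⟨Subtype.val ⁻¹' Set.image2 (fun (q : FreeGroup (Fin n) ⧸ F) s => q.out⁻¹ * s * q.out) .univ S,
      (Set.finite_univ.image2 _ hS).preimage Subtype.val_injective.injOn, le_antisymm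
        (normalClosure_le_normal ?_) fun x hx => ?_⟩
  · obtain ⟨x, hx⟩ := hφ y
    exact ⟨⟨x, show φ x ∈ N from hx ▸ y.2⟩, Subtype.ext hx⟩
  · rintro x ⟨q, -, s, h, e⟩
    refine Subtype.ext (show φ x = 1 from ?_)
    simp [← e, hs s h]
  · have h1 : (x : FreeGroup (Fin n)) ∈ normalClosure S := hK ▸ congrArg Subtype.val hx
    refine (mem_map_iff_mem F.subtype_injective).1 ((closure_le _).2 (fun y hy => ?_) h1)
    obtain ⟨s, h, hc⟩ := Group.mem_conjugatesOfSet_iff.1 hy
    obtain ⟨f, rfl⟩ := isConj_iff.1 hc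
    obtain ⟨u, hu⟩ := QuotientGroup.mk_out_eq_mul F f⁻¹
    refine ⟨u * ⟨(QuotientGroup.mk f⁻¹ : _ ⧸ F).out⁻¹ * s * (QuotientGroup.mk f⁻¹ : _ ⧸ F).out,
      show φ _ ∈ N by simp [hs s h]⟩ * u⁻¹, normalClosure_normal.conj_mem _
        (subset_normalClosure ?_) _, ?_⟩
    · exact ⟨_, trivial, s, h, rfl⟩
    · simp [hu, mul_assoc]

end Vale.Agent.P196
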