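import Vale.Agent.P196.HierA
import Vale.Agent.P196.Exist

/-! A minimal subshift of finite type. -/

namespace Vale.Agent.P196

namespace HierBAux

open Filter

theorem agree1_iff {t : ℕ} {J : Set Tile} {ρ : ℕ} {x y : X1 t J} :
    Agree (lab1 t J) ρ x y ↔ Agree lab0 ρ x.1 y.1 := Iff.rfl

theorem lab0_vadd (v : V) (x : X0) : lab0 (v +ᵥ x) = x.1 v := by
  show x.1 (0 + v) = x.1 v
  rw [zero_add]

/-- sequences of tilings have limits along an ultrafilter -/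
theorem exists_limit (U : Ultrafilter ℕ) (x : ℕ → X0) :
    ∃ y : X0, ∀ ρ : ℕ, ∀ᶠ n in (U : Filter ℕ), Agree lab0 ρ y (x n) := by
  have h1 : ∀ v : V, ∃ τ : Tile, ∀ᶠ n in (U : Filter ℕ), (x n).1 v = τ := by
    intro v
    obtain ⟨τ, hτ⟩ := Ultrafilter.eq_pure_of_finite (U.map fun n => (x n).1 v)
    refine ⟨τ, ?_⟩
    have : {τ} ∈ U.map fun n => (x n).1 v := by rw [hτ]; simp
    exact this
  choose y hy using h1
  have hT : IsT y := by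
    refine ⟨fun v => ?_, fun i j => ?_, fun i j => ?_⟩
    · obtain ⟨n, hn⟩ := (hy v).exists
      rw [← hn]; exact (x n).2.1 v
    · obtain ⟨n, hn, hn'⟩ := ((hy (i, j)).and (hy (i + 1, j))).exists
      rw [← hn, ← hn']; exact (x n).2.2.1 i j
    · obtain ⟨n, hn, hn'⟩ := ((hy (i, j)).and (hy (i, j + 1))).exists
      rw [← hn, ← hn']; exact (x n).2.2.2 i j
  refine ⟨⟨y, hT⟩, fun ρ => ?_⟩
  have := SSLAux.box_finite ρ
  have h2 : ∀ᶠ n in (U : Filter ℕ), ∀ v : {v : V // |v.1| ≤ ρ ∧ |v.2| ≤ ρ}, (x n).1 v.1 = y v.1 :=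
    Filter.eventually_all.2 fun v => hy v.1
  refine h2.mono fun n hn v h1 h2 => ?_
  exact (lab0_vadd v ⟨y, hT⟩).trans ((hn ⟨v, h1, h2⟩).symm.trans (lab0_vadd v (x n)).symm)

theorem at_anti0 {s s' : ℕ} (hs : s ≤ s') {o : V} {x : X0} (h : x ∈ At P0 s' o) : x ∈ At P0 s o :=
  conf_P0.at_anti hs o h

section minimal

variable {t : ℕ} {J : Set Tile}
  (hmin : ∀ (s : ℕ) (J' : Set Tile), Nonempty (X1 s J') → J.ncard ≤ J'.ncard)
include hmin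

theorem occurs (x : X1 t J) {s : ℕ} (hs : t ≤ s) {τ : Tile} (hτ : τ ∈ J) :
    ∃ o, x.1 ∈ At P0 s o ∧ x.1.1 o = τ := by
  let J' : Set Tile := {τ | ∃ o, x.1 ∈ At P0 s o ∧ x.1.1 o = τ}
  have h1 : J' ⊆ J := by
    rintro _ ⟨o, ho, rfl⟩
    exact x.2 o (at_anti0 hs ho)
  have h2 : J.ncard ≤ J'.ncard := hmin s J' ⟨⟨x.1, fun o ho => ⟨o, ho, rfl⟩⟩⟩
  have h3 : J' = J := Set.eq_of_subset_of_ncard_le h1 h2 (Set.toFinite _)
  rw [← h3] at hτ
  exact hτ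

theorem dense (ρ : ℕ) (x y : X1 t J) : ∃ v : V, Agree lab0 ρ y.1 (v +ᵥ x.1) := by
  obtain ⟨s0, hs0, h⟩ := fate0 ρ t
  obtain ⟨s', o', h1, -, h3, h4⟩ := h y.1
  obtain ⟨o, ho, e⟩ := occurs hmin x (hs0.trans h1) (y.2 o' (at_anti0 (hs0.trans h1) h3))
  have e0 : o' + (o - o') = o := by abel
  refine ⟨o - o', h4 _ h3 _ ?_ ?_⟩
  · rw [At_shift, e0]; exact ho
  · rw [X0.vadd_apply, e0, e]

theorem mini : Mini (lab1 t J) := by
  classical
  rintro d ⟨ρ, hρ⟩ ⟨y, hy⟩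
  by_contra hno
  push Not at hno
  choose x hx using fun n : ℕ => hno ((Finset.Icc (-(n : ℤ)) n) ×ˢ (Finset.Icc (-(n : ℤ)) n))
  obtain ⟨z, hz⟩ := exists_limit (hyperfilter ℕ) fun n => (x n).1
  have hz1 : ∀ o, z ∈ At P0 t o → z.1 o ∈ J := by
    intro o ho
    obtain ⟨ρ', hρ'⟩ := loc_at t o
    obtain ⟨n, hn⟩ := (hz (ρ' + (o.1.natAbs + o.2.natAbs))).exists
    have h1 := (x n).2 o (hρ' _ _ (hn.mono (by omega)) ho)
    have h2 := hn o (by rw [Int.abs_eq_natAbs]; omega)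
      (by rw [Int.abs_eq_natAbs]; omega)
    rw [lab0_vadd, lab0_vadd] at h2
    rw [h2]; exact h1
  obtain ⟨v, hv⟩ := dense hmin ρ ⟨z, hz1⟩ y
  have hbig : ∀ᶠ n in (hyperfilter ℕ : Filter ℕ), v.1.natAbs + v.2.natAbs ≤ n := by
    refine (Filter.Eventually.filter_mono hyperfilter_le_cofinite ?_)
    rw [Nat.cofinite_eq_atTop]
    exact Filter.eventually_ge_atTop _
  obtain ⟨n, hn, hn'⟩ := ((hz (ρ + (v.1.natAbs + v.2.natAbs))).and hbig).exists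
  have h1 : Agree lab0 ρ (v +ᵥ z) (v +ᵥ (x n).1) :=
    hn.shift (by rw [Int.abs_eq_natAbs]; omega)
      (by rw [Int.abs_eq_natAbs]; omega)
  refine hx n v ?_ (hρ y _ (agree1_iff.2 (hv.trans h1)) hy)
  simp only [Finset.mem_product, Finset.mem_Icc]
  omega

end minimal

end HierBAux

theorem exists_minimal : ∃ (t : ℕ) (J : Set Tile), Nonempty (X1 t J) ∧ Mini (lab1 t J) := by
  classical
  have hex : ∃ n, ∃ (t : ℕ) (J : Set Tile), Nonempty (X1 t J) ∧ J.ncard = n := by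
    obtain ⟨x⟩ := nonempty_X0
    exact ⟨_, 0, Set.univ, ⟨⟨x, fun _ _ => Set.mem_univ _⟩⟩, rfl⟩
  obtain ⟨t, J, hne, hJ⟩ := Nat.find_spec hex
  refine ⟨t, J, hne, HierBAux.mini fun s J' h => ?_⟩
  rw [hJ]
  exact Nat.find_min' hex ⟨s, J', h, rfl⟩

end Vale.Agent.P196
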