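import Vale.Agent.P196.SS

/-! Canonical lifts of elementary three-cycles in central extensions: definitions. -/

namespace Vale.Agent.P196

open Equiv

variable {X A Q : Type} [AddAction V X]

/-- a central extension with canonical lifts of the elementary three-cycles -/
structure Lift (lab : X → A) (Q N : Type) [Group N] where
  π : N →* Perm (X × Q)
  T : Set X → (Fin 3 → V × Q) → N
  range : π.range = A3 lab Q
  cen : π.ker ≤ Subgroup.center N
  π_T : ∀ d s, Loc lab d → Fr d s → π (T d s) = cyc d s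
  conj : ∀ n d s s', Loc lab d → Fr d s → (∀ i, ∀ x ∈ d, π n (sh (s i) x) = sh (s' i) x) →
    n * T d s * n⁻¹ = T d s'
  shift : ∀ d s (w : V), Loc lab d → Fr d s →
    T {x | w +ᵥ x ∈ d} (fun i => ((s i).1 + w, (s i).2)) = T d s
  add : ∀ d d' s, Loc lab d → Loc lab d' → Disjoint d d' → Fr (d ∪ d') s →
    T (d ∪ d') s = T d s * T d' s
  cube : ∀ d s, Loc lab d → Fr d s → T d s ^ 3 = 1
  inv : ∀ d s, Loc lab d → Fr d s → T d (s ∘ ![1, 0, 2]) = (T d s)⁻¹
  gen : Subgroup.closure {n | ∃ d s, Loc lab d ∧ Fr d s ∧ n = T d s} = ⊤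

variable {lab : X → A} {N : Type} [Group N]

/-- the Carmichael relations hold for the lifts -/
def Lift.Eps (L : Lift lab Q N) : Prop :=
  ∀ (d : Set X) (s : Fin 4 → V × Q), Loc lab d → Fr d s →
    (L.T d (s ∘ ![0, 1, 2]) * L.T d (s ∘ ![0, 1, 3])) ^ 2 = 1

/-- all sheets over a common base point are related -/
def Sub (R : X × Q → X × Q → Prop) (d : Set X) (s : Fin 3 → V × Q) : Prop :=
  ∀ x ∈ d, ∀ i j, R (sh (s i) x) (sh (s j) x)

/-- the subgroup generated by the lifts of three-cycles inside a relation -/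
def Lift.NR (L : Lift lab Q N) (R : X × Q → X × Q → Prop) : Subgroup N :=
  Subgroup.closure {n | ∃ d s, Loc lab d ∧ Fr d s ∧ Sub R d s ∧ n = L.T d s}

/-- the blocks of a frame -/
def RF {I : Type} (d : Set X) (s : I → V × Q) (ω ω' : X × Q) : Prop :=
  ∃ x ∈ d, ∃ i j, ω = sh (s i) x ∧ ω' = sh (s j) x

/-- `g` moves every point inside its class -/
def Pres (R : X × Q → X × Q → Prop) (g : Perm (X × Q)) : Prop := ∀ ω, g ω = ω ∨ R ω (g ω)

/-- frames of radius `ρ` -/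
def Ok (lab : X → A) (ρ : ℕ) (f : Set X × (Fin 3 → V × Q)) : Prop :=
  (∀ x y, Agree lab ρ x y → x ∈ f.1 → y ∈ f.1) ∧ Fr f.1 f.2 ∧
    ∀ i, |(f.2 i).1.1| ≤ ρ ∧ |(f.2 i).1.2| ≤ ρ

/-- the product of the three-cycles of a word, with bases restricted to `E` -/
noncomputable def wd (l : List (Set X × (Fin 3 → V × Q))) (E : Set X) : Perm (X × Q) :=
  (l.map fun f => cyc (f.1 ∩ E) f.2).prod

/-- the product of the lifts of a word, with bases restricted to `E` -/
def Lift.wd (L : Lift lab Q N) (l : List (Set X × (Fin 3 → V × Q))) (E : Set X) : N :=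
  (l.map fun f => L.T (f.1 ∩ E) f.2).prod

/-- related points that are close to each other and to `E` -/
def Close (R : X × Q → X × Q → Prop) (E : Set X) (δ : ℕ) (ω ω' : X × Q) : Prop :=
  R ω ω' ∧ (∃ v : V, |v.1| ≤ δ ∧ |v.2| ≤ δ ∧ v +ᵥ ω.1 ∈ E) ∧
    ∃ v : V, |v.1| ≤ δ ∧ |v.2| ≤ δ ∧ ω'.1 = v +ᵥ ω.1

/-- the position `p` and its displacement by `t` lie in the same copy of `[0, l)` modulo `m` -/
def In (m l p t : ℤ) : Prop := p % m < l ∧ 0 ≤ p % m + t ∧ p % m + t < l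

/-- horizontal bands `y1 ≤ y < y1 + l` at level `s` -/
def Lev.Ry (h : Lev lab) (s : ℕ) (y1 l : ℤ) (ω ω' : X × Q) : Prop :=
  ∃ v : V, ω'.1 = v +ᵥ ω.1 ∧ In (h.b s) l (h.py s ω.1 - y1) v.2

/-- rectangles `x1 ≤ x < x1 + k`, `y1 ≤ y < y1 + l` at level `s` -/
def Lev.Rr (h : Lev lab) (s : ℕ) (x1 k y1 l : ℤ) (ω ω' : X × Q) : Prop :=
  ∃ v : V, ω'.1 = v +ᵥ ω.1 ∧ In (h.a s) k (h.px s ω.1 - x1) v.1 ∧
    In (h.b s) l (h.py s ω.1 - y1) v.2

/-- labels enriched by the position in the grid of level `s` -/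
def Lev.lab2 (h : Lev lab) (s : ℕ) (x : X) : A × ℤ × ℤ := (lab x, h.px s x, h.py s x)

/-- `g` moves finitely many points across the boundary of `H` -/
def Fi {Ω : Type} (H : Set Ω) (g : Perm Ω) : Prop := {ω | ¬(ω ∈ H ↔ g ω ∈ H)}.Finite

/-- number of points leaving `H` minus number of points entering `H` -/
noncomputable def ind {Ω : Type} (H : Set Ω) (g : Perm Ω) : ℤ :=
  ({ω | ω ∈ H ∧ g ω ∉ H}.ncard : ℤ) - {ω | ω ∉ H ∧ g ω ∈ H}.ncard

/-- the left half of the orbit of `x` -/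
def Hx (Q : Type) (x : X) : Set (X × Q) := {ω | ∃ v : V, v.1 < 0 ∧ ω.1 = v +ᵥ x}

/-- the lower half of the orbit of `x` -/
def Lo (x : X) : Set X := {y | ∃ v : V, v.2 < 0 ∧ y = v +ᵥ x}

/-- the upper half of the orbit of `x` -/
def Up (x : X) : Set X := {y | ∃ v : V, 0 ≤ v.2 ∧ y = v +ᵥ x}

/-- the left half of the band `0 ≤ y < l` in the orbit of `x` -/
def Hb (Q : Type) (x : X) (l : ℤ) : Set (X × Q) :=
  {ω | ∃ v : V, v.1 < 0 ∧ 0 ≤ v.2 ∧ v.2 < l ∧ ω.1 = v +ᵥ x}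

end Vale.Agent.P196
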