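import Vale.Agent.P196.SSL
import Vale.Agent.P196.KD

/-! The index of a permutation across a set, and the flux of a word. -/

namespace Vale.Agent.P196

open Equiv

section ind

variable {Ω : Type} {H H' : Set Ω} {g g' : Perm Ω}

theorem Fi.one : Fi H (1 : Perm Ω) := by simp [Fi]

theorem Fi.mul (h : Fi H g) (h' : Fi H g') : Fi H (g * g') := by
  refine (h'.union (h.preimage g'.injective.injOn)).subset fun ω hω => ?_
  simp only [Set.mem_union, Set.mem_preimage, Set.mem_ofPred_eq, Perm.mul_apply] at hω ⊢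
  tauto

theorem Fi.inv (h : Fi H g) : Fi H g⁻¹ := by
  refine (h.preimage g⁻¹.injective.injOn).subset fun ω hω => ?_
  have e : g (g⁻¹ ω) = ω := by simp
  simp only [Set.mem_preimage, Set.mem_ofPred_eq, e] at hω ⊢
  tauto

namespace KIdxAux

open Classical in
/-- integer indicator -/
noncomputable def chi (H : Set Ω) (ω : Ω) : ℤ := if ω ∈ H then 1 else 0

theorem ind_eq_sum (T : Finset Ω) (hT : ∀ ω, ¬(ω ∈ H ↔ g ω ∈ H) → ω ∈ T) :
    ind H g = ∑ ω ∈ T, (chi H ω - chi H (g ω)) := by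
  classical
  have e1 : {ω | ω ∈ H ∧ g ω ∉ H} = ↑(T.filter fun ω => ω ∈ H ∧ g ω ∉ H) := by
    ext ω; simp only [Set.mem_ofPred_eq, Finset.coe_filter]
    exact ⟨fun h => ⟨hT ω (by tauto), h⟩, fun h => h.2⟩
  have e2 : {ω | ω ∉ H ∧ g ω ∈ H} = ↑(T.filter fun ω => ω ∉ H ∧ g ω ∈ H) := by
    ext ω; simp only [Set.mem_ofPred_eq, Finset.coe_filter]
    exact ⟨fun h => ⟨hT ω (by tauto), h⟩, fun h => h.2⟩
  rw [ind, e1, e2, Set.ncard_coe_finset, Set.ncard_coe_finset, Finset.card_filter,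
    Finset.card_filter]
  push_cast
  rw [← Finset.sum_sub_distrib]
  refine Finset.sum_congr rfl fun ω _ => ?_
  by_cases h1 : ω ∈ H <;> by_cases h2 : g ω ∈ H <;> simp [chi, h1, h2]

end KIdxAux

open KIdxAux

theorem ind_one : ind H (1 : Perm Ω) = 0 := by simp [ind]

theorem ind_mul (h : Fi H g) (h' : Fi H g') : ind H (g * g') = ind H g + ind H g' := by
  have hT := h'.union (h.preimage g'.injective.injOn)
  rw [ind_eq_sum (g := g * g') hT.toFinset, ind_eq_sum (g := g') hT.toFinset,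
    ind_eq_sum (g := g) (hT.toFinset.map g'.toEmbedding), Finset.sum_map, ← Finset.sum_add_distrib]
  · exact Finset.sum_congr rfl fun ω _ => by simp
  · intro ω hω
    refine Finset.mem_map.2 ⟨g'⁻¹ ω, ?_, by simp⟩
    have e : g' (g'⁻¹ ω) = ω := by simp
    simp only [Set.Finite.mem_toFinset, Set.mem_union, Set.mem_preimage, Set.mem_ofPred_eq, e]
    exact .inr hω
  · intro ω hω
    simp only [Set.Finite.mem_toFinset, Set.mem_union, Set.mem_ofPred_eq]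
    exact .inl hω
  · intro ω hω
    simp only [Set.Finite.mem_toFinset, Set.mem_union, Set.mem_preimage, Set.mem_ofPred_eq,
      Perm.mul_apply] at hω ⊢
    tauto

theorem ind_cube (h : Fi H g) (h3 : g ^ 3 = 1) : ind H g = 0 := by
  have e : ind H (g * g * g) = 0 := by rw [← pow_three', h3, ind_one]
  rw [ind_mul (h.mul h) h, ind_mul h h] at e
  omega

/-- changing `H` in finitely many moved points -/
theorem ind_congr (h : Fi H g) (hH : {ω | g ω ≠ ω ∧ ¬(ω ∈ H ↔ ω ∈ H')}.Finite) :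
    Fi H' g ∧ ind H' g = ind H g := by
  classical
  have hT := (h.union hH).union (hH.preimage g.injective.injOn)
  have key : ∀ ω, ¬(ω ∈ H' ↔ g ω ∈ H') → ω ∈ hT.toFinset := by
    intro ω hω
    have h1 : g ω ≠ ω := fun e => hω (by rw [e])
    have h2 : g (g ω) ≠ g ω := fun e => h1 (g.injective e)
    simp only [Set.Finite.mem_toFinset, Set.mem_union, Set.mem_preimage, Set.mem_ofPred_eq]
    tauto
  refine ⟨hT.subset fun ω hω => by simpa using key ω hω, ?_⟩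
  rw [ind_eq_sum _ key, ind_eq_sum hT.toFinset (fun ω hω => by
    simp only [Set.Finite.mem_toFinset, Set.mem_union, Set.mem_ofPred_eq]; tauto), ← sub_eq_zero,
    ← Finset.sum_sub_distrib]
  let D : Ω → ℤ := fun ω => if g ω = ω then 0 else chi H' ω - chi H ω
  have hD : ∀ ω, ω ∉ hH.toFinset → D ω = 0 := by
    intro ω hω
    simp only [Set.Finite.mem_toFinset, Set.mem_ofPred_eq, not_and, not_not] at hω
    simp only [D]
    split_ifs with h1
    · rfl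
    · simp [chi, hω h1]
  have e : ∀ ω, chi H' ω - chi H' (g ω) - (chi H ω - chi H (g ω)) = D ω - D (g ω) := by
    intro ω
    simp only [D, g.injective.eq_iff]
    split_ifs with h1
    · rw [h1]; ring
    · ring
  simp only [e]
  have s1 : ∑ ω ∈ hH.toFinset, D ω = ∑ ω ∈ hT.toFinset, D ω := by
    refine Finset.sum_subset (fun ω hω => ?_) (fun ω _ h => hD ω h)
    simp only [Set.Finite.mem_toFinset, Set.mem_union] at hω ⊢
    exact .inl (.inr hω)
  have s2 : ∑ ω ∈ hH.toFinset, D ω = ∑ ω ∈ hT.toFinset.map g.toEmbedding, D ω := by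
    refine Finset.sum_subset (fun ω hω => ?_) (fun ω _ h => hD ω h)
    refine Finset.mem_map.2 ⟨g⁻¹ ω, ?_, by simp⟩
    have e : g (g⁻¹ ω) = ω := by simp
    simp only [Set.Finite.mem_toFinset, Set.mem_union, Set.mem_preimage, e] at hω ⊢
    exact .inr hω
  rw [Finset.sum_map] at s2
  rw [Finset.sum_sub_distrib, ← s1, s2]
  exact sub_self _

/-- the index only depends on the crossing points -/
theorem ind_eq_of {Ω' : Type} {K : Set Ω'} {k : Perm Ω'} (e : Ω' → Ω) (S : Set Ω')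
    (he : Set.InjOn e S) (h1 : ∀ ω', ¬(ω' ∈ K ↔ k ω' ∈ K) → ω' ∈ S)
    (h2 : ∀ ω, ¬(ω ∈ H ↔ g ω ∈ H) → ω ∈ e '' S)
    (h3 : ∀ ω' ∈ S, (ω' ∈ K ↔ e ω' ∈ H) ∧ (k ω' ∈ K ↔ g (e ω') ∈ H)) : ind H g = ind K k := by
  have a : {ω | ω ∈ H ∧ g ω ∉ H} = e '' {ω | ω ∈ K ∧ k ω ∉ K} := by
    ext ω
    constructor
    · intro h
      obtain ⟨ω', hs, rfl⟩ := h2 ω (by simp only [Set.mem_ofPred_eq] at h; tauto)
      exact ⟨ω', ⟨(h3 _ hs).1.2 h.1, fun c => h.2 ((h3 _ hs).2.1 c)⟩, rfl⟩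
    · rintro ⟨ω', h, rfl⟩
      have hs := h1 ω' (by simp only [Set.mem_ofPred_eq] at h; tauto)
      exact ⟨(h3 _ hs).1.1 h.1, fun c => h.2 ((h3 _ hs).2.2 c)⟩
  have b : {ω | ω ∉ H ∧ g ω ∈ H} = e '' {ω | ω ∉ K ∧ k ω ∈ K} := by
    ext ω
    constructor
    · intro h
      obtain ⟨ω', hs, rfl⟩ := h2 ω (by simp only [Set.mem_ofPred_eq] at h; tauto)
      exact ⟨ω', ⟨fun c => h.1 ((h3 _ hs).1.1 c), (h3 _ hs).2.2 h.2⟩, rfl⟩
    · rintro ⟨ω', h, rfl⟩
      have hs := h1 ω' (by simp only [Set.mem_ofPred_eq] at h; tauto)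
      exact ⟨fun c => h.1 ((h3 _ hs).1.2 c), (h3 _ hs).2.1 h.2⟩
  rw [ind, ind, a, b, Set.InjOn.ncard_image (he.mono fun ω' h => h1 ω' (by
      simp only [Set.mem_ofPred_eq] at h; tauto)),
    Set.InjOn.ncard_image (he.mono fun ω' h => h1 ω' (by
      simp only [Set.mem_ofPred_eq] at h; tauto))]

end ind

variable {X A Q : Type} [AddAction V X] {lab : X → A} {ρ : ℕ}
  {l l' : List (Set X × (Fin 3 → V × Q))}

theorem wd_append (E : Set X) : wd (l ++ l') E = wd l E * wd l' E := by simp [wd]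

namespace KIdxAux

theorem wd_cons (f : Set X × (Fin 3 → V × Q)) (E : Set X) :
    wd (f :: l) E = cyc (f.1 ∩ E) f.2 * wd l E := by simp [wd]

theorem cyc_cases {d : Set X} {s : Fin 3 → V × Q} (h : Fr d s) (ω : X × Q) :
    (cyc d s ω = ω ∧ ∀ i, ∀ x ∈ d, ω ≠ sh (s i) x) ∨
      ∃ i, ∃ x ∈ d, ω = sh (s i) x ∧ cyc d s ω = sh (s (finRotate 3 i)) x := by
  by_cases hω : ∀ i, ∀ x ∈ d, ω ≠ sh (s i) x
  · exact .inl ⟨fp_other _ hω, hω⟩
  · push Not at hω
    obtain ⟨i, x, hx, rfl⟩ := hω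
    exact .inr ⟨i, x, hx, rfl, fp_apply h _ hx i⟩

theorem cyc_cube (d : Set X) (s : Fin 3 → V × Q) : cyc d s ^ 3 = 1 := by
  rw [cyc, ← map_pow, show finRotate 3 ^ 3 = 1 by decide, map_one]

theorem cyc_disp {f : Set X × (Fin 3 → V × Q)} (hf : Ok lab ρ f) (E : Set X) (ω : X × Q) :
    ∃ c : V × Q, |c.1.1| ≤ 2 * ρ ∧ |c.1.2| ≤ 2 * ρ ∧ cyc (f.1 ∩ E) f.2 ω = sh c ω.1 := by
  rcases cyc_cases (hf.2.1.mono (Set.inter_subset_left (t := E))) ω with h | ⟨i, x, -, rfl, h⟩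
  · exact ⟨(0, ω.2), by simp, by simp, by rw [h.1]; simp [sh]⟩
  · refine ⟨((f.2 (finRotate 3 i)).1 - (f.2 i).1, (f.2 (finRotate 3 i)).2), ?_, ?_, ?_⟩
    · have := hf.2.2 i
      have := hf.2.2 (finRotate 3 i)
      simp only [abs_le, Prod.fst_sub] at *; omega
    · have := hf.2.2 i
      have := hf.2.2 (finRotate 3 i)
      simp only [abs_le, Prod.snd_sub] at *; omega
    · rw [h]; simp [sh, ← add_vadd]

theorem cyc_congr {d : Set X} {s : Fin 3 → V × Q} (h : Fr d s) {E E' : Set X} {ω : X × Q}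
    (hE : ∀ i x, ω = sh (s i) x → (x ∈ E ↔ x ∈ E')) : cyc (d ∩ E) s ω = cyc (d ∩ E') s ω := by
  rcases cyc_cases (h.mono (Set.inter_subset_left (t := E))) ω with h1 | ⟨i, x, hx, rfl, h1⟩
  · rw [h1.1]
    exact (fp_other _ fun i x hx e => h1.2 i x ⟨hx.1, (hE i x e).2 hx.2⟩ e).symm
  · rw [h1]
    exact (fp_apply (h.mono Set.inter_subset_left) _ ⟨hx.1, (hE i x rfl).1 hx.2⟩ i).symm

end KIdxAux

open KIdxAux

/-- displacement of a restricted word -/
theorem wd_disp (hl : ∀ f ∈ l, Ok lab ρ f) (E : Set X) (ω : X × Q) :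
    ∃ c : V × Q, |c.1.1| ≤ 2 * ρ * l.length ∧ |c.1.2| ≤ 2 * ρ * l.length ∧
      wd l E ω = sh c ω.1 := by
  induction l with
  | nil => exact ⟨(0, ω.2), by simp, by simp, by simp [wd, sh]⟩
  | cons f l ih =>
    obtain ⟨c, h1, h2, h3⟩ := ih fun g hg => hl g (List.mem_cons_of_mem _ hg)
    obtain ⟨c', k1, k2, k3⟩ := cyc_disp (hl f List.mem_cons_self) E (wd l E ω)
    refine ⟨(c'.1 + c.1, c'.2), ?_, ?_, ?_⟩
    · simp only [abs_le, Prod.fst_add, List.length_cons] at *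
      push_cast; constructor <;> linarith
    · simp only [abs_le, Prod.snd_add, List.length_cons] at *
      push_cast; constructor <;> linarith
    · rw [wd_cons, Perm.mul_apply, k3, h3]; simp [sh, add_vadd]

/-- a restricted word only depends on the restricting set near the point -/
theorem wd_congr (hl : ∀ f ∈ l, Ok lab ρ f) {E E' : Set X} {ω : X × Q}
    (hE : ∀ v : V, |v.1| ≤ 2 * ρ * (l.length + 1) → |v.2| ≤ 2 * ρ * (l.length + 1) →
      (v +ᵥ ω.1 ∈ E ↔ v +ᵥ ω.1 ∈ E')) : wd l E ω = wd l E' ω := by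
  induction l with
  | nil => simp [wd]
  | cons f l ih =>
    have hl' : ∀ g ∈ l, Ok lab ρ g := fun g hg => hl g (List.mem_cons_of_mem _ hg)
    have hρ : (0 : ℤ) ≤ ρ := Int.natCast_nonneg ρ
    simp only [List.length_cons] at hE
    push_cast at hE
    rw [wd_cons, wd_cons, Perm.mul_apply, Perm.mul_apply,
      ← ih hl' fun v h1 h2 => hE v (by linarith) (by linarith)]
    obtain ⟨c, h1, h2, h3⟩ := wd_disp hl' E ω
    refine cyc_congr (hl f List.mem_cons_self).2.1 fun i x e => ?_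
    have hx : x = (c.1 - (f.2 i).1) +ᵥ ω.1 := by
      have := congrArg Prod.fst (h3.symm.trans e)
      simp only [sh] at this
      rw [sub_eq_neg_add, add_vadd, this, neg_vadd_vadd]
    have := (hl f List.mem_cons_self).2.2 i
    rw [hx]
    refine hE _ ?_ ?_
    · simp only [abs_le, Prod.fst_sub] at *; constructor <;> linarith
    · simp only [abs_le, Prod.snd_sub] at *; constructor <;> linarith

theorem wd_empty : wd l ∅ = 1 := by
  induction l with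
  | nil => simp [wd]
  | cons f l ih => rw [wd_cons, ih, Set.inter_empty, mul_one]; exact fq_empty _

namespace KIdxAux

/-- a region in the orbit of `x` -/
def Reg (x : X) (P : V → Prop) : Set X := {y | ∃ v : V, P v ∧ y = v +ᵥ x}

theorem vadd_inj (hf : Free X) {v w : V} {x : X} (h : v +ᵥ x = w +ᵥ x) : v = w := by
  have := hf (-w + v) x (by rw [add_vadd, h, neg_vadd_vadd])
  exact (neg_add_eq_zero.1 this).symm

theorem mem_Reg (hf : Free X) {x : X} {P : V → Prop} {v : V} : v +ᵥ x ∈ Reg x P ↔ P v :=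
  ⟨fun ⟨_, h, e⟩ => vadd_inj hf e ▸ h, fun h => ⟨v, h, rfl⟩⟩

theorem mem_Hx (hf : Free X) {x : X} {v : V} {ω : X × Q} (h : ω.1 = v +ᵥ x) :
    ω ∈ Hx Q x ↔ v.1 < 0 :=
  ⟨fun ⟨_, h1, e⟩ => vadd_inj hf (h.symm.trans e) ▸ h1, fun h1 => ⟨v, h1, h⟩⟩

theorem Reg_shift (x : X) (P : V → Prop) (u : V) : Reg (u +ᵥ x) P = Reg x fun v => P (v - u) := by
  ext y
  constructor
  · rintro ⟨v, h, rfl⟩; exact ⟨v + u, by simpa using h, by rw [add_vadd]⟩
  · rintro ⟨v, h, rfl⟩; exact ⟨v - u, h, by rw [← add_vadd, sub_add_cancel]⟩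

theorem box_finite [Finite Q] (x : X) (a : ℤ) :
    {ω : X × Q | ∃ v : V, |v.1| ≤ a ∧ |v.2| ≤ a ∧ ω.1 = v +ᵥ x}.Finite := by
  refine ((((Set.finite_Icc (-a) a).prod (Set.finite_Icc (-a) a)).prod
    (Set.finite_univ (α := Q))).image fun p => (p.1 +ᵥ x, p.2)).subset ?_
  rintro ω ⟨v, h1, h2, e⟩
  exact ⟨(v, ω.2), ⟨⟨abs_le.1 h1, abs_le.1 h2⟩, trivial⟩, Prod.ext e.symm rfl⟩

theorem moved (hf : Free X) (hl : ∀ f ∈ l, Ok lab ρ f) (h1 : wd l Set.univ = 1) {x : X}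
    {P : V → Prop} {ω : X × Q} (h : wd l (Reg x P) ω ≠ ω) :
    ∃ v w w' : V, ω.1 = v +ᵥ x ∧ |w.2| ≤ 2 * ρ * (l.length + 1) ∧ |w'.2| ≤ 2 * ρ * (l.length + 1) ∧
      P (w + v) ∧ ¬P (w' + v) := by
  have a : ¬∀ v : V, |v.1| ≤ 2 * ρ * (l.length + 1) → |v.2| ≤ 2 * ρ * (l.length + 1) →
      (v +ᵥ ω.1 ∈ Reg x P ↔ v +ᵥ ω.1 ∈ (∅ : Set X)) := fun c => h (by
    rw [wd_congr hl c, wd_empty]; rfl)
  have b : ¬∀ v : V, |v.1| ≤ 2 * ρ * (l.length + 1) → |v.2| ≤ 2 * ρ * (l.length + 1) →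
      (v +ᵥ ω.1 ∈ Reg x P ↔ v +ᵥ ω.1 ∈ Set.univ) := fun c => h (by
    rw [wd_congr hl c, h1]; rfl)
  simp only [Set.mem_empty_iff_false, iff_false, not_forall, not_not, Set.mem_univ, iff_true] at a b
  obtain ⟨w, -, hw, u, hu, e⟩ := a
  obtain ⟨w', -, hw', hb⟩ := b
  have e' : ω.1 = (-w + u) +ᵥ x := by rw [add_vadd, ← e, neg_vadd_vadd]
  refine ⟨-w + u, w, w', e', hw, hw', by simpa using hu, fun c => hb ?_⟩
  rw [e', ← add_vadd]; exact (mem_Reg hf).2 c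

/-- permutations of bounded displacement that move only points of a band -/
theorem fi_of_band [Finite Q] (hf : Free X) {x : X} {g : Perm (X × Q)} {a : ℤ}
    (h1 : ∀ ω, ∃ c : V × Q, |c.1.1| ≤ a ∧ g ω = sh c ω.1)
    (h2 : ∀ ω, g ω ≠ ω → ∃ v : V, |v.2| ≤ a ∧ ω.1 = v +ᵥ x) : Fi (Hx Q x) g := by
  refine (box_finite x a).subset fun ω hω => ?_
  obtain ⟨v, hv, e⟩ := h2 ω fun c => hω (by rw [c])
  obtain ⟨c, hc, e'⟩ := h1 ω
  refine ⟨v, ?_, hv, e⟩
  simp only [Set.mem_ofPred_eq] at hω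
  rw [mem_Hx hf e, mem_Hx hf (v := c.1 + v) (by rw [e', add_vadd, ← e]; rfl)] at hω
  simp only [abs_le, Prod.fst_add] at *
  omega

theorem moved_band (hf : Free X) (hl : ∀ f ∈ l, Ok lab ρ f) (h1 : wd l Set.univ = 1) {x : X}
    {P : V → Prop} (hP : (∀ v, P v ↔ v.2 < 0) ∨ ∀ v, P v ↔ 0 ≤ v.2) {ω : X × Q}
    (h : wd l (Reg x P) ω ≠ ω) : ∃ v : V, |v.2| ≤ 2 * ρ * (l.length + 1) ∧ ω.1 = v +ᵥ x := by
  obtain ⟨v, w, w', e, a, b, c, d⟩ := moved hf hl h1 h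
  refine ⟨v, ?_, e⟩
  rcases hP with hP | hP <;> rw [hP] at c d <;> simp only [abs_le, Prod.snd_add] at * <;> omega

end KIdxAux

theorem fi_wd [Finite Q] (hf : Free X) (hl : ∀ f ∈ l, Ok lab ρ f) (h1 : wd l Set.univ = 1)
    (x : X) : Fi (Hx Q x) (wd l (Lo x)) ∧ Fi (Hx Q x) (wd l (Up x)) := by
  have hρ : (0 : ℤ) ≤ ρ := Int.natCast_nonneg ρ
  have hd : ∀ E ω, ∃ c : V × Q, |c.1.1| ≤ 2 * ρ * (l.length + 1) ∧ wd l E ω = sh c ω.1 := by
    intro E ω
    obtain ⟨c, a, -, b⟩ := wd_disp hl E ω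
    exact ⟨c, by linarith, b⟩
  exact ⟨fi_of_band hf (hd _) fun ω h => moved_band hf hl h1 (.inl fun _ => Iff.rfl) h,
    fi_of_band hf (hd _) fun ω h => moved_band hf hl h1 (.inr fun _ => Iff.rfl) h⟩

namespace KIdxAux

theorem Hx_shift (x : X) (b : ℤ) : Hx Q (((0, b) : V) +ᵥ x) = Hx Q x := by
  ext ω
  constructor
  · rintro ⟨v, h, e⟩; exact ⟨v + (0, b), by simpa using h, by rw [e, add_vadd]⟩
  · rintro ⟨v, h, e⟩
    exact ⟨v - (0, b), by simpa using h, by rw [e, ← add_vadd, sub_add_cancel]⟩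

theorem band_zero [Finite Q] (hf : Free X) (hl : ∀ f ∈ l, Ok lab ρ f) (x : X) (y y' : ℤ) :
    Fi (Hx Q x) (wd l (Reg x fun v => y ≤ v.2 ∧ v.2 < y')) ∧
      ind (Hx Q x) (wd l (Reg x fun v => y ≤ v.2 ∧ v.2 < y')) = 0 := by
  induction l with
  | nil => exact ⟨by simpa [wd] using Fi.one, by simpa [wd] using ind_one⟩
  | cons f l ih =>
    obtain ⟨a, b⟩ := ih fun g hg => hl g (List.mem_cons_of_mem _ hg)
    have hf' := hl f List.mem_cons_self
    have c : Fi (Hx Q x) (cyc (f.1 ∩ Reg x fun v => y ≤ v.2 ∧ v.2 < y') f.2) := by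
      refine fi_of_band hf (a := 2 * ρ + |y| + |y'|) (fun ω => ?_) fun ω hω => ?_
      · obtain ⟨c, a, -, b⟩ := cyc_disp hf' (Reg x fun v => y ≤ v.2 ∧ v.2 < y') ω
        exact ⟨c, by linarith [abs_nonneg y, abs_nonneg y'], b⟩
      · rcases cyc_cases (hf'.2.1.mono Set.inter_subset_left) ω with h | ⟨i, z, hz, rfl, -⟩
        · exact absurd h.1 hω
        · obtain ⟨-, v, hv, rfl⟩ := hz
          refine ⟨(f.2 i).1 + v, ?_, by rw [add_vadd]; rfl⟩
          have := (hf'.2.2 i).2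
          have := le_abs_self y'
          have := neg_abs_le y
          have := abs_nonneg y
          have := abs_nonneg y'
          simp only [abs_le (a := (_ : V).2), Prod.snd_add] at *
          rw [abs_le]; omega
    rw [wd_cons]
    exact ⟨c.mul a, by rw [ind_mul c a, b, ind_cube c (cyc_cube _ _), add_zero]⟩

theorem lo_up [Finite Q] (hf : Free X) (hl : ∀ f ∈ l, Ok lab ρ f) (h1 : wd l Set.univ = 1) (x : X)
    {y y' : ℤ} (h : y + 3 * (2 * ρ * (l.length + 1)) < y') :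
    ind (Hx Q x) (wd l (Lo (((0, y') : V) +ᵥ x))) + ind (Hx Q x) (wd l (Up (((0, y) : V) +ᵥ x))) = 0 := by
  have a := (fi_wd hf hl h1 (((0, y') : V) +ᵥ x)).1
  have b := (fi_wd hf hl h1 (((0, y) : V) +ᵥ x)).2
  rw [Hx_shift] at a b
  rw [← ind_mul a b]
  refine Eq.trans ?_ (band_zero hf hl x y y').2
  congr 1
  have e1 : Lo (((0, y') : V) +ᵥ x) = Reg x fun v => v.2 - y' < 0 := Reg_shift x _ _
  have e2 : Up (((0, y) : V) +ᵥ x) = Reg x fun v => 0 ≤ v.2 - y := Reg_shift x _ _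
  rw [e1, e2]
  refine Equiv.ext fun ω => ?_
  have hρ : (0 : ℤ) ≤ ρ := Int.natCast_nonneg ρ
  rw [Perm.mul_apply]
  set r : ℤ := 2 * ρ * (l.length + 1) with hr
  by_cases hA : ∃ v : V, ω.1 = v +ᵥ x ∧ y + r ≤ v.2
  · obtain ⟨v, e, hv⟩ := hA
    have k : wd l (Reg x fun v => 0 ≤ v.2 - y) ω = ω := by
      by_contra c
      obtain ⟨v', w, w', e', -, b', -, d'⟩ := moved hf hl h1 c
      obtain rfl := vadd_inj hf (e.symm.trans e')
      simp only [abs_le, Prod.snd_add] at *; omega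
    rw [k]
    refine wd_congr hl fun w _ hw => ?_
    rw [e, ← add_vadd, mem_Reg hf, mem_Reg hf]
    simp only [abs_le, Prod.snd_add] at *; omega
  · obtain ⟨c, -, hc, e⟩ := wd_disp hl (Reg x fun v => 0 ≤ v.2 - y) ω
    have hc' : |c.1.2| ≤ r := by rw [hr]; linarith
    have k : wd l (Reg x fun v => v.2 - y' < 0) (wd l (Reg x fun v => 0 ≤ v.2 - y) ω) =
        wd l (Reg x fun v => 0 ≤ v.2 - y) ω := by
      by_contra k
      obtain ⟨v', w, w', e', -, b', -, d'⟩ := moved hf hl h1 k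
      refine hA ⟨-c.1 + v', by rw [add_vadd, ← e', e]; simp [sh], ?_⟩
      simp only [abs_le, Prod.snd_add, Prod.snd_neg] at *; omega
    rw [k]
    refine wd_congr hl fun w _ hw => ⟨?_, fun ⟨u, hu, e⟩ => ⟨u, by omega, e⟩⟩
    rintro ⟨u, hu, e'⟩
    refine ⟨u, ⟨by omega, ?_⟩, e'⟩
    by_contra k'
    refine hA ⟨-w + u, by rw [add_vadd, ← e', neg_vadd_vadd], ?_⟩
    simp only [abs_le, Prod.snd_add, Prod.snd_neg] at *; omega

theorem flux_vert [Finite Q] (hf : Free X) (hl : ∀ f ∈ l, Ok lab ρ f) (h1 : wd l Set.univ = 1)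
    (x : X) (b : ℤ) : ind (Hx Q (((0, b) : V) +ᵥ x)) (wd l (Lo (((0, b) : V) +ᵥ x))) =
      ind (Hx Q x) (wd l (Lo x)) := by
  have a := lo_up hf hl h1 x (y := -|b| - 3 * (2 * ρ * (l.length + 1)) - 1) (y' := b)
    (by linarith [neg_abs_le b])
  have c := lo_up hf hl h1 x (y := -|b| - 3 * (2 * ρ * (l.length + 1)) - 1) (y' := 0)
    (by linarith [abs_nonneg b])
  rw [show ((0, 0) : V) = 0 from rfl, zero_vadd] at c
  rw [Hx_shift]; omega

theorem flux_hor [Finite Q] (hf : Free X) (hl : ∀ f ∈ l, Ok lab ρ f) (h1 : wd l Set.univ = 1)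
    (x : X) (a : ℤ) : ind (Hx Q (((a, 0) : V) +ᵥ x)) (wd l (Lo (((a, 0) : V) +ᵥ x))) =
      ind (Hx Q x) (wd l (Lo x)) := by
  have e : Lo (((a, 0) : V) +ᵥ x) = Lo x :=
    (Reg_shift x (fun v => v.2 < 0) _).trans (by simp [Reg, Lo])
  rw [e]
  refine (ind_congr (fi_wd hf hl h1 x).1
    ((box_finite x (2 * ρ * (l.length + 1) + |a|)).subset fun ω hω => ?_)).2
  obtain ⟨v, hv, e⟩ := moved_band hf hl h1 (.inl fun _ => Iff.rfl) hω.1
  have h2 := hω.2
  rw [mem_Hx hf e, mem_Hx hf (v := v - (a, 0)) (by rw [e, ← add_vadd, sub_add_cancel])] at h2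
  have := le_abs_self a
  have := neg_abs_le a
  have : (0 : ℤ) ≤ 2 * ρ * (l.length + 1) := by positivity
  refine ⟨v, ?_, by linarith [abs_nonneg a], e⟩
  simp only [Prod.fst_sub] at h2
  rw [abs_le]; omega

theorem wd_local (hf : Free X) (hl : ∀ f ∈ l, Ok lab ρ f) {x y : X} {R a : ℕ}
    (hR : a + 2 * ρ * (l.length + 1) ≤ R) (h : Agree lab R x y) (P : V → Prop) {v : V}
    (h1 : |v.1| ≤ a) (h2 : |v.2| ≤ a) (q : Q) :
    ∃ c : V × Q, |c.1.1| ≤ 2 * ρ * l.length ∧ |c.1.2| ≤ 2 * ρ * l.length ∧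
      wd l (Reg x P) (v +ᵥ x, q) = ((c.1 + v) +ᵥ x, c.2) ∧
      wd l (Reg y P) (v +ᵥ y, q) = ((c.1 + v) +ᵥ y, c.2) := by
  induction l with
  | nil => exact ⟨(0, q), by simp, by simp, by simp [wd], by simp [wd]⟩
  | cons f l ih =>
    have hf' := hl f List.mem_cons_self
    simp only [List.length_cons] at hR ⊢
    obtain ⟨c, a1, a2, a3, a4⟩ := ih (fun g hg => hl g (List.mem_cons_of_mem _ hg)) (by nlinarith)
    have hρ : (0 : ℤ) ≤ ρ := Int.natCast_nonneg ρ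
    have ag : ∀ i, Agree lab ρ ((c.1 + v - (f.2 i).1) +ᵥ x) ((c.1 + v - (f.2 i).1) +ᵥ y) := by
      intro i
      have := hf'.2.2 i
      refine (h.mono (ρ := ρ + (a + 2 * ρ * l.length + ρ)) (by nlinarith)).shift ?_ ?_
      · simp only [abs_le, Prod.fst_sub, Prod.fst_add] at *
        push_cast; constructor <;> linarith
      · simp only [abs_le, Prod.snd_sub, Prod.snd_add] at *
        push_cast; constructor <;> linarith
    have base : ∀ (z : X) i w, ((c.1 + v) +ᵥ z, c.2) = sh (f.2 i) w →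
        w = (c.1 + v - (f.2 i).1) +ᵥ z ∧ c.2 = (f.2 i).2 := by
      intro z i w e
      have := congrArg Prod.fst e
      simp only [sh] at this
      exact ⟨by rw [sub_eq_neg_add, add_vadd, this, neg_vadd_vadd], (Prod.ext_iff.1 e).2⟩
    have back : ∀ (z : X) i, c.2 = (f.2 i).2 →
        ((c.1 + v) +ᵥ z, c.2) = sh (f.2 i) ((c.1 + v - (f.2 i).1) +ᵥ z) := by
      intro z i e
      simp only [sh, ← add_vadd, add_sub_cancel, e]
    simp only [wd_cons, Perm.mul_apply, a3, a4]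
    rcases cyc_cases (hf'.2.1.mono (Set.inter_subset_left (t := Reg x P))) ((c.1 + v) +ᵥ x, c.2) with
      k | ⟨i, z, hz, e, k⟩
    · refine ⟨c, by push_cast; linarith, by push_cast; linarith, k.1, fp_other _ fun i w hw e => ?_⟩
      obtain ⟨rfl, e2⟩ := base y i w e
      exact k.2 i _ ⟨hf'.1 _ _ (ag i).symm hw.1, (mem_Reg hf).2 ((mem_Reg hf).1 hw.2)⟩ (back x i e2)
    · obtain ⟨rfl, e2⟩ := base x i z e
      have := hf'.2.2 i
      have := hf'.2.2 (finRotate 3 i)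
      refine ⟨((f.2 (finRotate 3 i)).1 - (f.2 i).1 + c.1, (f.2 (finRotate 3 i)).2), ?_, ?_, ?_, ?_⟩
      · simp only [abs_le, Prod.fst_sub, Prod.fst_add] at *
        push_cast; constructor <;> linarith
      · simp only [abs_le, Prod.snd_sub, Prod.snd_add] at *
        push_cast; constructor <;> linarith
      · rw [k]; simp only [sh, ← add_vadd]; congr 2; abel
      · rw [back y i e2, cyc, fp_apply (hf'.2.1.mono Set.inter_subset_left) _
          ⟨hf'.1 _ _ (ag i) hz.1, (mem_Reg hf).2 ((mem_Reg hf).1 hz.2)⟩]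
        simp only [sh, ← add_vadd]; congr 2; abel

theorem cross_box (hf : Free X) (hl : ∀ f ∈ l, Ok lab ρ f) (h1 : wd l Set.univ = 1) {x : X}
    {ω : X × Q} (hω : ¬(ω ∈ Hx Q x ↔ wd l (Lo x) ω ∈ Hx Q x)) :
    ∃ v : V, |v.1| ≤ 2 * ρ * (l.length + 1) ∧ |v.2| ≤ 2 * ρ * (l.length + 1) ∧ ω.1 = v +ᵥ x := by
  obtain ⟨v, hv, e⟩ := moved_band hf hl h1 (.inl fun _ => Iff.rfl) (ω := ω) (x := x)
    fun c => hω (by rw [show wd l (Lo x) ω = ω from c])
  obtain ⟨c, hc, -, e'⟩ := wd_disp hl (Lo x) ω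
  refine ⟨v, ?_, hv, e⟩
  rw [mem_Hx hf e, mem_Hx hf (v := c.1 + v) (by rw [e', add_vadd, ← e]; rfl)] at hω
  have hρ : (0 : ℤ) ≤ ρ := Int.natCast_nonneg ρ
  have : (2 * ρ * (l.length + 1) : ℤ) = 2 * ρ * l.length + 2 * ρ := by ring
  simp only [abs_le, Prod.fst_add] at *
  omega

theorem flux_local (hf : Free X) (hl : ∀ f ∈ l, Ok lab ρ f) (h1 : wd l Set.univ = 1) {x y : X}
    (h : Agree lab (2 * ρ * (l.length + 1) + 2 * ρ * (l.length + 1)) x y) :
    ind (Hx Q y) (wd l (Lo y)) = ind (Hx Q x) (wd l (Lo x)) := by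
  classical
  let e : X × Q → X × Q := fun ω => if h : ∃ v : V, ω.1 = v +ᵥ x then (h.choose +ᵥ y, ω.2) else ω
  have he : ∀ (v : V) q, e (v +ᵥ x, q) = (v +ᵥ y, q) := by
    intro v q
    have h' : ∃ w : V, ((v +ᵥ x, q) : X × Q).1 = w +ᵥ x := ⟨v, rfl⟩
    simp only [e, dif_pos h']
    rw [← vadd_inj hf h'.choose_spec]
  refine ind_eq_of e {ω | ∃ v : V, |v.1| ≤ 2 * ρ * (l.length + 1) ∧ |v.2| ≤ 2 * ρ * (l.length + 1) ∧
    ω.1 = v +ᵥ x} ?_ (fun ω hω => cross_box hf hl h1 hω) (fun ω hω => ?_) ?_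
  · rintro ⟨_, q⟩ ⟨v, -, -, rfl⟩ ⟨_, q'⟩ ⟨v', -, -, rfl⟩ c
    rw [he, he] at c
    obtain ⟨c1, c2⟩ := Prod.ext_iff.1 c
    exact Prod.ext (by rw [vadd_inj hf c1]) c2
  · obtain ⟨v, a, b, c⟩ := cross_box hf hl h1 hω
    exact ⟨(v +ᵥ x, ω.2), ⟨v, a, b, rfl⟩, by rw [he, ← c]⟩
  · rintro ⟨_, q⟩ ⟨v, a, b, rfl⟩
    obtain ⟨c, -, -, c1, c2⟩ := wd_local hf hl le_rfl h (fun v => v.2 < 0)
      (v := v) (by exact_mod_cast a) (by exact_mod_cast b) q
    rw [he, show wd l (Lo x) _ = _ from c1, show wd l (Lo y) _ = _ from c2, mem_Hx hf rfl,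
      mem_Hx hf rfl, mem_Hx hf rfl, mem_Hx hf rfl]
    exact ⟨Iff.rfl, Iff.rfl⟩

end KIdxAux

/-- the flux does not depend on the base point -/
theorem flux_const [Finite Q] (hf : Free X) (hm : Mini lab) (hl : ∀ f ∈ l, Ok lab ρ f)
    (h1 : wd l Set.univ = 1) (x y : X) :
    ind (Hx Q x) (wd l (Lo x)) = ind (Hx Q y) (wd l (Lo y)) := by
  obtain ⟨v, hv⟩ := hm.dense (2 * ρ * (l.length + 1) + 2 * ρ * (l.length + 1)) x y
  rw [← flux_local hf hl h1 hv, show v +ᵥ x = ((0, v.2) : V) +ᵥ ((v.1, 0) : V) +ᵥ x by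
    rw [← add_vadd]; simp, flux_vert hf hl h1, flux_hor hf hl h1]

theorem flux_up [Finite Q] (hf : Free X) (hl : ∀ f ∈ l, Ok lab ρ f) (h1 : wd l Set.univ = 1)
    (x : X) : ind (Hx Q x) (wd l (Up x)) = -ind (Hx Q x) (wd l (Lo x)) := by
  have a := lo_up hf hl h1 x (y := 0) (y' := 3 * (2 * ρ * (l.length + 1)) + 1) (by linarith)
  have b := flux_vert hf hl h1 x (3 * (2 * ρ * (l.length + 1)) + 1)
  rw [show ((0, 0) : V) = 0 from rfl, zero_vadd] at a
  rw [Hx_shift] at b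
  omega

end Vale.Agent.P196
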