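import Vale.Agent.P196.K1DA
import Vale.Agent.P196.KIdx

/-! Local permutations of thin bands without flux. -/

namespace Vale.Agent.P196

open Equiv K1DAux KIdxAux

variable {X A Q : Type} [AddAction V X] {lab : X → A} {N : Type} [Group N]

namespace KBandAux

theorem exists_even {I : Type} [Fintype I] [DecidableEq I] {L0 T : Finset I}
    (hc : L0.card = T.card) (h2 : ∀ _ : I, ∃ a ∈ L0, ∃ b ∈ L0, a ≠ b) :
    ∃ σ : Perm I, Perm.sign σ = 1 ∧ ∀ i, i ∈ L0 ↔ σ i ∈ T := by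
  obtain ⟨σ, hσ⟩ := Equiv.Perm.exists_map_finset_eq L0 T hc
  have k : ∀ i, i ∈ L0 ↔ σ i ∈ T := fun i => by rw [← hσ]; simp
  rcases Int.units_eq_one_or (Perm.sign σ) with e | e
  · exact ⟨σ, e, k⟩
  · obtain ⟨i, -⟩ : ∃ i, σ i ≠ i := by
      by_contra c
      push Not at c
      rw [show σ = 1 from Equiv.ext c, map_one] at e
      exact absurd e (by decide)
    obtain ⟨a, ha, b, hb, ab⟩ := h2 i
    refine ⟨σ * swap a b, by rw [map_mul, e, Perm.sign_swap ab]; decide, fun j => ?_⟩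
    rw [Perm.mul_apply, ← k, swap_apply_def]
    split_ifs with h1 h2
    · rw [h1]; exact iff_of_true ha hb
    · rw [h2]; exact iff_of_true hb ha
    · rfl

theorem mem_Hb (hf : Free X) {x : X} {v : V} {l : ℤ} {ω : X × Q} (h : ω.1 = v +ᵥ x) :
    ω ∈ Hb Q x l ↔ v.1 < 0 ∧ 0 ≤ v.2 ∧ v.2 < l :=
  ⟨fun ⟨_, h1, h2, h3, e⟩ => vadd_inj hf (h.symm.trans e) ▸ ⟨h1, h2, h3⟩,
    fun h1 => ⟨v, h1.1, h1.2.1, h1.2.2, h⟩⟩

/-- corners of the bands -/
def Cn (h : Lev lab) (s : ℕ) (y1 : ℤ) : Set X := {z | h.px s z = 0 ∧ h.py s z ≡ y1 [ZMOD h.b s]}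

/-- the block around a corner -/
def blk (r : ℕ) (l : ℤ) (i : Fin (2 * r) × Fin l.toNat × Q) : V × Q :=
  (((i.1 : ℤ) - r, (i.2.1 : ℤ)), i.2.2)

variable {h : Lev lab} {s : ℕ} {y1 l : ℤ} {r : ℕ}

theorem cn_diff {z z' : X} (hz : z ∈ Cn h s y1) (hz' : z' ∈ Cn h s y1) {u : V} (e : z' = u +ᵥ z) :
    h.a s ∣ u.1 ∧ h.b s ∣ u.2 := by
  have a := h.px_add s u z
  have b := h.py_add s u z
  rw [← e, hz.1, hz'.1, zero_add] at a
  rw [← e] at b
  refine ⟨by simpa using a.dvd, ?_⟩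
  have := (hz'.2.symm.trans b).trans (hz.2.add_right _)
  simpa using this.dvd

theorem blk_bd (i : Fin (2 * r) × Fin l.toNat × Q) :
    -(r : ℤ) ≤ (blk r l i).1.1 ∧ (blk r l i).1.1 < r ∧ 0 ≤ (blk r l i).1.2 ∧ (blk r l i).1.2 < l := by
  have := i.1.2
  have := i.2.1.2
  simp only [blk]; omega

theorem blk_surj {v : V} (q : Q) (h1 : -(r : ℤ) ≤ v.1) (h2 : v.1 < r) (h3 : 0 ≤ v.2) (h4 : v.2 < l) :
    ∃ i, blk r l i = (v, q) :=
  ⟨(⟨(v.1 + r).toNat, by omega⟩, ⟨v.2.toNat, by omega⟩, q), by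
    simp only [blk, Prod.ext_iff, and_true]; omega⟩

theorem blk_eq (hb : l ≤ h.b s) {z z' : X} (hz : z ∈ Cn h s y1)
    (hz' : z' ∈ Cn h s y1) {v : V} (h3 : 0 ≤ v.2) (h4 : v.2 < l)
    {i : Fin (2 * r) × Fin l.toNat × Q} (e : (blk r l i).1 +ᵥ z' = v +ᵥ z) :
    ∃ u : V, z' = u +ᵥ z ∧ u.2 = 0 ∧ (u.1 = 0 ∨ u.1 ≤ -h.a s ∨ h.a s ≤ u.1) ∧
      v = (blk r l i).1 + u := by
  have e' : z' = (-(blk r l i).1 + v) +ᵥ z := by rw [add_vadd, ← e, neg_vadd_vadd]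
  obtain ⟨a, b⟩ := cn_diff hz hz' e'
  have := blk_bd i
  refine ⟨_, e', Int.eq_zero_of_abs_lt_dvd b ?_, ?_, by abel⟩
  · simp only [Prod.snd_add, Prod.snd_neg, abs_lt]; omega
  · by_contra c
    exact c (.inl (Int.eq_zero_of_abs_lt_dvd a (by rw [abs_lt]; omega)))

theorem fr_blk (ha : 2 * r ≤ h.a s) (hb : l ≤ h.b s) : Fr (Cn h s y1) (blk (Q := Q) r l) := by
  intro i j x hx y hy e
  obtain ⟨e1, e2⟩ := Prod.ext_iff.1 e
  have a := blk_bd i
  have b := blk_bd j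
  obtain ⟨u, -, u2, u1, hu⟩ := blk_eq hb hy hx b.2.2.1 b.2.2.2 e1
  obtain ⟨k1, k2⟩ := Prod.ext_iff.1 hu
  simp only [Prod.fst_add, Prod.snd_add] at k1 k2
  simp only [blk] at a b k1 k2
  exact Prod.ext (Fin.ext (by omega)) (Prod.ext (Fin.ext (by omega)) e2)

theorem in_band (hb : l ≤ h.b s) {z : X} (hz : z ∈ Cn h s y1) {v : V} (h3 : 0 ≤ v.2) (h4 : v.2 < l) :
    (h.py s (v +ᵥ z) - y1) % h.b s = v.2 := by
  have := ((h.py_add s v z).trans (hz.2.add_right _)).sub_right y1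
  rw [Int.ModEq, add_sub_cancel_left] at this
  rw [this, Int.emod_eq_of_lt h3 (by omega)]

theorem ry_band (hb : l ≤ h.b s) {z : X} (hz : z ∈ Cn h s y1) {v : V} (h3 : 0 ≤ v.2) (h4 : v.2 < l)
    {ω ω' : X × Q} (e : ω.1 = v +ᵥ z) (H : h.Ry s y1 l ω ω') {c : V} (hc : ω'.1 = c +ᵥ ω.1) :
    0 ≤ c.2 + v.2 ∧ c.2 + v.2 < l := by
  obtain ⟨w, a, b⟩ := H
  obtain rfl := vadd_inj h.free (hc.symm.trans a)
  rw [e] at b
  have := in_band hb hz h3 h4
  unfold In at b; omega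

theorem rf_ry (hb : l ≤ h.b s) (ω ω' : X × Q) (H : RF (Cn h s y1) (blk r l) ω ω') :
    h.Ry s y1 l ω ω' := by
  obtain ⟨z, hz, i, j, rfl, rfl⟩ := H
  have a := blk_bd i
  have b := blk_bd j
  refine ⟨(blk r l j).1 - (blk r l i).1, by simp [sh, ← add_vadd], ?_⟩
  have := in_band hb hz a.2.2.1 a.2.2.2
  simp only [sh, In, Prod.snd_sub]; omega

theorem cross (hb : l ≤ h.b s) {u : Perm (X × Q)} (hu : Cx (h.lab2 s) r u)
    (hp : Pres (h.Ry s y1 l) u) {z : X} (hz : z ∈ Cn h s y1) {ω : X × Q}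
    (hω : ¬(ω ∈ Hb Q z l ↔ u ω ∈ Hb Q z l)) : ∃ i, ω = sh (blk r l i) z := by
  have hR := (hp ω).resolve_left fun c => hω (by rw [c])
  obtain ⟨c, c1, c2, -⟩ := hu
  have e : (u ω).1 = (c ω).1 +ᵥ ω.1 := by rw [c1]; rfl
  have b := (c2 ω).1
  rw [abs_le] at b
  have : ∃ v : V, ω.1 = v +ᵥ z ∧ 0 ≤ v.2 ∧ v.2 < l := by
    by_cases k : ω ∈ Hb Q z l
    · obtain ⟨v, -, a, b, e⟩ := k
      exact ⟨v, e, a, b⟩
    · obtain ⟨v, -, a, b, e'⟩ : u ω ∈ Hb Q z l := by tauto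
      have e2 : ω.1 = -(c ω).1 +ᵥ (u ω).1 := by rw [e, neg_vadd_vadd]
      exact ⟨-(c ω).1 + v, by rw [add_vadd, ← e', ← e2], ry_band hb hz a b e' (h.Ry_symm hb _ _ hR) e2⟩
  obtain ⟨v, v1, v2, v3⟩ := this
  have k := ry_band hb hz v2 v3 v1 hR e
  rw [mem_Hb h.free v1, mem_Hb h.free (v := (c ω).1 + v) (by rw [e, v1, add_vadd])] at hω
  simp only [Prod.fst_add, Prod.snd_add] at hω
  obtain ⟨i, hi⟩ := blk_surj (r := r) ω.2 (by omega) (by omega) v2 v3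
  exact ⟨i, by rw [hi]; exact Prod.ext v1 rfl⟩

theorem pres_rr {γ : Perm (X × Q)} (hp : Pres (h.Ry s y1 l) γ)
    (hγ : ∀ z ∈ Cn h s y1, ∀ ω, ω ∈ Hb Q z l ↔ γ ω ∈ Hb Q z l) :
    Pres (h.Rr s 0 (h.a s) y1 l) γ := by
  intro ω
  refine (hp ω).imp_right fun ⟨v, e, hv⟩ => ⟨v, e, ?_, hv⟩
  have p := h.px_mem s ω.1
  have b0 := h.py_mem s ω.1
  have t := Int.emod_nonneg (h.py s ω.1 - y1) (show h.b s ≠ 0 by omega)
  have cn : ∀ k : ℤ, h.a s ∣ k →
      ((k - h.px s ω.1, -((h.py s ω.1 - y1) % h.b s)) : V) +ᵥ ω.1 ∈ Cn h s y1 := by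
    intro k hk
    constructor
    · have a := h.px_add s (k - h.px s ω.1, -((h.py s ω.1 - y1) % h.b s)) ω.1
      have b := h.px_mem s (((k - h.px s ω.1, -((h.py s ω.1 - y1) % h.b s)) : V) +ᵥ ω.1)
      rw [Int.ModEq, Int.emod_eq_of_lt b.1 b.2, add_sub_cancel, Int.emod_eq_zero_of_dvd hk] at a
      exact a
    · refine (h.py_add s _ _).trans ?_
      have := (Int.mod_modEq (h.py s ω.1 - y1) (h.b s)).neg.add_left (h.py s ω.1)
      simpa using this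
  have k : ∀ k : ℤ, h.a s ∣ k → (h.px s ω.1 - k < 0 ↔ v.1 + (h.px s ω.1 - k) < 0) := by
    intro k hk
    have e1 : ω.1 = ((h.px s ω.1 - k, (h.py s ω.1 - y1) % h.b s) : V) +ᵥ
        ((k - h.px s ω.1, -((h.py s ω.1 - y1) % h.b s)) : V) +ᵥ ω.1 := by
      rw [← add_vadd]
      simp only [Prod.mk_add_mk, sub_add_sub_cancel, sub_self, add_neg_cancel]
      exact (zero_vadd V ω.1).symm
    have := hγ _ (cn k hk) ω
    rw [mem_Hb h.free e1, mem_Hb h.free (v := v + (h.px s ω.1 - k, (h.py s ω.1 - y1) % h.b s))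
      (by rw [add_vadd, ← e1, e])] at this
    simp only [Prod.fst_add, Prod.snd_add, In] at this hv
    omega
  have k0 := k 0 (dvd_zero _)
  have k1 := k _ dvd_rfl
  rw [In, sub_zero, Int.emod_eq_of_lt p.1 p.2]
  omega

theorem straighten [Finite A] [Fintype Q] (hQ : 20 ≤ Fintype.card Q) (L : Lift lab Q N)
    (hr : 0 < r) (hl : l ≤ 5 * r) (ha : 100 * r ≤ h.a s) (hb : 100 * r ≤ h.b s)
    {u : Perm (X × Q)} (hu : Cx (h.lab2 s) r u) (hp : Pres (h.Ry s y1 l) u)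
    (hi : ∀ z ∈ Cn h s y1, ind (Hb Q z l) u = 0) :
    ∃ n ∈ L.NR (h.Ry s y1 l), Cx (h.lab2 s) (12 * r) (L.π n) ∧
      Pres (h.Rr s 0 (h.a s) y1 l) (u * L.π n) := by
  classical
  have hb' : l ≤ h.b s := by omega
  have fr : Fr (Cn h s y1) (blk (Q := Q) r l) := fr_blk (by omega) hb'
  let L0 : Finset (Fin (2 * r) × Fin l.toNat × Q) := Finset.univ.filter fun i => (i.1 : ℕ) < r
  have hL0 : ∀ (z : X) i, sh (blk r l i) z ∈ Hb Q z l ↔ i ∈ L0 := by
    intro z i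
    have := blk_bd i
    rw [mem_Hb h.free (v := (blk r l i).1) rfl]
    simp only [L0, Finset.mem_filter, Finset.mem_univ, true_and, blk] at this ⊢
    omega
  let T : X → Finset (Fin (2 * r) × Fin l.toNat × Q) := fun z =>
    Finset.univ.filter fun i => u (sh (blk r l i) z) ∈ Hb Q z l
  have hc : ∀ z ∈ Cn h s y1, L0.card = (T z).card := by
    intro z hz
    have := hi z hz
    rw [ind_eq_sum (Finset.univ.image fun i => sh (blk r l i) z) (fun ω hω => by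
        obtain ⟨i, rfl⟩ := cross hb' hu hp hz hω
        exact Finset.mem_image_of_mem _ (Finset.mem_univ i)),
      Finset.sum_image fun i _ j _ e => fr i j z hz z hz e, Finset.sum_sub_distrib, sub_eq_zero] at this
    simp only [chi, hL0, Finset.sum_boole, Finset.filter_mem_eq_inter, Finset.univ_inter] at this
    exact_mod_cast this
  obtain ⟨q, q', hq⟩ := Fintype.exists_pair_of_one_lt_card (α := Q) (by omega)
  have ex : ∀ S : Finset (Fin (2 * r) × Fin l.toNat × Q), ∃ σ : Perm _, L0.card = S.card →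
      Perm.sign σ = 1 ∧ ∀ i, i ∈ L0 ↔ σ i ∈ S := by
    intro S
    by_cases k : L0.card = S.card
    · obtain ⟨σ, hσ⟩ := exists_even k fun i => ⟨(⟨0, by omega⟩, i.2.1, q), by simpa [L0] using hr,
        (⟨0, by omega⟩, i.2.1, q'), by simpa [L0] using hr, by simpa using hq⟩
      exact ⟨σ, fun _ => hσ⟩
    · exact ⟨1, fun c => absurd c k⟩
  choose σ hσ using ex
  have bd : ∀ i : Fin (2 * r) × Fin l.toNat × Q,
      |(blk r l i).1.1| ≤ (5 * r : ℕ) ∧ |(blk r l i).1.2| ≤ (5 * r : ℕ) := by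
    intro i
    have := blk_bd i
    simp only [abs_le]; push_cast; omega
  have hT : ∀ x y, Agree (h.lab2 s) (6 * r) x y → σ (T x) = σ (T y) := by
    intro x y e
    congr 1
    refine Finset.filter_congr fun i _ => ?_
    obtain ⟨c, c1, -, c3⟩ := hu
    have := c3 _ _ (blk r l i).2 ((e.mono (ρ := r + 5 * r) (by omega)).shift (bd i).1 (bd i).2)
    rw [mem_Hb h.free (v := (c (sh (blk r l i) x)).1 + (blk r l i).1) (by rw [c1, add_vadd]; rfl),
      mem_Hb h.free (v := (c (sh (blk r l i) y)).1 + (blk r l i).1) (by rw [c1, add_vadd]; rfl)]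
    simp only [sh, this]
  have hC : ∀ x y, Agree (h.lab2 s) (6 * r) x y → x ∈ Cn h s y1 → y ∈ Cn h s y1 := by
    intro x y e hx
    have := e 0 (by simp) (by simp)
    simp only [zero_vadd, Lev.lab2, Prod.mk.injEq] at this
    exact ⟨this.2.1 ▸ hx.1, this.2.2 ▸ hx.2⟩
  obtain ⟨n, hn, e⟩ := L.block_surj (σ := fun z => σ (T z)) (ρ := 6 * r)
    ((h.loc_px s {0}).inter (h.loc_py s {t | t ≡ y1 [ZMOD h.b s]})) fr (fun x hx y hy k => by
      refine hT x y ?_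
      have a := h.py_mem s x
      have b := h.py_mem s y
      have c : h.py s x ≡ h.py s y [ZMOD h.b s] := Int.ModEq.trans hx.2 (Int.ModEq.symm hy.2)
      rw [Int.ModEq, Int.emod_eq_of_lt a.1 a.2, Int.emod_eq_of_lt b.1 b.2] at c
      have := h.agree_lab2 (s := s) (x := x) (y := y) (Eq.trans hx.1 (Eq.symm hy.1)) c
        (δ := 6 * r) (v := 0) fun w w1 w2 => k w (by simpa using w1) (by simpa using w2)
      simpa using this) fun x hx => (hσ _ (hc x hx)).1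
  have e' : L.π n = fq (Cn h s y1) (blk r l) fun z => σ (T z) := e
  have hn' : n ∈ L.NR (h.Ry s y1 l) := L.NR_mono (rf_ry hb') hn
  refine ⟨n, hn', ?_, pres_rr (pres_mul (h.Ry_trans hb') hp (L.NR_pres (h.Ry_trans hb') hn'))
    fun z hz ω => ?_⟩
  · rw [e', show 12 * r = 2 * (6 * r) by ring]
    exact cx_fq' hC fr (fun i => ⟨(bd i).1.trans (by push_cast; omega),
      (bd i).2.trans (by push_cast; omega)⟩) fun x _ y _ k => hT x y k
  · rw [e', Perm.mul_apply]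
    by_cases k : ∀ i, ∀ x ∈ Cn h s y1, ω ≠ sh (blk r l i) x
    · rw [fq_other _ k]
      by_contra c
      obtain ⟨i, hi⟩ := cross hb' hu hp hz c
      exact k i z hz hi
    · push Not at k
      obtain ⟨i, x, hx, rfl⟩ := k
      rw [fq_apply fr _ hx]
      by_cases c : x = z
      · subst c
        rw [hL0, (hσ _ (hc x hx)).2]
        simp [T]
      · have k1 : ∀ i j : Fin (2 * r) × Fin l.toNat × Q, sh (blk r l i) x ∈ Hb Q z l →
            sh (blk r l j) x ∈ Hb Q z l := by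
          rintro i j ⟨v, v1, v2, v3, hv⟩
          obtain ⟨w, w1, w2, w3, w4⟩ := blk_eq hb' hz hx v2 v3 hv
          have a := blk_bd i
          have b := blk_bd j
          have w5 : w.1 ≠ 0 := fun d => c (by rw [w1, show w = 0 from Prod.ext d w2, zero_vadd])
          have w6 := congrArg Prod.fst w4
          rw [mem_Hb h.free (v := (blk r l j).1 + w) (by rw [add_vadd, ← w1]; rfl)]
          simp only [Prod.fst_add, Prod.snd_add] at w6 ⊢
          omega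
        refine (Iff.intro (k1 i (σ (T x) i)) (k1 _ i)).trans ?_
        by_contra d
        obtain ⟨j, hj⟩ := cross hb' hu hp hz d
        rw [← fr _ _ x hx z hz hj] at hj
        exact c (sh_inj hj)

end KBandAux

open KBandAux

theorem Lift.band_par [Finite A] [Fintype Q] (hQ : 20 ≤ Fintype.card Q) (L : Lift lab Q N)
    (h : Lev lab) {s : ℕ} {y1 l : ℤ} {δ : ℕ} (hδ : 0 < δ) (hl : l ≤ 10 * δ)
    (ha : 200 * δ ≤ h.a s) (hb : 200 * δ ≤ h.b s) {B : Type} (ty : X → B)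
    (hty : ∀ x y, h.px s x = 0 → h.py s x = 0 → h.px s y = 0 → h.py s y = 0 → ty x = ty y →
      ∀ v : V, -h.a s < v.1 → v.1 < 2 * h.a s → |v.2 - y1| ≤ 100 * δ →
        lab (v +ᵥ x) = lab (v +ᵥ y)) :
    ∃ P : Perm (X × Q) → B → ℤˣ, ∀ g g', Cx (h.lab2 s) δ g → Cx (h.lab2 s) δ g' →
      Pres (h.Ry s y1 l) g → Pres (h.Ry s y1 l) g' →
      (∀ z, h.px s z = 0 → h.py s z ≡ y1 [ZMOD h.b s] → ind (Hb Q z l) g = 0) →
      (∀ z, h.px s z = 0 → h.py s z ≡ y1 [ZMOD h.b s] → ind (Hb Q z l) g' = 0) →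
      P g = P g' → ∃ n ∈ L.NR (h.Ry s y1 l), L.π n = g * g'⁻¹ := by
  have hb' : l ≤ h.b s := by omega
  obtain ⟨P, hP⟩ := L.rect_par h (s := s) (x1 := 0) (k := h.a s) (y1 := y1) (l := l) le_rfl hb'
    (δ := 49 * δ) ty fun x y a b c d e v v1 v2 v3 v4 =>
      hty x y a b c d e v (by push_cast at v1; omega) (by push_cast at v2; omega)
        (by rw [abs_le]; push_cast at v3 v4; omega)
  have H : ∀ g : Perm (X × Q), ∃ n : N, Cx (h.lab2 s) δ g → Pres (h.Ry s y1 l) g →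
      (∀ z, h.px s z = 0 → h.py s z ≡ y1 [ZMOD h.b s] → ind (Hb Q z l) g = 0) →
      n ∈ L.NR (h.Ry s y1 l) ∧ Cx (h.lab2 s) (49 * δ) ((L.π n)⁻¹ * g) ∧
        Pres (h.Rr s 0 (h.a s) y1 l) ((L.π n)⁻¹ * g) := by
    intro g
    by_cases k : Cx (h.lab2 s) δ g ∧ Pres (h.Ry s y1 l) g ∧
      ∀ z, h.px s z = 0 → h.py s z ≡ y1 [ZMOD h.b s] → ind (Hb Q z l) g = 0
    · obtain ⟨k1, k2, k3⟩ := k
      obtain ⟨n, n1, n2, n3⟩ := straighten hQ L (r := 2 * δ) (by omega) (by push_cast; omega)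
        (by push_cast; omega) (by push_cast; omega) k1.inv (pres_inv (h.Ry_symm hb') k2)
        fun z hz => by
          have fi : Fi (Hb Q z l) g := (Set.finite_range fun i => sh (blk δ l i) z).subset
            fun ω hω => by
              obtain ⟨i, hi⟩ := cross hb' k1 k2 hz hω
              exact ⟨i, hi.symm⟩
          have := ind_mul fi fi.inv
          rw [mul_inv_cancel, ind_one, k3 z hz.1 hz.2] at this
          omega
      refine ⟨n, fun _ _ _ => ⟨n1, (n2.inv.mul k1).mono (by omega), ?_⟩⟩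
      simpa using pres_inv (h.Rr_symm le_rfl hb') n3
    · exact ⟨1, fun a b c => absurd ⟨a, b, c⟩ k⟩
  choose n hn using H
  refine ⟨fun g => P ((L.π (n g))⁻¹ * g), fun g g' a a' b b' c c' e => ?_⟩
  obtain ⟨d1, d2, d3⟩ := hn g a b c
  obtain ⟨d1', d2', d3'⟩ := hn g' a' b' c'
  obtain ⟨m, m1, m2⟩ := hP _ _ d2 d2' d3 d3' e
  refine ⟨n g * m * (n g')⁻¹, mul_mem (mul_mem d1 (L.NR_mono (fun _ _ ⟨v, p, _, q⟩ => ⟨v, p, q⟩) m1))
    (inv_mem d1'), ?_⟩
  rw [map_mul, map_mul, map_inv, m2]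
  group

end Vale.Agent.P196
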