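import Vale.Agent.P196.SSL
import Vale.Agent.P196.KD

/-! Reduction to extensions in which the Carmichael relations hold. -/

namespace Vale.Agent.P196

open Equiv

variable {X A Q : Type} [AddAction V X] {lab : X → A} {N : Type} [Group N]

namespace KEpsAux

/-- the defect of the Carmichael relation -/
def ep (L : Lift lab Q N) (d : Set X) (s : Fin 4 → V × Q) : N :=
  (L.T d (s ∘ ![0, 1, 2]) * L.T d (s ∘ ![0, 1, 3])) ^ 2

theorem inj2 : Function.Injective (![0, 1, 2] : Fin 3 → Fin 4) := by decide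

theorem inj3 : Function.Injective (![0, 1, 3] : Fin 3 → Fin 4) := by decide

variable (L : Lift lab Q N)

theorem ep_ker {d : Set X} {s : Fin 4 → V × Q} (hd : Loc lab d) (h : Fr d s) :
    L.π (ep L d s) = 1 := by
  unfold ep
  rw [map_pow, map_mul, L.π_T _ _ hd (h.comp inj2), L.π_T _ _ hd (h.comp inj3),
    cyc_eq h (by decide) (by decide) (by decide), cyc_eq h (by decide) (by decide) (by decide),
    ← map_mul, ← map_pow,
    show (swap (0 : Fin 4) 1 * swap 1 2 * (swap 0 1 * swap 1 3)) ^ 2 = 1 by decide, map_one]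

theorem ep_cen {d : Set X} {s : Fin 4 → V × Q} (hd : Loc lab d) (h : Fr d s) (g : N) :
    g * ep L d s = ep L d s * g :=
  Subgroup.mem_center_iff.1 (L.cen (ep_ker L hd h)) g

theorem ep_conj {d : Set X} {s s' : Fin 4 → V × Q} (hd : Loc lab d) (h : Fr d s) (n : N)
    (hn : ∀ i, ∀ x ∈ d, L.π n (sh (s i) x) = sh (s' i) x) : ep L d s = ep L d s' := by
  have a1 := L.conj n d _ (s' ∘ ![0, 1, 2]) hd (h.comp inj2) fun i x hx => hn _ x hx
  have a2 := L.conj n d _ (s' ∘ ![0, 1, 3]) hd (h.comp inj3) fun i x hx => hn _ x hx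
  have e : n * ep L d s * n⁻¹ = ep L d s' := by
    unfold ep
    rw [← a1, ← a2]
    simp only [pow_two, mul_assoc, inv_mul_cancel_left]
  rw [← e, ep_cen L hd h n, mul_inv_cancel_right]

/-- exchange of two families of four sheets -/
def ex : Perm (Fin 4 ⊕ Fin 4) :=
  swap (.inl 0) (.inr 0) * swap (.inl 1) (.inr 1) * swap (.inl 2) (.inr 2) * swap (.inl 3) (.inr 3)

theorem sign_ex : Perm.sign ex = 1 := by
  unfold ex
  rw [map_mul, map_mul, map_mul, Perm.sign_swap (by decide), Perm.sign_swap (by decide),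
    Perm.sign_swap (by decide), Perm.sign_swap (by decide)]
  decide

theorem ex_inl (i : Fin 4) : ex (.inl i) = .inr i := by
  revert i; decide

theorem ep_fresh {d : Set X} {s : Fin 4 → V × Q} (hd : Loc lab d) (h : Fr d s) {t : Fin 4 → Q}
    (ht : Function.Injective t) (ht' : ∀ i j, (s i).2 ≠ t j) :
    ep L d s = ep L d fun i => ((0 : V), t i) := by
  have hF : Fr d (Sum.elim s fun i => ((0 : V), t i)) := h.sum ht ht'
  have := fp_mem_A3 hd hF sign_ex
  rw [← L.range] at this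
  obtain ⟨m, hm⟩ := this
  refine ep_conj L hd h m fun i x hx => ?_
  have := fp_apply hF ex hx (.inl i)
  rw [ex_inl] at this
  rw [hm]
  exact this

theorem ep_indep [Fintype Q] (hQ : 20 ≤ Fintype.card Q) {d : Set X} {s s' : Fin 4 → V × Q}
    (hd : Loc lab d) (h : Fr d s) (h' : Fr d s') : ep L d s = ep L d s' := by
  classical
  obtain ⟨t, ht, ht'⟩ := exists_fresh
    (Finset.univ.image (Sum.elim (fun i => (s i).2) fun i => (s' i).2)) 4 (by
    have := Finset.card_image_le (s := Finset.univ)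
      (f := Sum.elim (fun i => (s i).2) fun i => (s' i).2)
    rw [Finset.card_univ, Fintype.card_sum, Fintype.card_fin] at this
    omega)
  rw [ep_fresh L hd h ht fun i j e => ht' j (Finset.mem_image.2 ⟨.inl i, Finset.mem_univ _, e⟩),
    ep_fresh L hd h' ht fun i j e => ht' j (Finset.mem_image.2 ⟨.inr i, Finset.mem_univ _, e⟩)]

theorem ep_shift {d : Set X} {s : Fin 4 → V × Q} (hd : Loc lab d) (h : Fr d s) (w : V) :
    ep L {x | w +ᵥ x ∈ d} (fun i => ((s i).1 + w, (s i).2)) = ep L d s := by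
  unfold ep
  rw [← L.shift d _ w hd (h.comp inj2), ← L.shift d _ w hd (h.comp inj3)]
  rfl

theorem T_comm {d d' : Set X} {s : Fin 4 → V × Q} (hd : Loc lab d) (hd' : Loc lab d')
    (hdis : Disjoint d d') (h : Fr (d ∪ d') s) {e e' : Fin 3 → Fin 4}
    (he : Function.Injective e) (he' : Function.Injective e') :
    L.T d' (s ∘ e') * L.T d (s ∘ e) = L.T d (s ∘ e) * L.T d' (s ∘ e') := by
  have := L.conj (L.T d' (s ∘ e')) d (s ∘ e) (s ∘ e) hd
    ((h.mono Set.subset_union_left).comp he) fun i x hx => by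
      rw [L.π_T _ _ hd' ((h.mono Set.subset_union_right).comp he')]
      refine fp_other _ fun j y hy q => ?_
      have q' : sh (s (e i)) x = sh (s (e' j)) y := q
      have := h _ _ x (Or.inl hx) y (Or.inr hy) q'
      rw [this] at q'
      obtain rfl := sh_inj q'
      exact Set.disjoint_left.1 hdis hx hy
  calc _ = L.T d' (s ∘ e') * L.T d (s ∘ e) * (L.T d' (s ∘ e'))⁻¹ * L.T d' (s ∘ e') := by
        rw [inv_mul_cancel_right]
    _ = _ := by rw [this]

theorem ep_add {d d' : Set X} {s : Fin 4 → V × Q} (hd : Loc lab d) (hd' : Loc lab d')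
    (hdis : Disjoint d d') (h : Fr (d ∪ d') s) : ep L (d ∪ d') s = ep L d s * ep L d' s := by
  unfold ep
  rw [L.add _ _ _ hd hd' hdis (h.comp inj2), L.add _ _ _ hd hd' hdis (h.comp inj3)]
  have c1 : Commute _ _ := T_comm L hd hd' hdis h inj2 inj2
  have c2 : Commute _ _ := T_comm L hd hd' hdis h inj2 inj3
  have c3 : Commute _ _ := T_comm L hd hd' hdis h inj3 inj2
  have c4 : Commute _ _ := T_comm L hd hd' hdis h inj3 inj3
  generalize L.T d (s ∘ ![0, 1, 2]) = a at *
  generalize L.T d (s ∘ ![0, 1, 3]) = b at *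
  generalize L.T d' (s ∘ ![0, 1, 2]) = a' at *
  generalize L.T d' (s ∘ ![0, 1, 3]) = b' at *
  have c5 : Commute (a * b) (a' * b') :=
    ((c1.mul_right c3).mul_left (c2.mul_right c4)).symm
  rw [← c5.mul_pow]
  congr 1
  calc a * a' * (b * b') = a * (a' * b) * b' := by simp only [mul_assoc]
    _ = _ := by rw [c3.eq]; simp only [mul_assoc]

theorem ep_empty (s : Fin 4 → V × Q) : ep L ∅ s = 1 := by
  have h : Fr (∅ ∪ ∅ : Set X) s := fun i j x hx => by simp at hx
  have := ep_add L Loc.empty Loc.empty (Set.empty_disjoint _) h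
  rw [Set.union_self] at this
  exact left_eq_mul.1 this

theorem ep_sq [Fintype Q] (hQ : 20 ≤ Fintype.card Q) {d : Set X} {s : Fin 4 → V × Q}
    (hd : Loc lab d) (h : Fr d s) : ep L d s ^ 2 = 1 := by
  have e := ep_indep L hQ hd h (h.comp (e := ![1, 0, 2, 3]) (by decide))
  have c := ep_cen L hd h (L.T d (s ∘ ![0, 1, 2]))
  have e1 : (s ∘ ![1, 0, 2, 3]) ∘ ![0, 1, 2] = (s ∘ ![0, 1, 2]) ∘ ![1, 0, 2] := by
    funext i; fin_cases i <;> rfl
  have e2 : (s ∘ ![1, 0, 2, 3]) ∘ ![0, 1, 3] = (s ∘ ![0, 1, 3]) ∘ ![1, 0, 2] := by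
    funext i; fin_cases i <;> rfl
  unfold ep at e c ⊢
  rw [e1, e2, L.inv _ _ hd (h.comp inj2), L.inv _ _ hd (h.comp inj3)] at e
  generalize L.T d (s ∘ ![0, 1, 2]) = a at *
  generalize L.T d (s ∘ ![0, 1, 3]) = b at *
  have e3 : (a⁻¹ * b⁻¹) ^ 2 = a⁻¹ * ((a * b) ^ 2)⁻¹ * a := by
    simp only [pow_two, mul_inv_rev, mul_assoc, inv_mul_cancel, mul_one]
  generalize (a * b) ^ 2 = z at *
  have e4 : a⁻¹ * z⁻¹ * a = z⁻¹ := by
    calc a⁻¹ * z⁻¹ * a = (z * a)⁻¹ * a := by rw [mul_inv_rev]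
      _ = _ := by rw [← c, mul_inv_rev, inv_mul_cancel_right]
  rw [e3, e4] at e
  rw [pow_two]
  nth_rewrite 1 [e]
  exact inv_mul_cancel z

theorem ind_part {c ρ : ℕ} {D : Fin c → Set X} {F : Finset (V × Fin c)} (hD : ∀ t, Loc lab (D t))
    (hu : ∀ x, ∃! p, p ∈ F ∧ p.1 +ᵥ x ∈ D p.2)
    (ha : ∀ p ∈ F, ∀ x y, p.1 +ᵥ x ∈ D p.2 → p.1 +ᵥ y ∈ D p.2 → Agree lab ρ x y)
    {P : Set X → Prop} (h0 : P ∅)
    (h1 : ∀ d d', Loc lab d → Loc lab d' → Disjoint d d' → P d → P d' → P (d ∪ d'))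
    (h2 : ∀ p : V × Fin c, P {x | p.1 +ᵥ x ∈ D p.2}) {d : Set X}
    (hd : ∀ x y, Agree lab ρ x y → x ∈ d → y ∈ d) : P d := by
  classical
  have key : ∀ G : Finset (V × Fin c), G ⊆ F → ∀ d, Loc lab d →
      (∀ p ∈ F, ∀ x y, p.1 +ᵥ x ∈ D p.2 → p.1 +ᵥ y ∈ D p.2 → x ∈ d → y ∈ d) →
      (∀ x ∈ d, ∃ p ∈ G, p.1 +ᵥ x ∈ D p.2) → P d := by
    intro G
    induction G using Finset.induction_on with
    | empty =>
      intro _ d _ _ hc
      have : d = ∅ := Set.eq_empty_of_forall_notMem fun x hx => by simpa using hc x hx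
      exact this ▸ h0
    | insert a G _ ih =>
      intro hF d hd hs hc
      have ha := hF (Finset.mem_insert_self _ _)
      have la : Loc lab {x | a.1 +ᵥ x ∈ D a.2} := (hD a.2).shift _
      rw [← Set.inter_union_sdiff d {x | a.1 +ᵥ x ∈ D a.2}]
      refine h1 _ _ (hd.inter la) (hd.diff la) (Set.disjoint_left.2 fun x p q => q.2 p.2) ?_ ?_
      · rcases (d ∩ {x | a.1 +ᵥ x ∈ D a.2}).eq_empty_or_nonempty with e | ⟨x, hx, hx'⟩
        · exact e ▸ h0
        · have : d ∩ {x | a.1 +ᵥ x ∈ D a.2} = {x | a.1 +ᵥ x ∈ D a.2} :=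
            Set.inter_eq_right.2 fun y hy => hs a ha x y hx' hy hx
          rw [this]
          exact h2 a
      · refine ih (fun i hi => hF (Finset.mem_insert_of_mem hi)) _ (hd.diff la) ?_ ?_
        · intro i hi x x' hx hx' hxd
          refine ⟨hs i hi x x' hx hx' hxd.1, fun q => hxd.2 ?_⟩
          obtain rfl : i = a := (hu x').unique ⟨hi, hx'⟩ ⟨ha, q⟩
          exact hx
        · intro x hx
          obtain ⟨i, hi, hxi⟩ := hc x hx.1
          rcases Finset.mem_insert.1 hi with rfl | hi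
          · exact absurd hxi hx.2
          · exact ⟨i, hi, hxi⟩
  refine key F subset_rfl d ⟨ρ, hd⟩ (fun p hp x y a b => hd x y (ha p hp x y a b)) fun x _ => ?_
  obtain ⟨p, hp, -⟩ := hu x
  exact ⟨p, hp.1, hp.2⟩

open scoped IsMulCommutative in
theorem exists_small [Fintype Q] (hQ : 20 ≤ Fintype.card Q) (h : Lev lab) (s : ℕ) :
    ∃ K : Finset N, K.card ≤ 2 ^ h.c ∧ ∀ (d : Set X) (r : Fin 4 → V × Q),
      (∀ x y, Agree lab s x y → x ∈ d → y ∈ d) → Fr d r → ep L d r ∈ K := by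
  classical
  obtain ⟨D, F, hD, hu, ha⟩ := h.part s
  obtain ⟨t, ht, -⟩ := exists_fresh (∅ : Finset Q) 4 (by simp; omega)
  set r0 : Fin 4 → V × Q := fun i => ((0 : V), t i) with hr0
  have F0 : ∀ d : Set X, Fr d r0 := fun d => Fr.of_inj ht
  let e : Fin h.c → Subgroup.center N := fun u =>
    ⟨ep L (D u) r0, L.cen (ep_ker L (hD u) (F0 _))⟩
  have e2 : ∀ u, e u ^ 2 = 1 := fun u => Subtype.ext (ep_sq L hQ (hD u) (F0 _))
  let φ : (Fin h.c → ℕ) → N := fun f => ((∏ u, e u ^ f u : Subgroup.center N) : N)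
  refine ⟨Finset.univ.image fun f : Fin h.c → Fin 2 => φ fun u => f u, ?_, ?_⟩
  · refine Finset.card_image_le.trans ?_
    simp
  · intro d r hd hr
    have hl : Loc lab d := ⟨s, hd⟩
    rw [ep_indep L hQ hl hr (F0 d)]
    have : ∃ f, ep L d r0 = φ f := by
      refine ind_part hD hu ha (P := fun d => ∃ f, ep L d r0 = φ f) ⟨0, ?_⟩ ?_ ?_ hd
      · simp [φ, ep_empty]
      · rintro d d' l l' hdis ⟨f, hf⟩ ⟨f', hf'⟩
        refine ⟨f + f', ?_⟩
        rw [ep_add L l l' hdis (F0 _), hf, hf']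
        simp only [φ, Pi.add_apply, pow_add, Finset.prod_mul_distrib, Subgroup.coe_mul]
      · intro i
        refine ⟨Pi.single i.2 1, ?_⟩
        have a1 := ep_shift L (hD i.2) (F0 _) i.1
        rw [ep_indep L hQ ((hD i.2).shift _) ((F0 _).shift _) (F0 _)] at a1
        refine a1.trans ?_
        simp only [φ]
        rw [Finset.prod_eq_single i.2]
        · simp [e]
        · intro b _ hb
          simp [Pi.single_eq_of_ne hb]
        · simp
    obtain ⟨f, hf⟩ := this
    refine Finset.mem_image.2 ⟨fun u => ⟨f u % 2, Nat.mod_lt _ (by norm_num)⟩,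
      Finset.mem_univ _, ?_⟩
    rw [hf]
    simp only [φ]
    congr 1
    exact Finset.prod_congr rfl fun u _ => (pow_eq_pow_mod _ (e2 u)).symm

theorem finite_ep [Fintype Q] (hQ : 20 ≤ Fintype.card Q) (h : Lev lab) :
    {n | ∃ d r, Loc lab d ∧ Fr d r ∧ n = ep L d r}.Finite := by
  classical
  by_contra hinf
  obtain ⟨F, hF, hc⟩ := Set.Infinite.exists_subset_card_eq hinf (2 ^ h.c + 1)
  have : ∀ n ∈ F, ∃ ρ, ∃ d r, (∀ x y, Agree lab ρ x y → x ∈ d → y ∈ d) ∧ Fr d r ∧
      n = ep L d r := by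
    intro n hn
    obtain ⟨d, r, ⟨ρ, hρ⟩, hr, e⟩ := hF hn
    exact ⟨ρ, d, r, hρ, hr, e⟩
  choose! ρ hρ using this
  obtain ⟨K, hK, hK'⟩ := exists_small L hQ h (F.sup ρ)
  have : F ⊆ K := by
    intro n hn
    obtain ⟨d, r, h1, h2, rfl⟩ := hρ n hn
    exact hK' d r (fun x y a => h1 x y (a.mono (Finset.le_sup hn))) h2
  have := Finset.card_le_card this
  omega

/-- the quotient of a system of lifts by a subgroup of the kernel -/
def quot (E : Subgroup N) [E.Normal] (hE : ∀ x ∈ E, L.π x = 1) : Lift lab Q (N ⧸ E) where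
  π := QuotientGroup.lift E L.π hE
  T d s := (L.T d s : N ⧸ E)
  range := by
    rw [← L.range]
    ext g
    constructor
    · rintro ⟨n, rfl⟩
      obtain ⟨n, rfl⟩ := QuotientGroup.mk_surjective n
      exact ⟨n, rfl⟩
    · rintro ⟨n, rfl⟩
      exact ⟨n, rfl⟩
  cen := by
    intro n hn
    obtain ⟨n, rfl⟩ := QuotientGroup.mk_surjective n
    refine Subgroup.mem_center_iff.2 fun g => ?_
    obtain ⟨g, rfl⟩ := QuotientGroup.mk_surjective g
    rw [← QuotientGroup.mk_mul, ← QuotientGroup.mk_mul,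
      Subgroup.mem_center_iff.1 (L.cen (show n ∈ L.π.ker from hn)) g]
  π_T d s hd h := L.π_T d s hd h
  conj n d s s' hd h hn := by
    obtain ⟨n, rfl⟩ := QuotientGroup.mk_surjective n
    rw [← L.conj n d s s' hd h hn]
    rfl
  shift d s w hd h := by rw [L.shift d s w hd h]
  add d d' s hd hd' hdis h := by rw [L.add d d' s hd hd' hdis h]; rfl
  cube d s hd h := by rw [← QuotientGroup.mk_pow, L.cube d s hd h]; rfl
  inv d s hd h := by rw [L.inv d s hd h]; rfl
  gen := by
    rw [eq_top_iff]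
    intro n _
    obtain ⟨n, rfl⟩ := QuotientGroup.mk_surjective n
    have hn : n ∈ Subgroup.closure {n | ∃ d s, Loc lab d ∧ Fr d s ∧ n = L.T d s} := by
      rw [L.gen]; trivial
    induction hn using Subgroup.closure_induction with
    | mem x hx =>
      obtain ⟨d, s, hd, h, rfl⟩ := hx
      exact Subgroup.subset_closure ⟨d, s, hd, h, rfl⟩
    | one => exact Subgroup.one_mem _
    | mul x y _ _ hx hy => exact Subgroup.mul_mem _ (hx trivial) (hy trivial)
    | inv x _ hx => exact Subgroup.inv_mem _ (hx trivial)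

theorem fg_comap {G : Type} [Group G] (f : N →* G) (hf : Function.Surjective f) (hk : f.ker.FG)
    {K : Subgroup G} (hK : K.FG) : (K.comap f).FG := by
  classical
  obtain ⟨S, hS⟩ := hk
  obtain ⟨T, rfl⟩ := hK
  choose g hg using hf
  refine ⟨S ∪ T.image g, le_antisymm ?_ ?_⟩
  · rw [Subgroup.closure_le]
    intro n hn
    rw [Finset.coe_union, Finset.coe_image] at hn
    rcases hn with hn | ⟨t, ht, rfl⟩
    · have : n ∈ f.ker := hS ▸ Subgroup.subset_closure hn
      rw [SetLike.mem_coe, Subgroup.mem_comap, MonoidHom.mem_ker.1 this]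
      exact Subgroup.one_mem _
    · rw [SetLike.mem_coe, Subgroup.mem_comap, hg]
      exact Subgroup.subset_closure ht
  · intro n hn
    have h1 : Subgroup.closure (T : Set G) ≤
        (Subgroup.closure ((S ∪ T.image g : Finset N) : Set N)).map f := by
      rw [Subgroup.closure_le]
      intro t ht
      refine ⟨g t, Subgroup.subset_closure ?_, hg t⟩
      rw [Finset.coe_union, Finset.coe_image]
      exact Or.inr ⟨t, ht, rfl⟩
    obtain ⟨m, hm, e⟩ := h1 hn
    have h2 : m⁻¹ * n ∈ f.ker := by rw [MonoidHom.mem_ker, map_mul, map_inv, e, inv_mul_cancel]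
    rw [← hS] at h2
    have h3 := Subgroup.mul_mem _ hm
      (Subgroup.closure_mono (by rw [Finset.coe_union]; exact Set.subset_union_left) h2)
    rwa [mul_inv_cancel_left] at h3

end KEpsAux

open KEpsAux in
theorem Lift.fg_of_eps [Finite A] [Fintype Q] (hQ : 20 ≤ Fintype.card Q) (h : Lev lab)
    (L : Lift lab Q N)
    (H : ∀ (N' : Type) [Group N'] (L' : Lift lab Q N'), L'.Eps → L'.π.ker.FG) : L.π.ker.FG := by
  set E := Subgroup.closure {n | ∃ d r, Loc lab d ∧ Fr d r ∧ n = ep L d r} with hE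
  have hk : E ≤ L.π.ker := by
    rw [hE, Subgroup.closure_le]
    rintro n ⟨d, r, hd, hr, rfl⟩
    exact ep_ker L hd hr
  have : E.Normal := ⟨fun n hn g => by
    rw [Subgroup.mem_center_iff.1 (L.cen (hk hn)) g, mul_inv_cancel_right]
    exact hn⟩
  have hfg : E.FG := (Subgroup.fg_iff _).2 ⟨_, rfl, finite_ep L hQ h⟩
  have h1 := H (N ⧸ E) (quot L E hk) fun d r hd hr =>
    (QuotientGroup.eq_one_iff (ep L d r)).2 (Subgroup.subset_closure ⟨d, r, hd, hr, rfl⟩)
  have h2 := fg_comap (QuotientGroup.mk' E) (QuotientGroup.mk'_surjective E)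
    (by rwa [QuotientGroup.ker_mk']) h1
  have e : (quot L E hk).π.ker.comap (QuotientGroup.mk' E) = L.π.ker := by
    ext n
    rfl
  rwa [e] at h2

end Vale.Agent.P196
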