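import Vale.Agent.P196.SSL
import Vale.Agent.P196.KD

/-! Existence of canonical lifts. -/

namespace Vale.Agent.P196

open Equiv

variable {X A Q : Type} [AddAction V X] {lab : X → A} {N : Type} [Group N]

namespace KLiftAux

/-- the commutator of two elements -/
def cm (a b : N) : N := a * b * a⁻¹ * b⁻¹

/-- `g` exchanges the first two sheets and fixes the third -/
def Sw (d : Set X) (s : Fin 3 → V × Q) (g : Perm (X × Q)) : Prop :=
  ∀ i, ∀ x ∈ d, g (sh (s i) x) = sh ((s ∘ ![1, 0, 2]) i) x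

/-- `g` fixes the sheets -/
def Fx {I : Type} (d : Set X) (s : I → V × Q) (g : Perm (X × Q)) : Prop :=
  ∀ i, ∀ x ∈ d, g (sh (s i) x) = sh (s i) x

theorem cen_of_eq {G : Type} [Group G] {π : N →* G} (h2 : π.ker ≤ Subgroup.center N) {a a' : N}
    (h : π a = π a') : ∃ z, (∀ g, g * z = z * g) ∧ a' = a * z := by
  refine ⟨a⁻¹ * a', ?_, by group⟩
  have : a⁻¹ * a' ∈ π.ker := by simp [MonoidHom.mem_ker, h]
  exact Subgroup.mem_center_iff.1 (h2 this)

theorem cm_congr {G : Type} [Group G] {π : N →* G} (h2 : π.ker ≤ Subgroup.center N)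
    {a a' b b' : N} (ha : π a = π a') (hb : π b = π b') : cm a b = cm a' b' := by
  obtain ⟨z, hz, rfl⟩ := cen_of_eq h2 ha
  obtain ⟨w, hw, rfl⟩ := cen_of_eq h2 hb
  unfold cm
  have e1 : a * z * (b * w) * (a * z)⁻¹ * (b * w)⁻¹ =
      a * (z * (b * w) * z⁻¹) * a⁻¹ * (b * w)⁻¹ := by group
  have e2 : z * (b * w) * z⁻¹ = b * w := by rw [← hz]; group
  have e3 : a * (b * w) * a⁻¹ * (b * w)⁻¹ = a * b * (w * a⁻¹) * w⁻¹ * b⁻¹ := by group
  rw [e1, e2, e3, ← hw]
  group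

theorem conj_cm (o a b : N) : o * cm a b * o⁻¹ = cm (o * a * o⁻¹) (o * b * o⁻¹) := by
  unfold cm; group

theorem inj102 : Function.Injective (![1, 0, 2] : Fin 3 → Fin 3) := by decide

theorem cyc_swap {d : Set X} {s : Fin 3 → V × Q} (h : Fr d s) :
    cyc d (s ∘ ![1, 0, 2]) = (cyc d s)⁻¹ := by
  rw [cyc_eq h (by decide) (by decide) (by decide), cyc, ← map_inv]
  congr 1
  decide

theorem cyc_cube (d : Set X) (s : Fin 3 → V × Q) : cyc d s * cyc d s * cyc d s = 1 := by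
  rw [cyc, ← map_mul, ← map_mul, show finRotate 3 * finRotate 3 * finRotate 3 = 1 by decide,
    map_one]

theorem cyc_conj {d : Set X} {s s' : Fin 3 → V × Q} (h : Fr d s) {u : Perm (X × Q)}
    (hu : ∀ i, ∀ x ∈ d, u (sh (s i) x) = sh (s' i) x) : u * cyc d s * u⁻¹ = cyc d s' :=
  fq_conj h hu _

theorem π_cm {d : Set X} {s : Fin 3 → V × Q} (h : Fr d s) (π : N →* Perm (X × Q)) {m b : N}
    (hm : Sw d s (π m)) (hb : π b = cyc d s) : π (cm m b) = cyc d s := by
  unfold cm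
  rw [map_mul, map_mul, map_mul, map_inv, map_inv, hb, cyc_conj h hm, cyc_swap h]
  have := cyc_cube d s
  calc (cyc d s)⁻¹ * (cyc d s)⁻¹
      = (cyc d s)⁻¹ * (cyc d s)⁻¹ * (cyc d s * cyc d s * cyc d s) := by rw [this, mul_one]
    _ = cyc d s := by group

theorem comm_of_cm {d : Set X} {s : Fin 3 → V × Q} (h : Fr d s) {π : N →* Perm (X × Q)}
    (h2 : π.ker ≤ Subgroup.center N) {m b o : N} (hm : Sw d s (π m)) (hb : π b = cyc d s)
    (ho : o * cm m b * o⁻¹ = cm m b) : o * b = b * o := by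
  obtain ⟨z, hz, e⟩ := cen_of_eq h2 ((π_cm h π hm hb).trans hb.symm)
  have h1 : o * cm m b = cm m b * o := by
    calc o * cm m b = o * cm m b * o⁻¹ * o := by group
      _ = _ := by rw [ho]
  generalize cm m b = c at e h1
  subst e
  rw [← mul_assoc, h1, mul_assoc, hz o, mul_assoc]

theorem comm_of_comm {d : Set X} {s : Fin 3 → V × Q} (h : Fr d s) {π : N →* Perm (X × Q)}
    (h2 : π.ker ≤ Subgroup.center N) {m b o : N} (hm : Sw d s (π m)) (hb : π b = cyc d s)
    (ho : Fx d s (π o)) (hc : π o * π m * (π o)⁻¹ = π m) : o * b = b * o := by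
  refine comm_of_cm h h2 hm hb ?_
  rw [conj_cm]
  refine cm_congr h2 ?_ ?_
  · rw [map_mul, map_mul, map_inv, hc]
  · rw [map_mul, map_mul, map_inv, hb, cyc_conj h ho]

/-- the double transposition -/
def dt : Perm (Fin 3 ⊕ Fin 2) := swap (.inl 0) (.inl 1) * swap (.inr 0) (.inr 1)

theorem sign_dt : Perm.sign dt = 1 := by
  unfold dt
  rw [map_mul, Perm.sign_swap (by decide), Perm.sign_swap (by decide)]
  decide

theorem dt_inl (i : Fin 3) : dt (.inl i) = .inl (![1, 0, 2] i) := by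
  revert i; decide

theorem sw_dt {d : Set X} {s : Fin 3 → V × Q} {r : Fin 2 → V × Q} (h : Fr d (Sum.elim s r)) :
    Sw d s (fp d (Sum.elim s r) dt) := by
  intro i x hx
  have := fp_apply h dt hx (.inl i)
  rw [dt_inl] at this
  exact this

theorem fresh2 [Fintype Q] (hQ : 20 ≤ Fintype.card Q) {J : Type} [Fintype J]
    (hJ : Fintype.card J ≤ 18) (p : J → Q) :
    ∃ t : Fin 2 → Q, Function.Injective t ∧ ∀ j i, p j ≠ t i := by
  classical
  obtain ⟨t, ht, ht'⟩ := exists_fresh (Finset.univ.image p) 2 (by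
    have := Finset.card_image_le (s := Finset.univ) (f := p)
    rw [Finset.card_univ] at this
    omega)
  exact ⟨t, ht, fun j i e => ht' i (Finset.mem_image.2 ⟨j, Finset.mem_univ _, e⟩)⟩

theorem exists_sw [Fintype Q] (hQ : 20 ≤ Fintype.card Q) {π : N →* Perm (X × Q)}
    (h1 : π.range = A3 lab Q) {d : Set X} {s : Fin 3 → V × Q} (hd : Loc lab d) (h : Fr d s) :
    ∃ m, Sw d s (π m) := by
  obtain ⟨t, ht, ht'⟩ := fresh2 hQ (J := Fin 3) (by simp) fun i => (s i).2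
  have hF : Fr d (Sum.elim s fun i => ((0 : V), t i)) := h.sum ht ht'
  have := fp_mem_A3 hd hF sign_dt
  rw [← h1] at this
  obtain ⟨m, hm⟩ := this
  exact ⟨m, hm ▸ sw_dt hF⟩

theorem exists_cyc {π : N →* Perm (X × Q)} (h1 : π.range = A3 lab Q) {d : Set X}
    {s : Fin 3 → V × Q} (hd : Loc lab d) (h : Fr d s) : ∃ b, π b = cyc d s := by
  have := cyc_mem_A3 hd h
  rw [← h1] at this
  exact this

theorem cyc_union {d d' : Set X} {s : Fin 3 → V × Q} (h : Fr (d ∪ d') s) (hd : Disjoint d d') :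
    cyc (d ∪ d') s = cyc d s * cyc d' s := fq_union h hd _

theorem comm_small [Fintype Q] (hQ : 20 ≤ Fintype.card Q) {π : N →* Perm (X × Q)}
    (h1 : π.range = A3 lab Q) (h2 : π.ker ≤ Subgroup.center N) {d : Set X} {s : Fin 3 → V × Q}
    (hd : Loc lab d) (h : Fr d s) {o b : N} (ho : Fx d s (π o)) (hb : π b = cyc d s)
    {t : Fin 2 → Q} (ht : Function.Injective t) (ht' : ∀ j i, (s j).2 ≠ t i)
    {r' : Fin 2 → V × Q} (hr : ∀ y ∈ d, ∀ i, π o (sh ((0 : V), t i) y) = sh (r' i) y) :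
    o * b = b * o := by
  have hF : Fr d (Sum.elim s fun i => ((0 : V), t i)) := h.sum ht ht'
  have hu : ∀ i, ∀ x ∈ d, π o (sh (Sum.elim s (fun i => ((0 : V), t i)) i) x) =
      sh (Sum.elim s r' i) x := by
    rintro (i | i) x hx
    · exact ho i x hx
    · exact hr x hx i
  have hF' : Fr d (Sum.elim s r') := hF.conj hu
  have := fp_mem_A3 hd hF sign_dt
  rw [← h1] at this
  obtain ⟨m, hm⟩ := this
  have hm' : π (o * m * o⁻¹) = fp d (Sum.elim s r') dt := by
    rw [map_mul, map_mul, map_inv, hm]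
    exact fq_conj hF hu _
  obtain ⟨t2, ht2, ht2'⟩ := fresh2 hQ (J := Fin 3 ⊕ Fin 2 ⊕ Fin 2) (by simp)
    (Sum.elim (fun i => (s i).2) (Sum.elim t fun i => (r' i).2))
  have hF2 : Fr d (Sum.elim s fun i => ((0 : V), t2 i)) :=
    h.sum ht2 fun i j => ht2' (.inl i) j
  have := fp_mem_A3 hd hF2 sign_dt
  rw [← h1] at this
  obtain ⟨m2, hm2⟩ := this
  have s1 : Sw d s (π m) := hm ▸ sw_dt hF
  have s2 : Sw d s (π (o * m * o⁻¹)) := hm' ▸ sw_dt hF'
  have s3 : Sw d s (π m2) := hm2 ▸ sw_dt hF2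
  have f1 : Fx d s (π (m⁻¹ * (o * m * o⁻¹))) := by
    intro i x hx
    rw [map_mul, map_inv, Perm.mul_apply, s2 i x hx, ← s1 i x hx, Perm.inv_def, symm_apply_apply]
  have f2 : Fx d (Sum.elim s fun i => ((0 : V), t2 i)) (π (m⁻¹ * (o * m * o⁻¹))) := by
    rintro (i | i) x hx
    · exact f1 i x hx
    · have a1 : π (o * m * o⁻¹) (sh ((0 : V), t2 i) x) = sh ((0 : V), t2 i) x := by
        rw [hm']
        refine fp_other _ ?_
        rintro (j | j) y _ e
        · exact ht2' (.inl j) i (congrArg Prod.snd e).symm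
        · exact ht2' (.inr (.inr j)) i (congrArg Prod.snd e).symm
      have a2 : π m (sh ((0 : V), t2 i) x) = sh ((0 : V), t2 i) x := by
        rw [hm]
        refine fp_other _ ?_
        rintro (j | j) y _ e
        · exact ht2' (.inl j) i (congrArg Prod.snd e).symm
        · exact ht2' (.inr (.inl j)) i (congrArg Prod.snd e).symm
      change π (m⁻¹ * (o * m * o⁻¹)) (sh ((0 : V), t2 i) x) = sh ((0 : V), t2 i) x
      rw [map_mul, map_inv, Perm.mul_apply, a1, Perm.inv_eq_iff_eq, a2]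
  have c1 : m⁻¹ * (o * m * o⁻¹) * b = b * (m⁻¹ * (o * m * o⁻¹)) := by
    refine comm_of_comm h h2 s3 hb f1 ?_
    rw [hm2]
    exact fq_conj hF2 f2 _
  refine comm_of_cm h h2 s1 hb ?_
  rw [conj_cm, cm_congr h2 (a' := o * m * o⁻¹) (b' := b) rfl
    (by rw [map_mul, map_mul, map_inv, hb, cyc_conj h ho])]
  generalize o * m * o⁻¹ = m' at c1
  unfold cm
  calc m' * b * m'⁻¹ * b⁻¹ = m * (m⁻¹ * m' * b) * m'⁻¹ * b⁻¹ := by group
    _ = _ := by rw [c1]; group

/-- elements fixing the sheets commute with the lifts of the three-cycle -/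
theorem comm_fx [Finite A] [Fintype Q] (hQ : 20 ≤ Fintype.card Q) {π : N →* Perm (X × Q)}
    (h1 : π.range = A3 lab Q) (h2 : π.ker ≤ Subgroup.center N) {d : Set X} {s : Fin 3 → V × Q}
    (hd : Loc lab d) (h : Fr d s) {o b : N} (ho : Fx d s (π o)) (hb : π b = cyc d s) :
    o * b = b * o := by
  obtain ⟨t, ht, ht'⟩ := fresh2 hQ (J := Fin 3) (by simp) fun i => (s i).2
  obtain ⟨R, hR⟩ := cx_of_mem (lab := lab) (g := π o) (h1 ▸ ⟨o, rfl⟩)
  obtain ⟨ρ, hρ⟩ := hR.pieces fun i : Fin 2 => ((0 : V), t i)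
  refine Loc.ind (lab := lab) ρ
    (P := fun e => Loc lab e → e ⊆ d → ∀ b, π b = cyc e s → o * b = b * o) ?_ ?_ hd ?_ hd
    subset_rfl b hb
  · intro _ _ b hb
    have : b ∈ π.ker := by rw [MonoidHom.mem_ker, hb]; exact fq_empty _
    exact Subgroup.mem_center_iff.1 (h2 this) o
  · intro e e' he he' hdis p p' _ hs b hb
    have s1 : e ⊆ d := Set.subset_union_left.trans hs
    have s2 : e' ⊆ d := Set.subset_union_right.trans hs
    obtain ⟨b1, hb1⟩ := exists_cyc h1 he (h.mono s1)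
    obtain ⟨b2, hb2⟩ := exists_cyc h1 he' (h.mono s2)
    have c1 := p he s1 b1 hb1
    have c2 := p' he' s2 b2 hb2
    obtain ⟨z, hz, rfl⟩ := cen_of_eq h2 (a := b1 * b2) (a' := b)
      (by rw [map_mul, hb1, hb2, hb, cyc_union (h.mono hs) hdis])
    calc o * (b1 * b2 * z) = o * b1 * b2 * z := by group
      _ = b1 * (o * b2) * z := by rw [c1]; group
      _ = b1 * b2 * (o * z) := by rw [c2]; group
      _ = _ := by rw [hz o]; group
  · intro e hs he ha _ _ b hb
    rcases e.eq_empty_or_nonempty with rfl | ⟨x, hx⟩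
    · have : b ∈ π.ker := by rw [MonoidHom.mem_ker, hb]; exact fq_empty _
      exact Subgroup.mem_center_iff.1 (h2 this) o
    · obtain ⟨r', hr'⟩ := hρ x
      exact comm_small hQ h1 h2 he (h.mono hs) (fun i y hy => ho i y (hs hy)) hb ht ht'
        (r' := r') fun y hy i => hr' y (ha x hx y hy) i

open Classical in
/-- the canonical lift -/
noncomputable def TT (π : N →* Perm (X × Q)) (d : Set X) (s : Fin 3 → V × Q) : N :=
  if h : ∃ p : N × N, Sw d s (π p.1) ∧ π p.2 = cyc d s then cm h.choose.1 h.choose.2 else 1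

theorem TT_eq [Finite A] [Fintype Q] (hQ : 20 ≤ Fintype.card Q) {π : N →* Perm (X × Q)}
    (h1 : π.range = A3 lab Q) (h2 : π.ker ≤ Subgroup.center N) {d : Set X} {s : Fin 3 → V × Q}
    (hd : Loc lab d) (h : Fr d s) {m b : N} (hm : Sw d s (π m)) (hb : π b = cyc d s) :
    TT π d s = cm m b := by
  have hex : ∃ p : N × N, Sw d s (π p.1) ∧ π p.2 = cyc d s := ⟨(m, b), hm, hb⟩
  rw [TT, dif_pos hex]
  obtain ⟨s1, s2⟩ := hex.choose_spec
  generalize hex.choose = p at s1 s2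
  obtain ⟨m', b'⟩ := p
  rw [cm_congr h2 (a' := m') (b' := b) rfl (s2.trans hb.symm)]
  have f1 : Fx d s (π (m⁻¹ * m')) := by
    intro i x hx
    rw [map_mul, map_inv, Perm.mul_apply, s1 i x hx, ← hm i x hx, Perm.inv_def, symm_apply_apply]
  have c1 := comm_fx hQ h1 h2 hd h f1 hb
  unfold cm
  calc m' * b * m'⁻¹ * b⁻¹ = m * (m⁻¹ * m' * b) * m'⁻¹ * b⁻¹ := by group
    _ = _ := by rw [c1]; group

section

variable [Finite A] [Fintype Q] (hQ : 20 ≤ Fintype.card Q) {π : N →* Perm (X × Q)}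
  (h1 : π.range = A3 lab Q) (h2 : π.ker ≤ Subgroup.center N) {d : Set X} {s : Fin 3 → V × Q}
  (hd : Loc lab d) (h : Fr d s)

include hQ h1 h2 hd h

theorem π_TT : π (TT π d s) = cyc d s := by
  obtain ⟨m, hm⟩ := exists_sw hQ h1 hd h
  obtain ⟨b, hb⟩ := exists_cyc h1 hd h
  rw [TT_eq hQ h1 h2 hd h hm hb, π_cm h π hm hb]

theorem TT_conj (n : N) {s' : Fin 3 → V × Q}
    (hn : ∀ i, ∀ x ∈ d, π n (sh (s i) x) = sh (s' i) x) : n * TT π d s * n⁻¹ = TT π d s' := by
  obtain ⟨m, hm⟩ := exists_sw hQ h1 hd h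
  obtain ⟨b, hb⟩ := exists_cyc h1 hd h
  rw [TT_eq hQ h1 h2 hd h hm hb, conj_cm]
  refine (TT_eq hQ h1 h2 hd (h.conj hn) ?_ ?_).symm
  · intro i x hx
    rw [map_mul, map_mul, map_inv, Perm.mul_apply, Perm.mul_apply, ← hn i x hx, Perm.inv_def,
      symm_apply_apply, hm i x hx]
    exact hn _ x hx
  · rw [map_mul, map_mul, map_inv, hb, cyc_conj h hn]

theorem TT_shift (w : V) :
    TT π {x | w +ᵥ x ∈ d} (fun i => ((s i).1 + w, (s i).2)) = TT π d s := by
  obtain ⟨m, hm⟩ := exists_sw hQ h1 hd h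
  obtain ⟨b, hb⟩ := exists_cyc h1 hd h
  rw [TT_eq hQ h1 h2 hd h hm hb]
  refine TT_eq hQ h1 h2 (hd.shift w) (h.shift w) ?_ ?_
  · intro i x hx
    have := hm i (w +ᵥ x) hx
    simpa only [sh, add_vadd, Function.comp_apply] using this
  · rw [hb]
    exact (fq_shift w fun _ => finRotate 3).symm

theorem TT_sq {m : N} (hm : Sw d s (π m)) : m * TT π d s * m⁻¹ = TT π d s * TT π d s := by
  have := TT_eq hQ h1 h2 hd h hm (π_TT hQ h1 h2 hd h)
  generalize TT π d s = T at this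
  unfold cm at this
  calc m * T * m⁻¹ = m * T * m⁻¹ * T⁻¹ * T := by group
    _ = _ := by rw [← this]

theorem TT_cube : TT π d s ^ 3 = 1 := by
  obtain ⟨m, hm⟩ := exists_sw hQ h1 hd h
  have e := TT_sq hQ h1 h2 hd h hm
  have f : Fx d s (π (m * m)) := by
    intro i x hx
    rw [map_mul, Perm.mul_apply, hm i x hx]
    have := hm (![1, 0, 2] i) x hx
    have e2 : ∀ i, (![1, 0, 2] : Fin 3 → Fin 3) (![1, 0, 2] i) = i := by decide
    simpa only [Function.comp_apply, e2] using this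
  have c := comm_fx hQ h1 h2 hd h f (π_TT hQ h1 h2 hd h)
  generalize TT π d s = T at e c
  have e3 : T = T * T * (T * T) := by
    calc T = m * m * T * (m * m)⁻¹ := by rw [c]; group
      _ = m * (m * T * m⁻¹) * m⁻¹ := by group
      _ = m * (T * T) * m⁻¹ := by rw [e]
      _ = (m * T * m⁻¹) * (m * T * m⁻¹) := by simp only [mul_assoc, inv_mul_cancel_left]
      _ = _ := by rw [e]
  calc T ^ 3 = T⁻¹ * (T * T * (T * T)) := by
        simp only [pow_succ, pow_zero, one_mul, mul_assoc, inv_mul_cancel_left]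
    _ = 1 := by rw [← e3, inv_mul_cancel]

theorem TT_inv : TT π d (s ∘ ![1, 0, 2]) = (TT π d s)⁻¹ := by
  obtain ⟨m, hm⟩ := exists_sw hQ h1 hd h
  rw [← TT_conj hQ h1 h2 hd h m hm, TT_sq hQ h1 h2 hd h hm]
  have := TT_cube hQ h1 h2 hd h
  generalize TT π d s = T at this
  calc T * T = T ^ 3 * T⁻¹ := by
        simp only [pow_succ, pow_zero, one_mul, mul_assoc, mul_inv_cancel, mul_one]
    _ = _ := by rw [this, one_mul]

end

theorem TT_add [Finite A] [Fintype Q] (hQ : 20 ≤ Fintype.card Q) {π : N →* Perm (X × Q)}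
    (h1 : π.range = A3 lab Q) (h2 : π.ker ≤ Subgroup.center N) {d d' : Set X}
    {s : Fin 3 → V × Q} (hd : Loc lab d) (hd' : Loc lab d') (hdis : Disjoint d d')
    (h : Fr (d ∪ d') s) : TT π (d ∪ d') s = TT π d s * TT π d' s := by
  obtain ⟨m, hm⟩ := exists_sw hQ h1 (hd.union hd') h
  have g1 : Fr d s := h.mono Set.subset_union_left
  have g2 : Fr d' s := h.mono Set.subset_union_right
  obtain ⟨b1, hb1⟩ := exists_cyc h1 hd g1
  obtain ⟨b2, hb2⟩ := exists_cyc h1 hd' g2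
  have m1 : Sw d s (π m) := fun i x hx => hm i x (Or.inl hx)
  have m2 : Sw d' s (π m) := fun i x hx => hm i x (Or.inr hx)
  rw [TT_eq hQ h1 h2 (hd.union hd') h hm (b := b1 * b2)
    (by rw [map_mul, hb1, hb2, cyc_union h hdis]), TT_eq hQ h1 h2 hd g1 m1 hb1,
    TT_eq hQ h1 h2 hd' g2 m2 hb2]
  have f : Fx d s (π (cm m b2)) := by
    rw [π_cm g2 π m2 hb2]
    intro i x hx
    refine fp_other _ fun j y hy e => ?_
    obtain rfl := h i j x (Or.inl hx) y (Or.inr hy) e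
    obtain rfl := sh_inj e
    exact Set.disjoint_left.1 hdis hx hy
  have c := comm_fx hQ h1 h2 hd g1 f hb1
  have e : cm m (b1 * b2) = m * b1 * m⁻¹ * (cm m b2 * b1⁻¹) := by unfold cm; group
  have c' : cm m b2 * b1⁻¹ = b1⁻¹ * cm m b2 := by
    calc cm m b2 * b1⁻¹ = b1⁻¹ * (b1 * cm m b2) * b1⁻¹ := by group
      _ = _ := by rw [← c]; group
  rw [e, c']
  unfold cm
  group

theorem TT_gen [Finite A] [Fintype Q] (hQ : 20 ≤ Fintype.card Q) [Group.IsPerfect N]
    {π : N →* Perm (X × Q)} (h1 : π.range = A3 lab Q) (h2 : π.ker ≤ Subgroup.center N) :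
    Subgroup.closure {n | ∃ d s, Loc lab d ∧ Fr d s ∧ n = TT π d s} = ⊤ := by
  set M := Subgroup.closure {n | ∃ d s, Loc lab d ∧ Fr d s ∧ n = TT π d s} with hM
  have hmap : A3 lab Q ≤ M.map π := by
    refine (Subgroup.closure_le _).2 ?_
    rintro g ⟨d, s, hd, h, rfl⟩
    exact ⟨TT π d s, Subgroup.subset_closure ⟨d, s, hd, h, rfl⟩, π_TT hQ h1 h2 hd h⟩
  have hl : ∀ n, ∃ m ∈ M, π m = π n := fun n => hmap (h1 ▸ ⟨n, rfl⟩)
  rw [eq_top_iff, ← Group.IsPerfect.commutator_eq_top (G := N), commutator_def,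
    Subgroup.commutator_le]
  intro a _ b _
  obtain ⟨a', ha, ea⟩ := hl a
  obtain ⟨b', hb, eb⟩ := hl b
  have : cm a' b' ∈ M :=
    M.mul_mem (M.mul_mem (M.mul_mem ha hb) (M.inv_mem ha)) (M.inv_mem hb)
  rw [cm_congr h2 ea eb] at this
  exact this

end KLiftAux

open KLiftAux in
theorem exists_lift [Finite A] [Fintype Q] (hQ : 20 ≤ Fintype.card Q) [Group.IsPerfect N]
    (π : N →* Perm (X × Q)) (h1 : π.range = A3 lab Q) (h2 : π.ker ≤ Subgroup.center N) :
    ∃ L : Lift lab Q N, L.π = π :=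
  ⟨{ π := π
     T := TT π
     range := h1
     cen := h2
     π_T := fun _ _ hd h => π_TT hQ h1 h2 hd h
     conj := fun n _ _ _ hd h hn => TT_conj hQ h1 h2 hd h n hn
     shift := fun _ _ w hd h => TT_shift hQ h1 h2 hd h w
     add := fun _ _ _ hd hd' hdis h => TT_add hQ h1 h2 hd hd' hdis h
     cube := fun _ _ hd h => TT_cube hQ h1 h2 hd h
     inv := fun _ _ hd h => TT_inv hQ h1 h2 hd h
     gen := TT_gen hQ h1 h2 }, rfl⟩

end Vale.Agent.P196
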