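import Vale.Agent.P196.K1D
import Vale.Agent.P196.KBand
import Vale.Agent.P196.KLift
import Vale.Agent.P196.KEps

/-! The kernel of a perfect central extension is finitely generated. -/

namespace Vale.Agent.P196

open Equiv K1DAux KIdxAux KBandAux

variable {X A Q : Type} [AddAction V X] {lab : X → A} {N : Type} [Group N]

namespace K2DAux

theorem ind_band (hf : Free X) {ρ δ : ℕ} {l : List (Set X × (Fin 3 → V × Q))}
    (hl : ∀ f ∈ l, Ok lab ρ f) (h1 : wd l Set.univ = 1) (hδ : 4 * ρ * (l.length + 1) < δ) {z : X}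
    {P : V → Prop} (hP : (∀ v, P v ↔ v.2 < 0) ∨ ∀ v, P v ↔ 0 ≤ v.2) {g : Perm (X × Q)}
    (hd : ∀ ω, ∃ c : V, |c.2| ≤ δ ∧ (g ω).1 = c +ᵥ ω.1)
    (hg : ∀ ω (v : V), ω.1 = v +ᵥ ((0, 2 * δ) : V) +ᵥ z → |v.2| ≤ 3 * δ →
      g ω = wd l (Reg (((0, 2 * δ) : V) +ᵥ z) P) ω) :
    ind (Hb Q z (4 * δ)) g =
      ind (Hx Q (((0, 2 * δ) : V) +ᵥ z)) (wd l (Reg (((0, 2 * δ) : V) +ᵥ z) P)) := by
  have hδ' : 4 * (ρ : ℤ) * (l.length + 1) < δ := by exact_mod_cast hδ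
  have hρ : (0 : ℤ) ≤ ρ := Int.natCast_nonneg ρ
  have hρ' : (0 : ℤ) ≤ ρ * l.length := by positivity
  have mb : ∀ (ω : X × Q) (v : V), ω.1 = v +ᵥ ((0, 2 * δ) : V) +ᵥ z →
      (ω ∈ Hb Q z (4 * δ) ↔ v.1 < 0 ∧ -(2 * δ) ≤ v.2 ∧ v.2 < 2 * δ) := by
    intro ω v e
    rw [mem_Hb hf (v := v + (0, 2 * (δ : ℤ))) (by rw [add_vadd, e])]
    simp only [Prod.fst_add, Prod.snd_add]; omega
  refine ind_eq_of id {ω | ∃ v : V, |v.2| ≤ δ ∧ ω.1 = v +ᵥ ((0, 2 * δ) : V) +ᵥ z}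
    (Set.injOn_id _) (fun ω hω => ?_) (fun ω hω => ?_) ?_
  · obtain ⟨v, a, b⟩ := moved_band hf hl h1 hP (ω := ω) (x := ((0, 2 * δ) : V) +ᵥ z)
      fun c => hω (by rw [c])
    exact ⟨v, by linarith, b⟩
  · rw [Set.image_id]
    obtain ⟨c, c1, c2⟩ := hd ω
    have : ∃ v : V, |v.2| ≤ 3 * δ ∧ ω.1 = v +ᵥ ((0, 2 * δ) : V) +ᵥ z := by
      by_cases k : ω ∈ Hb Q z (4 * δ)
      · obtain ⟨v, -, a, b, e⟩ := k
        exact ⟨v - (0, 2 * (δ : ℤ)), by simp only [Prod.snd_sub, abs_le]; omega,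
          by rw [← add_vadd, sub_add_cancel, e]⟩
      · obtain ⟨v, -, a, b, e⟩ : g ω ∈ Hb Q z (4 * δ) := by tauto
        refine ⟨-c + (v - (0, 2 * (δ : ℤ))), ?_, ?_⟩
        · simp only [Prod.snd_add, Prod.snd_neg, Prod.snd_sub, abs_le] at *; omega
        · rw [add_vadd, ← add_vadd (v - _), sub_add_cancel, ← e, c2, neg_vadd_vadd]
    obtain ⟨v, a, b⟩ := this
    obtain ⟨w, d, e⟩ := moved_band hf hl h1 hP (ω := ω) (x := ((0, 2 * δ) : V) +ᵥ z)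
      fun c => hω (by rw [hg ω v b a, c])
    exact ⟨w, by linarith, e⟩
  · rintro ω ⟨v, a, b⟩
    obtain ⟨c, -, c1, c2⟩ := wd_disp hl (Reg (((0, 2 * δ) : V) +ᵥ z) P) ω
    have e : (wd l (Reg (((0, 2 * δ) : V) +ᵥ z) P) ω).1 = (c.1 + v) +ᵥ ((0, 2 * δ) : V) +ᵥ z := by
      rw [c2, add_vadd, ← b]; rfl
    have c3 : |c.1.2| < δ := by linarith
    rw [id, hg ω v b (by linarith [abs_nonneg v.2]), mb ω v b, mb _ _ e, mem_Hx hf b, mem_Hx hf e]
    simp only [Prod.fst_add, Prod.snd_add, abs_le, abs_lt] at *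
    omega

theorem st_iff' (h : Lev lab) (s : ℕ) (y1 l : ℤ) (ω ω' : X × Q) :
    St (fun _ _ => True) h s (h.b s) Prod.snd y1 l ω ω' ↔ h.Ry s y1 l ω ω' :=
  ⟨fun k => k.2, fun k => ⟨trivial, k⟩⟩

theorem dec_ind [Finite Q] {L : Lift lab Q N} {h : Lev lab} (hm : Mini lab) {x : X} {s ρ δ : ℕ}
    {l : List (Set X × (Fin 3 → V × Q))} (hl : ∀ f ∈ l, Ok lab ρ f)
    (hδ : 4 * ρ * (l.length + 1) < δ) (hb : 100 * δ ≤ h.b s) (hx : ind (Hx Q x) (wd l (Lo x)) = 0)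
    {g0 g1 : Perm (X × Q)} (d : Dec L (fun _ _ => True) h s (h.b s) Prod.snd δ (L.wd l Set.univ)
      (L.wd l {x | h.b s / 2 ≤ pc h s Prod.snd x}) g0 g1) :
    (∀ z, h.px s z = 0 → h.py s z ≡ -(2 * δ) [ZMOD h.b s] → ind (Hb Q z (4 * δ)) g0 = 0) ∧
    ∀ z, h.px s z = 0 → h.py s z ≡ h.b s / 2 - 2 * δ [ZMOD h.b s] →
      ind (Hb Q z (4 * δ)) g1 = 0 := by
  have h1 : wd l Set.univ = 1 := by rw [← L.π_wd hl Loc.univ]; exact d.one
  have hE := L.π_wd hl (loc_pc (h := h) (s := s) (φ := Prod.snd) (Set.Ici (h.b s / 2)))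
  have hδ' : 4 * (ρ : ℤ) * (l.length + 1) < δ := by exact_mod_cast hδ
  have hρ' : (0 : ℤ) ≤ ρ * (l.length + 1) := by positivity
  have dp : ∀ g : Perm (X × Q), Cx (h.lab2 s) δ g → ∀ ω, ∃ c : V, |c.2| ≤ δ ∧ (g ω).1 = c +ᵥ ω.1 :=
    fun g ⟨c, c1, c2, _⟩ ω => ⟨(c ω).1, (c2 ω).2, by rw [c1]; rfl⟩
  have pz : ∀ (z : X) (y : ℤ), 0 ≤ y → y < h.b s → h.py s z ≡ y - 2 * δ [ZMOD h.b s] →
      pc h s Prod.snd (((0, 2 * δ) : V) +ᵥ z) = y := by
    intro z y a b e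
    have k := (h.py_add s (0, 2 * δ) z).trans (e.add_right _)
    have k' := h.py_mem s (((0, 2 * δ) : V) +ᵥ z)
    rwa [sub_add_cancel, Int.ModEq, Int.emod_eq_of_lt k'.1 k'.2, Int.emod_eq_of_lt a b] at k
  constructor
  · intro z _ hz
    have p := pz z 0 le_rfl (by omega) (by rwa [zero_sub])
    refine (ind_band h.free hl h1 hδ (P := fun v => v.2 < 0) (.inl fun _ => Iff.rfl) (dp _ d.cx0)
      fun ω v e hv => ?_).trans ((flux_const h.free hm hl h1 _ x).trans hx)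
    have n := (co_snd h s).near v (((0, 2 * δ) : V) +ᵥ z) (by omega)
    rw [← e, p] at n
    rw [abs_le] at hv
    rw [(d.ins ω (by omega)).1]
    refine (DFunLike.congr_fun hE ω).trans (wd_congr hl fun w _ hw => ?_)
    have hw' : |w.2| ≤ δ := by linarith
    rw [abs_le] at hw'
    have n' := (co_snd h s).near (w + v) (((0, 2 * δ) : V) +ᵥ z)
      (by simp only [Prod.snd_add, abs_le]; omega)
    rw [e, ← add_vadd, mem_Reg h.free]
    simp only [Set.mem_ofPred_eq, Set.mem_Ici, p, Prod.snd_add] at n' ⊢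
    omega
  · intro z _ hz
    have p := pz z (h.b s / 2) (by omega) (by omega) hz
    refine (ind_band h.free hl h1 hδ (P := fun v => 0 ≤ v.2) (.inr fun _ => Iff.rfl) (dp _ d.cx1)
      fun ω v e hv => ?_).trans ((flux_up h.free hl h1 _).trans
        (by rw [flux_const h.free hm hl h1 _ x, hx, neg_zero]))
    have n := (co_snd h s).near v (((0, 2 * δ) : V) +ᵥ z) (by omega)
    rw [← e, p] at n
    rw [abs_le] at hv
    rw [(d.out ω (by omega)).2]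
    refine (DFunLike.congr_fun hE ω).trans (wd_congr hl fun w _ hw => ?_)
    have hw' : |w.2| ≤ δ := by linarith
    rw [abs_le] at hw'
    have n' := (co_snd h s).near (w + v) (((0, 2 * δ) : V) +ᵥ z)
      (by simp only [Prod.snd_add, abs_le]; omega)
    rw [e, ← add_vadd, mem_Reg h.free]
    simp only [Set.mem_ofPred_eq, Set.mem_Ici, p, Prod.snd_add] at n' ⊢
    omega

theorem exists_inv (L : Lift lab Q N) {ρ : ℕ} {l : List (Set X × (Fin 3 → V × Q))}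
    (hl : ∀ f ∈ l, Ok lab ρ f) : ∃ l' : List (Set X × (Fin 3 → V × Q)), (∀ f ∈ l', Ok lab ρ f) ∧
      L.wd l' Set.univ = (L.wd l Set.univ)⁻¹ ∧ ∀ E, wd l' E = (wd l E)⁻¹ := by
  induction l with
  | nil => exact ⟨[], hl, by simp [Lift.wd], fun E => by simp [wd]⟩
  | cons f l ih =>
    obtain ⟨l', a, b, c⟩ := ih fun g hg => hl g (List.mem_cons_of_mem _ hg)
    have hf := hl f List.mem_cons_self
    refine ⟨l' ++ [f, f], fun g hg => ?_, ?_, fun E => ?_⟩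
    · simp only [List.mem_append, List.mem_cons, List.not_mem_nil, or_false, or_self] at hg
      rcases hg with hg | rfl
      · exact a g hg
      · exact hf
    · have := L.cube f.1 f.2 ⟨ρ, hf.1⟩ hf.2.1
      rw [pow_succ, pow_two] at this
      simp only [Lift.wd, Set.inter_univ, List.map_append, List.prod_append, List.map_cons,
        List.prod_cons, List.map_nil, List.prod_nil, mul_one, mul_inv_rev] at b ⊢
      rw [b, eq_inv_of_mul_eq_one_left this]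
    · have := cyc_cube (f.1 ∩ E) f.2
      rw [pow_succ, pow_two] at this
      rw [wd_append, c, wd_cons, wd_cons, wd_cons, mul_inv_rev, ← eq_inv_of_mul_eq_one_left this]
      simp [wd]

/-- pairs of a central element and the flux of a word for it -/
def M [Finite Q] (L : Lift lab Q N) (hf : Free X) (x : X) : Subgroup (N × Multiplicative ℤ) where
  carrier := {p | L.π p.1 = 1 ∧ ∃ (ρ : ℕ) (l : List (Set X × (Fin 3 → V × Q))),
    (∀ f ∈ l, Ok lab ρ f) ∧ p.1 = L.wd l Set.univ ∧ ind (Hx Q x) (wd l (Lo x)) = p.2.toAdd}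
  one_mem' := ⟨map_one _, 0, [], by simp, by simp [Lift.wd], by simpa [wd] using ind_one⟩
  mul_mem' := by
    rintro p p' ⟨a, ρ, l, b, c, d⟩ ⟨a', ρ', l', b', c', d'⟩
    refine ⟨by rw [Prod.fst_mul, map_mul, a, a', mul_one], ρ + ρ', l ++ l', fun f k => ?_, ?_, ?_⟩
    · rcases List.mem_append.1 k with k | k
      · exact ok_mono (b f k) (by omega)
      · exact ok_mono (b' f k) (by omega)
    · rw [Prod.fst_mul, c, c']; simp [Lift.wd]
    · rw [wd_append, ind_mul (fi_wd hf b (by rw [← L.π_wd b Loc.univ, ← c, a]) x).1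
        (fi_wd hf b' (by rw [← L.π_wd b' Loc.univ, ← c', a']) x).1, d, d']
      rfl
  inv_mem' := by
    rintro p ⟨a, ρ, l, b, c, d⟩
    obtain ⟨l', e1, e2, e3⟩ := exists_inv L b
    refine ⟨by rw [Prod.fst_inv, map_inv, a, inv_one], ρ, l', e1, by rw [e2, ← c]; rfl, ?_⟩
    have fi := (fi_wd hf b (by rw [← L.π_wd b Loc.univ, ← c, a]) x).1
    have := ind_mul fi fi.inv
    rw [mul_inv_cancel, ind_one, d] at this
    rw [e3, Prod.snd_inv, toAdd_inv]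
    omega

end K2DAux

open K2DAux

theorem Lift.flux_zero_finite [Finite A] [Fintype Q] (hQ : 20 ≤ Fintype.card Q)
    (L : Lift lab Q N) (he : L.Eps) (h : Lev lab) (hm : Mini lab) (x : X) :
    {n | L.π n = 1 ∧ ∃ (ρ : ℕ) (l : List (Set X × (Fin 3 → V × Q))), (∀ f ∈ l, Ok lab ρ f) ∧
      n = L.wd l Set.univ ∧ ind (Hx Q x) (P196.wd l (Lo x)) = 0}.Finite := by
  classical
  have S1 := L.band_finite hQ he h
  refine finite_of_bounded (B := (Fin h.c → ℤˣ) × (Fin h.c → ℤˣ)) (S1.image2 (· * ·) S1)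
    fun F hF => ?_
  have H : ∀ w : F, ∃ (ρ : ℕ) (l : List (Set X × (Fin 3 → V × Q))), (∀ f ∈ l, Ok lab ρ f) ∧
      w.1 = L.wd l Set.univ ∧ ind (Hx Q x) (P196.wd l (Lo x)) = 0 := fun w => (hF w.2).2
  choose ρ l hl hw hx using H
  obtain ⟨δ0, hδ⟩ := (Set.finite_range fun w => 4 * ρ w * ((l w).length + 1)).bddAbove
  obtain ⟨δ, hδ0⟩ : ∃ δ, δ0 < δ := ⟨_, Nat.lt_succ_self _⟩
  have hδ' : ∀ w, 4 * ρ w * ((l w).length + 1) < δ := fun w => lt_of_le_of_lt (hδ ⟨w, rfl⟩) hδ0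
  obtain ⟨s, hs, hty⟩ := h.rankH (100 * δ) (200 * δ)
  have ha : 200 * (δ : ℤ) < h.a s := lt_of_le_of_lt (by exact_mod_cast hs) (h.a_ge s)
  have hb : 200 * (δ : ℤ) < h.b s := lt_of_le_of_lt (by exact_mod_cast hs) (h.b_ge s)
  obtain ⟨t0, ht0⟩ := hty (-(2 * δ))
  obtain ⟨t1, ht1⟩ := hty (h.b s / 2 - 2 * δ)
  obtain ⟨P0, hP0⟩ := L.band_par hQ h (s := s) (y1 := -(2 * δ)) (l := 4 * δ) (δ := δ) (by omega)
    (by omega) ha.le hb.le t0 fun x y a b c d e v v1 v2 v3 =>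
      ht0 x y a b c d e v v1 v2 (by exact_mod_cast v3)
  obtain ⟨P1, hP1⟩ := L.band_par hQ h (s := s) (y1 := h.b s / 2 - 2 * δ) (l := 4 * δ) (δ := δ)
    (by omega) (by omega) ha.le hb.le t1 fun x y a b c d e v v1 v2 v3 =>
      ht1 x y a b c d e v v1 v2 (by exact_mod_cast v3)
  have D : ∀ w : F, ∃ β g0 g1, Dec L (fun _ _ => True) h s (h.b s) Prod.snd δ w.1 β g0 g1 ∧
      (∀ z, h.px s z = 0 → h.py s z ≡ -(2 * δ) [ZMOD h.b s] → ind (Hb Q z (4 * δ)) g0 = 0) ∧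
      ∀ z, h.px s z = 0 → h.py s z ≡ h.b s / 2 - 2 * δ [ZMOD h.b s] →
        ind (Hb Q z (4 * δ)) g1 = 0 := by
    intro w
    obtain ⟨g0, g1, d⟩ := exists_dec (L := L) (R := fun _ _ => True) (δ := δ) (co_snd h s)
      (by omega) (fun _ _ k => k) (fun _ _ _ k _ => k)
      (fun f hf => ⟨hl w f hf, fun _ _ _ _ => trivial⟩) (hδ' w).le (hw w ▸ (hF w.2).1)
    exact ⟨_, g0, g1, hw w ▸ d, dec_ind hm (hl w) (hδ' w) (by omega) (hx w) d⟩
  choose β g0 g1 hD i0 i1 using D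
  refine ⟨fun w => if k : w ∈ F then (P0 (g0 ⟨w, k⟩), P1 (g1 ⟨w, k⟩)) else 1,
    fun w k w' k' e => ?_⟩
  simp only [dif_pos k, dif_pos k', Prod.mk.injEq] at e
  have d := hD ⟨w, k⟩
  have d' := hD ⟨w', k'⟩
  obtain ⟨n0, a0, b0⟩ := hP0 _ _ d.cx0 d'.cx0 (pres_mono d.pr0 fun _ _ => (st_iff' ..).1)
    (pres_mono d'.pr0 fun _ _ => (st_iff' ..).1) (i0 _) (i0 _) e.1
  obtain ⟨n1, a1, b1⟩ := hP1 _ _ d.cx1 d'.cx1 (pres_mono d.pr1 fun _ _ => (st_iff' ..).1)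
    (pres_mono d'.pr1 fun _ _ => (st_iff' ..).1) (i1 _) (i1 _) e.2
  obtain ⟨k1, c1, k2, c2, e1, e2, e3⟩ := d.split (co_snd h s) (by omega) d'
    (L.NR_mono (fun _ _ => (st_iff' ..).2) a0) (L.NR_mono (fun _ _ => (st_iff' ..).2) a1) b0 b1
  exact ⟨k1, ⟨e1, s, L.rot h (by omega) (L.NR_mono (fun _ _ => (st_iff' ..).1) c1) e1⟩,
    k2, ⟨e2, s, L.rot h (by omega) (L.NR_mono (fun _ _ => (st_iff' ..).1) c2) e2⟩, e3.symm⟩

theorem Lift.ker_fg [Finite A] [Fintype Q] [Nonempty X] (hQ : 20 ≤ Fintype.card Q)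
    (L : Lift lab Q N) (he : L.Eps) (h : Lev lab) (hm : Mini lab) : L.π.ker.FG := by
  obtain ⟨x⟩ := ‹Nonempty X›
  obtain ⟨⟨_, p, hp, rfl⟩, hg⟩ :=
    IsCyclic.exists_generator (α := (M L h.free x).map (MonoidHom.snd _ _))
  refine (Subgroup.fg_iff _).2 ⟨_, le_antisymm ((Subgroup.closure_le _).2 ?_) fun k hk => ?_,
    (L.flux_zero_finite hQ he h hm x).insert p.1⟩
  · rintro n (rfl | hn)
    · exact hp.1
    · exact hn.1
  · obtain ⟨ρ, l, a, b⟩ := L.exists_word (R := fun _ _ => True) (m := k) (by rw [L.NR_true]; trivial)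
    have hk' : (k, Multiplicative.ofAdd (ind (Hx Q x) (P196.wd l (Lo x)))) ∈ M L h.free x :=
      ⟨hk, ρ, l, fun f hf => (a f hf).1, b, rfl⟩
    obtain ⟨j, hj⟩ := hg ⟨_, _, hk', rfl⟩
    have hj' : p.2 ^ j = Multiplicative.ofAdd (ind (Hx Q x) (P196.wd l (Lo x))) :=
      congrArg Subtype.val hj
    obtain ⟨c, ρ', l', d, e, f⟩ := mul_mem hk' (inv_mem (zpow_mem hp j))
    have e' : k = k * (p.1 ^ j)⁻¹ * p.1 ^ j := by group
    rw [e']
    refine mul_mem (Subgroup.subset_closure (.inr ⟨c, ρ', l', d, e, ?_⟩))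
      (zpow_mem (Subgroup.subset_closure (.inl rfl)) j)
    rw [f, Prod.snd_mul, Prod.snd_inv, Prod.pow_snd, hj']
    simp

theorem central_fg [Finite A] [Fintype Q] [Nonempty X] (hQ : 20 ≤ Fintype.card Q) (h : Lev lab)
    (hm : Mini lab) [Group.IsPerfect N] (π : N →* Perm (X × Q)) (h1 : π.range = A3 lab Q)
    (h2 : π.ker ≤ Subgroup.center N) : π.ker.FG := by
  obtain ⟨L, rfl⟩ := exists_lift hQ π h1 h2
  exact L.fg_of_eps hQ h fun N' _ L' he => L'.ker_fg hQ he h hm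

end Vale.Agent.P196
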