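import Vale.Agent.P193.PresA
import Vale.Agent.P196.AltD

/-! Elementary three-cycles and their small lifts. -/

namespace Vale.Agent.P196

open Equiv Vale.Agent.P193 Vale.Agent.P193.PA
open scoped Pointwise

namespace PAlt

section perm

variable {F Y : Type} [Group F] [MulAction F Y]

/-- the point over `y` on a sheet -/
def sp (s : F × Pos) (y : Y) : Y × Pos := (s.1 • y, s.2)

/-- disjoint sheets -/
def Fr3 (d : Set Y) (s : Fin 3 → F × Pos) : Prop :=
  ∀ i j, ∀ x ∈ d, ∀ y ∈ d, sp (s i) x = sp (s j) y → i = j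

theorem sp_inj {s : F × Pos} {x y : Y} (h : sp s x = sp s y) : x = y :=
  smul_left_cancel s.1 (congrArg Prod.fst h)

/-- the embedding of three sheets -/
def Fr3.emb {d : Set Y} {s : Fin 3 → F × Pos} (h : Fr3 d s) : d × Fin 3 ↪ Y × Pos :=
  ⟨fun p => sp (s p.2) p.1.1, fun p p' e => by
    obtain ⟨⟨x, hx⟩, i⟩ := p
    obtain ⟨⟨y, hy⟩, j⟩ := p'
    obtain rfl := h i j x hx y hy e
    obtain rfl : x = y := sp_inj e
    rfl⟩

open Classical in
/-- the elementary three-cycle -/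
noncomputable def el (d : Set Y) (s : Fin 3 → F × Pos) : Perm (Y × Pos) :=
  if h : Fr3 d s then Perm.viaEmbedding (Equiv.prodCongrRight fun _ => finRotate 3) h.emb else 1

variable {d d' : Set Y} {s s' : Fin 3 → F × Pos}

theorem el_apply (h : Fr3 d s) {x : Y} (hx : x ∈ d) (i : Fin 3) :
    el d s (sp (s i) x) = sp (s (i + 1)) x := by
  rw [el, dif_pos h]
  have := Perm.viaEmbedding_apply (Equiv.prodCongrRight fun _ : d => finRotate 3) h.emb
    (⟨x, hx⟩, i)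
  refine this.trans ?_
  show sp (s (finRotate 3 i)) x = _
  rw [finRotate_apply]

theorem el_other {ω : Y × Pos} (hω : ∀ i, ∀ x ∈ d, ω ≠ sp (s i) x) : el d s ω = ω := by
  unfold el
  split_ifs with h
  · refine Perm.viaEmbedding_apply_of_notMem _ h.emb ω ?_
    rintro ⟨⟨⟨x, hx⟩, i⟩, e⟩
    exact hω i x hx e.symm
  · rfl

theorem eq_el (h : Fr3 d s) {u : Perm (Y × Pos)}
    (h1 : ∀ i, ∀ x ∈ d, u (sp (s i) x) = sp (s (i + 1)) x)
    (h2 : ∀ ω, (∀ i, ∀ x ∈ d, ω ≠ sp (s i) x) → u ω = ω) : u = el d s := by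
  refine Equiv.ext fun ω => ?_
  by_cases hω : ∀ i, ∀ x ∈ d, ω ≠ sp (s i) x
  · rw [h2 ω hω, el_other hω]
  · push Not at hω
    obtain ⟨i, x, hx, rfl⟩ := hω
    rw [h1 i x hx, el_apply h hx]

theorem Fr3.mono (h : Fr3 d s) (hd : d' ⊆ d) : Fr3 d' s :=
  fun i j x hx y hy => h i j x (hd hx) y (hd hy)

theorem Fr3.conj (h : Fr3 d s) {u : Perm (Y × Pos)}
    (hu : ∀ i, ∀ x ∈ d, u (sp (s i) x) = sp (s' i) x) : Fr3 d s' := fun i j x hx y hy e => by
  rw [← hu i x hx, ← hu j y hy] at e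
  exact h i j x hx y hy (u.injective e)

theorem el_conj (h : Fr3 d s) {u : Perm (Y × Pos)}
    (hu : ∀ i, ∀ x ∈ d, u (sp (s i) x) = sp (s' i) x) : u * el d s * u⁻¹ = el d s' := by
  refine eq_el (h.conj hu) (fun i x hx => ?_) fun ω hω => ?_
  · rw [← hu i x hx, ← hu _ x hx]
    simp [el_apply h hx]
  · have : el d s (u⁻¹ ω) = u⁻¹ ω := el_other fun i x hx e => hω i x hx (by
      rw [← hu i x hx, ← e]; simp)
    rw [Perm.mul_apply, Perm.mul_apply, this]; simp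

theorem el_split (h : Fr3 d s) (d' : Set Y) : el d s = el (d ∩ d') s * el (d \ d') s := by
  have h1 := h.mono (Set.inter_subset_left (t := d'))
  have h2 := h.mono (Set.sdiff_subset (t := d'))
  symm
  refine eq_el h (fun i x hx => ?_) fun ω hω => ?_
  · by_cases hx' : x ∈ d'
    · rw [Perm.mul_apply, el_other (d := d \ d'), el_apply h1 ⟨hx, hx'⟩]
      intro j y hy e
      obtain rfl := h i j x hx y hy.1 e
      exact hy.2 (sp_inj e ▸ hx')
    · rw [Perm.mul_apply, el_apply h2 ⟨hx, hx'⟩, el_other]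
      intro j y hy e
      obtain rfl := h _ j x hx y hy.1 e
      exact hx' (sp_inj e ▸ hy.2)
  · rw [Perm.mul_apply, el_other fun i x hx => hω i x hx.1, el_other fun i x hx => hω i x hx.1]

theorem el_empty : el (∅ : Set Y) s = 1 := Equiv.ext fun _ => el_other fun _ _ h => h.elim

theorem cnd_eq_el (F : Type) [Group F] [MulAction F Y] (d : Set Y) {a b c : Pos} (ab : a ≠ b)
    (ac : a ≠ c) (bc : b ≠ c) :
    Fr3 d ![((1 : F), a), (1, b), (1, c)] ∧
      cnd d (swap a b * swap b c) = el d ![((1 : F), a), (1, b), (1, c)] := by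
  have h : Fr3 d ![((1 : F), a), (1, b), (1, c)] := by
    intro i j x _ y _ e
    have := congrArg Prod.snd e
    fin_cases i <;> fin_cases j <;> simp_all [sp]
  refine ⟨h, eq_el h (fun i x hx => ?_) fun ω hω => ?_⟩
  · fin_cases i
    · simp [sp, cnd_apply_mem _ hx, swap_apply_of_ne_of_ne ab ac]
    · simp [sp, cnd_apply_mem _ hx, swap_apply_of_ne_of_ne ac.symm bc.symm]
    · simp [sp, cnd_apply_mem _ hx]
  · obtain ⟨y, k⟩ := ω
    by_cases hy : y ∈ d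
    · have h0 := hω 0 y hy
      have h1 := hω 1 y hy
      have h2 := hω 2 y hy
      simp only [sp, Matrix.cons_val_zero, one_smul, ne_eq, Prod.mk.injEq, true_and,
        Matrix.cons_val_one, Matrix.cons_val] at h0 h1 h2
      rw [cnd_apply_mem _ hy, Perm.mul_apply, swap_apply_of_ne_of_ne h1 h2,
        swap_apply_of_ne_of_ne h0 h1]
    · exact cnd_apply_not_mem _ hy _

theorem exists_cyc (τ : T3) : ∃ a b c : Pos, a ≠ b ∧ a ≠ c ∧ b ≠ c ∧ τ.1 = swap a b * swap b c := by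
  obtain ⟨g, hg⟩ := τ
  obtain ⟨a, ha⟩ : g.support.Nonempty := by
    rw [← Finset.card_pos, hg.card_support]; norm_num
  have h1 := hg.eq_swap_mul_swap_iff_mem_support.2 ha
  have h3 := hg.nodup_iff_mem_support.2 ha
  generalize g a = b at h1 h3
  generalize g b = c at h1 h3
  simp only [List.nodup_cons, List.mem_cons, List.not_mem_nil, or_false, not_or] at h3
  exact ⟨a, b, c, h3.1.1, h3.1.2, h3.2.1, h1⟩

end perm

variable {Sg J Y : Type} [MulAction (FreeGroup Sg) Y] {e : J → Set Y}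
  {d : Set Y} {s : Fin 3 → FreeGroup Sg × Pos} {T : Finset Pos}

theorem el_mem_of_inj (hT : 5 ≤ T.card) (hd : Defn (FreeGroup Sg) e d) (hs : ∀ i, (s i).2 ∈ T)
    (h01 : (s 0).2 ≠ (s 1).2) (h02 : (s 0).2 ≠ (s 2).2) (h12 : (s 1).2 ≠ (s 2).2) :
    el d s ∈ AP Sg e T := by
  obtain ⟨h1, h2⟩ := cnd_eq_el (FreeGroup Sg) d h01 h02 h12
  have h3 := cnd_three_mem_AP hT hd (cyc h01 h02 h12) ((support_swap_swap h01 h12).trans (by
    simp [Finset.insert_subset_iff, hs]))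
  rw [cyc_val, h2] at h3
  obtain ⟨v, hv⟩ : ∃ v : Pos → FreeGroup Sg, v = fun p => if p = (s 0).2 then (s 0).1 else
    if p = (s 1).2 then (s 1).1 else if p = (s 2).2 then (s 2).1 else 1 := ⟨_, rfl⟩
  have h4 : Lab (FreeGroup Sg) Y v ∈ AP Sg e T := Lab_mem_AP v fun i hi => by
    have a0 : i ≠ (s 0).2 := fun h => hi (h ▸ hs 0)
    have a1 : i ≠ (s 1).2 := fun h => hi (h ▸ hs 1)
    have a2 : i ≠ (s 2).2 := fun h => hi (h ▸ hs 2)
    simp [hv, a0, a1, a2]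
  rw [← el_conj h1 (u := Lab (FreeGroup Sg) Y v) (s' := s) fun i x _ => ?_]
  · exact mul_mem (mul_mem h4 h3) (inv_mem h4)
  · fin_cases i
    · simp [sp, hv]
    · simp [sp, hv, h01.symm]
    · simp [sp, hv, h02.symm, h12.symm]

theorem el_move (hT : 5 ≤ T.card) (hd : Defn (FreeGroup Sg) e d) (h : Fr3 d s)
    (hs : ∀ i, (s i).2 ∈ T) (i : Fin 3) {a b : Pos} (ha : ∀ k, (s k).2 = a ∨ (s k).2 = b)
    (H : ∀ j ∈ T, (∀ k, (s k).2 ≠ j) → Fr3 d (Function.update s i ((s i).1, j)) →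
      el d (Function.update s i ((s i).1, j)) ∈ AP Sg e T) : el d s ∈ AP Sg e T := by
  obtain ⟨j, hj, j', hj', h1, h2, jj⟩ := exists_two (P := T) (Q := {a, b})
    (by have := Finset.card_le_two (a := a) (b := b); omega)
  simp only [Finset.mem_insert, Finset.mem_singleton, not_or] at h1 h2
  have k1 : ∀ k, (s k).2 ≠ j := fun k => by
    rcases ha k with h | h <;> rw [h]
    · exact Ne.symm h1.1
    · exact Ne.symm h1.2
  have k2 : ∀ k, (s k).2 ≠ j' := fun k => by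
    rcases ha k with h | h <;> rw [h]
    · exact Ne.symm h2.1
    · exact Ne.symm h2.2
  have hu := cnd_three_mem_AP hT (hd.smul (s i).1) (cyc (k1 i) (k2 i) jj)
    ((support_swap_swap (k1 i) jj).trans (by simp [Finset.insert_subset_iff, hs, hj, hj']))
  have hc : ∀ k, ∀ x ∈ d, cnd ((s i).1 • d) (cyc (k1 i) (k2 i) jj).1 (sp (s k) x) =
      sp (Function.update s i ((s i).1, j) k) x := by
    intro k x hx
    by_cases hk : k = i
    · subst hk
      rw [Function.update_self, sp, sp, cnd_apply_mem _ (Set.smul_mem_smul_set hx), cyc_val,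
        Perm.mul_apply, swap_apply_of_ne_of_ne (k1 k) (k2 k), swap_apply_left]
    · rw [Function.update_of_ne hk, sp]
      by_cases hm : (s k).1 • x ∈ (s i).1 • d
      · obtain ⟨y, hy, e⟩ := hm
        have : (s k).2 ≠ (s i).2 := fun e' => hk (h k i x hx y hy (Prod.ext e.symm e'))
        have hm : (s k).1 • x ∈ (s i).1 • d := ⟨y, hy, e⟩
        rw [cnd_apply_mem _ hm, cyc_val, Perm.mul_apply,
          swap_apply_of_ne_of_ne (k1 k) (k2 k), swap_apply_of_ne_of_ne this (k1 k)]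
      · exact cnd_apply_not_mem _ hm _
  have h3 := H j hj k1 (h.conj hc)
  rw [← el_conj h hc] at h3
  have h4 := mul_mem (mul_mem (inv_mem hu) h3) hu
  simpa [mul_assoc] using h4

theorem el_mem_of_ne (hT : 5 ≤ T.card) (hd : Defn (FreeGroup Sg) e d) (h : Fr3 d s)
    (hs : ∀ i, (s i).2 ∈ T) (h01 : (s 0).2 ≠ (s 1).2) : el d s ∈ AP Sg e T := by
  by_cases h2 : (s 0).2 ≠ (s 2).2 ∧ (s 1).2 ≠ (s 2).2
  · exact el_mem_of_inj hT hd hs h01 h2.1 h2.2
  refine el_move hT hd h hs 2 (a := (s 0).2) (b := (s 1).2) (fun k => ?_) fun j hj hk _ => ?_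
  · fin_cases k
    · exact Or.inl rfl
    · exact Or.inr rfl
    · by_contra hc
      push Not at hc
      exact h2 ⟨hc.1.symm, hc.2.symm⟩
  · refine el_mem_of_inj hT hd (fun i => ?_) ?_ ?_ ?_
    · fin_cases i <;> simp [hs, hj]
    · simpa using h01
    · simpa using hk 0
    · simpa using hk 1

theorem el_mem_AP (hT : 5 ≤ T.card) (hd : Defn (FreeGroup Sg) e d) (h : Fr3 d s)
    (hs : ∀ i, (s i).2 ∈ T) : el d s ∈ AP Sg e T := by
  by_cases h01 : (s 0).2 = (s 1).2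
  · refine el_move hT hd h hs 1 (a := (s 0).2) (b := (s 2).2) (fun k => ?_) fun j hj hk h' => ?_
    · fin_cases k
      · exact Or.inl rfl
      · exact Or.inl h01.symm
      · exact Or.inr rfl
    · refine el_mem_of_ne hT hd h' (fun i => ?_) ?_
      · fin_cases i <;> simp [hs, hj]
      · simpa using hk 0
  · exact el_mem_of_ne hT hd h hs h01

/-- elementary three-cycles with positions in `P` and support in `Z` -/
def E3Z (Sg : Type) [MulAction (FreeGroup Sg) Y] (e : J → Set Y) (P : Finset Pos)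
    (Z : Set (Y × Pos)) : Subgroup (Perm (Y × Pos)) :=
  Subgroup.closure {u | ∃ (d : Set Y) (s : Fin 3 → FreeGroup Sg × Pos), (∀ i, (s i).2 ∈ P) ∧
    Defn (FreeGroup Sg) e d ∧ Fr3 d s ∧ (∀ i, ∀ y ∈ d, sp (s i) y ∈ Z) ∧ u = el d s}

theorem cov_fin {n : ℕ} {Q : Fin n → Set Y → Prop} (hQ : ∀ i d d', d' ⊆ d → Q i d → Q i d')
    (H : ∀ i d, Defn (FreeGroup Sg) e d → Cov Sg e (Q i) d) (hd : Defn (FreeGroup Sg) e d) :
    Cov Sg e (fun d => ∀ i, Q i d) d := by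
  induction n generalizing d with
  | zero => exact Cov.base _ fun i => i.elim0
  | succ n ih =>
    refine Cov.bind (fun d1 hd1 h1 => ?_) hd (H 0 d hd)
    have h2 := ih (Q := fun i => Q i.succ) (fun i => hQ _) (fun i => H _) hd1
    refine Cov.ind (Q' := fun d' => d' ⊆ d1 → Cov Sg e (fun d => ∀ i, Q i d) d') ?_ ?_ hd1 h2
      subset_rfl
    · intro d' _ h3 hs
      exact Cov.base _ fun i => Fin.cases (hQ _ _ _ hs h1) h3 i
    · intro d2 d3 _ hd3 h3 h4 hs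
      exact Cov.split d2 d3 hd3 (h3 (Set.inter_subset_left.trans hs))
        (h4 (Set.sdiff_subset.trans hs))

theorem conj_mem_E3Z {P : Finset Pos} {u : Perm (Y × Pos)}
    (hu : ∀ p ∈ P, ∀ d, Defn (FreeGroup Sg) e d → Cov Sg e
      (fun d => ∃ g : FreeGroup Sg, ∃ i ∈ P, ∀ y ∈ d, u (y, p) = (g • y, i)) d)
    {Z : Set (Y × Pos)} (hs : ∀ i, (s i).2 ∈ P) (hd : Defn (FreeGroup Sg) e d) (h : Fr3 d s)
    (hZ : ∀ i, ∀ y ∈ d, u (sp (s i) y) ∈ Z) : u * el d s * u⁻¹ ∈ E3Z Sg e P Z := by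
  have h1 := cov_fin (e := e) (Q := fun i d => ∃ g : FreeGroup Sg, ∃ j ∈ P,
      ∀ y ∈ d, u (sp (s i) y) = sp (g, j) y)
    (fun i d d' hs ⟨g, j, hj, h⟩ => ⟨g, j, hj, fun y hy => h y (hs hy)⟩)
    (fun i d hd => Cov.bind (fun d _ ⟨g, j, hj, h⟩ => Cov.base _ ⟨g * (s i).1, j, hj, fun y hy => by
      rw [sp, h _ (Set.smul_mem_smul_set hy), sp, mul_smul]⟩) hd
      (hu _ (hs i) _ (hd.smul (s i).1)).smul) hd
  refine Cov.ind (Q' := fun d => Fr3 d s → (∀ i, ∀ y ∈ d, u (sp (s i) y) ∈ Z) →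
    u * el d s * u⁻¹ ∈ E3Z Sg e P Z) ?_ ?_ hd h1 h hZ
  · intro d hd H h hZ
    choose g j hj H using H
    rw [el_conj h (s' := fun i => (g i, j i)) H]
    exact Subgroup.subset_closure ⟨d, _, hj, hd, h.conj H, fun i y hy => H i y hy ▸ hZ i y hy, rfl⟩
  · intro d d' _ _ h2 h3 h hZ
    have h4 := mul_mem (h2 (h.mono Set.inter_subset_left) fun i y hy => hZ i y hy.1)
      (h3 (h.mono Set.sdiff_subset) fun i y hy => hZ i y hy.1)
    rw [el_split h d']
    rwa [conj_mul] at h4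

variable {H : Type} [Group H] (R : Real Sg e H)

/-- the group generated by the small lifts of elementary three-cycles supported in `Z` -/
def Lam3 (Z : Set (Y × Pos)) : Subgroup H :=
  Subgroup.closure {h | (∃ P : Finset Pos, P.card ≤ 5 ∧ h ∈ R.S.L P) ∧
    ∃ (d : Set Y) (s : Fin 3 → FreeGroup Sg × Pos), Defn (FreeGroup Sg) e d ∧ Fr3 d s ∧
      (∀ i, ∀ y ∈ d, sp (s i) y ∈ Z) ∧ R.π h = el d s}

theorem five_of (s : Fin 3 → FreeGroup Sg × Pos) {P : Finset Pos} (hP : 5 ≤ P.card)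
    (hs : ∀ i, (s i).2 ∈ P) : ∃ T ⊆ P, T.card = 5 ∧ ∀ i, (s i).2 ∈ T := by
  obtain ⟨T, h1, h2, h3⟩ := exists_five (Q := {(s 0).2, (s 1).2, (s 2).2}) (P := P)
    (by simp [Finset.insert_subset_iff, hs]) (Finset.card_le_three.trans (by norm_num)) hP
  simp only [Finset.insert_subset_iff, Finset.singleton_subset_iff] at h1
  exact ⟨T, h2, h3, fun i => by fin_cases i <;> simp [h1]⟩

theorem exists_lift3 {P : Finset Pos} (hP : 5 ≤ P.card) (hs : ∀ i, (s i).2 ∈ P)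
    (hd : Defn (FreeGroup Sg) e d) (h : Fr3 d s) :
    ∃ T ⊆ P, T.card = 5 ∧ ∃ h ∈ R.S.L T, R.π h = el d s := by
  obtain ⟨T, h1, h2, h3⟩ := five_of s hP hs
  exact ⟨T, h1, h2, AP_le_map R T (el_mem_AP h2.ge hd h h3)⟩

theorem lift3_mem {P Q : Finset Pos} (hP : 5 ≤ P.card) (hQ : Q.card ≤ 5) (hs : ∀ i, (s i).2 ∈ P)
    (hd : Defn (FreeGroup Sg) e d) (hf : Fr3 d s) {h : H} (h1 : h ∈ R.S.L Q)
    (h2 : R.π h = el d s) : h ∈ R.S.L P := by
  obtain ⟨T, h3, h4, h', h5, h6⟩ := exists_lift3 R hP hs hd hf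
  rw [eq_of_small R ((Finset.card_union_le _ _).trans (by omega)) h1 h5 (h2.trans h6.symm)]
  exact R.S.L_mono h3 h5

theorem lift_E3Z {P : Finset Pos} (hP : 5 ≤ P.card) {Z : Set (Y × Pos)}
    {u : Perm (Y × Pos)} (hu : u ∈ E3Z Sg e P Z) : ∃ h ∈ Lam3 R Z ⊓ R.S.L P, R.π h = u := by
  refine (Subgroup.closure_le ((Lam3 R Z ⊓ R.S.L P).map R.π)).2 ?_ hu
  rintro _ ⟨d, s, hs, hd, hf, hZ, rfl⟩
  obtain ⟨T, h3, h4, h, h5, h6⟩ := exists_lift3 R hP hs hd hf
  exact ⟨h, ⟨Subgroup.subset_closure ⟨⟨T, h4.le, h5⟩, d, s, hd, hf, hZ, h6⟩,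
    R.S.L_mono h3 h5⟩, h6⟩

theorem conj_Lam3_small {Q : Finset Pos} (hQ : Q.card ≤ 5) {x : H}
    (hx : x ∈ R.S.L Q) {Z : Set (Y × Pos)} {h : H} (hZ : h ∈ Lam3 R Z) :
    x * h * x⁻¹ ∈ Lam3 R (R.π x '' Z) := by
  refine (Subgroup.closure_le ((Lam3 R (R.π x '' Z)).comap (MulAut.conj x).toMonoidHom)).2 ?_ hZ
  rintro h ⟨⟨Q', hQ', h1⟩, d, s, hd, hf, hs, h2⟩
  show x * h * x⁻¹ ∈ Lam3 R (R.π x '' Z)
  obtain ⟨T, -, t3, t1⟩ := five_of s (P := Finset.univ) (by simp) fun _ => Finset.mem_univ _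
  have h3 := lift3_mem R t3.ge hQ' t1 hd hf h1 h2
  have c1 : (T ∪ Q).card ≤ 10 := (Finset.card_union_le _ _).trans (by omega)
  have c2 : 5 ≤ (T ∪ Q).card := t3 ▸ Finset.card_le_card Finset.subset_union_left
  have hx' : x ∈ R.S.L (T ∪ Q) := R.S.L_mono Finset.subset_union_right hx
  have h4 : x * h * x⁻¹ ∈ R.S.L (T ∪ Q) :=
    mul_mem (mul_mem hx' (R.S.L_mono Finset.subset_union_left h3)) (inv_mem hx')
  obtain ⟨a, -, b, -, ha, hb, ab⟩ := exists_two (P := Finset.univ) (Q := T ∪ Q) (by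
    rw [Finset.card_univ, Fintype.card_fin]; omega)
  have h5 := conj_mem_E3Z (e := e) (P := T ∪ Q) (u := R.π x) (Z := R.π x '' Z) (fun p hp d hd =>
    Cov.bind (fun d _ ⟨g, i, hi, h, _⟩ => Cov.base _ ⟨g, i, hi, h⟩) hd
      (cov_good R ab ha hb hx' hp hd)) (fun i => Finset.mem_union_left _ (t1 i)) hd hf
    fun i y hy => ⟨_, hs i y hy, rfl⟩
  obtain ⟨h', ⟨h6, h7⟩, h8⟩ := lift_E3Z R c2 h5
  rw [eq_of_small R (by rwa [Finset.union_self]) h4 h7 (by simp [h8, h2])]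
  exact h6

theorem conj_Lam3 (x : H) :
    ∀ (Z : Set (Y × Pos)), ∀ h ∈ Lam3 R Z, x * h * x⁻¹ ∈ Lam3 R (R.π x '' Z) := by
  have hx : x ∈ Subgroup.closure {x | ∃ P : Finset Pos, P.card ≤ 5 ∧ x ∈ R.S.L P} := by
    rw [R.S.gen]; trivial
  induction hx using Subgroup.closure_induction'' with
  | mem x hx =>
    obtain ⟨Q, hQ, hx⟩ := hx
    exact fun Z h hZ => conj_Lam3_small R hQ hx hZ
  | inv_mem x hx =>
    obtain ⟨Q, hQ, hx⟩ := hx
    exact fun Z h hZ => conj_Lam3_small R hQ (inv_mem hx) hZ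
  | one => intro Z h hZ; simpa using hZ
  | mul x y _ _ ihx ihy =>
    intro Z h hZ
    have := ihx _ _ (ihy Z h hZ)
    rw [map_mul, Perm.coe_mul, Set.image_comp]
    simpa only [mul_assoc, mul_inv_rev] using this

theorem Lam3_le {T : Finset Pos} (hT : T.card = 5) {Z : Set (Y × Pos)}
    (hZ : ∀ x ∈ Z, x.2 ∈ T) : Lam3 R Z ≤ R.S.L T := by
  rw [Lam3, Subgroup.closure_le]
  rintro h ⟨⟨Q, hQ, h1⟩, d, s, hd, hf, hs, h2⟩
  rcases d.eq_empty_or_nonempty with rfl | ⟨y, hy⟩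
  · rw [el_empty] at h2
    rw [eq_one_of_small R (by omega) h1 h2]
    exact one_mem _
  · exact lift3_mem R hT.ge hQ (fun i => hZ _ (hs i y hy)) hd hf h1 h2

theorem io_mem_Lam3 (τ : T3) : R.S.io τ.1 ∈ Lam3 R Set.univ := by
  obtain ⟨a, b, c, ab, ac, bc, h⟩ := exists_cyc τ
  obtain ⟨h1, h2⟩ := cnd_eq_el (FreeGroup Sg) (Set.univ : Set Y) ab ac bc
  exact Subgroup.subset_closure ⟨⟨τ.1.support, by rw [τ.2.card_support]; norm_num,
    R.S.io_mem subset_rfl⟩, _, _, Defn.univ, h1, fun _ _ _ => trivial, by rw [R.π_io, h, h2]⟩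

/-- the kernel centralizes the conjugates of the unconditional three-cycles -/
theorem ker_comm {k : H} (hk : R.π k = 1) (x : H) (τ : T3) :
    Commute (x * R.S.io τ.1 * x⁻¹) k := by
  have h0 : x * R.S.io τ.1 * x⁻¹ ∈ Lam3 R Set.univ := by
    have := conj_Lam3 R x _ _ (io_mem_Lam3 R τ)
    rwa [Set.image_univ, (R.π x).surjective.range_eq] at this
  refine commute_of_mem_closure ?_ h0
  rintro h ⟨⟨Q, hQ, h1⟩, d, s, hd, hf, -, h2⟩
  obtain ⟨T, -, t3, t1⟩ := five_of s (P := Finset.univ) (by simp) fun _ => Finset.mem_univ _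
  have h3 : h ∈ Lam3 R {x | x.2 ∈ T} :=
    Subgroup.subset_closure ⟨⟨Q, hQ, h1⟩, d, s, hd, hf, fun i _ _ => t1 i, h2⟩
  have h4 := conj_Lam3 R k _ h h3
  rw [hk, Perm.coe_one, Set.image_id] at h4
  have h5 : Lam3 R {x | x.2 ∈ T} ≤ R.S.L T := Lam3_le R t3 fun x hx => hx
  have h6 := eq_of_small R (by rw [Finset.union_self]; omega) (h5 h4) (h5 h3) (by simp [hk])
  rw [mul_inv_eq_iff_eq_mul] at h6
  exact h6.symm

end PAlt

end Vale.Agent.P196
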