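import Vale.Agent.P193.PresB
import Vale.Agent.P196.PresAlt1
import Vale.Agent.P196.FI

/-! Finite presentability of the alternating group of a complete finitely axiomatized model. -/

namespace Vale.Agent.P196

open Equiv Vale.Agent.P193 Vale.Agent.P193.PA
open scoped Pointwise

namespace PAlt

section real

variable {Sg J Y : Type} [MulAction (FreeGroup Sg) Y] {e : J → Set Y}
  {TT : Set (Tm (FreeGroup Sg) J)} {W : Set (FreeGroup Sg)} {H : Type} [Group H]
  (p : Pre Sg (DD e TT) W H) {Φ : Set (Fm (FreeGroup Sg) J)}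

theorem exists_real {P : Mdl (FreeGroup Sg) J → Prop} (hΦ : Φ.Finite)
    (hP : ∀ m, P m ↔ ∀ φ ∈ Φ, φ.Holds m) (hT : Closed Φ TT W) (hc : Complete P e) :
    ∃ R : Real Sg e H, R.π = p.π ∧ R.S = p.sys := by
  classical
  have hF : FinAx P := ⟨Φ, hΦ, hP⟩
  have hm : P (mdl p hT) := (hP _).2 (mdl_holds p hT ((hP _).1 hc.holds))
  have hb := mdl_cm p hT
  have hle := hc.le hF _ hm hb
  have h1 : ∀ d : Set Y, ∃ x : p.sys.Cut, ∀ t : Tm (FreeGroup Sg) J, t.eval e = d →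
      Cpl.emb x = t.eval (mdl p hT).b := by
    intro d
    by_cases hd : Defn (FreeGroup Sg) e d
    · obtain ⟨s, rfl⟩ := hd
      obtain ⟨x, -, hx, -⟩ := Cpl.cm_iff.1 (hc.comm _ hm hb s s)
      exact ⟨x, fun t ht => hx ▸ le_antisymm (hle s t ht.ge) (hle t s ht.le)⟩
    · exact ⟨⊥, fun t ht => (hd ⟨t, ht⟩).elim⟩
  choose c hcc using h1
  have h2 : ∀ t : Tm (FreeGroup Sg) J, Cpl.emb (c (t.eval e)) = t.eval (mdl p hT).b :=
    fun t => hcc _ t rfl
  have h3 : ∀ d : DD e TT, c d.1 = p.cut d := fun d => by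
    obtain ⟨t, h1, h2⟩ := exists_term p hT d
    exact Cpl.emb_inj ((hcc _ t h1).trans h2)
  have h4 : ∀ t : Tm (FreeGroup Sg) J, c (t.eval e)ᶜ = (c (t.eval e))ᶜ := fun t => by
    apply Cpl.emb_inj
    rw [Cpl.emb_compl, h2]
    exact h2 (.compl t)
  refine ⟨
    { S := p.sys, π := p.π, D := DD e TT, c := c, D_defn := fun d hd => DD_defn e hd
      D_basic := fun j => (d0 e (hT.basic j)).2
      hL := fun Q => ?_
      π_lab := p.π_lab
      π_io := p.π_o
      π_c := fun d hd τ => by rw [h3 ⟨d, hd⟩]; exact p.π_k _ _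
      c_empty := ?_
      c_univ := fun τ => ?_
      c_le := ?_
      c_compl := ?_
      c_split := ?_
      c_smul := ?_
      c_tv := ?_ }, rfl, rfl⟩
  · show Subgroup.closure (p.gens Q) = _
    rw [Pre.gens]
    congr 2
    · congr 1
      ext x
      exact exists_congr fun i => and_congr_right fun _ => exists_congr fun s => by
        rw [← p.lab_single]; rfl
    · ext x
      constructor
      · rintro ⟨d, τ, h, rfl⟩
        exact ⟨d.1, d.2, τ, h, by rw [h3]; rfl⟩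
      · rintro ⟨d, hd, τ, h, rfl⟩
        exact ⟨⟨d, hd⟩, τ, h, by rw [h3 ⟨d, hd⟩]; rfl⟩
  · apply Cpl.emb_inj
    have h5 : (Tm.compl (.top : Tm (FreeGroup Sg) J)).eval e = ∅ := Set.compl_univ
    rw [hcc _ _ h5, hc.eq_bot hF _ hm hb _ h5, Cpl.emb_bot]
  · have h5 : c Set.univ = ⊥ᶜ := by
      apply Cpl.emb_inj
      rw [Cpl.emb_top]
      exact h2 .top
    rw [h5, Sys.Cut.compl_f, Sys.Cut.bot_f, inv_one, one_mul]
  · rintro _ _ ⟨s, rfl⟩ ⟨t, rfl⟩ h
    rw [← Cpl.emb_le, h2, h2]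
    exact hle s t h
  · rintro _ ⟨t, rfl⟩
    exact h4 t
  · rintro _ _ ⟨s, rfl⟩ ⟨t, rfl⟩ τ
    refine Sys.Cut.f_eq_of_glb (f := c (t.eval e)) ?_ (Cpl.emb_inf_iff.1 ?_)
      (Cpl.emb_inf_iff.1 ?_) τ
    · obtain ⟨x, y, hx, hy, h⟩ := Cpl.cm_iff.1 (hc.comm _ hm hb s t)
      rwa [Cpl.emb_inj ((h2 s).trans hx), Cpl.emb_inj ((h2 t).trans hy)]
    · rw [h2, h2]
      exact h2 (.inf s t)
    · rw [Cpl.emb_compl, h2, h2]
      exact h2 (.inf s (.compl t))
  · rintro _ γ ⟨t, rfl⟩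
    apply Cpl.emb_inj
    rw [Cpl.emb_smul, h2]
    exact h2 (.act γ t)
  · rintro _ γ ⟨t, rfl⟩ h
    rw [← Cpl.tv_emb, h2]
    exact hc.tv hF _ hm hb γ t h

end real

section grp

variable {H : Type} [Group H]

theorem perfect_closure {S : Set H} (h : ∀ x ∈ S, ∃ a ∈ S, ∃ b ∈ S, ∃ c ∈ S, x = a * (b * c * b⁻¹) ∧
    a * c = 1) : ⁅Subgroup.normalClosure S, Subgroup.normalClosure S⁆ = Subgroup.normalClosure S := by
  refine le_antisymm (Subgroup.commutator_le_left _ _) (Subgroup.normalClosure_le_normal ?_)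
  intro x hx
  obtain ⟨a, ha, b, hb, c, -, rfl, h2⟩ := h x hx
  have := Subgroup.commutator_mem_commutator (Subgroup.subset_normalClosure ha)
    (Subgroup.subset_normalClosure hb)
  rw [commutatorElement_def] at this
  rw [eq_inv_of_mul_eq_one_right h2]
  simpa only [mul_assoc, SetLike.mem_coe] using this

theorem mem_centralizer_of {N : Subgroup H} [N.Normal] (hN : ⁅N, N⁆ = N) {z : H}
    (hz : ∀ n ∈ N, z * n * z⁻¹ * n⁻¹ ∈ Subgroup.centralizer (N : Set H)) :
    z ∈ Subgroup.centralizer (N : Set H) := by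
  obtain ⟨M, hM⟩ : ∃ M : Subgroup H, M = (Subgroup.centralizer
    ((QuotientGroup.mk' (Subgroup.centralizer (N : Set H))) '' N)).comap
      (QuotientGroup.mk' (Subgroup.centralizer (N : Set H))) := ⟨_, rfl⟩
  have key : ∀ z, z ∈ M ↔ ∀ n ∈ N, z * n * z⁻¹ * n⁻¹ ∈ Subgroup.centralizer (N : Set H) := by
    intro z
    rw [hM, Subgroup.mem_comap, Subgroup.mem_centralizer_iff]
    simp only [Set.forall_mem_image, SetLike.mem_coe]
    refine forall₂_congr fun n _ => ?_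
    rw [← QuotientGroup.eq_one_iff]
    simp only [QuotientGroup.mk'_apply, QuotientGroup.mk_mul, QuotientGroup.mk_inv]
    rw [mul_inv_eq_one, mul_inv_eq_iff_eq_mul, eq_comm]
  have h1 : ⁅M, N⁆ ≤ Subgroup.centralizer (N : Set H) :=
    Subgroup.commutator_le.2 fun g hg n hn => (key g).1 hg n hn
  have h2 : ⁅⁅M, N⁆, N⁆ = ⊥ := Subgroup.commutator_eq_bot_iff_le_centralizer.2 h1
  have h3 : ⁅⁅N, N⁆, M⁆ = ⊥ :=
    Subgroup.commutator_commutator_eq_bot_of_rotate (by rwa [Subgroup.commutator_comm N M]) h2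
  rw [hN, Subgroup.commutator_comm] at h3
  exact Subgroup.commutator_eq_bot_iff_le_centralizer.1 h3 ((key z).2 hz)

theorem finite_of_invol {I : Type} [Finite I] (x : I → H) (h1 : ∀ i, x i * x i = 1)
    (h2 : ∀ i j, Commute (x i) (x j)) (h3 : Subgroup.closure (Set.range x) = ⊤) : Finite H := by
  have hc : ∀ a b : H, Commute a b := fun a b => by
    refine commute_of_mem_closure (A := Set.range x) ?_ (h3 ▸ Subgroup.mem_top a)
    rintro _ ⟨i, rfl⟩
    refine (commute_of_mem_closure (A := Set.range x) ?_ (h3 ▸ Subgroup.mem_top b)).symm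
    rintro _ ⟨j, rfl⟩
    exact h2 j i
  let _ : CommGroup H := { mul_comm := fun a b => (hc a b).eq }
  have : Group.FG H := Group.fg_iff.2 ⟨_, h3, Set.finite_range x⟩
  refine CommGroup.finite_of_fg_isMulTorsion H fun g => ?_
  have hg : g * g = 1 := by
    have : g ∈ Subgroup.closure (Set.range x) := h3 ▸ Subgroup.mem_top g
    induction this using Subgroup.closure_induction with
    | mem a ha => obtain ⟨i, rfl⟩ := ha; exact h1 i
    | one => simp
    | mul a b _ _ ha hb => rw [mul_mul_mul_comm, ha, hb, one_mul]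
    | inv a _ ha => rw [← mul_inv, ha, inv_one]
  exact isOfFinOrder_iff_pow_eq_one.2 ⟨2, two_pos, by rw [pow_two, hg]⟩

end grp

section pre

variable {Sg Y : Type} [MulAction (FreeGroup Sg) Y] {D : Set (Set Y)} {H : Type} [Group H]
  (q : FreeGroup (Gen Sg D) →* H)

/-- the normal closure of the letters of three-cycles -/
def NN : Subgroup H := Subgroup.normalClosure (Set.range fun τ : T3 => q (wo Sg D τ.1))

instance : (NN q).Normal := Subgroup.normalClosure_normal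

/-- the short relations between letters -/
def Loc4 : Prop := ∀ a ∈ atoms Sg D ∅, ∀ b ∈ atoms Sg D ∅, ∀ c ∈ atoms Sg D ∅, ∀ d ∈ atoms Sg D ∅,
  ev Sg D a * ev Sg D b = ev Sg D c * ev Sg D d → q (a * b) = q (c * d)

variable {q} (hl : Loc4 q)
include hl

theorem loc4 (a b c d : Gen Sg D) (h : ev Sg D (.of a) * ev Sg D (.of b) =
    ev Sg D (.of c) * ev Sg D (.of d)) : q (.of a) * q (.of b) = q (.of c) * q (.of d) := by
  rw [← map_mul, ← map_mul]
  exact hl _ (Or.inl (Or.inl (Or.inr ⟨a, rfl⟩))) _ (Or.inl (Or.inl (Or.inr ⟨b, rfl⟩))) _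
    (Or.inl (Or.inl (Or.inr ⟨c, rfl⟩))) _ (Or.inl (Or.inl (Or.inr ⟨d, rfl⟩))) h

theorem loc3 (a b c : Gen Sg D) (h : ev Sg D (.of a) * ev Sg D (.of b) = ev Sg D (.of c)) :
    q (.of a) * q (.of b) = q (.of c) := by
  have := hl _ (Or.inl (Or.inl (Or.inr ⟨a, rfl⟩))) _ (Or.inl (Or.inl (Or.inr ⟨b, rfl⟩))) _
    (Or.inl (Or.inl (Or.inr ⟨c, rfl⟩))) 1 (Or.inl (Or.inl (Or.inl rfl))) (by simpa using h)
  simpa using this

theorem loc2 (a b : Gen Sg D) (h : ev Sg D (.of a) * ev Sg D (.of b) = 1) :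
    q (.of a) * q (.of b) = 1 := by
  have := hl _ (Or.inl (Or.inl (Or.inr ⟨a, rfl⟩))) _ (Or.inl (Or.inl (Or.inr ⟨b, rfl⟩))) 1
    (Or.inl (Or.inl (Or.inl rfl))) 1 (Or.inl (Or.inl (Or.inl rfl))) (by simpa using h)
  simpa using this

theorem o_mul (ρ σ : Perm Pos) : q (wo Sg D ρ) * q (wo Sg D σ) = q (wo Sg D (ρ * σ)) :=
  loc3 hl _ _ _ (by
    show ev Sg D (wo Sg D ρ) * ev Sg D (wo Sg D σ) = ev Sg D (wo Sg D (ρ * σ))
    rw [ev_wo, ev_wo, ev_wo, map_mul])

/-- the letters of permutations as a homomorphism -/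
def oh : Perm Pos →* H := MonoidHom.mk' (fun ρ => q (wo Sg D ρ)) fun a b => (o_mul hl a b).symm

theorem oh_mem {ρ : Perm Pos} (h : Perm.sign ρ = 1) : oh hl ρ ∈ NN q := by
  have h1 : ρ ∈ alternatingGroup Pos := h
  rw [← Perm.closure_three_cycles_eq_alternating] at h1
  refine (Subgroup.closure_le ((NN q).comap (oh hl))).2 ?_ h1
  intro τ hτ
  exact Subgroup.subset_normalClosure ⟨⟨τ, hτ⟩, rfl⟩

theorem NN_perfect : ⁅NN q, NN q⁆ = NN q := by
  refine perfect_closure ?_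
  rintro _ ⟨τ, rfl⟩
  obtain ⟨ρ, ρ', -, -, h⟩ := τ.exists_comm (Finset.subset_univ _) (by simp)
  refine ⟨_, ⟨ρ, rfl⟩, _, ⟨ρ', rfl⟩, _, ⟨ρ.inv, rfl⟩, ?_, ?_⟩
  · show oh hl τ.1 = oh hl ρ.1 * (oh hl ρ'.1 * oh hl ρ.inv.1 * (oh hl ρ'.1)⁻¹)
    rw [← h, T3.conj_val, map_mul, map_mul, map_mul, map_inv]
  · show oh hl ρ.1 * oh hl ρ.1⁻¹ = 1
    rw [← map_mul, mul_inv_cancel, map_one]

theorem k_mem (d : D) (τ : T3) : q (wk Sg D d τ) ∈ NN q := by
  obtain ⟨ρ, ρ', -, -, h⟩ := τ.exists_comm (Finset.subset_univ _) (by simp)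
  have h1 : q (wk Sg D d ρ) * q (wk Sg D d (ρ.inv.conj ρ'.1)) = q (wk Sg D d τ) :=
    loc3 hl _ _ _ (by
      show ev Sg D (wk Sg D d _) * ev Sg D (wk Sg D d _) = ev Sg D (wk Sg D d _)
      rw [ev_wk, ev_wk, ev_wk, ← map_mul, h])
  have h2 : q (wo Sg D ρ'.1) * q (wk Sg D d ρ.inv) =
      q (wk Sg D d (ρ.inv.conj ρ'.1)) * q (wo Sg D ρ'.1) :=
    loc4 hl _ _ _ _ (by
      show ev Sg D (wo Sg D _) * ev Sg D (wk Sg D d _) = ev Sg D (wk Sg D d _) * ev Sg D (wo Sg D _)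
      rw [ev_wk, ev_wk, ev_wo, cnd_mul_cnd (Set.subset_univ _), T3.conj_val])
  have h3 : q (wk Sg D d ρ) * q (wk Sg D d ρ.inv) = 1 :=
    loc2 hl _ _ (by
      show ev Sg D (wk Sg D d _) * ev Sg D (wk Sg D d _) = 1
      rw [ev_wk, ev_wk, ← map_mul]
      show cnd d.1 (ρ.1 * ρ.1⁻¹) = 1
      rw [mul_inv_cancel, map_one])
  have h4 : q (wo Sg D ρ'.1) ∈ NN q := Subgroup.subset_normalClosure ⟨ρ', rfl⟩
  rw [← h1, ← mul_inv_eq_iff_eq_mul.2 h2, eq_inv_of_mul_eq_one_right h3]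
  have h5 := mul_mem ((inferInstance : (NN q).Normal).conj_mem _ h4 (q (wk Sg D d ρ))) (inv_mem h4)
  simpa only [mul_assoc] using h5

omit [Group H] hl in
theorem ev_l (i : Pos) (s : Sg) : ev Sg D (.of (.inl (i, s))) =
    Lab (FreeGroup Sg) Y (Pi.mulSingle i (FreeGroup.of s)) := ev_wl Sg D i (.of s)

theorem o_l (ρ : Perm Pos) (i : Pos) (s : Sg) :
    oh hl ρ * q (.of (.inl (i, s))) = q (.of (.inl (ρ i, s))) * oh hl ρ :=
  loc4 hl _ _ _ _ (by
    show ev Sg D (wo Sg D _) * _ = _ * ev Sg D (wo Sg D _)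
    rw [ev_wo, ev_l, ev_l, cnd_mul_Lab])

theorem l_eq (i j : Pos) (s : Sg) :
    (q (.of (.inl (i, s))) : H ⧸ NN q) = (q (.of (.inl (j, s))) : H ⧸ NN q) := by
  by_cases ij : i = j
  · rw [ij]
  obtain ⟨a, -, b, -, ha, -, -⟩ := exists_two (P := Finset.univ) (Q := {i, j})
    (by have := Finset.card_le_two (a := i) (b := j); simp; omega)
  simp only [Finset.mem_insert, Finset.mem_singleton, not_or] at ha
  have h1 := congrArg (QuotientGroup.mk (s := NN q)) (o_l hl (swap i j * swap j a) i s)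
  have h2 : (oh hl (swap i j * swap j a) : H ⧸ NN q) = 1 :=
    (QuotientGroup.eq_one_iff _).2 (oh_mem hl (by simp [ij, Ne.symm ha.2]))
  rw [QuotientGroup.mk_mul, QuotientGroup.mk_mul, h2, one_mul, mul_one, Perm.mul_apply,
    swap_apply_of_ne_of_ne ij (Ne.symm ha.1), swap_apply_left] at h1
  exact h1

theorem NN_finite [Finite Sg] [Finite D] (hq : Function.Surjective q)
    (hi : ∀ (s : Sg) (y : Y), FreeGroup.of s • FreeGroup.of s • y = y) : Finite (H ⧸ NN q) := by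
  have k1 : ∀ d τ, (q (wk Sg D d τ) : H ⧸ NN q) = 1 := fun d τ =>
    (QuotientGroup.eq_one_iff _).2 (k_mem hl d τ)
  have k2 : ∀ (ρ : Perm Pos) i s, Commute (q (wo Sg D ρ) : H ⧸ NN q) (q (.of (.inl (i, s)))) :=
    fun ρ i s => by
      have h1 := congrArg (QuotientGroup.mk (s := NN q)) (o_l hl ρ i s)
      rw [QuotientGroup.mk_mul, QuotientGroup.mk_mul, l_eq hl (ρ i) i] at h1
      exact h1
  refine finite_of_invol (fun a : Gen Sg D => (q (.of a) : H ⧸ NN q)) ?_ ?_ ?_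
  · rintro (⟨i, s⟩ | ρ | ⟨d, τ⟩)
    · rw [← QuotientGroup.mk_mul, loc2 hl _ _ ?_, QuotientGroup.mk_one]
      rw [ev_l]
      refine Equiv.ext fun ⟨y, k⟩ => ?_
      by_cases hk : k = i
      · subst hk; simp [hi]
      · simp [Pi.mulSingle_eq_of_ne hk]
    · rw [← QuotientGroup.mk_mul, QuotientGroup.eq_one_iff]
      show oh hl ρ * oh hl ρ ∈ _
      rw [← map_mul]
      exact oh_mem hl (by simp)
    · show (q (wk Sg D d τ) : H ⧸ NN q) * q (wk Sg D d τ) = 1
      rw [k1, one_mul]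
  · rintro (⟨i, s⟩ | ρ | ⟨d, τ⟩) (⟨j, t⟩ | σ | ⟨d', τ'⟩)
    · show Commute (q (.of (.inl (i, s))) : H ⧸ NN q) (q (.of (.inl (j, t))))
      rw [l_eq hl i 0, l_eq hl j 1]
      show _ * _ = _ * _
      rw [← QuotientGroup.mk_mul, ← QuotientGroup.mk_mul, loc4 hl _ _ _ _ ?_]
      rw [ev_l, ev_l]
      exact (suppOn_Lab (Finset.mem_singleton_self _) _).comm
        (suppOn_Lab (Finset.mem_singleton_self _) _) (by decide)
    · exact (k2 σ i s).symm
    · exact (k1 d' τ').symm ▸ Commute.one_right _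
    · exact k2 ρ j t
    · show (oh hl ρ : H ⧸ NN q) * oh hl σ = oh hl σ * oh hl ρ
      rw [← QuotientGroup.mk_mul, ← QuotientGroup.mk_mul, QuotientGroup.eq, ← map_mul, ← map_mul,
        ← map_inv, ← map_mul]
      exact oh_mem hl (by simp [mul_comm])
    · exact (k1 d' τ').symm ▸ Commute.one_right _
    · exact (k1 d τ).symm ▸ Commute.one_left _
    · exact (k1 d τ).symm ▸ Commute.one_left _
    · exact (k1 d τ).symm ▸ Commute.one_left _
  · rw [eq_top_iff]
    rintro x -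
    obtain ⟨x, rfl⟩ := QuotientGroup.mk_surjective x
    obtain ⟨x, rfl⟩ := hq x
    induction x using FreeGroup.induction_on with
    | C1 => rw [map_one]; exact one_mem _
    | of s => exact Subgroup.subset_closure ⟨s, rfl⟩
    | inv_of s h => rw [map_inv]; exact inv_mem h
    | mul x y hx hy => rw [map_mul]; exact mul_mem hx hy

end pre

theorem range_ev' {Sg J Y : Type} [MulAction (FreeGroup Sg) Y] {e : J → Set Y} {D : Set (Set Y)}
    (hD : ∀ d ∈ D, Defn (FreeGroup Sg) e d) (hb : ∀ j, e j ∈ D) :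
    (ev Sg D).range = AP Sg e Finset.univ := by
  apply le_antisymm
  · rintro _ ⟨x, rfl⟩
    induction x using FreeGroup.induction_on with
    | C1 => rw [map_one]; exact one_mem _
    | of s =>
      rcases s with ⟨i, s⟩ | ρ | ⟨d, τ⟩
      · exact ev_wl Sg D i (FreeGroup.of s) ▸ Lab_single_mem_AP (Finset.mem_univ i) _
      · exact ev_wo Sg D ρ ▸ cnd_univ_mem_AP (Finset.subset_univ _)
      · exact ev_wk Sg D d τ ▸ cnd_three_mem_AP (by simp) (hD _ d.2) τ (Finset.subset_univ _)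
    | inv_of s h => rw [map_inv]; exact inv_mem h
    | mul x y hx hy => rw [map_mul]; exact mul_mem hx hy
  · rw [AP, Subgroup.closure_le]
    rintro _ ((⟨i, -, s, rfl⟩ | ⟨ρ, -, rfl⟩) | ⟨j, τ, -, rfl⟩)
    · exact ⟨_, ev_wl Sg D i _⟩
    · exact ⟨_, ev_wo Sg D ρ⟩
    · exact ⟨_, ev_wk Sg D ⟨_, hb j⟩ τ⟩

theorem NN_eq {Sg Y : Type} {D : Set (Set Y)} {H : Type} [Group H]
    (q : FreeGroup (Gen Sg D) →* H) :
    NN q = Subgroup.closure {h | ∃ (x : H) (τ : T3), h = x * q (wo Sg D τ.1) * x⁻¹} := by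
  rw [NN, Subgroup.normalClosure]
  congr 1
  ext h
  simp only [Group.mem_conjugatesOfSet_iff, isConj_iff, Set.mem_range, Set.mem_ofPred_eq]
  constructor
  · rintro ⟨_, ⟨τ, rfl⟩, x, rfl⟩
    exact ⟨x, τ, rfl⟩
  · rintro ⟨x, τ, rfl⟩
    exact ⟨_, ⟨τ, rfl⟩, x, rfl⟩

end PAlt

open PAlt

variable {Sg J Y : Type} [MulAction (FreeGroup Sg) Y] {e : J → Set Y}

theorem fp_AA [Finite Sg] [Finite J] {P : Mdl (FreeGroup Sg) J → Prop} (hP : FinAx P)
    (hc : Complete P e) (hi : ∀ (s : Sg) (y : Y), FreeGroup.of s • FreeGroup.of s • y = y)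
    (hz : ∀ u ∈ AP Sg e Finset.univ, (∀ g ∈ AA Sg e, Commute u g) → u = 1)
    (hK : ∀ (N : Type) [Group N] [Group.IsPerfect N] (π : N →* Perm (Y × Pos)),
      π.range = AA Sg e → π.ker ≤ Subgroup.center N → π.ker.FG) :
    Group.IsFinitelyPresented (AA Sg e) := by
  obtain ⟨Φ, hΦ, hP⟩ := hP
  obtain ⟨TT, W, hTT, hW, hT⟩ := exists_closed hΦ
  have : Finite (DD e TT) := DD_finite e hTT
  have hr : (ev Sg (DD e TT)).range = AP Sg e Finset.univ :=
    range_ev' (fun d hd => DD_defn e hd) fun j => (d0 e (hT.basic j)).2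
  obtain ⟨R, π, hR, hπ, hl⟩ := exists_loc (ev Sg (DD e TT)) (atoms_finite Sg (DD e TT) hW)
  have : Finite R := hR
  have hsurj := PresentedGroup.mk_surjective R
  have hsub : atoms Sg (DD e TT) ∅ ⊆ atoms Sg (DD e TT) W :=
    Set.union_subset_union (Set.union_subset_union_right _
      (Set.iUnion_mono fun _ => Set.image_mono (Set.empty_subset _)))
      (Set.image_mono (Set.empty_subset _))
  have hl0 : Loc4 (PresentedGroup.mk R) := fun a ha b hb c hc d hd =>
    hl a (hsub ha) b (hsub hb) c (hsub hc) d (hsub hd)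
  have hrπ : ∀ y, π y ∈ AP Sg e Finset.univ := fun y => by
    obtain ⟨y, rfl⟩ := hsurj y
    rw [← hr, hπ]
    exact ⟨y, rfl⟩
  obtain ⟨N, hN⟩ : ∃ N, N = NN (PresentedGroup.mk R) := ⟨_, rfl⟩
  have : N.Normal := hN ▸ inferInstance
  have hperf : ⁅N, N⁆ = N := hN ▸ NN_perfect hl0
  have hmap : N.map π = AA Sg e := by
    rw [hN, NN_eq, MonoidHom.map_closure, AA]
    congr 1
    ext g
    constructor
    · rintro ⟨_, ⟨x, τ, rfl⟩, rfl⟩
      exact ⟨π x, hrπ x, τ, by rw [map_mul, map_mul, map_inv, hπ, ev_wo]⟩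
    · rintro ⟨u, hu, τ, rfl⟩
      rw [← hr] at hu
      obtain ⟨x, rfl⟩ := hu
      exact ⟨_, ⟨PresentedGroup.mk R x, τ, rfl⟩, by rw [map_mul, map_mul, map_inv, hπ, hπ, ev_wo]⟩
  have hker : Subgroup.centralizer (N : Set (PresentedGroup R)) ≤ π.ker := by
    intro z hz'
    refine hz _ (hrπ z) fun g hg => ?_
    rw [← hmap] at hg
    obtain ⟨n, hn, rfl⟩ := hg
    exact (Commute.map (Subgroup.mem_centralizer_iff.1 hz' n hn) π).symm
  have hcen : ∀ z : PresentedGroup R, (∀ n ∈ N,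
      Commute (n : PresentedGroup R ⧸ Subgroup.centralizer (N : Set (PresentedGroup R))) z) →
      z ∈ Subgroup.centralizer (N : Set (PresentedGroup R)) := fun z h => by
    refine mem_centralizer_of hperf fun n hn => ?_
    rw [← QuotientGroup.eq_one_iff]
    simp only [QuotientGroup.mk_mul, QuotientGroup.mk_inv]
    rw [← (h n hn).eq, mul_inv_cancel_right, mul_inv_cancel]
  obtain ⟨Rl, h1, h2⟩ := exists_real (mkPre (W := W)
    ((QuotientGroup.mk' (Subgroup.centralizer (N : Set (PresentedGroup R)))).comp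
      (PresentedGroup.mk R))
    ((QuotientGroup.mk'_surjective _).comp hsurj) (QuotientGroup.lift _ π hker) hπ
    (fun a ha b hb c hc d hd h => congrArg (QuotientGroup.mk' _) (hl a ha b hb c hc d hd h))
    (by
      rw [eq_bot_iff]
      intro z hz'
      obtain ⟨z, rfl⟩ := QuotientGroup.mk_surjective z
      exact (QuotientGroup.eq_one_iff _).2
        (hcen z fun n _ => Subgroup.mem_center_iff.1 hz' _))) hΦ hP hT hc
  have hk : ∀ z, π z = 1 → z ∈ Subgroup.centralizer (N : Set (PresentedGroup R)) := fun z hz' => by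
    refine hcen z fun n hn => ?_
    have h3 : Rl.π (z : PresentedGroup R ⧸ _) = 1 := h1 ▸ hz'
    have hn' := hn
    rw [hN, NN_eq] at hn'
    have h4 := Subgroup.mem_map_of_mem
      (QuotientGroup.mk' (Subgroup.centralizer (N : Set (PresentedGroup R)))) hn'
    rw [MonoidHom.map_closure] at h4
    refine commute_of_mem_closure ?_ h4
    rintro _ ⟨_, ⟨x, τ, rfl⟩, rfl⟩
    have h5 := ker_comm Rl h3 (x : PresentedGroup R ⧸ _) τ
    rw [h2] at h5
    exact h5
  have : Finite (PresentedGroup R ⧸ N) := hN ▸ NN_finite hl0 hsurj hi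
  have : N.FiniteIndex := Subgroup.finiteIndex_of_finite_quotient
  have : Group.IsFinitelyPresented N := fp_of_finiteIndex N
  have : Group.IsPerfect N := Subgroup.isPerfect_iff.2 hperf
  have hrange : (π.comp N.subtype).range = AA Sg e := by
    rw [MonoidHom.range_comp, Subgroup.range_subtype, hmap]
  have hfg := hK N (π.comp N.subtype) hrange fun z hz' => Subgroup.mem_center_iff.2 fun n =>
    Subtype.ext (Subgroup.mem_centralizer_iff.1 (hk z hz') n n.2)
  have : Group.FG (π.comp N.subtype).rangeRestrict.ker := by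
    rw [MonoidHom.ker_rangeRestrict]
    exact (Group.fg_iff_subgroup_fg _).2 hfg
  have : Group.IsFinitelyPresented (π.comp N.subtype).range :=
    Group.IsFinitelyPresented.of_surjective _ (MonoidHom.rangeRestrict_surjective _)
      (Subgroup.IsFinitelyNormallyGenerated.of_FG _)
  exact Group.IsFinitelyPresented.equiv (MulEquiv.subgroupCongr hrange)

end Vale.Agent.P196
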