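import Vale.Agent.P196.SSL

/-! Simplicity, infiniteness and the centralizer. -/

namespace Vale.Agent.P196

open Equiv

variable {X A Q : Type} [AddAction V X] {lab : X → A}

theorem infinite_A3 [Fintype Q] [Nonempty X] (hf : Free X) (hQ : 3 ≤ Fintype.card Q) :
    Infinite (A3 lab Q) := by
  obtain ⟨q, hq, -⟩ := exists_fresh (∅ : Finset Q) 3 (by simpa using hQ)
  obtain ⟨x⟩ := ‹Nonempty X›
  let s : ℤ → Fin 3 → V × Q := fun n i => (if i = 0 then 0 else (n, 0), q i)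
  have h : ∀ n, Fr (Set.univ : Set X) (s n) := fun n => Fr.of_inj hq
  refine Infinite.of_injective (fun n : ℤ => ⟨cyc .univ (s n), cyc_mem_A3 Loc.univ (h n)⟩)
    fun n m e => ?_
  have h1 : cyc .univ (s n) (sh (s n 0) x) = cyc .univ (s m) (sh (s m 0) x) :=
    DFunLike.congr_fun (congrArg Subtype.val e) _
  rw [cyc, cyc, fp_apply (h n) _ trivial, fp_apply (h m) _ trivial] at h1
  have h2 : ((n, 0) : V) +ᵥ x = ((m, 0) : V) +ᵥ x := congrArg Prod.fst h1
  have h3 := hf (-(m, 0) + (n, 0)) x (by rw [add_vadd, h2, neg_vadd_vadd])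
  exact (congrArg Prod.fst (neg_add_eq_zero.1 h3)).symm

namespace SimpleAux

theorem moves {d : Set X} {s : Fin 3 → V × Q} (h : Fr d s) {x : X} (hx : x ∈ d) :
    cyc d s (sh (s 0) x) ≠ sh (s 0) x := by
  rw [cyc, fp_apply h _ hx]
  exact fun e => absurd (h _ _ x hx x hx e) (by decide)

theorem moved {d : Set X} {s : Fin 3 → V × Q} {ω : X × Q} (h : cyc d s ω ≠ ω) :
    ∃ i, ∃ x ∈ d, ω = sh (s i) x := by
  by_contra! h'
  exact h (fp_other _ h')

theorem exists_pos [Fintype Q] (hQ : 4 ≤ Fintype.card Q) (q q' : Q) :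
    ∃ t : Fin 3 → Q, Function.Injective t ∧ t 0 = q ∧ ∀ i, q' = t i → i = 0 := by
  classical
  obtain ⟨f, h1, h2⟩ := exists_fresh {q, q'} 2 (by have := Finset.card_le_two (a := q) (b := q'); omega)
  refine ⟨Fin.cons q f, Fin.cons_injective_iff.2 ⟨?_, h1⟩, rfl, fun i => ?_⟩
  · rintro ⟨i, e⟩
    exact h2 i (by simp [e])
  · cases i using Fin.cases with
    | zero => exact fun _ => rfl
    | succ i => exact fun e => absurd (by simp [show f i = q' from e.symm]) (h2 i)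

theorem fr_fin (hl : Lev lab) (T : Finset (V × Q)) : ∃ n, ∀ x,
    Fr {y | hl.px n y ∈ ({hl.px n x} : Set ℤ) ∧ hl.py n y ∈ ({hl.py n x} : Set ℤ)}
      (Subtype.val : T → V × Q) := by
  obtain ⟨n, hn⟩ := (Finite.exists_le fun p : T × T =>
    (p.1.1.1.1 - p.2.1.1.1).natAbs + (p.1.1.1.2 - p.2.1.1.2).natAbs)
  refine ⟨n, fun x c c' y hy y' hy' e => ?_⟩
  have e1 : c.1.1 +ᵥ y = c'.1.1 +ᵥ y' := congrArg Prod.fst e
  have a1 := (hl.px_add n c'.1.1 y').symm.trans (e1 ▸ hl.px_add n c.1.1 y)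
  have a2 := (hl.py_add n c'.1.1 y').symm.trans (e1 ▸ hl.py_add n c.1.1 y)
  rw [hy.1, hy'.1] at a1
  rw [hy.2, hy'.2] at a2
  have b := hn (c, c')
  have b1 := hl.a_ge n
  have b2 := hl.b_ge n
  have k1 := Int.eq_zero_of_abs_lt_dvd (Int.ModEq.add_left_cancel' _ a1).dvd
    (by rw [Int.abs_eq_natAbs]; dsimp only at b; omega)
  have k2 := Int.eq_zero_of_abs_lt_dvd (Int.ModEq.add_left_cancel' _ a2).dvd
    (by rw [Int.abs_eq_natAbs]; dsimp only at b; omega)
  exact Subtype.ext (Prod.ext (Prod.ext (by omega) (by omega)) (congrArg Prod.snd e :))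

theorem cyc_of {I : Type} [Fintype I] [DecidableEq I] {d : Set X} {t : I → V × Q} (h : Fr d t)
    {e : Fin 3 → I} (he : Function.Injective e) :
    ∃ π : alternatingGroup I, cyc d (t ∘ e) = fp d t π := by
  have h1 : e 0 ≠ e 1 := he.ne (by decide)
  have h2 : e 1 ≠ e 2 := he.ne (by decide)
  refine ⟨⟨swap (e 0) (e 1) * swap (e 1) (e 2), by simp [h1, h2]⟩, ?_⟩
  rw [← cyc_eq h h1 (he.ne (by decide)) h2]
  exact congrArg (fun e => cyc d (t ∘ e)) (funext fun i => by fin_cases i <;> rfl)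

theorem fp_conj {I : Type} {d d' : Set X} {t : I → V × Q} (h : Fr d t) (hd : d' ⊆ d)
    (α β : Perm I) : fp d t α * fp d' t β * (fp d t α)⁻¹ = fp d' t (α * β * α⁻¹) := by
  refine eq_fq (h.mono hd) (fun i x hx => ?_) fun ω hω => ?_
  · rw [← map_inv, Perm.mul_apply, Perm.mul_apply, fp_apply h _ (hd hx),
      fp_apply (h.mono hd) _ hx, fp_apply h _ (hd hx)]
    rfl
  · rw [Perm.mul_apply, Perm.mul_apply, fp_other β]
    · simp
    · exact fun i x hx e => hω (α i) x hx (by rw [← fp_apply h α (hd hx), ← e]; simp)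

theorem le_of_normal [Finite A] [Fintype Q] (hQ : 20 ≤ Fintype.card Q) (hl : Lev lab)
    (hm : Mini lab) {K : Subgroup (Perm (X × Q))} (hK : ∀ a ∈ A3 lab Q, ∀ m ∈ K, a * m * a⁻¹ ∈ K)
    {g : Perm (X × Q)} (hg : g ∈ K) (hg' : g ∈ A3 lab Q) {x : X} {q : Q} (h0 : g (x, q) ≠ (x, q)) :
    A3 lab Q ≤ K := by
  classical
  have hC : ∀ a ∈ A3 lab Q, ∀ m ∈ K, m * a * m⁻¹ * a⁻¹ ∈ K := fun a ha m h => by
    simpa only [mul_assoc] using K.mul_mem h (hK a ha _ (K.inv_mem h))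
  obtain ⟨R, hR⟩ := cx_of_mem hg'
  obtain ⟨p, p1, rfl, p2⟩ := exists_pos (by omega) q (g (x, q)).2
  obtain ⟨ρ, hρ⟩ := hR.pieces fun i => ((0 : V), p i)
  obtain ⟨s', hs'⟩ := hρ x
  let T : Finset (V × Q) := Finset.univ.image s' ∪ Finset.univ.image fun q => (0, q)
  let z : Q → T := fun q => ⟨(0, q), by simp [T]⟩
  have hz : Function.Injective z := fun _ _ e => congrArg (·.1.2) e
  have hT : 5 ≤ Nat.card T := by
    have := Nat.card_le_card_of_injective z hz
    rw [Nat.card_eq_fintype_card] at this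
    omega
  obtain ⟨n, hn⟩ := fr_fin hl T
  let d : Set X := {y | Agree lab ρ x y} ∩ ({y | hl.px n y ∈ ({hl.px n x} : Set ℤ)} ∩
    {y | hl.py n y ∈ ({hl.py n x} : Set ℤ)})
  have hd : Loc lab d := (Loc.agree ρ x).inter ((hl.loc_px n _).inter (hl.loc_py n _))
  have hx : x ∈ d := ⟨Agree.refl ρ x, rfl, rfl⟩
  have hF : Fr d (Subtype.val : T → V × Q) := (hn x).mono fun y hy => hy.2
  let N : Set X → Subgroup (alternatingGroup T) := fun d' =>
    K.comap ((fp d' Subtype.val).comp (alternatingGroup T).subtype)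
  have hA : ∀ d' ⊆ d, Loc lab d' → ∀ π : alternatingGroup T, fp d' Subtype.val π.1 ∈ A3 lab Q :=
    fun d' h1 h2 π => fp_mem_A3 h2 (hF.mono h1) π.2
  have k1 : N d = ⊤ := by
    have : IsSimpleGroup (alternatingGroup T) := alternatingGroup.isSimpleGroup hT
    refine (Subgroup.Normal.eq_bot_or_eq_top ⟨fun m h a => ?_⟩).resolve_left fun h => ?_
    · simpa [N] using hK _ (hA d le_rfl hd a) _ h
    · have f0 : Fr d (Subtype.val ∘ z ∘ p) := hF.comp (hz.comp p1)
      have f1 : Fr d s' := f0.conj fun i y hy => hs' y hy.1 i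
      obtain ⟨α, hα⟩ := cyc_of hF (hz.comp p1)
      obtain ⟨β, hβ⟩ := cyc_of hF (e := fun i => ⟨s' i, by simp [T]⟩) fun i j e =>
        f1 i j x hx x hx (congrArg (fun c : T => sh c.1 x) e)
      have e1 : g * cyc d (Subtype.val ∘ z ∘ p) * g⁻¹ = cyc d s' :=
        fq_conj f0 (fun i y hy => hs' y hy.1 i) _
      have e2 : β * α⁻¹ ∈ N d := by
        have := hC _ (cyc_mem_A3 hd f0) g hg
        rw [e1, hα, show cyc d s' = _ from hβ] at this
        simpa [N] using this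
      rw [h, Subgroup.mem_bot, mul_inv_eq_one] at e2
      have e3 : cyc d s' = cyc d (Subtype.val ∘ z ∘ p) := hβ.trans (e2 ▸ hα.symm)
      have e4 : g (x, p 0) = sh (s' 0) x := by simpa [sh] using hs' x hx.1 0
      obtain ⟨i, y, hy, e5⟩ := moved (e3 ▸ moves f1 hx)
      obtain rfl := p2 i (congrArg Prod.snd (e4.trans e5))
      have e6 : s' 0 = (0, p 0) :=
        congrArg Subtype.val (hF ⟨s' 0, by simp [T]⟩ (z (p 0)) x hx y hy e5)
      exact h0 (by rw [e4, e6]; simp [sh])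
  have k2 : ∀ d' ⊆ d, Loc lab d' → N d' = ⊤ := fun d' h1 h2 => by
    rw [eq_top_iff, ← commutator_alternatingGroup_eq_top hT]
    refine Subgroup.commutator_le.2 fun α _ β _ => ?_
    have := hC _ (hA d' h1 h2 β) _ (show α ∈ N d from k1 ▸ Subgroup.mem_top α)
    rw [MonoidHom.comp_apply, Subgroup.subtype_apply, fp_conj hF h1] at this
    simpa [N, commutatorElement_def] using this
  have k3 : ∀ d' ⊆ d, Loc lab d' → ∀ s, Fr d' s → cyc d' s ∈ K := fun d' h1 h2 s hs => by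
    obtain ⟨f, f1, f2⟩ := exists_fresh (Finset.univ.image fun i => (s i).2) 5
      (by have := Finset.card_image_le (s := Finset.univ) (f := fun i => (s i).2); simp at this; omega)
    have f3 : Fr d' (Sum.elim s fun j => (0, f j)) :=
      hs.sum f1 fun i j e => f2 j (by simp only [Finset.mem_image]; exact ⟨i, by simp, e⟩)
    let π : Perm (Fin 3 ⊕ Fin 5) := swap (.inl 0) (.inr 0) * swap (.inl 1) (.inr 1) *
      (swap (.inl 2) (.inr 2) * swap (.inr 3) (.inr 4))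
    have hπ : ∀ i : Fin 3, π (.inl i) = .inr (i.castLE (by decide)) := by decide
    have hu := fp_mem_A3 h2 f3 (π := π) (by simp [π])
    obtain ⟨α, hα⟩ := cyc_of (hF.mono h1) (hz.comp (f1.comp (Fin.castLE_injective
      (show 3 ≤ 5 by decide))))
    have e := fq_conj hs (s' := Subtype.val ∘ z ∘ f ∘ Fin.castLE (show 3 ≤ 5 by decide))
      (fun i y hy => (fp_apply f3 π hy (.inl i)).trans (by rw [hπ]; rfl)) fun _ => finRotate 3
    have := hK _ ((A3 lab Q).inv_mem hu) _ (show α ∈ N d' from k2 d' h1 h2 ▸ Subgroup.mem_top α)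
    rw [MonoidHom.comp_apply, Subgroup.subtype_apply, ← hα, cyc, fp_eq _ _ (finRotate 3), ← e] at this
    simpa [mul_assoc, cyc, fp_eq] using this
  obtain ⟨F, hF'⟩ := hm d hd ⟨x, hx⟩
  refine (Subgroup.closure_le _).2 ?_
  rintro _ ⟨c, s, h1, h2, rfl⟩
  refine Loc.ind_cover F (fun v => {y | v +ᵥ y ∈ d}) (fun v _ => hd.shift v)
    (P := fun c => Fr c s → cyc c s ∈ K) (fun _ => ?_) (fun c c' _ _ h3 h4 h5 h6 => ?_) h1
    (fun y _ => hF' y) (fun v _ c' h3 h4 h5 => ?_) h2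
  · rw [cyc, fp_eq, fq_empty]
    exact K.one_mem
  · rw [cyc, fp_eq, fq_union h6 h3]
    exact K.mul_mem (h4 (h6.mono Set.subset_union_left)) (h5 (h6.mono Set.subset_union_right))
  · rw [cyc, fp_eq, ← fq_shift (-v)]
    exact k3 _ (fun y hy => by simpa using (h3 hy).2) (h4.shift (-v)) _ (h5.shift (-v))

end SimpleAux

open SimpleAux

theorem eq_one_of_commute_A3 [Fintype Q] (hQ : 4 ≤ Fintype.card Q)
    (sep : ∀ x y : X, (∀ v : V, lab (v +ᵥ x) = lab (v +ᵥ y)) → x = y) {u : Perm (X × Q)}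
    (h : ∀ g ∈ A3 lab Q, Commute u g) : u = 1 := by
  refine Equiv.ext fun ⟨x, q⟩ => ?_
  obtain ⟨p, p1, rfl, p2⟩ := exists_pos hQ q (u (x, q)).2
  have k : ∀ d, Loc lab d → x ∈ d → (u (x, p 0)).1 ∈ d ∧ (u (x, p 0)).2 = p 0 := fun d hd hx => by
    have f : Fr d fun i => ((0 : V), p i) := Fr.of_inj p1
    have h1 := moves f hx
    simp only [sh, zero_vadd] at h1
    obtain ⟨i, y, hy, e⟩ := moved (d := d) (s := fun i => ((0 : V), p i)) (ω := u (x, p 0))
      fun e => h1 (u.injective (by rw [← e, ← Perm.mul_apply, (h _ (cyc_mem_A3 hd f)).eq]; rfl))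
    obtain rfl := p2 i (congrArg Prod.snd e)
    simp [e, sh, hy]
  exact Prod.ext (sep _ _ fun v => (k _ (Loc.at v {lab (v +ᵥ x)}) rfl).1) (k _ Loc.univ trivial).2

theorem simple_A3 [Finite A] [Fintype Q] [Nonempty X] (hQ : 20 ≤ Fintype.card Q) (hl : Lev lab)
    (hm : Mini lab) : IsSimpleGroup (A3 lab Q) := by
  have := infinite_A3 (lab := lab) (Q := Q) hl.free (by omega)
  refine ⟨fun M hM => or_iff_not_imp_left.2 fun h => ?_⟩
  obtain ⟨⟨g, hg⟩, h1⟩ := (M.ne_bot_iff_exists_ne_one).1 h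
  obtain ⟨⟨x, q⟩, h2⟩ : ∃ ω, g.1 ω ≠ ω := by
    by_contra! h2
    exact h1 (Subtype.ext (Subtype.ext (Equiv.ext h2)))
  have := le_of_normal hQ hl hm (K := M.map (A3 lab Q).subtype) (by
    rintro a ha _ ⟨m, h, rfl⟩
    exact ⟨_, hM.conj_mem m h ⟨a, ha⟩, rfl⟩) ⟨g, hg, rfl⟩ g.2 h2
  exact eq_top_iff.2 fun a _ => (Subgroup.mem_map_iff_mem (A3 lab Q).subtype_injective).1 (this a.2)

end Vale.Agent.P196
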