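import Vale.Agent.P196.Bridge
import Vale.Agent.P196.Comp
import Vale.Agent.P196.HierB
import Vale.Agent.P196.PresAlt
import Vale.Agent.P196.K2D
import Vale.Agent.P196.Amen
import Vale.Agent.P196.Simple

/-! Assembly. -/

namespace Vale.Agent.P196

open Equiv Vale.Agent.P193

theorem fp_A3 {X A : Type} [AddAction V X] [Finite A] [Nonempty X] {lab : X → A} (hl : Lev lab)
    (hm : Mini lab) (sep : ∀ x y : X, (∀ v : V, lab (v +ᵥ x) = lab (v +ᵥ y)) → x = y)
    {P : Mdl (FreeGroup (Fin 3)) (Option A) → Prop} (hP : FinAx P) (hc : Complete P (eY lab)) :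
    Group.IsFinitelyPresented (A3 lab (Bool × Pos)) := by
  have hmap := map_AA (lab := lab)
  have h1 : Group.IsFinitelyPresented (AA (Fin 3) (eY lab)) := by
    refine fp_AA hP hc of_invol (fun u _ hu => ?_) fun N _ _ π h1 h2 => ?_
    · apply (reg X).injective
      rw [map_one]
      refine eq_one_of_commute_A3 (by simp) sep fun g hg => ?_
      rw [← hmap] at hg
      obtain ⟨g, hg, rfl⟩ := hg
      exact (hu g hg).map (reg X)
    · have hk : ((reg X).toMonoidHom.comp π).ker = π.ker := by
        ext n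
        simp [MonoidHom.mem_ker]
      rw [← hk]
      refine central_fg (by simp) hl hm _ ?_ (hk ▸ h2)
      rw [MonoidHom.range_comp, h1, hmap]
  exact Group.IsFinitelyPresented.equiv
    (((reg X).subgroupMap (AA (Fin 3) (eY lab))).trans (MulEquiv.subgroupCongr hmap))

theorem main : ∃ (G : Type) (_ : Group G), Infinite G ∧ IsSimpleGroup G ∧
    Group.IsFinitelyPresented G ∧ Amen G := by
  obtain ⟨t, J, hne, hm⟩ := exists_minimal
  obtain ⟨hl0⟩ := lev0
  obtain ⟨hl⟩ : Nonempty (Lev (lab1 t J)) :=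
    Lev.restrict (fun x : X1 t J => x.1) X1.vadd_val hl0
  obtain ⟨c, hc⟩ := thin0
  obtain ⟨P, hP, hC⟩ := exists_complete t J
  have sep : ∀ x y : X1 t J, (∀ v : V, lab1 t J (v +ᵥ x) = lab1 t J (v +ᵥ y)) → x = y :=
    fun x y h => Subtype.ext (Subtype.ext (funext fun v => by
      have := h v
      simpa [lab1, lab0, X1.vadd_val, X0.vadd_apply] using this))
  exact ⟨A3 (lab1 t J) (Bool × Pos), inferInstance, infinite_A3 hl.free (by simp),
    simple_A3 (by simp) hl hm, fp_A3 hl hm sep hP hC,
    amen_A3 hl.free fun dir M => Thin.restrict (fun x : X1 t J => x.1) X1.vadd_val (hc dir M)⟩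

end Vale.Agent.P196
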