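import Vale.Agent.P196.Tiles

/-! Boolean homomorphisms into lattice models, partitions, and the quantum counter. -/

namespace Vale.Agent.P196

open Vale.Agent.P193

variable {L : Type} [SemilatticeInf L] [BoundedOrder L] [Compl L] [QL L]

namespace SiteAux

omit [QL L] in
theorem gen_finf {I : Type} {D : Set L} (F : Finset I) {p : I → L} (h : ∀ i ∈ F, Gen D (p i)) :
    Gen D (F.inf p) :=
  Finset.inf_induction (p := fun x => Gen D x) Gen.top (fun _ h1 _ h2 => h1.inf h2) h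

theorem le_join {I : Type} {F : Finset I} {p : I → L} {i : I} (hi : i ∈ F) :
    p i ≤ (F.inf fun j => (p j)ᶜ)ᶜ :=
  q_le_compl_comm.1 (Finset.inf_le (f := fun j => (p j)ᶜ) hi)

theorem join_le {I : Type} {F : Finset I} {p : I → L} {w : L} (h : ∀ i ∈ F, p i ≤ w) :
    (F.inf fun j => (p j)ᶜ)ᶜ ≤ w := by
  rw [← q_compl_le_compl, QL.cc]
  exact Finset.le_inf fun i hi => QL.anti (h i hi)

theorem cm_inf_inf {a x y : L} (hx : Cm a x) (hy : Cm a y) (hxy : Cm x y) :
    Cm (a ⊓ x) (a ⊓ y) :=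
  (hx.left.inf hx hx).symm.inf (hy.symm.inf hxy.symm hx).symm hy

end SiteAux

open SiteAux

/-- proof by cases over a finite commuting cover -/
theorem le_of_cover {I : Type} (F : Finset I) (a : I → L) {u z w : L}
    (ha : ∀ i ∈ F, ∀ j ∈ F, Cm (a i) (a j)) (hz : ∀ i ∈ F, Cm z (a i)) (hzz : Cm z z) (hu : z ≤ u)
    (hc : u ⊓ (F.inf fun i => (a i)ᶜ) = ⊥) (H : ∀ i ∈ F, z ⊓ a i ≤ w) : z ≤ w := by
  have hS : ∀ x ∈ insert z (a '' F), ∀ y ∈ insert z (a '' F), Cm x y := by
    rintro x (rfl | ⟨i, hi, rfl⟩) y (rfl | ⟨j, hj, rfl⟩)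
    · exact hzz
    · exact hz j hj
    · exact (hz i hi).symm
    · exact ha i hi j hj
  refine (genSub _ hS).dec_fin F (f := a) (fun i hi => Gen.base (Or.inr ⟨i, hi, rfl⟩))
    (Gen.base (Or.inl rfl)) H ?_
  exact ((inf_le_inf_right _ hu).trans hc.le).trans bot_le

namespace Site

variable {T : Type} {u : L} {f : Set T → L} (h : Site u f)
include h

theorem cm_u : Cm u u := h.univ ▸ h.cm Set.univ Set.univ

theorem le (S : Set T) : f S ≤ u := by
  have := h.inter S Set.univ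
  rw [Set.inter_univ, h.univ] at this
  exact this.le.trans inf_le_right

theorem mono {S S' : Set T} (hS : S ⊆ S') : f S ≤ f S' := by
  have := h.inter S S'
  rw [Set.inter_eq_left.2 hS] at this
  exact this.le.trans inf_le_right

theorem empty : f ∅ = ⊥ := by
  rw [← Set.compl_univ, h.compl, h.univ, QL.inf_c]

theorem cm_top (S : Set T) : Cm (f S) u := h.univ ▸ h.cm S Set.univ

theorem le_of {W S S' : Set T} (hW : f W = u) (hS : ∀ t ∈ W, t ∈ S → t ∈ S') : f S ≤ f S' := by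
  have h1 : f S = f (W ∩ S) := by rw [h.inter, hW, inf_eq_right.2 (h.le S)]
  rw [h1]
  exact h.mono fun t ht => hS t ht.1 ht.2

theorem eq_of {W S S' : Set T} (hW : f W = u) (hS : ∀ t ∈ W, t ∈ S ↔ t ∈ S') : f S = f S' :=
  le_antisymm (h.le_of hW fun t ht => (hS t ht).1) (h.le_of hW fun t ht => (hS t ht).2)

theorem orth {S S' : Set T} (hS : Disjoint S S') : f S ≤ (f S')ᶜ := by
  refine (h.mono hS.subset_compl_right).trans ?_
  rw [h.compl]
  exact inf_le_right

theorem both {W W' : Set T} (hW : f W = u) (hW' : f W' = u) : f (W ∩ W') = u := by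
  rw [h.inter, hW, hW', inf_idem]

theorem aux_fin (s : Finset T) : u ⊓ (s.inf fun t => (f {t})ᶜ) = f (s : Set T)ᶜ := by
  classical
  induction s using Finset.induction_on with
  | empty => simp [h.univ]
  | insert a s _ ih =>
    rw [Finset.inf_insert, Finset.coe_insert, Set.insert_eq, Set.compl_union, h.inter, ← ih,
      h.compl, inf_inf_distrib_left]

theorem cover [Fintype T] : u ⊓ (Finset.univ.inf fun t => (f {t})ᶜ) = ⊥ := by
  rw [h.aux_fin, Finset.coe_univ, Set.compl_univ, h.empty]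

theorem comap {T' : Type} (g : T → T') : Site u fun S => f (g ⁻¹' S) where
  univ := h.univ
  inter _ _ := h.inter _ _
  compl _ := h.compl _
  cm _ _ := h.cm _ _

theorem restrict {a : L} (ha : a ≤ u) (hc : ∀ S, Cm a (f S)) : Site a fun S => a ⊓ f S where
  univ := by simp only [h.univ]; exact inf_eq_left.2 ha
  inter S S' := by simp only [h.inter]; exact inf_inf_distrib_left _ _ _
  compl S := by
    simp only [h.compl]
    rw [(hc S).inf_compl_inf, ← inf_assoc, inf_eq_left.2 ha]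
  cm S S' := cm_inf_inf (hc S) (hc S') (h.cm S S')

theorem gen_pts [Finite T] (S : Set T) : Gen (Set.range fun t => f {t}) (f S) := by
  have hg : Gen (Set.range fun t => f {t}) (S.toFinite.toFinset.inf fun t => (f {t})ᶜ) :=
    gen_finf _ fun t _ => Gen.compl (Gen.base ⟨t, rfl⟩)
  have hc : Cm (f S) (S.toFinite.toFinset.inf fun t => (f {t})ᶜ) := by
    refine hg.cm_of ?_ (h.cm S S) ?_
    · rintro _ ⟨t, rfl⟩ _ ⟨t', rfl⟩; exact h.cm _ _
    · rintro _ ⟨t, rfl⟩; exact h.cm _ _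
  have he : f S = (S.toFinite.toFinset.inf fun t => (f {t})ᶜ)ᶜ := by
    refine le_antisymm (hc.le_compl ?_) (join_le fun t ht => h.mono (by simpa using ht))
    have h1 := h.aux_fin S.toFinite.toFinset
    rw [Set.Finite.coe_toFinset] at h1
    calc f S ⊓ _ ≤ f S ⊓ (u ⊓ _) := le_inf inf_le_left (inf_le_inf_right _ (h.le S))
      _ = f (S ∩ Sᶜ) := by rw [h1, h.inter]
      _ ≤ ⊥ := by rw [Set.inter_compl_self, h.empty]
  rw [he]
  exact hg.compl

/-- commutation with the values on points suffices -/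
theorem cm_of_pts [Finite T] {z : L} (hz : Cm z z) (H : ∀ t, Cm z (f {t})) (S : Set T) :
    Cm z (f S) := by
  refine (h.gen_pts S).cm_of ?_ hz ?_
  · rintro _ ⟨t, rfl⟩ _ ⟨t', rfl⟩; exact h.cm _ _
  · rintro _ ⟨t, rfl⟩; exact H t

/-- proof by cases on the value at a site -/
theorem dec_pts [Finite T] {z w : L} (hz : z ≤ u) (hc : ∀ S, Cm z (f S))
    (H : ∀ t, z ⊓ f {t} ≤ w) : z ≤ w := by
  have := Fintype.ofFinite T
  exact le_of_cover Finset.univ (fun t => f {t}) (fun _ _ _ _ => h.cm _ _) (fun _ _ => hc _)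
    (hc ∅).left hz h.cover fun t _ => H t

end Site

/-- commutation can be checked on the pieces of a finite cover -/
theorem cm_of_cover {I : Type} (F : Finset I) (a : I → L) {u x y : L}
    (ha : ∀ i ∈ F, ∀ j ∈ F, Cm (a i) (a j)) (hx : ∀ i ∈ F, Cm x (a i)) (hy : ∀ i ∈ F, Cm y (a i))
    (hxx : Cm x x) (hyy : Cm y y) (hu : x ≤ u) (hc : u ⊓ (F.inf fun i => (a i)ᶜ) = ⊥)
    (H : ∀ i ∈ F, Cm (x ⊓ a i) (y ⊓ a i)) : Cm x y := by
  have he : x = (F.inf fun i => (x ⊓ a i)ᶜ)ᶜ :=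
    le_antisymm (le_of_cover F a ha hx hxx hu hc fun i hi => le_join (p := fun i => x ⊓ a i) hi)
      (join_le fun _ _ => inf_le_left)
  have hg : Gen ((fun i => x ⊓ a i) '' F) x := by
    have : Gen ((fun i => x ⊓ a i) '' F) (F.inf fun i => (x ⊓ a i)ᶜ)ᶜ :=
      Gen.compl (gen_finf _ fun i hi => Gen.compl (Gen.base ⟨i, hi, rfl⟩))
    rwa [← he] at this
  refine (hg.cm_of ?_ hyy ?_).symm
  · rintro _ ⟨i, hi, rfl⟩ _ ⟨j, hj, rfl⟩
    exact cm_inf_inf (hx i hi) (hx j hj) (ha i hi j hj)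
  · rintro _ ⟨i, hi, rfl⟩
    exact (QL.Cm.loc inf_le_right (hy i hi) (H i hi)).symm

/-- an element decided on the pieces of a finite cover is generated by them -/
theorem gen_of_cover {I : Type} (F : Finset I) (p : I → L) {D : Set L} {a z : L}
    (hD : ∀ x ∈ D, ∀ y ∈ D, Cm x y) (ha : Gen D a) (hp : ∀ i ∈ F, Gen D (p i)) (hz : Cm z a)
    (hc : a ⊓ (F.inf fun i => (p i)ᶜ) = ⊥) (H : ∀ i ∈ F, a ⊓ p i ≤ z ∨ a ⊓ p i ≤ zᶜ) :
    Gen D (a ⊓ z) := by
  classical
  have hq : ∀ i ∈ F, Gen D (a ⊓ p i) := fun i hi => ha.inf (hp i hi)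
  have haz : Cm (a ⊓ z) (a ⊓ z) := hz.symm.inf_self
  have he : a ⊓ z = ((F.filter fun i => a ⊓ p i ≤ z).inf fun i => (a ⊓ p i)ᶜ)ᶜ := by
    refine le_antisymm ?_ (join_le fun i hi => le_inf inf_le_left (Finset.mem_filter.1 hi).2)
    refine le_of_cover F (fun i => a ⊓ p i) (u := a)
      (fun i hi j hj => Gen.cm hD (hq i hi) (hq j hj)) (fun i hi => ?_) haz inf_le_left ?_ ?_
    · have hqq := Gen.cm hD (hq i hi) (hq i hi)
      rcases H i hi with h | h
      · exact (hqq.of_le haz (le_inf inf_le_left h)).symm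
      · exact (hqq.of_orth haz (h.trans (QL.anti inf_le_right))).symm
    · refine le_bot_iff.1 (le_trans ?_ hc.le)
      refine le_inf inf_le_left (Finset.le_inf fun i hi => ?_)
      refine le_trans ?_ (((Gen.cm hD ha (hp i hi)).inf_compl_inf).le.trans inf_le_right)
      exact inf_le_inf_left _ (Finset.inf_le (f := fun i => (a ⊓ p i)ᶜ) hi)
    · intro i hi
      rcases H i hi with h | h
      · exact inf_le_right.trans
          (le_join (p := fun i => a ⊓ p i) (Finset.mem_filter.2 ⟨hi, h⟩))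
      · exact (q_eq_bot (inf_le_left.trans inf_le_right) (inf_le_right.trans h)).le.trans bot_le
  rw [he]
  exact (gen_finf _ fun i hi => (hq i (Finset.mem_filter.1 hi).1).compl).compl

/-- the same for two sites -/
theorem gen_of_det {T T' : Type} [Finite T] [Finite T'] {a : L} {f : Set T → L} {g : Set T' → L}
    (hf : Site a f) (hg : Site a g) (hfg : ∀ S S', Cm (f S) (g S')) {z : L} (hz : Cm z a)
    (H : ∀ t t', f {t} ⊓ g {t'} ≤ z ∨ f {t} ⊓ g {t'} ≤ zᶜ) :
    Gen (Set.range f ∪ Set.range g) (a ⊓ z) := by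
  have := Fintype.ofFinite T
  have := Fintype.ofFinite T'
  have hD : ∀ x ∈ Set.range f ∪ Set.range g, ∀ y ∈ Set.range f ∪ Set.range g, Cm x y := by
    rintro _ (⟨S, rfl⟩ | ⟨S, rfl⟩) _ (⟨S', rfl⟩ | ⟨S', rfl⟩)
    · exact hf.cm _ _
    · exact hfg _ _
    · exact (hfg _ _).symm
    · exact hg.cm _ _
  have g1 : ∀ S, Gen (Set.range f ∪ Set.range g) (f S) := fun S => .base (Or.inl ⟨S, rfl⟩)
  have g2 : ∀ S, Gen (Set.range f ∪ Set.range g) (g S) := fun S => .base (Or.inr ⟨S, rfl⟩)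
  have ga : Gen (Set.range f ∪ Set.range g) a := hf.univ ▸ g1 Set.univ
  have gI : Gen (Set.range f ∪ Set.range g)
      (a ⊓ Finset.univ.inf fun p : T × T' => (f {p.1} ⊓ g {p.2})ᶜ) :=
    ga.inf (gen_finf _ fun p _ => ((g1 _).inf (g2 _)).compl)
  refine gen_of_cover Finset.univ (fun p : T × T' => f {p.1} ⊓ g {p.2}) hD ga
    (fun p _ => (g1 _).inf (g2 _)) hz (le_bot_iff.1 ?_) fun p _ => ?_
  · refine hf.dec_pts inf_le_left (fun S => Gen.cm hD gI (g1 S)) fun t => ?_
    refine hg.dec_pts (inf_le_left.trans inf_le_left)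
      (fun S => Gen.cm hD (gI.inf (g1 _)) (g2 S)) fun t' => ?_
    refine (q_eq_bot (e := f {t} ⊓ g {t'}) (inf_le_inf_right _ inf_le_right) ?_).le
    exact (inf_le_left.trans (inf_le_left.trans inf_le_right)).trans
      (Finset.inf_le (f := fun p : T × T' => (f {p.1} ⊓ g {p.2})ᶜ) (Finset.mem_univ (t, t')))
  · exact (H p.1 p.2).imp (inf_le_right.trans ·) (inf_le_right.trans ·)

/-- relativizing a generation statement to a smaller element -/
theorem gen_rel {D D' : Set L} {a z : L} (hD : ∀ x ∈ D, ∀ y ∈ D, Cm x y) (ha : ∀ x ∈ D, Cm a x)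
    (haa : Cm a a) (ha' : Gen D' a) (H : ∀ x ∈ D, Gen D' (a ⊓ x)) (hz : Gen D z) :
    Gen D' (a ⊓ z) := by
  induction hz with
  | base hx => exact H _ hx
  | top => rwa [inf_top_eq]
  | inf _ _ h1 h2 => rw [inf_inf_distrib_left]; exact h1.inf h2
  | compl hx h1 => rw [← (hx.cm_of hD haa ha).inf_compl_inf]; exact ha'.inf h1.compl

/-- points agreeing on generators agree on everything generated -/
theorem gen_agree {Y : Type} {D : Set (Set Y)} {z : Set Y} (hz : Gen D z) {x y : Y}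
    (H : ∀ d ∈ D, x ∈ d ↔ y ∈ d) : x ∈ z ↔ y ∈ z := by
  induction hz with
  | base hx => exact H _ hx
  | top => exact Iff.rfl
  | inf _ _ h1 h2 => exact and_congr h1 h2
  | compl _ h1 => exact not_congr h1

namespace SiteAux

theorem per_eq {α : Type} {N : ℤ} {a : ℤ → α} (h : ∀ x, a (x + N) = a x) {x x' : ℤ}
    (hx : N ∣ x - x') : a x = a x' := by
  obtain ⟨m, hm⟩ := hx
  have := (Function.Periodic.int_mul (f := a) h m) x'
  rw [← this]
  congr 1
  push_cast
  linarith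

/-- one more digit of the counter -/
theorem digit {N : ℕ} (hN : 0 < N) {a β : ℤ → L} (hA : ∀ x, Cm (a x) (a x))
    (hB : ∀ x, a (x + N) = a x) (hC : ∀ x x', ¬(N : ℤ) ∣ x - x' → a x ≤ (a x')ᶜ)
    (h1 : ∀ x, Cm (β (x - 1)) (a x)) (h2 : ∀ x, Cm (β x) (a x))
    (h4 : ∀ x, β x ⊓ a x = (β (x - 1))ᶜ ⊓ a x)
    (h5 : ∀ x, β x ⊓ (a x)ᶜ = β (x - 1) ⊓ (a x)ᶜ) :
    (∀ x x', Cm (a x') (β x)) ∧ (∀ x, ∀ j < N, a x ⊓ β (x + j) = a x ⊓ (β (x - 1))ᶜ) ∧
      ∀ x, ∀ j < N, a x ⊓ (β (x + j))ᶜ = a x ⊓ β (x - 1) := by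
  have k1 : ∀ x', ∀ j : ℕ, Cm (a x') (β (x' + j)) := by
    intro x' j
    induction j with
    | zero => simpa using (h2 x').symm
    | succ j ih =>
      by_cases hd : (N : ℤ) ∣ x' - (x' + (j + 1 : ℕ))
      · rw [per_eq hB hd]; exact (h2 _).symm
      · have hr := hC _ _ hd
        refine QL.Cm.loc hr (h2 _).compl ?_
        rw [h5]
        refine QL.Cm.inf ?_ ((hA _).of_le (hA _).compl_self hr) (h1 _).compl
        rwa [show x' + ((j + 1 : ℕ) : ℤ) - 1 = x' + j by push_cast; ring]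
  have k2 : ∀ x x', Cm (a x') (β x) := by
    intro x x'
    have hN' : (0 : ℤ) < N := by exact_mod_cast hN
    have e1 : a x' = a (x - (x - x') % N) := by
      refine per_eq hB ?_
      rw [show x' - (x - (x - x') % N) = -((x - x') - (x - x') % N) by ring, dvd_neg]
      exact Int.dvd_self_sub_of_emod_eq rfl
    have := k1 (x - (x - x') % N) ((x - x') % N).toNat
    rwa [Int.toNat_of_nonneg (Int.emod_nonneg _ hN'.ne'), sub_add_cancel, ← e1] at this
  have k3 : ∀ x, ∀ j < N, a x ⊓ β (x + j) = a x ⊓ (β (x - 1))ᶜ := by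
    intro x j hj
    induction j with
    | zero => simpa [inf_comm] using h4 x
    | succ j ih =>
      have hd : ¬(N : ℤ) ∣ x - (x + (j + 1 : ℕ)) := by
        rw [show x - (x + ((j + 1 : ℕ) : ℤ)) = -((j + 1 : ℕ) : ℤ) by ring, dvd_neg,
          Int.natCast_dvd_natCast]
        exact Nat.not_dvd_of_pos_of_lt (Nat.succ_pos j) hj
      have hr := hC _ _ hd
      have := h5 (x + (j + 1 : ℕ))
      rw [show x + ((j + 1 : ℕ) : ℤ) - 1 = x + j by push_cast; ring] at this
      rw [← ih (by omega), ← inf_eq_left.2 hr, inf_assoc, inf_comm (a _)ᶜ, this, inf_assoc,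
        inf_comm (a _)ᶜ]
  refine ⟨k2, k3, fun x j hj => ?_⟩
  rw [← (k2 _ _).inf_compl_inf, k3 x j hj, (k2 _ _).compl.inf_compl_inf, QL.cc]

end SiteAux

/-- a binary counter with values in a lattice model is commutative and periodic -/
theorem counter (n : ℕ) {u : L} {b c : ℤ → ℕ → L} (hu : Cm u u) (hb : ∀ x, ∀ i < n, b x i ≤ u)
    (h0 : ∀ x, c x 0 = u) (h1 : ∀ x, ∀ i < n, Cm (b (x - 1) i) (c x i))
    (h2 : ∀ x, ∀ i < n, Cm (b x i) (c x i)) (h3 : ∀ x, ∀ i < n, c x (i + 1) = c x i ⊓ b (x - 1) i)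
    (h4 : ∀ x, ∀ i < n, b x i ⊓ c x i = (b (x - 1) i)ᶜ ⊓ c x i)
    (h5 : ∀ x, ∀ i < n, b x i ⊓ (c x i)ᶜ = b (x - 1) i ⊓ (c x i)ᶜ) :
    (∀ x, c x n ≤ u ∧ Cm (c x n) (c x n)) ∧ (∀ x, c (x + 2 ^ n) n = c x n) ∧
      (∀ x x', ¬(2 : ℤ) ^ n ∣ x - x' → c x n ≤ (c x' n)ᶜ) ∧
      (∀ x, u ⊓ ((Finset.range (2 ^ n)).inf fun k => (c (x + k) n)ᶜ) = ⊥) ∧
      (∀ x, ∀ k : ℕ, k < 2 ^ n → ∀ i < n, c x n ≤ sg (k.testBit i) (b (x + k) i)) ∧
      ∀ x0 z, Cm z u → (∀ i < n, Cm z (b x0 i)) → ∀ x, Cm z (c x n) := by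
  induction n with
  | zero =>
    refine ⟨fun x => by rw [h0]; exact ⟨le_rfl, hu⟩, fun x => by rw [h0, h0],
      fun x x' h => (h (by simp)).elim, fun x => ?_, fun x k _ i hi => absurd hi (by simp),
      fun x0 z hz _ x => by rwa [h0]⟩
    simp [h0, QL.inf_c]
  | succ n ih =>
    obtain ⟨hA, hB, hC, hD, hE, hF⟩ := ih (fun x i hi => hb x i (by omega))
      (fun x i hi => h1 x i (by omega)) (fun x i hi => h2 x i (by omega))
      (fun x i hi => h3 x i (by omega)) (fun x i hi => h4 x i (by omega))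
      (fun x i hi => h5 x i (by omega))
    have hn : n < n + 1 := Nat.lt_succ_self n
    have hN : 0 < 2 ^ n := by positivity
    have cast2 : ((2 ^ n : ℕ) : ℤ) = 2 ^ n := by push_cast; rfl
    obtain ⟨k1, k2, k3⟩ := digit (N := 2 ^ n) hN (a := fun x => c x n) (β := fun x => b x n)
      (fun x => (hA x).2) (fun x => by rw [cast2]; exact hB x)
      (fun x x' h => hC x x' (by rwa [cast2] at h)) (fun x => h1 x n hn) (fun x => h2 x n hn)
      (fun x => h4 x n hn) (fun x => h5 x n hn)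
    have e0 : ∀ x, c x (n + 1) = c x n ⊓ b (x - 1) n := fun x => h3 x n hn
    have e1 : ∀ x, c (x + 2 ^ n) (n + 1) = c x n ⊓ (b (x - 1) n)ᶜ := by
      intro x
      rw [e0, hB, ← k2 x (2 ^ n - 1) (by omega)]
      congr 2
      rw [Nat.cast_sub hN, cast2]
      ring
    have e2 : ∀ x, c (x + 2 ^ (n + 1)) (n + 1) = c x (n + 1) := by
      intro x
      rw [show x + 2 ^ (n + 1) = x + 2 ^ n + 2 ^ n by ring, e1, hB, e0,
        ← k3 x (2 ^ n - 1) (by omega)]
      congr 3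
      rw [Nat.cast_sub hN, cast2]
      ring
    have e3 : ∀ x, ∀ j : ℕ, j < 2 ^ n → c x (n + 1) = c x n ⊓ (b (x + j) n)ᶜ := fun x j hj => by
      rw [e0, k3 x j hj]
    have e4 : ∀ x, ∀ j < 2 ^ n, c x (n + 1) = c x n ⊓ b (x + (2 ^ n + j : ℕ)) n := by
      intro x j hj
      rw [← e2, show x + 2 ^ (n + 1) = x + 2 ^ n + 2 ^ n by ring, e1, ← k2 _ j hj, hB]
      congr 2
      push_cast
      ring
    refine ⟨fun x => ?_, e2, fun x x' hx => ?_, fun x => ?_, fun x k hk i hi => ?_,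
      fun x0 z hz hzb x => ?_⟩
    · rw [e0]
      exact ⟨inf_le_left.trans (hA x).1, (k1 _ _).inf_self⟩
    · by_cases hd : (2 : ℤ) ^ n ∣ x - x'
      · have hd' : (2 : ℤ) ^ (n + 1) ∣ x - (x' + 2 ^ n) := by
          obtain ⟨q, hq⟩ := hd
          rcases Int.even_or_odd' q with ⟨m, rfl | rfl⟩
          · exact (hx ⟨m, by rw [hq]; ring⟩).elim
          · exact ⟨m, by rw [← sub_sub, hq]; ring⟩
        rw [per_eq (a := fun x => c x (n + 1)) e2 hd', e1, e0]
        exact inf_le_right.trans (QL.anti inf_le_right)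
      · rw [e0, e0]
        exact inf_le_left.trans ((hC x x' hd).trans (QL.anti inf_le_left))
    · refine le_bot_iff.1 (le_trans (inf_le_inf_left _ ?_) (hD x).le)
      refine Finset.le_inf fun k hk => ?_
      rw [Finset.mem_range] at hk
      rw [(k1 (x + k - 1) (x + k)).eq_join, QL.cc, ← e0, ← e1]
      refine le_inf (Finset.inf_le (f := fun k : ℕ => (c (x + k) (n + 1))ᶜ)
        (Finset.mem_range.2 (by omega))) ?_
      refine le_trans (Finset.inf_le (f := fun k : ℕ => (c (x + k) (n + 1))ᶜ)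
        (b := k + 2 ^ n) (Finset.mem_range.2 (by omega))) (le_of_eq ?_)
      congr 2
      push_cast
      ring
    · by_cases hk' : k < 2 ^ n
      · rcases Nat.lt_succ_iff_lt_or_eq.1 hi with hi | rfl
        · rw [e0]; exact inf_le_left.trans (hE x k hk' i hi)
        · rw [Nat.testBit_lt_two_pow hk', e3 x k hk']
          exact inf_le_right
      · obtain ⟨j, rfl⟩ := Nat.exists_eq_add_of_le (not_lt.1 hk')
        have hj : j < 2 ^ n := by omega
        rcases Nat.lt_succ_iff_lt_or_eq.1 hi with hi | rfl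
        · rw [e0, Nat.testBit_two_pow_add_gt hi, ← hB]
          refine inf_le_left.trans ((hE _ j hj i hi).trans (le_of_eq ?_))
          congr 2
          push_cast
          ring
        · rw [Nat.testBit_two_pow_add_eq, Nat.testBit_lt_two_pow hj, e4 x j hj]
          exact inf_le_right
    · have hza := hF x0 z hz fun i hi => hzb i (by omega)
      have hzn := hzb n hn
      have hP : (0 : ℤ) < 2 ^ (n + 1) := by positivity
      obtain ⟨k, hk⟩ := Int.eq_ofNat_of_zero_le (Int.emod_nonneg (x0 - x) hP.ne')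
      have hk' : k < 2 ^ (n + 1) := by
        have := Int.emod_lt_of_pos (x0 - x) hP
        rw [hk] at this
        exact_mod_cast this
      have e5 : c x (n + 1) = c (x0 - k) (n + 1) := by
        refine per_eq (a := fun x => c x (n + 1)) e2 ?_
        rw [show x - (x0 - k) = -((x0 - x) - k) by ring, dvd_neg]
        exact Int.dvd_self_sub_of_emod_eq hk
      rw [e5]
      by_cases hk2 : k < 2 ^ n
      · rw [e3 _ k hk2, sub_add_cancel]
        exact (hza _).inf hzn.compl (k1 _ _).compl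
      · obtain ⟨j, rfl⟩ := Nat.exists_eq_add_of_le (not_lt.1 hk2)
        rw [e4 _ j (by omega), sub_add_cancel]
        exact (hza _).inf hzn (k1 _ _)

end Vale.Agent.P196
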