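import Vale.Agent.P196.TileA
import Vale.Agent.P196.Site

/-! One stage: the atoms of the counter commute with all junction predicates. -/

namespace Vale.Agent.P196

open Vale.Agent.P193

variable {L : Type} [SemilatticeInf L] [BoundedOrder L] [Compl L] [QL L]

/-- the label carried by the first line above the row `per e * x'` -/
def sig (e : ℕ) (W : V → Set Core → L) (x' : ℤ) : L := W (0, per e * x' + 1) {t | t.ho.sg = true}

namespace GridAAux

theorem le_and {T : Type} {u z : L} {f : Set T → L} (hs : Site u f) {S S' : Set T}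
    (h1 : z ≤ f S) (h2 : z ≤ f S') : z ≤ f (S ∩ S') := by
  rw [hs.inter]; exact le_inf h1 h2

theorem eq_of_compl {T T' : Type} {u : L} {f : Set T → L} {g : Set T' → L} (hf : Site u f)
    (hg : Site u g) {S : Set T} {S' : Set T'} (h : f Sᶜ = g S'ᶜ) : f S = g S' := by
  rw [← compl_compl S, hf.compl, h, ← hg.compl, compl_compl]

theorem per_gt (e : ℕ) : 2 ^ (2 * e + 2) < per e := Nat.pow_lt_pow_right one_lt_two (by omega)

theorem one_lt_per (e : ℕ) : 1 < per e := lt_of_le_of_lt Nat.one_le_two_pow (per_gt e)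

theorem res_ne {e r : ℕ} (x : ℤ) (h1 : 1 ≤ r) (hr : r < per e) : res e (per e * x + r) ≠ 0 := by
  rw [res_add e x hr]; omega

theorem res_one_ne (e : ℕ) : res e 1 ≠ 0 := by rw [res_one]; exact one_ne_zero

theorem int_const {A : Type} {f : ℤ → A} (h : ∀ x, f (x + 1) = f x) (x : ℤ) : f x = f 0 := by
  induction x using Int.induction_on with
  | zero => rfl
  | succ n ih => rw [h, ih]
  | pred n ih => rw [← ih, ← h]; congr 1; ring

theorem cm_of_dec {a z : L} (ha : Cm a a) (hz : Cm z z) (h : a ≤ z ∨ a ≤ zᶜ) : Cm a z :=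
  h.elim (ha.of_le hz) (ha.of_orth hz)

theorem col_ext' {c d : Col} (h1 : c.set .fin = d.set .fin) (h2 : c.tr = d.tr) : c = d := by
  cases c; cases d
  simp only [Col.set, Col.mk.injEq] at h1 h2 ⊢
  exact ⟨h1.1, h1.2.1, h2, h1.2.2.2⟩

theorem step_first {f : Fl} (h : f.first = true) (b : Bool) (t : Tr) :
    step f b t = .run ⟨true, true, true, true, false⟩ := by
  unfold step; rw [if_pos h]

theorem step_unused {f : Fl} (h : f.first = false) (h' : f.used = false) (b : Bool) (t : Tr) :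
    step f b t = t := by
  unfold step; rw [if_neg (by simp [h]), if_neg (by simp [h'])]

theorem tile_used {e r : ℕ} (hu : (PatN e r).used = true) {t : Core}
    (ht : ColH t ∧ t.ho.fl = PatN e r) :
    ((t.ho.ty = false ∨ t.vo.tr.carry = true) ↔
      (t.ho.ty = false ∨ t.vi.tr.carry = true) ∧ t.hi.bit = true) ∧
    ((t.ho.ty = false ∨ t.vi.tr.carry = true) → (t.ho.bit = true ↔ ¬t.hi.bit = true)) ∧
    (¬(t.ho.ty = false ∨ t.vi.tr.carry = true) → (t.ho.bit = true ↔ t.hi.bit = true)) ∧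
    ((PatN e r).top = true → t.ho.ty = true → t.vo.tr = .fin) := by
  have h2 : t.hi.fl = PatN e r := by rw [← ht.1.l_fl, ht.2]
  have h3 := first_of_used hu
  cases h1 : t.ho.ty
  · obtain ⟨h4, h5⟩ := (ht.1.gt h1).2 (h2 ▸ hu)
    simp [h4, h5]
  · obtain ⟨h4, h5, h6, -⟩ := ht.1.eq h1
    obtain ⟨a, ha, h7⟩ := h5.2 (h2 ▸ h3) (h2 ▸ hu)
    have h8 := h6 (h2 ▸ hu)
    rw [h2] at h4 h7
    rw [ha] at h4 h8 ⊢
    rw [step, if_neg (by simp [h3]), if_pos hu] at h4
    rw [h4, h8]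
    cases h9 : (PatN e r).top
    · simp only [Tr.carry, Acc.upd]
      cases t.hi.bit <;> cases a.carry <;> simp
    · have := (h7 h9).1
      simp only [Tr.carry]
      revert this
      cases t.hi.bit <;> cases a.carry <;> simp

/-- the carry leaving a junction -/
def Cv (e : ℕ) (W : V → Set Core → L) (x' x : ℤ) (r : ℕ) : L :=
  W (x, per e * x' + r) {t | t.ho.ty = false ∨ t.vo.tr.carry = true}

/-- the carry entering a junction -/
def Ci (e : ℕ) (W : V → Set Core → L) (x' x : ℤ) (r : ℕ) : L :=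
  W (x, per e * x' + r) {t | t.ho.ty = false ∨ t.vi.tr.carry = true}

/-- the bits of the counter -/
def Bt (e : ℕ) (W : V → Set Core → L) (x' x : ℤ) (i : ℕ) : L :=
  W (x, per e * x' + (2 ^ (e + 1) * (i + 1) : ℕ)) {t | t.ho.bit = true}

end GridAAux

theorem Site.a_inf_compl {T : Type} {u : L} {f : Set T → L} (h : Site u f) (S S' : Set T) :
    f S ⊓ (f S')ᶜ = f (S ∩ S'ᶜ) := by
  rw [h.inter, h.compl, ← inf_assoc, inf_eq_left.2 (h.le S)]

theorem Site.a_compl_inf {T : Type} {u : L} {f : Set T → L} (h : Site u f) (S S' : Set T) :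
    (f S)ᶜ ⊓ f S' = f (Sᶜ ∩ S') := by
  rw [inf_comm, h.a_inf_compl, Set.inter_comm]

open GridAAux

namespace Grid

variable {e e' : ℕ} {u : L} {W : V → Set Core → L} (h : Grid e u W) (he : e' + 2 = 2 ^ e)
include h

theorem atm_eq (x : ℤ) : atm W x = u ⊓ (P196.lam W x)ᶜ := by
  rw [P196.lam, ← (h.site _).compl, atm]
  congr 1
  ext t
  simp

theorem lam_eq (x : ℤ) : P196.lam W x = u ⊓ (atm W x)ᶜ := by
  rw [atm, ← (h.site _).compl, P196.lam]
  congr 1
  ext t
  simp

theorem atm_low (x y : ℤ) (hy : res e y ≠ 0) : W (x, y) {t | t.ho.ty = false} = atm W x := by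
  rw [h.atm_eq, ← h.lam x y hy, ← (h.site _).compl]
  congr 1
  ext t
  simp

theorem hi_ty (x y : ℤ) (hy : res e y ≠ 0) :
    W (x, y) {t | t.hi.ty = true} = P196.lam W (x - 1) := by
  have := h.loR (x - 1) y {c | c.ty = true} hy
  rw [sub_add_cancel] at this
  rw [← h.lam (x - 1) y hy]
  exact this.symm

theorem a_low (x x' : ℤ) {r : ℕ} (h1 : 1 ≤ r) (hr : r < per e) :
    W (x, per e * x' + r) {t | ColH t ∧ t.ho.fl = PatN e r} = u := by
  have := h.low x _ (res_ne x' h1 hr)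
  rwa [res_add e x' hr] at this

theorem sig_eq (x x' : ℤ) : W (x, per e * x' + 1) {t | t.ho.sg = true} = sig e W x' := by
  refine int_const (f := fun x => W (x, per e * x' + 1) {t | t.ho.sg = true}) (fun x => ?_) x
  have h1 := res_ne (e := e) (r := 1) x' le_rfl (one_lt_per e)
  have h2 := h.loR x _ {c | c.sg = true} h1
  refine Eq.trans ?_ h2.symm
  refine (h.site _).eq_of (h.low (x + 1) _ h1) fun t ht => ?_
  show t.ho.sg = true ↔ t.hi.sg = true
  rw [ht.1.l_sg]

theorem a_vert (x x' : ℤ) (r : ℕ) (S : Set Col) :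
    W (x, per e * x' + r) {t | t.vo ∈ S} = W (x, per e * x' + (r + 1 : ℕ)) {t | t.vi ∈ S} := by
  rw [h.vert, Nat.cast_succ, add_assoc]

/-- apart from the head state the colour of a column is constant along a period -/
theorem col_const (x x' : ℤ) {r : ℕ} (hr : r < per e) (S : Set Col) :
    W (x, per e * x' + r) {t | t.vo.set .fin ∈ S} = W (x, per e * x') {t | t.vo.set .fin ∈ S} := by
  induction r with
  | zero => simp
  | succ r ih =>
    rw [← ih (by omega)]
    refine Eq.trans ?_ (h.a_vert x x' r {c | c.set .fin ∈ S}).symm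
    refine (h.site _).eq_of (h.a_low x x' (by omega) hr) fun t ht => ?_
    have : t.vo.set .fin = t.vi.set .fin := by
      simp only [Col.set, ht.1.u_fl, ht.1.u_sg, ht.1.u_bit, ht.1.u_ty]
    show t.vo.set .fin ∈ S ↔ t.vi.set .fin ∈ S
    rw [this]

/-- on a resetting column the colour is constant along a period -/
theorem col_const_atm (x x' : ℤ) {r : ℕ} (hr : r < per e) (S : Set Col) :
    atm W x ⊓ W (x, per e * x' + r) {t | t.vo ∈ S} = atm W x ⊓ W (x, per e * x') {t | t.vo ∈ S} := by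
  induction r with
  | zero => simp
  | succ r ih =>
    rw [← ih (by omega), h.a_vert x x' r, ← h.atm_low x _ (res_ne x' (by omega) hr),
      ← (h.site _).inter,
      ← (h.site _).inter]
    refine (h.site _).eq_of (h.a_low x x' (by omega) hr) fun t ht => ?_
    refine and_congr_right fun h1 => ?_
    have : t.vo = t.vi := col_ext'
      (by simp only [Col.set, ht.1.u_fl, ht.1.u_sg, ht.1.u_bit, ht.1.u_ty]) (ht.1.gt h1).1
    show t.vo ∈ S ↔ t.vi ∈ S
    rw [this]

/-- the colour leaving a junction to the right is determined by the next junction -/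
theorem ho_eq (x y : ℤ) (S : Set Col) : ∃ S', W (x, y) {t | t.ho ∈ S} = W (x + 1, y) S' := by
  by_cases hy : res e y = 0
  · exact ⟨_, h.hiR x y S hy⟩
  · refine ⟨_, Eq.trans ?_ (h.loR x y {c | c.set .start ∈ S} hy)⟩
    refine (h.site _).eq_of (h.low x y hy) fun t ht => ?_
    have : (t.ho.set .fin).set .start = t.ho := col_ext' rfl ht.1.lo_tr.symm
    show t.ho ∈ S ↔ (t.ho.set .fin).set .start ∈ S
    rw [this]

theorem a_hi_bit (x y : ℤ) (hy : res e y ≠ 0) (S : Set Bool) :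
    W (x, y) {t | t.hi.bit ∈ S} = W (x - 1, y) {t | t.ho.bit ∈ S} := by
  have := h.loR (x - 1) y {c | c.bit ∈ S} hy
  rw [sub_add_cancel] at this
  exact this.symm

theorem a_ci (x' x : ℤ) {r : ℕ} (h1 : 1 ≤ r) (hr : r + 1 < per e) :
    Ci e W x' x (r + 1) = Cv e W x' x r := by
  refine eq_of_compl (h.site _) (h.site _) ?_
  have e1 : {t : Core | t.ho.ty = false ∨ t.vi.tr.carry = true}ᶜ =
      {t | t.ho.ty = true} ∩ {t | t.vi ∈ {c : Col | c.tr.carry = false}} := by
    ext t; simp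
  have e2 : {t : Core | t.ho.ty = false ∨ t.vo.tr.carry = true}ᶜ =
      {t | t.ho.ty = true} ∩ {t | t.vo ∈ {c : Col | c.tr.carry = false}} := by
    ext t; simp
  rw [e1, e2, (h.site _).inter, (h.site _).inter, h.lam _ _ (res_ne x' (by omega) hr),
    h.lam _ _ (res_ne x' h1 (by omega)), h.a_vert]

theorem a_cv_one (x' x : ℤ) : Cv e W x' x 1 = u := by
  refine Eq.trans ((h.site _).eq_of (h.a_low x x' le_rfl (one_lt_per e)) (S' := Set.univ)
    fun t ht => ?_) (h.site _).univ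
  simp only [Set.mem_ofPred_eq, Set.mem_univ, iff_true]
  cases h1 : t.ho.ty
  · exact Or.inl rfl
  · have h2 : t.hi.fl.first = true := by rw [← ht.1.l_fl, ht.2]; exact first_iff.2 rfl
    right
    rw [(ht.1.eq h1).1, step_first h2]
    rfl

theorem a_cv_unused (x' x : ℤ) {r : ℕ} (h1 : 2 ≤ r) (hr : r < per e)
    (hu : (PatN e r).used = false) : Cv e W x' x r = Ci e W x' x r := by
  refine (h.site _).eq_of (h.a_low x x' (by omega) hr) fun t ht => ?_
  have h2 : t.hi.fl = PatN e r := by rw [← ht.1.l_fl, ht.2]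
  have h3 : (PatN e r).first = false := Bool.eq_false_iff.2 fun h => by
    have := first_iff.1 h; omega
  simp only [Set.mem_ofPred_eq]
  cases h1 : t.ho.ty
  · simp
  · rw [(ht.1.eq h1).1, h2, step_unused h3 hu]

include he

theorem a_chain (x' x : ℤ) {i : ℕ} (hi : i < 2 * e' + 3) {r : ℕ} (h1 : max 1 (2 ^ (e + 1) * i) ≤ r)
    (h2 : r < 2 ^ (e + 1) * (i + 1)) : Cv e W x' x r = Cv e W x' x (max 1 (2 ^ (e + 1) * i)) := by
  induction r, h1 using Nat.le_induction with
  | base => rfl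
  | succ r hr ih =>
    have h3 := used_row_lt he hi
    have h4 := per_gt e
    have h5 : 1 ≤ r := le_trans (le_max_left _ _) hr
    have h6 : 2 ^ (e + 1) * i ≤ r := le_trans (le_max_right _ _) hr
    rw [← ih (by omega), ← h.a_ci x' x h5 (by omega)]
    refine h.a_cv_unused x' x (by omega) (by omega) ?_
    by_contra hu
    obtain ⟨j, -, hj⟩ := (used_iff he).1 (Bool.of_not_eq_false hu)
    rw [hj] at h2
    have k1 := Nat.lt_of_mul_lt_mul_left h2
    have k2 : 2 ^ (e + 1) * i < 2 ^ (e + 1) * (j + 1) := by omega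
    have k3 := Nat.lt_of_mul_lt_mul_left k2
    omega

theorem a_ci_used (x' x : ℤ) {i : ℕ} (hi : i < 2 * e' + 3) :
    Ci e W x' x (2 ^ (e + 1) * (i + 1)) = Cv e W x' x (max 1 (2 ^ (e + 1) * i)) := by
  have h3 := used_row_lt he hi
  have h4 := per_gt e
  have h5 : 2 ≤ 2 ^ (e + 1) := Nat.le_self_pow (by omega) 2
  have h6 : 2 ^ (e + 1) * (i + 1) = 2 ^ (e + 1) * i + 2 ^ (e + 1) := by ring
  obtain ⟨r, hr⟩ : ∃ r, 2 ^ (e + 1) * (i + 1) = r + 1 := ⟨2 ^ (e + 1) * (i + 1) - 1, by omega⟩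
  rw [hr, h.a_ci x' x (by omega) (by omega)]
  exact h.a_chain he x' x hi (max_le (by omega) (by omega)) (by omega)

theorem a_counter (x' : ℤ) :
    (∀ x, atm W (x + per e') = atm W x) ∧
      (∀ x x', ¬(per e' : ℤ) ∣ x - x' → atm W x ≤ (atm W x')ᶜ) ∧
      (∀ x, u ⊓ ((Finset.range (per e')).inf fun k => (atm W (x + k))ᶜ) = ⊥) ∧
      (∀ x, ∀ k < per e', ∀ i < 2 * e' + 3, atm W x ≤ sg (k.testBit i) (Bt e W x' (x + k) i)) ∧
      ∀ x0 z, Cm z u → (∀ i < 2 * e' + 3, Cm z (Bt e W x' x0 i)) → ∀ x, Cm z (atm W x) := by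
  have h4 := per_gt e
  have hu : ∀ i < 2 * e' + 3, (PatN e (2 ^ (e + 1) * (i + 1))).used = true := fun i hi =>
    (used_iff he).2 ⟨i, hi, rfl⟩
  have hp : ∀ i, 1 ≤ 2 ^ (e + 1) * (i + 1) := fun i => Nat.mul_pos (Nat.two_pow_pos _) (by omega)
  have hl : ∀ i < 2 * e' + 3, 2 ^ (e + 1) * (i + 1) < per e := fun i hi =>
    (used_row_lt he hi).trans h4
  have hb : ∀ x, ∀ i < 2 * e' + 3, Bt e W x' (x - 1) i =
      W (x, per e * x' + (2 ^ (e + 1) * (i + 1) : ℕ)) {t | t.hi.bit = true} := fun x i hi =>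
    (h.a_hi_bit x _ (res_ne x' (hp i) (hl i hi)) {true}).symm
  have htop : ∀ x, Cv e W x' x (max 1 (2 ^ (e + 1) * (2 * e' + 3))) = atm W x := fun x => by
    rw [max_eq_right (hp _), ← h.atm_low x _ (res_ne x' (hp (2 * e' + 2)) (hl _ (by omega)))]
    refine (h.site _).eq_of (h.a_low x x' (hp (2 * e' + 2)) (hl _ (by omega))) fun t ht => ?_
    have := (tile_used (hu _ (by omega)) ht).2.2.2 ((top_iff he).2 rfl)
    simp only [Set.mem_ofPred_eq]
    cases h1 : t.ho.ty
    · simp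
    · simp [this h1, Tr.carry]
  have := counter (2 * e' + 3) (u := u) (b := Bt e W x')
    (c := fun x i => Cv e W x' x (max 1 (2 ^ (e + 1) * i))) (h.site 0).cm_u
    (fun x i _ => (h.site _).le _) (fun x => by simpa using h.a_cv_one x' x)
    (fun x i hi => by rw [hb x i hi, ← h.a_ci_used he x' x hi]; exact (h.site _).cm _ _)
    (fun x i hi => by rw [← h.a_ci_used he x' x hi]; exact (h.site _).cm _ _)
    (fun x i hi => by
      rw [hb x i hi, ← h.a_ci_used he x' x hi, max_eq_right (hp i), Ci, ← (h.site _).inter]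
      exact (h.site _).eq_of (h.a_low x x' (hp i) (hl i hi)) fun t ht =>
        (tile_used (hu i hi) ht).1)
    (fun x i hi => by
      rw [hb x i hi, ← h.a_ci_used he x' x hi, Ci, (h.site _).a_compl_inf, Bt, ← (h.site _).inter]
      exact (h.site _).eq_of (h.a_low x x' (hp i) (hl i hi)) fun t ht =>
        and_congr_left (tile_used (hu i hi) ht).2.1)
    (fun x i hi => by
      rw [hb x i hi, ← h.a_ci_used he x' x hi, Ci, Bt, (h.site _).a_inf_compl,
        (h.site _).a_inf_compl]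
      exact (h.site _).eq_of (h.a_low x x' (hp i) (hl i hi)) fun t ht =>
        and_congr_left (tile_used (hu i hi) ht).2.2.1)
  simp only [htop] at this
  have e1 : ((2 : ℤ) ^ (2 * e' + 3)) = per e' := by simp [per]
  rw [e1] at this
  exact this.2

theorem atm_per (x k : ℤ) : atm W (x + per e' * k) = atm W x := by
  have := int_const (f := fun k => atm W (x + per e' * k)) (fun k => by
    rw [← (h.a_counter he 0).1 (x + per e' * k)]; congr 1; ring) k
  simpa using this

theorem atm_orth {x x' : ℤ} (hx : ¬(per e' : ℤ) ∣ x - x') : atm W x ≤ (atm W x')ᶜ :=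
  (h.a_counter he 0).2.1 x x' hx

theorem atm_cover (x : ℤ) :
    u ⊓ ((Finset.range (per e')).inf fun k => (atm W (x + k))ᶜ) = ⊥ :=
  (h.a_counter he 0).2.2.1 x

theorem atm_cm_atm (x x' : ℤ) : Cm (atm W x) (atm W x') := by
  by_cases hx : (per e' : ℤ) ∣ x - x'
  · obtain ⟨k, hk⟩ := hx
    rw [show x = x' + per e' * k by rw [← hk]; ring, h.atm_per he]
    exact (h.site _).cm _ _
  · exact QL.Cm.of_orth ((h.site _).cm _ _) ((h.site _).cm _ _) (h.atm_orth he hx)

theorem atm_le_lam {x x' : ℤ} (hx : ¬(per e' : ℤ) ∣ x - x') : atm W x ≤ P196.lam W x' := by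
  rw [h.lam_eq]
  exact le_inf ((h.site _).le _) (h.atm_orth he hx)

theorem atm_bit (x0 x' : ℤ) {k r : ℕ} (hk : k < per e') (h1 : 1 ≤ r) (hr : r < per e) :
    atm W x0 ≤ W (x0 + k, per e * x' + r) {t | t.ho.bit = bitAt e k r} := by
  cases hu : (PatN e r).used
  · refine ((h.site _).le _).trans ((h.a_low (x0 + k) x' h1 hr).ge.trans
      ((h.site _).mono fun t ht => ?_))
    rw [bitAt_unused hu]
    exact (ht.1.l_bit0 (by rw [← ht.1.l_fl, ht.2, hu])).2
  · obtain ⟨i, hi, rfl⟩ := (used_iff he).1 hu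
    have h2 := (h.a_counter he x').2.2.2.1 x0 k hk i hi
    rw [bitAt_used he k hi]
    cases hb : k.testBit i
    · rw [hb] at h2
      have h3 := le_inf ((h.site (x0, 1)).le _) h2
      refine h3.trans (Eq.le ?_)
      rw [sg, Bt, ← (h.site _).compl]
      congr 1
      ext t
      simp
    · rwa [hb] at h2

omit he in
theorem a_lam_start (x x' : ℤ) : P196.lam W x ≤ W (x, per e * x') {t | t.vo.tr = .start} := by
  have h1 := h.a_vert x x' 0 {c | c.tr = .start}
  simp only [Nat.cast_zero, add_zero] at h1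
  refine le_trans ?_ h1.ge
  rw [← h.lam x _ (res_ne x' (r := 0 + 1) le_rfl (one_lt_per e))]
  refine (h.site _).le_of (h.a_low x x' le_rfl (one_lt_per e)) fun t ht h1 => ?_
  exact (ht.1.eq h1).2.1.1 (by rw [← ht.1.l_fl, ht.2]; exact first_iff.2 rfl)

theorem a_lam {x0 : ℤ} {k : ℕ} (h1 : 1 ≤ k) (hk : k < per e') :
    atm W x0 ≤ P196.lam W (x0 + k) :=
  h.atm_le_lam he fun hd => by
    have := Int.eq_zero_of_abs_lt_dvd hd (by
      rw [sub_add_cancel_left, abs_neg, Nat.abs_cast]; exact_mod_cast hk)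
    omega

theorem a_hbit (x0 x' : ℤ) {k r : ℕ} (h0 : 1 ≤ k) (hk : k < per e') (h1 : 1 ≤ r) (hr : r < per e) :
    atm W x0 ≤ W (x0 + k, per e * x' + r) {t | t.hi.bit = bitAt e (k - 1) r} := by
  have h2 := h.atm_bit he x0 x' (k := k - 1) (by omega) h1 hr
  have h3 := h.a_hi_bit (x0 + k) _ (res_ne x' h1 hr) {bitAt e (k - 1) r}
  rw [Nat.cast_sub h0, Nat.cast_one, ← add_sub_assoc] at h2
  exact h2.trans h3.ge

theorem a_known (x0 x' : ℤ) {k r : ℕ} (h1 : 1 ≤ k) (hk : k < per e') (hr : r + 1 < per e)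
    (ih : atm W x0 ≤ W (x0 + k, per e * x' + r) {t | t.vo.tr = trk e k r}) :
    atm W x0 ≤ W (x0 + k, per e * x' + (r + 1 : ℕ)) {t | ColH t ∧ t.hi.fl = PatN e (r + 1) ∧
      t.ho.ty = true ∧ t.hi.bit = bitAt e (k - 1) (r + 1) ∧ t.vi.tr = trk e k r} := by
  have a1 := ih.trans (h.a_vert (x0 + k) x' r {c | c.tr = trk e k r}).le
  have a2 := h.a_hbit he x0 x' h1 hk (r := r + 1) (by omega) hr
  have a3 := (h.a_lam he (x0 := x0) h1 hk).trans (h.lam _ _ (res_ne x' (by omega) hr)).ge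
  refine (le_and (h.site _) a1 (le_and (h.site _) a2 a3)).trans ?_
  refine (h.site _).le_of (h.a_low _ x' (by omega) hr) fun t ht ⟨b1, b2, b3⟩ => ?_
  exact ⟨ht.1, by rw [← ht.1.l_fl, ht.2], b3, b2, b1⟩

theorem atm_trk (x0 x' : ℤ) {k r : ℕ} (h1 : 1 ≤ k) (hk : k < per e') (hr : r < per e) :
    atm W x0 ≤ W (x0 + k, per e * x' + r) {t | t.vo.tr = trk e k r} := by
  induction r with
  | zero => simpa [trk] using (h.a_lam he h1 hk).trans (h.a_lam_start _ x')
  | succ r ih =>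
    refine (h.a_known he x0 x' h1 hk hr (ih (by omega))).trans ((h.site _).mono ?_)
    rintro t ⟨b0, b1, b2, b3, b4⟩
    show t.vo.tr = _
    rw [(b0.eq b2).1, b1, b3, b4, trk]

theorem atm_fl (x0 x' : ℤ) {k : ℕ} (h1 : 1 ≤ k) (hk : k < per e') :
    atm W x0 ≤ W (x0 + k, per e * x') {t | t.vo.fl = PatN e' k} := by
  have h2 := used_row_lt he (i := 2 * e' + 2) (by omega)
  have h3 := per_gt e
  obtain ⟨r, hr⟩ : ∃ r, 2 ^ (e + 1) * (2 * e' + 3) = r + 1 :=
    ⟨_, (Nat.succ_pred_eq_of_pos (Nat.mul_pos (Nat.two_pow_pos _) (by omega))).symm⟩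
  have h4 : r + 1 < per e := by rw [← hr]; exact h2.trans h3
  refine le_trans ?_ (h.col_const (x0 + k) x' h4 {c | c.fl = PatN e' k}).le
  refine (h.a_known he x0 x' h1 hk h4 (h.atm_trk he x0 x' h1 hk (by omega))).trans
    ((h.site _).mono ?_)
  rintro t ⟨b0, b1, b2, b3, b4⟩
  show t.vo.fl = _
  have b5 := (b0.eq b2).2.1
  rw [b1, b3, b4] at b5
  rw [b0.u_fl]
  refine flags_forced he h1 hk ?_
  rwa [hr, Nat.add_sub_cancel]

theorem a_lam_le {x : ℤ} {w : L} (H : ∀ x0 : ℤ, ∀ k : ℕ, 1 ≤ k → k < per e' → x0 + k = x →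
    atm W x0 ≤ w) : P196.lam W x ≤ w := by
  have hc : ∀ y, Cm (P196.lam W x) (atm W y) := fun y => by
    rw [h.lam_eq]
    exact (QL.Cm.inf ((h.site _).cm_top _) (h.atm_cm_atm he y x).compl
      ((h.site _).cm_top _).symm.compl).symm
  refine le_of_cover (Finset.range (per e')) (fun k => atm W (x + k))
    (fun _ _ _ _ => h.atm_cm_atm he _ _) (fun _ _ => hc _) ((h.site _).cm _ _) ((h.site _).le _)
    (h.atm_cover he x) fun k hk => ?_
  rw [Finset.mem_range] at hk
  rcases Nat.eq_zero_or_pos k with rfl | h0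
  · rw [h.lam_eq, Nat.cast_zero, add_zero]
    exact (q_inf_eq_bot inf_le_right).le.trans bot_le
  · refine inf_le_right.trans ?_
    rw [← h.atm_per he (x + k) (-1)]
    refine H _ (per e' - k) (by omega) (by omega) ?_
    rw [Nat.cast_sub hk.le]; ring

theorem lam_rowH (x x' : ℤ) : P196.lam W x ≤ W (x, per e * x') {t | RowH t} := by
  have h0 := one_lt_per e
  have h1 : P196.lam W x ≤ W (x, per e * x') {t | t.vi.tr = .fin} := by
    refine h.a_lam_le he fun x0 k h1 hk hx => ?_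
    have h2 := h.atm_trk he x0 (x' - 1) h1 hk (r := per e - 1) (by omega)
    have h3 := used_row_lt he (i := 2 * e' + 2) (by omega)
    have h4 := per_gt e
    rw [trk_fin he (by change 2 ^ (e + 1) * (2 * e' + 2 + 1) ≤ _; omega), hx] at h2
    refine h2.trans ((h.vert x _ {c | c.tr = .fin}).trans ?_).le
    rw [Nat.cast_sub h0.le]
    congr 2
    push_cast; ring
  refine (le_and (h.site _) h1 (h.a_lam_start x x')).trans ?_
  exact (h.site _).le_of (h.valid _) fun t ht ⟨b1, b2⟩ => rowH_of ht b1 b2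

theorem a_cm_lam (x0 x : ℤ) : Cm (atm W x0) (P196.lam W x) := by
  rw [h.lam_eq]
  exact QL.Cm.inf ((h.site _).cm_top _) (h.atm_cm_atm he x0 x).compl
    ((h.site _).cm_top _).symm.compl

theorem a_cm_vo_low (x0 x x' : ℤ) {r : ℕ} (h1 : 1 ≤ r) (hr : r < per e) (c : Col) :
    Cm (atm W x0) (W (x, per e * x' + r) {t | t.vo = c}) := by
  have ha : Cm (atm W x0) (atm W x0) := (h.site _).cm _ _
  have hs := h.site (x, per e * x' + r)
  have hy := res_ne x' h1 hr
  by_cases hx : (per e' : ℤ) ∣ x0 - x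
  · obtain ⟨k, hk⟩ := hx
    rw [show x0 = x + per e' * k by rw [← hk]; ring, h.atm_per he, ← h.atm_low x _ hy]
    exact hs.cm _ _
  refine QL.Cm.loc (h.atm_le_lam he hx) (by rw [← h.lam x _ hy]; exact hs.cm _ _) ?_
  have e1 : W (x, per e * x' + r) {t | t.vo = c} ⊓ P196.lam W x =
      W (x, per e * x' + r) {t | t.vo.set .fin ∈ ({c.set .fin} : Set Col)} ⊓
        W (x, per e * x' + r) ({t | t.ho.ty = true} ∩ {t | t.vo.tr = c.tr}) := by
    rw [← h.lam x _ hy, ← hs.inter, ← hs.inter]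
    congr 1
    ext t
    exact ⟨fun ⟨b1, b2⟩ => ⟨congrArg (fun c : Col => c.set .fin) (show t.vo = c from b1), b2,
        congrArg Col.tr (show t.vo = c from b1)⟩,
      fun ⟨b1, b2, b3⟩ => ⟨col_ext' b1 b3, b2⟩⟩
  rw [e1]
  refine QL.Cm.inf ?_ ?_ (hs.cm _ _)
  · refine ((h.a_counter he x').2.2.2.2 x _ (hs.cm_top _) (fun i hi => ?_) x0).symm
    have h2 := (used_row_lt he hi).trans (per_gt e)
    rw [h.col_const x x' hr, ← h.col_const x x' h2]
    exact (h.site _).cm _ _
  · refine cm_of_dec ha (hs.cm _ _) ?_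
    have h2 := h.atm_trk he (x0 + per e' * ((x - x0) / per e')) x' (k := res e' (x - x0))
      (Nat.one_le_iff_ne_zero.2 fun h0 => hx (by
        rw [← neg_sub, dvd_neg]; exact res_eq_zero.1 h0)) (res_lt _ _) hr
    rw [h.atm_per he, add_assoc, ← res_spec, add_sub_cancel] at h2
    have h3 := le_and hs ((h.atm_le_lam he hx).trans (h.lam x _ hy).ge) h2
    by_cases h4 : trk e (res e' (x - x0)) r = c.tr
    · exact Or.inl (h4 ▸ h3)
    · refine Or.inr (h3.trans (hs.orth (Set.disjoint_left.2 fun t b1 b2 => h4 ?_)))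
      exact b1.2.symm.trans b2.2

theorem a_cm_vi (x0 x y : ℤ) (S : Set Col) : Cm (atm W x0) (W (x, y) {t | t.vi ∈ S}) := by
  have ha : Cm (atm W x0) (atm W x0) := (h.site _).cm _ _
  have h0 := one_lt_per e
  by_cases hy : res e (y - 1) = 0
  · have h1 : res e y = 1 := by
      obtain ⟨q, hq⟩ := res_eq_zero.1 hy
      rw [show y = per e * q + (1 : ℕ) by rw [← hq]; simp, res_add e q h0]
    have hs := h.site (x, y)
    have hy' : res e y ≠ 0 := by omega
    -- below the first row the colour is read off above it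
    by_cases hx : (per e' : ℤ) ∣ x0 - x
    · obtain ⟨k, hk⟩ := hx
      rw [show x0 = x + per e' * k by rw [← hk]; ring, h.atm_per he, ← h.atm_low x _ hy']
      exact hs.cm _ _
    refine QL.Cm.loc (h.atm_le_lam he hx) (by rw [← h.lam x _ hy']; exact hs.cm _ _) ?_
    have e1 : W (x, y) {t | t.vi ∈ S} ⊓ P196.lam W x =
        W (x, y) {t | t.vo ∈ {c : Col | c.set .start ∈ S}} ⊓ P196.lam W x := by
      rw [← h.lam x _ hy', ← hs.inter, ← hs.inter]
      refine hs.eq_of (h.low x y hy') fun t ht => and_congr_left fun b1 => ?_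
      have b2 := (ht.1.eq b1).2.1.1 (by rw [← ht.1.l_fl, ht.2, h1]; exact first_iff.2 rfl)
      have : t.vo.set .start = t.vi := col_ext'
        (by simp only [Col.set, ht.1.u_fl, ht.1.u_sg, ht.1.u_bit, ht.1.u_ty]) b2.symm
      show t.vi ∈ S ↔ t.vo.set .start ∈ S
      rw [this]
    rw [e1]
    refine QL.Cm.inf ?_ (h.a_cm_lam he _ _) (by rw [← h.lam x _ hy']; exact hs.cm _ _)
    refine (hs.comap Core.vo).cm_of_pts ha (fun c => ?_) _
    rw [res_spec e y, h1]
    exact h.a_cm_vo_low he x0 x _ le_rfl h0 c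
  · have h1 := h.vert x (y - 1) S
    rw [sub_add_cancel] at h1
    rw [← h1]
    refine ((h.site _).comap Core.vo).cm_of_pts ha (fun c => ?_) _
    rw [res_spec e (y - 1)]
    exact h.a_cm_vo_low he x0 x _ (Nat.one_le_iff_ne_zero.2 hy) (res_lt _ _) c

theorem a_cm_vo (x0 x y : ℤ) (S : Set Col) : Cm (atm W x0) (W (x, y) {t | t.vo ∈ S}) := by
  rw [h.vert]; exact h.a_cm_vi he _ _ _ _

theorem a_cm_ho_low (x0 x y : ℤ) (hy : res e y ≠ 0) (S : Set Col) :
    Cm (atm W x0) (W (x, y) {t | t.ho ∈ S}) := by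
  have ha : Cm (atm W x0) (atm W x0) := (h.site _).cm _ _
  have hs := h.site (x, y)
  have b1 : ∀ S : Set Bool, Cm (atm W x0) (W (x, y) {t | t.ho.bit ∈ S}) := fun S => by
    have h2 := h.atm_bit he (x0 + per e' * ((x - x0) / per e')) (y / per e) (k := res e' (x - x0))
      (res_lt _ _) (Nat.one_le_iff_ne_zero.2 hy) (res_lt _ _)
    rw [h.atm_per he, add_assoc, ← res_spec, add_sub_cancel, ← res_spec] at h2
    refine cm_of_dec ha (hs.cm _ _) ?_
    by_cases h3 : bitAt e (res e' (x - x0)) (res e y) ∈ S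
    · exact Or.inl (h2.trans (hs.mono fun t ht => by
        show t.ho.bit ∈ S
        rw [show t.ho.bit = _ from ht]; exact h3))
    · exact Or.inr (h2.trans (hs.orth (Set.disjoint_left.2 fun t ht ht' => h3 (by
        rw [← show t.ho.bit = _ from ht]; exact ht'))))
  have bb : ∀ (f : Core → Bool), Cm (atm W x0) (W (x, y) {t | f t = true}) →
      ∀ b, Cm (atm W x0) (W (x, y) {t | f t = b}) := fun f H b => by
    cases b
    · have : {t | f t = false} = {t | f t = true}ᶜ := by ext t; simp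
      rw [this, hs.compl]
      exact QL.Cm.inf ((h.site _).cm_top _) H.compl (hs.cm_top _).symm.compl
    · exact H
  have b2 := bb (fun t => t.ho.ty) (by rw [h.lam x y hy]; exact h.a_cm_lam he _ _)
  have b3 := bb (fun t => t.ho.sg) (by
    by_cases h1 : res e y = 1
    · rw [res_spec e y, h1, Nat.cast_one, h.sig_eq, ← h.sig_eq x0,
        ← h.atm_low x0 _ (res_ne (y / per e) (r := 1) le_rfl (one_lt_per e))]
      exact (h.site _).cm _ _
    · rw [hs.eq_of (h.low x y hy) (S' := ∅) fun t ht => ?_, hs.empty]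
      · exact ha.bot
      · have := ht.1.l_sg0 (Bool.eq_false_iff.2 fun h2 => h1 (first_iff.1 (by
          rw [← ht.2, ht.1.l_fl]; exact h2)))
        simp [ht.1.l_sg, this])
  refine (hs.comap Core.ho).cm_of_pts ha (fun c => ?_) _
  by_cases hc : c.fl = PatN e (res e y) ∧ c.tr = .start
  · have : W (x, y) (Core.ho ⁻¹' {c}) = W (x, y) {t | t.ho.bit ∈ ({c.bit} : Set Bool)} ⊓
        (W (x, y) {t | t.ho.ty = c.ty} ⊓ W (x, y) {t | t.ho.sg = c.sg}) := by
      rw [← hs.inter, ← hs.inter]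
      refine hs.eq_of (h.low x y hy) fun t ht => ⟨fun b => ?_, fun ⟨c1, c2, c3⟩ => ?_⟩
      · obtain rfl : t.ho = c := b
        exact ⟨rfl, rfl, rfl⟩
      · refine col_ext' ?_ (ht.1.lo_tr.trans hc.2.symm)
        simp only [Col.set, ht.2, hc.1, show t.ho.bit = c.bit from c1, show t.ho.ty = c.ty from c2,
          show t.ho.sg = c.sg from c3]
    rw [this]
    refine QL.Cm.inf (b1 _) (QL.Cm.inf (b2 _) (b3 _) (hs.cm _ _)) ?_
    rw [← hs.inter]; exact hs.cm _ _
  · rw [hs.eq_of (h.low x y hy) (S' := ∅) fun t ht => ?_, hs.empty]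
    · exact ha.bot
    · refine ⟨fun b => hc ?_, fun b => b.elim⟩
      obtain rfl : t.ho = c := b
      exact ⟨ht.2, ht.1.lo_tr⟩

theorem a_cm_ho_high (x0 y : ℤ) (hy : res e y = 0) (n : ℕ) (S : Set Col) :
    Cm (atm W x0) (W (x0 + n, y) {t | t.ho ∈ S}) := by
  have ha : Cm (atm W x0) (atm W x0) := (h.site _).cm _ _
  have base : ∀ x (S : Set Col), Cm (atm W x) (W (x, y) {t | t.ho ∈ S}) := fun x S => by
    rw [h.atm_eq]
    exact (QL.Cm.inf ((h.site _).cm_top _) (h.cm x y S hy).compl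
      ((h.site _).cm_top _).symm.compl).symm
  induction n generalizing S with
  | zero => simpa using base x0 S
  | succ n ih =>
    by_cases hx : (per e' : ℤ) ∣ x0 - (x0 + (n + 1 : ℕ))
    · obtain ⟨k, hk⟩ := hx
      have := base (x0 + (n + 1 : ℕ)) S
      rwa [← h.atm_per he _ k, ← hk, add_sub_cancel] at this
    have hs := h.site (x0 + (n + 1 : ℕ), y)
    obtain ⟨q, rfl⟩ := res_eq_zero.1 hy
    have hr := (h.atm_le_lam he hx).trans (h.lam_rowH he _ q)
    refine QL.Cm.loc hr (hs.cm _ _) ?_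
    have h3 : ∀ S : Set (Col × Col × Col), Cm (atm W x0)
        (W (x0 + (n + 1 : ℕ), per e * q) ((fun t => (t.hi, t.vi, t.vo)) ⁻¹' S)) := fun S => by
      refine (hs.comap _).cm_of_pts ha (fun c => ?_) S
      have : (fun t : Core => (t.hi, t.vi, t.vo)) ⁻¹' {c} = {t | t.hi ∈ ({c.1} : Set Col)} ∩
          ({t | t.vi ∈ ({c.2.1} : Set Col)} ∩ {t | t.vo ∈ ({c.2.2} : Set Col)}) := by
        ext t; simp [Prod.ext_iff]
      rw [this, hs.inter, hs.inter]
      refine QL.Cm.inf ?_ (QL.Cm.inf (h.a_cm_vi he _ _ _ _) (h.a_cm_vo he _ _ _ _) (hs.cm _ _))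
        (by rw [← hs.inter]; exact hs.cm _ _)
      rw [Nat.cast_succ, ← add_assoc, ← h.hiR _ _ _ hy]
      exact ih _
    have e1 : W (x0 + (n + 1 : ℕ), per e * q) {t | t.ho ∈ S} ⊓
        W (x0 + (n + 1 : ℕ), per e * q) {t | RowH t} =
        W (x0 + (n + 1 : ℕ), per e * q) ((fun t => (t.hi, t.vi, t.vo)) ⁻¹' {c | c.1.set
          (if c.2.2.ty = true then step c.2.1.fl c.2.1.bit c.1.tr else c.1.tr) ∈ S}) ⊓
        W (x0 + (n + 1 : ℕ), per e * q) {t | RowH t} := by
      rw [← hs.inter, ← hs.inter]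
      congr 1
      ext t
      refine and_congr_left fun ht => ?_
      have : t.hi.set (if t.vo.ty = true then step t.vi.fl t.vi.bit t.hi.tr else t.hi.tr) =
          t.ho := by
        refine col_ext' (by simp only [Col.set, ht.u_fl, ht.u_sg, ht.u_bit, ht.u_ty]) ?_
        cases h1 : t.vo.ty
        · simpa [Col.set] using (ht.gt h1).1.symm
        · simpa [Col.set] using (ht.eq h1).1.symm
      show t.ho ∈ S ↔ t.hi.set _ ∈ S
      rw [this]
    rw [e1]
    exact QL.Cm.inf (h3 _) (ha.of_le (hs.cm _ _) hr) (hs.cm _ _)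

theorem a_cm_ho (x0 x y : ℤ) (S : Set Col) : Cm (atm W x0) (W (x, y) {t | t.ho ∈ S}) := by
  by_cases hy : res e y = 0
  · have := h.a_cm_ho_high he (x0 + per e' * ((x - x0) / per e')) y hy (res e' (x - x0)) S
    rwa [h.atm_per he, add_assoc, ← res_spec, add_sub_cancel] at this
  · exact h.a_cm_ho_low he x0 x y hy S

theorem a_cm_hi (x0 x y : ℤ) (S : Set Col) : Cm (atm W x0) (W (x, y) {t | t.hi ∈ S}) := by
  rw [← sub_add_cancel x 1]
  by_cases hy : res e y = 0
  · rw [← h.hiR _ _ _ hy]; exact h.a_cm_ho he _ _ _ _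
  · rw [← h.loR _ _ _ hy]; exact h.a_cm_ho he _ _ _ {c | c.set .fin ∈ S}

theorem atm_cm (x0 : ℤ) (v : V) (S : Set Core) : Cm (atm W x0) (W v S) := by
  obtain ⟨x, y⟩ := v
  have hs := h.site (x, y)
  refine hs.cm_of_pts ((h.site _).cm _ _) (fun c => ?_) S
  have : ({c} : Set Core) = ({t | t.vi ∈ ({c.vi} : Set Col)} ∩ {t | t.vo ∈ ({c.vo} : Set Col)}) ∩
      ({t | t.hi ∈ ({c.hi} : Set Col)} ∩ {t | t.ho ∈ ({c.ho} : Set Col)}) := by
    ext t
    cases t; cases c
    simp [and_assoc]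
  rw [this, hs.inter]
  refine QL.Cm.inf ?_ ?_ (hs.cm _ _) <;> rw [hs.inter]
  · exact QL.Cm.inf (h.a_cm_vi he _ _ _ _) (h.a_cm_vo he _ _ _ _) (hs.cm _ _)
  · exact QL.Cm.inf (h.a_cm_hi he _ _ _ _) (h.a_cm_ho he _ _ _ _) (hs.cm _ _)

theorem lam_cm (x0 : ℤ) (v : V) (S : Set Core) : Cm (P196.lam W x0) (W v S) := by
  rw [h.lam_eq]
  exact (QL.Cm.inf ((h.site _).cm_top _) (h.atm_cm he x0 v S).symm.compl
    ((h.site _).cm_top _).symm.compl).symm

end Grid

end Vale.Agent.P196
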