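import Vale.Agent.P196.GridA

/-! One stage: the next stage, and how the data of a stage are determined by the next one. -/

namespace Vale.Agent.P196

open Vale.Agent.P193

variable {L : Type} [SemilatticeInf L] [BoundedOrder L] [Compl L] [QL L]

namespace GridBAux

theorem le_inter {T : Type} {u z : L} {f : Set T → L} (hs : Site u f) {S S' : Set T}
    (h1 : z ≤ f S) (h2 : z ≤ f S') : z ≤ f (S ∩ S') := by
  rw [hs.inter]; exact le_inf h1 h2

theorem inf_le_of {T : Type} {u a : L} {f : Set T → L} (hs : Site u f) {A S S' : Set T}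
    (ha : a ≤ f A) (H : ∀ t ∈ A, t ∈ S → t ∈ S') : a ⊓ f S ≤ a ⊓ f S' :=
  le_inf inf_le_left ((le_inter hs (inf_le_left.trans ha) inf_le_right).trans
    (hs.mono fun t ht => H t ht.1 ht.2))

theorem inf_eq_of {T : Type} {u a : L} {f : Set T → L} (hs : Site u f) {A S S' : Set T}
    (ha : a ≤ f A) (H : ∀ t ∈ A, t ∈ S ↔ t ∈ S') : a ⊓ f S = a ⊓ f S' :=
  le_antisymm (inf_le_of hs ha fun t ht => (H t ht).1) (inf_le_of hs ha fun t ht => (H t ht).2)

theorem pt_dec {T : Type} {u z : L} {f : Set T → L} (hs : Site u f) {t : T} (h : z ≤ f {t})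
    (S : Set T) : z ≤ f S ∨ z ≤ (f S)ᶜ := by
  by_cases ht : t ∈ S
  · exact Or.inl (h.trans (hs.mono (Set.singleton_subset_iff.2 ht)))
  · exact Or.inr (h.trans (hs.orth (Set.disjoint_singleton_left.2 ht)))

theorem two_le_per (e : ℕ) : 2 ≤ per e := by
  unfold per
  calc 2 = 2 ^ 1 := rfl
    _ ≤ 2 ^ (2 * e + 3) := Nat.pow_le_pow_right two_pos (by omega)

theorem not_dvd {e : ℕ} {d : ℤ} (h0 : d ≠ 0) (h1 : |d| < per e) : ¬(per e : ℤ) ∣ d :=
  fun h => h0 (Int.eq_zero_of_abs_lt_dvd h h1)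

theorem res_mul (e : ℕ) (x : ℤ) : res e (per e * x) = 0 := res_eq_zero.2 (dvd_mul_right _ _)

theorem res_mul_one (e : ℕ) (x : ℤ) : res e (per e * x + 1) = 1 := by
  simpa using res_add e x (r := 1) (two_le_per e)

theorem last_row (e : ℕ) (x : ℤ) :
    (per e : ℤ) * x + ((per e - 1 : ℕ) : ℤ) + 1 = per e * (x + 1) := by
  have := per_pos e
  rw [Nat.cast_sub this]; push_cast; ring

theorem col_ext {c d : Col} (h1 : c.fl = d.fl) (h2 : c.bit = d.bit) (h3 : c.tr = d.tr)
    (h4 : c.ty = d.ty) (h5 : c.sg = d.sg) : c = d := by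
  cases c; cases d; simp_all

theorem core_ext {c d : Core} (h1 : c.vi = d.vi) (h2 : c.vo = d.vo) (h3 : c.hi = d.hi)
    (h4 : c.ho = d.ho) : c = d := by
  cases c; cases d; simp_all

end GridBAux

open GridBAux

namespace Grid

variable {e e' : ℕ} {u : L} {W : V → Set Core → L} (h : Grid e u W) (he : e' + 2 = 2 ^ e)
include h he

omit he in
theorem atm_le_u (x0 : ℤ) : atm W x0 ≤ u := (h.site _).le _

theorem atm_split (x0 y : ℤ) : atm W (x0 + per e' * (y / per e')) = atm W x0 ∧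
    x0 + per e' * (y / per e') + (res e' y : ℕ) = x0 + y :=
  ⟨h.atm_per he _ _, by rw [add_assoc, ← res_spec]⟩

theorem ty_eq (x0 x' : ℤ) {y : ℤ} (hy : ¬(per e' : ℤ) ∣ y) :
    atm W x0 ⊓ W (x0 + y, per e * x') {t | t.vo.ty = true} = atm W x0 ⊓ sig e W x' := by
  have h1 := h.vert (x0 + y) (per e * x') {c | c.ty = true}
  have h2 : res e (per e * x' + 1) ≠ 0 := by rw [res_mul_one]; exact one_ne_zero
  have h3 : atm W x0 ≤ W (x0 + y, per e * x' + 1) {t | t.ho.ty = true} := by
    rw [h.lam _ _ h2]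
    exact h.atm_le_lam he (by simpa using hy)
  have h4 := (h.atm_le_u x0).trans (h.low (x0 + y) _ h2).ge
  erw [h1]
  rw [← h.sig_eq (x0 + y)]
  refine inf_eq_of (h.site _) (le_inter (h.site _) h3 h4) fun t ⟨t1, t2, t3⟩ => ?_
  rw [res_mul_one] at t3
  have t4 := (t2.eq t1).2.2.2 (by rw [← t2.l_fl, t3]; exact first_iff.2 rfl)
  change t.vi.ty = true ↔ t.ho.sg = true
  rw [t2.l_sg, t4]

theorem lam_nxt (x0 x' : ℤ) : P196.lam (nxt e W x0) x' = atm W x0 ⊓ sig e W x' :=
  h.ty_eq he x0 x' (not_dvd one_ne_zero (by have := two_le_per e'; rw [abs_one]; omega))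

theorem site_res {T : Type} (x0 : ℤ) (v : V) (g : Core → T) :
    Site (atm W x0) fun S => atm W x0 ⊓ W v (g ⁻¹' S) :=
  ((h.site v).comap g).restrict (h.atm_le_u x0) fun _ => h.atm_cm he _ _ _

theorem next (x0 : ℤ) : Grid e' (atm W x0) (nxt e W x0) where
  site v := h.site_res he x0 _ Core.tp
  valid v := by
    have : {t : Core | t.tp ∈ {t | Valid t}} = {t | Valid t} := Set.ext fun _ => valid_tp
    rw [nxt, this, h.valid, inf_eq_left.2 (h.atm_le_u x0)]
  vert x y S := by
    change _ ⊓ W (x0 + y, per e * x) {t | t.ho ∈ S} = _ ⊓ W (x0 + (y + 1), per e * x) {t | t.hi ∈ S}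
    rw [h.hiR _ _ S (res_mul e x), add_assoc]
  hiR x y S hy := by
    change _ ⊓ W (x0 + y, per e * x) {t | t.vo ∈ S} =
      _ ⊓ W (x0 + y, per e * (x + 1)) {t | t.vi ∈ S}
    obtain ⟨q, rfl⟩ := res_eq_zero.1 hy
    rw [← last_row, ← h.vert, ← h.atm_per he x0 q,
      h.col_const_atm _ _ (Nat.sub_lt (per_pos e) one_pos)]
  loR x y S hy := by
    change _ ⊓ W (x0 + y, per e * x) {t | t.vo.set .fin ∈ S} =
      _ ⊓ W (x0 + y, per e * (x + 1)) {t | t.vi ∈ S}
    have hr := Nat.sub_lt (per_pos e) one_pos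
    rw [← last_row, ← h.vert, ← h.col_const _ _ hr]
    have h1 := h.atm_trk he (x0 + per e' * (y / per e')) x (Nat.one_le_iff_ne_zero.2 hy)
      (res_lt e' y) hr
    rw [(h.atm_split he x0 y).1, (h.atm_split he x0 y).2, trk_fin he (by
      have h2 := used_row_lt he (i := 2 * e' + 2) (by omega)
      have h3 : 2 ^ (2 * e + 2) < per e := Nat.pow_lt_pow_right one_lt_two (by omega)
      have h4 : 2 * e' + 2 + 1 = 2 * e' + 3 := rfl
      rw [h4] at h2
      omega)] at h1
    refine inf_eq_of (h.site _) h1 fun t ht => ?_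
    have h5 : t.vo.set .fin = t.vo := col_ext rfl rfl (Eq.symm ht) rfl rfl
    change t.vo.set .fin ∈ S ↔ t.vo ∈ S
    rw [h5]
  low x y hy := by
    change _ ⊓ W (x0 + y, per e * x) ({t | RowH t} ∩ {t | t.vo.fl = PatN e' (res e' y)}) = _
    have h1 := h.atm_fl he (x0 + per e' * (y / per e')) x (Nat.one_le_iff_ne_zero.2 hy)
      (res_lt e' y)
    rw [(h.atm_split he x0 y).1, (h.atm_split he x0 y).2] at h1
    refine inf_eq_left.2 (le_inter (h.site _) ?_ h1)
    refine (h.atm_le_lam he ?_).trans (h.lam_rowH he _ _)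
    simpa [← res_eq_zero] using hy
  lam x y hy := by
    rw [h.lam_nxt he]
    exact h.ty_eq he x0 x fun hd => hy (res_eq_zero.2 hd)
  cm x y S _ := by
    rw [h.lam_nxt he, ← h.sig_eq (x0 + y)]
    change Cm (_ ⊓ W (x0 + y, per e * x) {t | t.vo ∈ S}) _
    rw [h.vert]
    exact (h.site_res he x0 (x0 + y, per e * x + 1) id).cm {t | t.vi ∈ S} {t | t.ho.sg = true}

/-- the junctions on the lowest rows are given by an explicit formula -/
theorem low_det (x0 x' : ℤ) {k r : ℕ} (hk : k < per e') (h1 : 1 ≤ r) (hr : r < per e) (c : Col)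
    (σ : Bool) :
    atm W x0 ⊓ W (x0 + k, per e * x') {t | t.vo = c} ⊓ sg σ (sig e W x') ≤
      W (x0 + k, per e * x' + r) {lowT e e' k r c σ} := by
  set z := atm W x0 ⊓ W (x0 + k, per e * x') {t | t.vo = c} ⊓ sg σ (sig e W x') with hz
  have hs := h.site (x0 + k, per e * x' + r)
  have hres : res e (per e * x' + r) = r := res_add e x' hr
  have hne : res e (per e * x' + r) ≠ 0 := by omega
  have za : z ≤ atm W x0 := inf_le_left.trans inf_le_left
  have zu : z ≤ u := za.trans (h.atm_le_u x0)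
  have hp := two_le_per e'
  have f2 : z ≤ W (x0 + k, per e * x' + r) {t | t.ho.bit = bitAt e k r} :=
    za.trans (h.atm_bit he x0 x' hk h1 hr)
  have f3 : z ≤ W (x0 + k, per e * x' + r)
      {t | t.hi.bit = bitAt e (if k = 0 then per e' - 1 else k - 1) r} := by
    have a1 := h.loR (x0 + k - 1) _ {c | c.bit = bitAt e (if k = 0 then per e' - 1 else k - 1) r}
      hne
    rw [sub_add_cancel] at a1
    refine za.trans (le_trans ?_ a1.le)
    by_cases h0 : k = 0
    · have a2 := h.atm_bit he (x0 + per e' * (-1)) x' (k := per e' - 1) (by omega) h1 hr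
      rw [h.atm_per he, show x0 + per e' * (-1) + ((per e' - 1 : ℕ) : ℤ) = x0 + k - 1 by
        rw [Nat.cast_sub (by omega), h0]; push_cast; ring] at a2
      rw [if_pos h0]; exact a2
    · have a2 := h.atm_bit he x0 x' (k := k - 1) (by omega) h1 hr
      rw [show x0 + ((k - 1 : ℕ) : ℤ) = x0 + k - 1 by
        rw [Nat.cast_sub (by omega)]; push_cast; ring] at a2
      rw [if_neg h0]; exact a2
  have f4 : z ≤ W (x0 + k, per e * x' + r) {t | t.ho.ty = decide (k ≠ 0)} := by
    by_cases h0 : k = 0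
    · have a1 := h.atm_low (x0 + k) _ hne
      rw [show decide (k ≠ 0) = false by simp [h0], a1, h0]
      simpa using za
    · rw [show decide (k ≠ 0) = true by simp [h0], h.lam _ _ hne]
      exact za.trans (h.atm_le_lam he (not_dvd (by omega) (by rw [abs_lt]; omega)))
  have f5 : z ≤ W (x0 + k, per e * x' + r) {t | t.hi.ty = decide (k ≠ 1)} := by
    by_cases h0 : k = 1
    · have a1 : {t : Core | t.hi.ty = decide (k ≠ 1)} = {t : Core | t.hi.ty = true}ᶜ := by
        ext t; simp [h0]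
      rw [a1, hs.compl, h.hi_ty _ _ hne, ← h.atm_eq, h0]
      simpa using za
    · rw [show decide (k ≠ 1) = true by simp [h0], h.hi_ty _ _ hne]
      exact za.trans (h.atm_le_lam he (not_dvd (by omega) (by rw [abs_lt]; omega)))
  have f6 : z ≤ W (x0 + k, per e * x' + r) {t | r = 1 → t.ho.sg = σ} := by
    by_cases h0 : r = 1
    · have a1 := h.sig_eq (x0 + k) x'
      subst h0
      cases σ
      · have a2 : {t : Core | 1 = 1 → t.ho.sg = false} = {t : Core | t.ho.sg = true}ᶜ := by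
          ext t; simp
        rw [a2, hs.compl]
        refine le_inf zu ?_
        erw [a1]
        exact inf_le_right
      · refine le_trans ?_ (hs.mono (S := {t | t.ho.sg = true}) fun t ht _ => ht)
        erw [a1]
        exact inf_le_right
    · have a2 : {t : Core | r = 1 → t.ho.sg = σ} = Set.univ := by
        ext t; simp [h0]
      rw [a2, hs.univ]; exact zu
  have f7 : z ≤ W (x0 + k, per e * x' + r) {t | (k = 0 → t.vo = c) ∧
      (k ≠ 0 → t.vo = c.set (trk e k r) ∧ t.vi.tr = trk e k (r - 1))} := by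
    by_cases h0 : k = 0
    · have a1 := h.col_const_atm (x0 + k) x' hr {c}
      have a2 : atm W (x0 + k) = atm W x0 := by simp [h0]
      rw [a2] at a1
      refine (inf_le_left.trans (a1.ge.trans inf_le_right)).trans (hs.mono fun t ht => ?_)
      exact ⟨fun _ => ht, fun h => (h h0).elim⟩
    · have a1 := h.col_const (x0 + k) x' hr {c.set .fin}
      have a2 : z ≤ W (x0 + k, per e * x' + r) {t | t.vo.set .fin ∈ ({c.set .fin} : Set Col)} := by
        rw [a1]
        refine (inf_le_left.trans inf_le_right).trans ((h.site _).mono fun t ht => ?_)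
        change t.vo.set .fin = c.set .fin
        rw [show t.vo = c from ht]
      have a3 := za.trans (h.atm_trk he x0 x' (k := k) (by omega) hk hr)
      have a4 := za.trans (h.atm_trk he x0 x' (k := k) (r := r - 1) (by omega) hk (by omega))
      have a5 := h.vert (x0 + k) (per e * x' + (r - 1 : ℕ)) {c | c.tr = trk e k (r - 1)}
      rw [show (per e : ℤ) * x' + (r - 1 : ℕ) + 1 = per e * x' + r by
        rw [Nat.cast_sub h1]; push_cast; ring] at a5
      refine (le_inter hs (le_inter hs a2 a3) (a4.trans a5.le)).trans (hs.mono ?_)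
      rintro t ⟨⟨t1, t2⟩, t3⟩
      refine ⟨fun h => (h0 h).elim, fun _ => ⟨?_, t3⟩⟩
      have t1' : t.vo.set .fin = c.set .fin := t1
      exact col_ext (congrArg Col.fl t1' :) (congrArg Col.bit t1' :) t2 (congrArg Col.ty t1' :)
        (congrArg Col.sg t1' :)
  refine (le_inter hs (le_inter hs (le_inter hs (le_inter hs (le_inter hs f2 f3) f4) f5) f6)
    f7).trans (hs.le_of (h.low _ _ hne) ?_)
  rintro t ⟨j, jf⟩ ⟨⟨⟨⟨⟨t2, t3⟩, t4⟩, t5⟩, t6⟩, t7, t8⟩
  rw [hres] at jf
  have hsg : t.ho.sg = ((PatN e r).first && σ) := by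
    by_cases h0 : r = 1
    · rw [t6 h0, first_iff.2 h0, Bool.true_and]
    · have : (PatN e r).first = false := by
        rw [← Bool.not_eq_true]; exact fun h => h0 (first_iff.1 h)
      rw [this, Bool.false_and, j.l_sg]
      exact j.l_sg0 (by rw [← j.l_fl, jf, this])
  refine core_ext ?_ ?_ (col_ext (j.l_fl.symm.trans jf) t3 j.li_tr t5 (j.l_sg.symm.trans hsg))
    (col_ext jf t2 j.lo_tr t4 hsg)
  · by_cases h0 : k = 0
    · have a1 : t.ho.ty = false := by simpa [h0] using (t4 : t.ho.ty = decide (k ≠ 0))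
      simp only [lowT, if_pos h0]
      rw [← t7 h0]
      exact col_ext j.u_fl.symm j.u_bit.symm (j.gt a1).1.symm j.u_ty.symm j.u_sg.symm
    · simp only [lowT, if_neg h0]
      have a1 := (t8 h0).1
      exact col_ext (j.u_fl.symm.trans (congrArg Col.fl a1 :))
        (j.u_bit.symm.trans (congrArg Col.bit a1 :)) (t8 h0).2
        (j.u_ty.symm.trans (congrArg Col.ty a1 :)) (j.u_sg.symm.trans (congrArg Col.sg a1 :))
  · by_cases h0 : k = 0
    · simp only [lowT, if_pos h0]; exact t7 h0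
    · simp only [lowT, if_neg h0]; exact (t8 h0).1

theorem siteF (x0 x' y' : ℤ) :
    Site (atm W x0) fun S : Set Col => nxt e W x0 (x', y') {t | t.ho ∈ S} :=
  ((h.next he x0).site (x', y')).comap Core.ho

theorem siteG (x0 x' y' : ℤ) : Site (atm W x0)
    fun S : Set Bool => atm W x0 ⊓ W (x0 + y', per e * x' + 1) {t | t.ho.sg ∈ S} :=
  h.site_res he x0 _ fun t => t.ho.sg

theorem cmFG (x0 x' y' : ℤ) (S : Set Col) (S' : Set Bool) :
    Cm (nxt e W x0 (x', y') {t | t.ho ∈ S})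
      (atm W x0 ⊓ W (x0 + y', per e * x' + 1) {t | t.ho.sg ∈ S'}) := by
  change Cm (_ ⊓ W (x0 + y', per e * x') {t | t.vo ∈ S}) _
  rw [h.vert]
  exact (h.site_res he x0 (x0 + y', per e * x' + 1) id).cm {t | t.vi ∈ S} {t | t.ho.sg ∈ S'}

theorem G_true (x0 x' y' : ℤ) :
    atm W x0 ⊓ W (x0 + y', per e * x' + 1) {t | t.ho.sg ∈ ({true} : Set Bool)} =
      P196.lam (nxt e W x0) x' := by
  rw [h.lam_nxt he, ← h.sig_eq (x0 + y')]; rfl

theorem genG (x0 x' y' : ℤ) (S : Set Bool) : Gen {atm W x0, P196.lam (nxt e W x0) x'}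
    (atm W x0 ⊓ W (x0 + y', per e * x' + 1) {t | t.ho.sg ∈ S}) := by
  refine ((h.siteG he x0 x' y').gen_pts S).trans ?_
  rintro _ ⟨σ, rfl⟩
  cases σ
  · have a1 := (h.siteG he x0 x' y').compl {true}
    rw [Bool.compl_singleton, h.G_true he] at a1
    have a2 : Gen {atm W x0, P196.lam (nxt e W x0) x'}
        (atm W x0 ⊓ (P196.lam (nxt e W x0) x')ᶜ) :=
      (Gen.base (by simp)).inf (Gen.base (by simp)).compl
    rw [← a1] at a2
    exact a2
  · exact (h.G_true he x0 x' y') ▸ Gen.base (by simp)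

theorem det (x0 x' y' : ℤ) {r : ℕ} (h1 : 1 ≤ r) (hr : r < per e) (c : Col) (σ : Bool) :
    nxt e W x0 (x', y') {t | t.ho ∈ ({c} : Set Col)} ⊓
      (atm W x0 ⊓ W (x0 + y', per e * x' + 1) {t | t.ho.sg ∈ ({σ} : Set Bool)}) ≤
      W (x0 + y', per e * x' + r) {lowT e e' (res e' y') r c σ} := by
  have a1 := h.low_det he (x0 + per e' * (y' / per e')) x' (res_lt e' y') h1 hr c σ
  rw [(h.atm_split he x0 y').1, (h.atm_split he x0 y').2] at a1
  refine le_trans (inf_le_inf_left _ (inf_le_right.trans ?_)) a1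
  rw [← h.sig_eq (x0 + y')]
  cases σ
  · exact (h.site _).orth (Set.disjoint_left.2 fun t (h1 : t.ho.sg = false)
      (h2 : t.ho.sg = true) => by simp [h1] at h2)
  · exact le_rfl

theorem t_low (x0 x' y' : ℤ) {r : ℕ} (h1 : 1 ≤ r) (hr : r < per e) (S : Set Core) :
    Gen ({atm W x0, P196.lam (nxt e W x0) x'} ∪
      Set.range fun S : Set Col => nxt e W x0 (x', y') {t | t.ho ∈ S})
      (atm W x0 ⊓ W (x0 + y', per e * x' + r) S) := by
  refine (gen_of_det (h.siteF he x0 x' y') (h.siteG he x0 x' y') (h.cmFG he x0 x' y')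
    (h.atm_cm he x0 _ S).symm fun c σ => pt_dec (h.site _) (h.det he x0 x' y' h1 hr c σ) S).trans ?_
  rintro _ (⟨S, rfl⟩ | ⟨S, rfl⟩)
  · exact .base (Or.inr ⟨S, rfl⟩)
  · exact (h.genG he x0 x' y' S).mono Set.subset_union_left

theorem t_vo (x0 x' y' : ℤ) {r : ℕ} (hr : r < per e) (S : Set Col) :
    Gen ({atm W x0} ∪ Set.range fun S : Set Col => nxt e W x0 (x', y') {t | t.ho ∈ S})
      (atm W x0 ⊓ W (x0 + y', per e * x' + r) {t | t.vo ∈ S}) := by
  rcases Nat.eq_zero_or_pos r with rfl | h1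
  · exact .base (Or.inr ⟨S, by simp [nxt, Core.tp]⟩)
  have hF := h.siteF he x0 x' y'
  have := Fintype.ofFinite Col
  refine gen_of_cover Finset.univ (fun c => nxt e W x0 (x', y') {t | t.ho ∈ ({c} : Set Col)})
    ?_ (.base (Or.inl rfl)) (fun c _ => .base (Or.inr ⟨{c}, rfl⟩)) (h.atm_cm he x0 _ _).symm
    hF.cover fun c _ => ?_
  · rintro _ (rfl | ⟨S, rfl⟩) _ (rfl | ⟨S', rfl⟩)
    exacts [hF.cm_u, (hF.cm_top _).symm, hF.cm_top _, hF.cm _ _]
  · refine pt_dec ((h.site (x0 + y', per e * x' + r)).comap Core.vo)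
      (t := (lowT e e' (res e' y') r c false).vo) (inf_le_right.trans ?_) S
    refine (h.siteG he x0 x' y').dec_pts (hF.le _) (h.cmFG he x0 x' y' _) fun σ => ?_
    refine (h.det he x0 x' y' h1 hr c σ).trans ((h.site _).mono ?_)
    rintro _ rfl; rfl

theorem t_ho (x0 x' y' : ℤ) {r : ℕ} (h1 : 1 ≤ r) (hr : r < per e) (S : Set Col) :
    Gen {atm W x0, P196.lam (nxt e W x0) x'}
      (atm W x0 ⊓ W (x0 + y', per e * x' + r) {t | t.ho ∈ S}) := by
  have hG := h.siteG he x0 x' y'
  refine gen_of_cover Finset.univ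
    (fun σ => atm W x0 ⊓ W (x0 + y', per e * x' + 1) {t | t.ho.sg ∈ ({σ} : Set Bool)})
    ?_ (.base (Or.inl rfl)) (fun σ _ => h.genG he x0 x' y' _) (h.atm_cm he x0 _ _).symm
    hG.cover fun σ _ => ?_
  · rw [← h.G_true he x0 x' y']
    rintro _ (rfl | rfl) _ (rfl | rfl)
    exacts [hG.cm_u, (hG.cm_top _).symm, hG.cm_top _, hG.cm _ _]
  · refine pt_dec ((h.site (x0 + y', per e * x' + r)).comap Core.ho)
      (t := (lowT e e' (res e' y') r genT.vo σ).ho) (inf_le_right.trans ?_) S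
    refine (h.siteF he x0 x' y').dec_pts (hG.le _) (fun S => (h.cmFG he x0 x' y' S _).symm)
      fun c => ?_
    refine ((inf_comm _ _).le.trans (h.det he x0 x' y' h1 hr c σ)).trans ((h.site _).mono ?_)
    rintro _ rfl; rfl

theorem t_lam (x0 x : ℤ) : Gen {atm W x0} (atm W x0 ⊓ P196.lam W x) := by
  by_cases hd : (per e' : ℤ) ∣ x0 - x
  · obtain ⟨q, hq⟩ := hd
    have a1 : atm W x0 = atm W x := by rw [← h.atm_per he x q, ← hq, add_sub_cancel]
    have a2 : atm W x0 ⊓ P196.lam W x = ⊥ := by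
      rw [h.lam_eq, ← a1]
      exact q_eq_bot inf_le_left (inf_le_right.trans inf_le_right)
    rw [a2]; exact Gen.bot
  · rw [inf_eq_left.2 (h.atm_le_lam he hd)]; exact .base rfl

end Grid

end Vale.Agent.P196
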