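import Vale.Agent.P196.K1DA

/-! Central elements supported in bands. -/

namespace Vale.Agent.P196

open Equiv

variable {X A Q : Type} [AddAction V X] {lab : X → A} {N : Type} [Group N]

namespace K1DAux

theorem st_iff (h : Lev lab) (s : ℕ) (x1 k y1 l : ℤ) (ω ω' : X × Q) :
    St (h.Ry s y1 l) h s (h.a s) Prod.fst x1 k ω ω' ↔ h.Rr s x1 k y1 l ω ω' := by
  constructor
  · rintro ⟨⟨v, a, b⟩, w, c, d⟩
    have := h.free (-w + v) ω.1 (by rw [add_vadd, ← a, c, neg_vadd_vadd])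
    obtain rfl := neg_add_eq_zero.1 this
    exact ⟨w, a, d, b⟩
  · rintro ⟨v, a, b, c⟩
    exact ⟨⟨v, a, c⟩, v, a, b⟩

end K1DAux

open K1DAux

theorem Lift.band_finite [Finite A] [Fintype Q] (hQ : 20 ≤ Fintype.card Q) (L : Lift lab Q N)
    (he : L.Eps) (h : Lev lab) :
    {n | L.π n = 1 ∧ ∃ s, n ∈ L.NR (h.Ry s 0 (h.b s))}.Finite := by
  classical
  refine finite_of_bounded (B := (Fin h.c → ℤˣ) × (Fin h.c → ℤˣ)) (Set.finite_singleton 1)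
    fun F hF => ?_
  have H : ∀ w : F, ∃ (s ρ : ℕ) (l : List (Set X × (Fin 3 → V × Q))),
      (∀ f ∈ l, Ok lab ρ f ∧ Sub (h.Ry s 0 (h.b s)) f.1 f.2) ∧ w.1 = L.wd l Set.univ := by
    intro w
    obtain ⟨-, s, hs⟩ := hF w.2
    exact ⟨s, L.exists_word hs⟩
  choose s0 ρ l hl hw using H
  obtain ⟨δ, hδ⟩ := (Set.finite_range fun w => s0 w + 4 * ρ w * ((l w).length + 1)).bddAbove
  have hδ' : ∀ w, s0 w + 4 * ρ w * ((l w).length + 1) ≤ δ := fun w => hδ ⟨w, rfl⟩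
  obtain ⟨s, hs, hty⟩ := h.rankV (3 * δ) (100 * δ)
  have ha : 100 * (δ : ℤ) < h.a s := lt_of_le_of_lt (by exact_mod_cast hs) (h.a_ge s)
  have hb : 100 * (δ : ℤ) < h.b s := lt_of_le_of_lt (by exact_mod_cast hs) (h.b_ge s)
  obtain ⟨t0, ht0⟩ := hty 0
  obtain ⟨t1, ht1⟩ := hty (h.a s / 2)
  obtain ⟨P0, hP0⟩ := L.rect_par h (s := s) (x1 := -(2 * δ)) (k := 4 * δ) (y1 := 0) (l := h.b s)
    (by omega) le_rfl (δ := δ) t0 fun x y a b c d e v v1 v2 v3 v4 =>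
      ht0 x y a b c d e v (by rw [abs_le]; push_cast; omega) (by omega) (by omega)
  obtain ⟨P1, hP1⟩ := L.rect_par h (s := s) (x1 := h.a s / 2 - 2 * δ) (k := 4 * δ) (y1 := 0)
    (l := h.b s) (by omega) le_rfl (δ := δ) t1 fun x y a b c d e v v1 v2 v3 v4 =>
      ht1 x y a b c d e v (by rw [abs_le]; push_cast; omega) (by omega) (by omega)
  have D : ∀ w : F, ∃ β g0 g1, Dec L (h.Ry s 0 (h.b s)) h s (h.a s) Prod.fst δ w.1 β g0 g1 := by
    intro w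
    have := hδ' w
    rw [hw w]
    exact ⟨_, exists_dec (co_fst h s) ha.le (h.Ry_symm le_rfl) (h.Ry_trans le_rfl)
      (fun f hf => ⟨(hl w f hf).1, fun x hx i j =>
        h.Ry_nest (by omega) _ _ ((hl w f hf).2 x hx i j)⟩) (by omega) (hw w ▸ (hF w.2).1)⟩
  choose β g0 g1 hD using D
  refine ⟨fun w => if k : w ∈ F then (P0 (g0 ⟨w, k⟩), P1 (g1 ⟨w, k⟩)) else 1,
    fun w k w' k' e => ?_⟩
  simp only [dif_pos k, dif_pos k', Prod.mk.injEq] at e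
  have d := hD ⟨w, k⟩
  have d' := hD ⟨w', k'⟩
  obtain ⟨n0, a0, b0⟩ := hP0 _ _ d.cx0 d'.cx0 (pres_mono d.pr0 fun _ _ => (st_iff ..).1)
    (pres_mono d'.pr0 fun _ _ => (st_iff ..).1) e.1
  obtain ⟨n1, a1, b1⟩ := hP1 _ _ d.cx1 d'.cx1 (pres_mono d.pr1 fun _ _ => (st_iff ..).1)
    (pres_mono d'.pr1 fun _ _ => (st_iff ..).1) e.2
  obtain ⟨k1, c1, k2, c2, e1, e2, e3⟩ := d.split (co_fst h s) ha.le d'
    (L.NR_mono (fun _ _ => (st_iff ..).2) a0) (L.NR_mono (fun _ _ => (st_iff ..).2) a1) b0 b1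
  rw [L.rect_inj h hQ he (by omega) le_rfl (L.NR_mono (fun _ _ => (st_iff ..).1) c1) e1,
    L.rect_inj h hQ he (by omega) le_rfl (L.NR_mono (fun _ _ => (st_iff ..).1) c2) e2,
    mul_one] at e3
  exact e3

end Vale.Agent.P196
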