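import Vale.Agent.P196.KRect

/-! Fragmentation of a central word along one coordinate of a grid. -/

namespace Vale.Agent.P196

open Equiv

namespace K1DAux

variable {X A Q : Type} [AddAction V X] {lab : X → A} {N : Type} [Group N]

theorem emod_cases {m t : ℤ} (h1 : -m ≤ t) (h2 : t < 2 * m) :
    (t % m = t ∧ 0 ≤ t ∧ t < m) ∨ (t % m = t + m ∧ t < 0) ∨ (t % m = t - m ∧ m ≤ t) := by
  rcases lt_or_ge t 0 with h | h
  · refine .inr (.inl ⟨?_, h⟩)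
    rw [← Int.add_emod_right, Int.emod_eq_of_lt (by omega) (by omega)]
  · rcases lt_or_ge t m with k | k
    · exact .inl ⟨Int.emod_eq_of_lt h k, h, k⟩
    · refine .inr (.inr ⟨?_, k⟩)
      rw [← Int.sub_emod_right, Int.emod_eq_of_lt (by omega) (by omega)]

omit [AddAction V X] in
theorem pres_mono {R R' : X × Q → X × Q → Prop} {g : Perm (X × Q)} (h : Pres R g)
    (hR : ∀ a b, R a b → R' a b) : Pres R' g := fun ω => (h ω).imp_right (hR _ _)

omit [AddAction V X] in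
theorem pres_mul {R : X × Q → X × Q → Prop} {g g' : Perm (X × Q)}
    (ht : ∀ a b c, R a b → R b c → R a c) (h : Pres R g) (h' : Pres R g') : Pres R (g * g') := by
  intro ω
  rw [Perm.mul_apply]
  rcases h' ω with e | e
  · rw [e]; exact h ω
  · rcases h (g' ω) with e' | e'
    · rw [e']; exact .inr e
    · exact .inr (ht _ _ _ e e')

omit [AddAction V X] in
theorem pres_inv {R : X × Q → X × Q → Prop} {g : Perm (X × Q)} (hs : ∀ a b, R a b → R b a)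
    (h : Pres R g) : Pres R g⁻¹ := by
  intro ω
  have e : g (g⁻¹ ω) = ω := by simp
  rcases h (g⁻¹ ω) with k | k
  · exact .inl (k.symm.trans e)
  · rw [e] at k; exact .inr (hs _ _ k)

theorem ok_mono {ρ ρ' : ℕ} {f : Set X × (Fin 3 → V × Q)} (h : Ok lab ρ f) (hρ : ρ ≤ ρ') :
    Ok lab ρ' f := by
  have : (ρ : ℤ) ≤ ρ' := by exact_mod_cast hρ
  exact ⟨fun x y k => h.1 x y (k.mono hρ), h.2.1,
    fun i => ⟨(h.2.2 i).1.trans this, (h.2.2 i).2.trans this⟩⟩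

/-- a coordinate of the position in the grid -/
def pc (h : Lev lab) (s : ℕ) (φ : V → ℤ) (x : X) : ℤ := φ (h.px s x, h.py s x)

/-- `φ` is one of the coordinates, with period `m` -/
structure Co (h : Lev lab) (s : ℕ) (m : ℤ) (φ : V → ℤ) : Prop where
  mem : ∀ x, 0 ≤ pc h s φ x ∧ pc h s φ x < m
  add : ∀ (v : V) x, pc h s φ (v +ᵥ x) ≡ pc h s φ x + φ v [ZMOD m]
  le : ∀ (v : V) (r : ℤ), |v.1| ≤ r → |v.2| ≤ r → |φ v| ≤ r

theorem co_fst (h : Lev lab) (s : ℕ) : Co h s (h.a s) Prod.fst :=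
  ⟨h.px_mem s, h.px_add s, fun _ _ a _ => a⟩

theorem co_snd (h : Lev lab) (s : ℕ) : Co h s (h.b s) Prod.snd :=
  ⟨h.py_mem s, h.py_add s, fun _ _ _ a => a⟩

variable {h : Lev lab} {s : ℕ} {m : ℤ} {φ : V → ℤ}

theorem Co.near (c : Co h s m φ) (v : V) (x : X) (hv : |φ v| ≤ m) :
    (0 ≤ pc h s φ x ∧ pc h s φ x < m) ∧ (0 ≤ pc h s φ (v +ᵥ x) ∧ pc h s φ (v +ᵥ x) < m) ∧
    (pc h s φ (v +ᵥ x) = pc h s φ x + φ v ∨ pc h s φ (v +ᵥ x) = pc h s φ x + φ v + m ∨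
      pc h s φ (v +ᵥ x) = pc h s φ x + φ v - m) := by
  have a := c.mem x
  have b := c.mem (v +ᵥ x)
  have e := c.add v x
  rw [Int.ModEq, Int.emod_eq_of_lt b.1 b.2] at e
  rw [abs_le] at hv
  have := emod_cases (m := m) (t := pc h s φ x + φ v) (by omega) (by omega)
  exact ⟨a, b, by omega⟩

/-- strips -/
def St (R : X × Q → X × Q → Prop) (h : Lev lab) (s : ℕ) (m : ℤ) (φ : V → ℤ) (x1 k : ℤ)
    (ω ω' : X × Q) : Prop :=
  R ω ω' ∧ ∃ v : V, ω'.1 = v +ᵥ ω.1 ∧ In m k (pc h s φ ω.1 - x1) (φ v)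

/-- a decomposition of a central element -/
structure Dec (L : Lift lab Q N) (R : X × Q → X × Q → Prop) (h : Lev lab) (s : ℕ) (m : ℤ)
    (φ : V → ℤ) (δ : ℕ) (w β : N) (g0 g1 : Perm (X × Q)) : Prop where
  one : L.π w = 1
  hβ : β ∈ L.NR (St R h s m φ (m / 2 - 2 * δ) (m - m / 2 + 4 * δ))
  hα : w * β⁻¹ ∈ L.NR (St R h s m φ (-(2 * δ)) (m / 2 + 4 * δ))
  cx0 : Cx (h.lab2 s) δ g0
  cx1 : Cx (h.lab2 s) δ g1
  eq : L.π β = g0 * g1
  pr0 : Pres (St R h s m φ (-(2 * δ)) (4 * δ)) g0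
  pr1 : Pres (St R h s m φ (m / 2 - 2 * δ) (4 * δ)) g1
  ins : ∀ ω, (pc h s φ ω.1 < m / 4 ∨ m - m / 4 ≤ pc h s φ ω.1) → g0 ω = L.π β ω ∧ g1 ω = ω
  out : ∀ ω, ¬(pc h s φ ω.1 < m / 4 ∨ m - m / 4 ≤ pc h s φ ω.1) → g0 ω = ω ∧ g1 ω = L.π β ω

variable {L : Lift lab Q N} {R : X × Q → X × Q → Prop} {δ : ℕ}

theorem loc_pc (S : Set ℤ) : Loc lab {x | pc h s φ x ∈ S} := by
  obtain ⟨ρ, k⟩ := h.loc s
  exact Loc.of_fun (fun x y e => by rw [pc, pc, (k x y e).1, (k x y e).2]) S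

theorem exists_dec [Finite A] (c : Co h s m φ) (hm : 100 * δ ≤ m) (hs : ∀ a b, R a b → R b a)
    (ht : ∀ a b c, R a b → R b c → R a c) {ρ : ℕ} {l : List (Set X × (Fin 3 → V × Q))}
    (hl : ∀ f ∈ l, Ok lab ρ f ∧ Sub R f.1 f.2) (hδ : 4 * ρ * (l.length + 1) ≤ δ)
    (h1 : L.π (L.wd l Set.univ) = 1) :
    ∃ g0 g1, Dec L R h s m φ δ (L.wd l Set.univ) (L.wd l {x | m / 2 ≤ pc h s φ x}) g0 g1 := by
  have hE : Loc lab {x | m / 2 ≤ pc h s φ x} := loc_pc (Set.Ici (m / 2))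
  obtain ⟨hβ, hα⟩ := L.frag hs ht hl hE hδ
  set β := L.wd l {x | m / 2 ≤ pc h s φ x} with hb
  have nE : ∀ ω ω', Close R {x | m / 2 ≤ pc h s φ x} δ ω ω' →
      m / 2 - δ ≤ pc h s φ ω.1 ∨ pc h s φ ω.1 < δ := by
    rintro ω ω' ⟨-, ⟨u, u1, u2, hu⟩, -⟩
    have a := c.le u δ u1 u2
    have b := c.near u ω.1 (by omega)
    simp only [Set.mem_ofPred_eq, abs_le] at hu a
    omega
  have nC : ∀ ω ω', Close R {x | m / 2 ≤ pc h s φ x}ᶜ δ ω ω' →
      pc h s φ ω.1 < m / 2 + δ ∨ m - δ ≤ pc h s φ ω.1 := by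
    rintro ω ω' ⟨-, ⟨u, u1, u2, hu⟩, -⟩
    have a := c.le u δ u1 u2
    have b := c.near u ω.1 (by omega)
    simp only [Set.mem_compl_iff, Set.mem_ofPred_eq, abs_le] at hu a
    omega
  have cx : Cx (h.lab2 s) δ (L.π β) := by
    rw [hb, L.π_wd (fun f hf => (hl f hf).1) hE]
    exact (cx_wd fun f hf => h.ok_lab2 (hl f hf).1 {p | m / 2 ≤ φ p}).mono (by nlinarith)
  have mv : ∀ ω, L.π β ω ≠ ω → (m / 2 - δ ≤ pc h s φ ω.1 ∨ pc h s φ ω.1 < δ) ∧
      (pc h s φ ω.1 < m / 2 + δ ∨ m - δ ≤ pc h s φ ω.1) := by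
    intro ω hω
    constructor
    · by_contra k
      exact hω (L.NR_supp hβ fun ω' e => k (nE ω ω' e))
    · by_contra k
      have := L.NR_supp hα fun ω' e => k (nC ω ω' e)
      rw [map_mul, h1, one_mul, map_inv, Perm.inv_eq_iff_eq] at this
      exact hω this.symm
  have pr : Pres R (L.π β) := L.NR_pres ht (L.NR_mono (fun _ _ k => k.1) hβ)
  have dp : ∀ ω, ∃ v : V, |φ v| ≤ δ ∧ (L.π β ω).1 = v +ᵥ ω.1 := by
    intro ω
    obtain ⟨e, e1, e2, -⟩ := cx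
    exact ⟨(e ω).1, c.le _ _ (e2 ω).1 (e2 ω).2, by rw [e1]; rfl⟩
  obtain ⟨g0, g1, c0, c1, e, -, k0, k1⟩ := cx.restrict
    {a | φ a.2 < m / 4 ∨ m - m / 4 ≤ φ a.2} (fun ω => by
      by_cases k : L.π β ω = ω
      · rw [k]
      · obtain ⟨v, v1, v2⟩ := dp ω
        have a := mv ω k
        have b := c.near v ω.1 (by omega)
        rw [← v2] at b
        rw [abs_le] at v1
        show (pc h s φ (L.π β ω).1 < m / 4 ∨ m - m / 4 ≤ pc h s φ (L.π β ω).1) ↔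
          (pc h s φ ω.1 < m / 4 ∨ m - m / 4 ≤ pc h s φ ω.1)
        omega)
  refine ⟨g0, g1, h1, L.NR_mono (fun ω ω' k => ?_) hβ, L.NR_mono (fun ω ω' k => ?_) hα, c0, c1, e,
    fun ω => ?_, fun ω => ?_, k0, k1⟩
  · have a := nE ω ω' k
    obtain ⟨k1, -, v, v1, v2, hv⟩ := k
    have b := c.le v δ v1 v2
    have d := c.mem ω.1
    have := emod_cases (m := m) (t := pc h s φ ω.1 - (m / 2 - 2 * δ)) (by omega) (by omega)
    rw [abs_le] at b
    exact ⟨k1, v, hv, by unfold In; omega⟩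
  · have a := nC ω ω' k
    obtain ⟨k1, -, v, v1, v2, hv⟩ := k
    have b := c.le v δ v1 v2
    have d := c.mem ω.1
    have := emod_cases (m := m) (t := pc h s φ ω.1 - -(2 * δ)) (by omega) (by omega)
    rw [abs_le] at b
    exact ⟨k1, v, hv, by unfold In; omega⟩
  · by_cases hω : pc h s φ ω.1 < m / 4 ∨ m - m / 4 ≤ pc h s φ ω.1
    · rw [(k0 ω hω).1]
      by_cases k : L.π β ω = ω
      · exact .inl k
      · obtain ⟨v, v1, v2⟩ := dp ω
        have a := mv ω k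
        have d := c.mem ω.1
        have := emod_cases (m := m) (t := pc h s φ ω.1 - -(2 * δ)) (by omega) (by omega)
        rw [abs_le] at v1
        exact .inr ⟨(pr ω).resolve_left k, v, v2, by unfold In; omega⟩
    · exact .inl (k1 ω hω).1
  · by_cases hω : pc h s φ ω.1 < m / 4 ∨ m - m / 4 ≤ pc h s φ ω.1
    · exact .inl (k0 ω hω).2
    · rw [(k1 ω hω).2]
      by_cases k : L.π β ω = ω
      · exact .inl k
      · obtain ⟨v, v1, v2⟩ := dp ω
        have a := mv ω k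
        have d := c.mem ω.1
        have := emod_cases (m := m) (t := pc h s φ ω.1 - (m / 2 - 2 * δ)) (by omega) (by omega)
        rw [abs_le] at v1
        exact .inr ⟨(pr ω).resolve_left k, v, v2, by unfold In; omega⟩

theorem Dec.split (c : Co h s m φ) (hm : 100 * δ ≤ m) {w β w' β' : N} {g0 g1 g0' g1' : Perm (X × Q)}
    (d : Dec L R h s m φ δ w β g0 g1) (d' : Dec L R h s m φ δ w' β' g0' g1') {n0 n1 : N}
    (h0 : n0 ∈ L.NR (St R h s m φ (-(2 * δ)) (4 * δ)))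
    (h1 : n1 ∈ L.NR (St R h s m φ (m / 2 - 2 * δ) (4 * δ))) (e0 : L.π n0 = g0 * g0'⁻¹)
    (e1 : L.π n1 = g1 * g1'⁻¹) :
    ∃ k1 ∈ L.NR (St R h s m φ (-(2 * δ)) (m / 2 + 4 * δ)),
      ∃ k2 ∈ L.NR (St R h s m φ (m / 2 - 2 * δ) (m - m / 2 + 4 * δ)),
        L.π k1 = 1 ∧ L.π k2 = 1 ∧ w * w'⁻¹ = k1 * k2 := by
  have key : ∀ x1 k x1' k' : ℤ, (∀ p t, 0 ≤ p → p < m → In m k (p - x1) t → In m k' (p - x1') t) →
      L.NR (St R h s m φ x1 k) ≤ L.NR (St R h s m φ x1' k') := fun x1 k x1' k' H =>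
    L.NR_mono fun ω ω' ⟨a, v, b, e⟩ => ⟨a, v, b, H _ _ (c.mem _).1 (c.mem _).2 e⟩
  have em : ∀ p, 0 ≤ p → p < m → _ := fun p a b =>
    And.intro (emod_cases (m := m) (t := p - -(2 * δ)) (by omega) (by omega))
      (emod_cases (m := m) (t := p - (m / 2 - 2 * δ)) (by omega) (by omega))
  refine split_lemma L.π L.cen d.one d'.one d.hβ d'.hβ d.hα d'.hα (δ := n0 * n1)
    (mul_mem (key _ _ _ _ ?_ h0) (key _ _ _ _ ?_ h1))
    (mul_mem (key _ _ _ _ ?_ h0) (key _ _ _ _ ?_ h1)) ?_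
  · intro p t a b; have := em p a b; unfold In; omega
  · intro p t a b; have := em p a b; unfold In; omega
  · intro p t a b; have := em p a b; unfold In; omega
  · intro p t a b; have := em p a b; unfold In; omega
  · have c1 : Commute g0' g1 := Perm.Disjoint.commute fun ω => by
      by_cases k : pc h s φ ω.1 < m / 4 ∨ m - m / 4 ≤ pc h s φ ω.1
      · exact .inr (d.ins ω k).2
      · exact .inl (d'.out ω k).1
    have c2 : Commute g0' g1' := Perm.Disjoint.commute fun ω => by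
      by_cases k : pc h s φ ω.1 < m / 4 ∨ m - m / 4 ≤ pc h s φ ω.1
      · exact .inr (d'.ins ω k).2
      · exact .inl (d'.out ω k).1
    rw [map_mul, e0, e1, d.eq, d'.eq, mul_assoc, (c1.mul_right c2.inv_right).inv_left.eq]
    group

end K1DAux

end Vale.Agent.P196
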