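import Vale.Agent.P196.KBlockA

/-! Lifts inside relations; finite block systems; fragmentation of words. -/

namespace Vale.Agent.P196

open Equiv

variable {X A Q : Type} [AddAction V X] {lab : X → A} {N : Type} [Group N]

namespace KBlockAux

theorem fp_step {I : Type} {d : Set X} {s : I → V × Q} (h : Fr d s) (σ : Perm I) (ω : X × Q) :
    fp d s σ ω = ω ∨ ∃ i j, ∃ x ∈ d, ω = sh (s i) x ∧ fp d s σ ω = sh (s j) x := by
  by_cases hω : ∀ i, ∀ x ∈ d, ω ≠ sh (s i) x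
  · exact .inl (fp_other σ hω)
  · push Not at hω
    obtain ⟨i, x, hx, rfl⟩ := hω
    exact .inr ⟨i, _, x, hx, rfl, fp_apply h σ hx i⟩

theorem ok_mono {ρ ρ' : ℕ} {f : Set X × (Fin 3 → V × Q)} (h : Ok lab ρ f) (hρ : ρ ≤ ρ') :
    Ok lab ρ' f :=
  ⟨fun x y e => h.1 x y (e.mono hρ), h.2.1, fun i =>
    ⟨(h.2.2 i).1.trans (by exact_mod_cast hρ), (h.2.2 i).2.trans (by exact_mod_cast hρ)⟩⟩

theorem exists_ok {d : Set X} {s : Fin 3 → V × Q} (hd : Loc lab d) (h : Fr d s) :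
    ∃ ρ, Ok lab ρ (d, s) := by
  obtain ⟨ρ, hρ⟩ := hd
  obtain ⟨n, hn⟩ := Finite.exists_le fun i => (s i).1.1.natAbs + (s i).1.2.natAbs
  refine ⟨ρ + n, fun x y e => hρ x y (e.mono (by omega)), h, fun i => ?_⟩
  have := hn i
  simp only [Int.abs_eq_natAbs]
  omega

theorem inj3 {I : Type} {i j k : I} (ij : i ≠ j) (ik : i ≠ k) (jk : j ≠ k) :
    Function.Injective ![i, j, k] := by
  intro a b
  fin_cases a <;> fin_cases b <;> simp [ij, ik, jk, ij.symm, ik.symm, jk.symm]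

theorem inj4 {I : Type} {i j k l : I} (ij : i ≠ j) (ik : i ≠ k) (jk : j ≠ k) (il : i ≠ l)
    (jl : j ≠ l) (kl : k ≠ l) : Function.Injective ![i, j, k, l] := by
  intro a b
  fin_cases a <;> fin_cases b <;>
    simp [ij, ik, jk, il, jl, kl, ij.symm, ik.symm, jk.symm, il.symm, jl.symm, kl.symm]

end KBlockAux

open KBlockAux

namespace Lift

variable (L : Lift lab Q N) {R R' : X × Q → X × Q → Prop}

theorem T_empty (s : Fin 3 → V × Q) : L.T ∅ s = 1 := by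
  simpa using L.add ∅ ∅ s Loc.empty Loc.empty (by simp) fun _ _ _ h => by simp at h

theorem NR_mono (h : ∀ ω ω', R ω ω' → R' ω ω') : L.NR R ≤ L.NR R' :=
  Subgroup.closure_mono fun _ ⟨d, s, h1, h2, h3, e⟩ =>
    ⟨d, s, h1, h2, fun x hx i j => h _ _ (h3 x hx i j), e⟩

theorem NR_conj [Finite A] (n : N) (h : ∀ ω ω', R ω ω' → R' (L.π n ω) (L.π n ω')) {m : N}
    (hm : m ∈ L.NR R) : n * m * n⁻¹ ∈ L.NR R' := by
  refine (Subgroup.closure_le ((L.NR R').comap (MulAut.conj n).toMonoidHom)).2 ?_ hm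
  rintro _ ⟨d, s, h1, h2, h3, rfl⟩
  obtain ⟨r, hr⟩ := cx_of_mem (L.range.le ⟨n, rfl⟩)
  obtain ⟨ρ, hρ⟩ := hr.pieces s
  refine Loc.ind ρ (P := fun c => c ⊆ d → n * L.T c s * n⁻¹ ∈ L.NR R') (fun _ => ?_)
    (fun c c' a1 a2 a3 a4 a5 a6 => ?_) h1 (fun c a1 a2 a3 _ => ?_) le_rfl
  · simp [T_empty]
  · rw [L.add c c' s a1 a2 a3 (h2.mono a6), ← conj_mul]
    exact mul_mem (a4 (Set.subset_union_left.trans a6)) (a5 (Set.subset_union_right.trans a6))
  · rcases c.eq_empty_or_nonempty with rfl | ⟨x, hx⟩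
    · simp [T_empty]
    · obtain ⟨s', hs'⟩ := hρ x
      have k : ∀ i, ∀ y ∈ c, L.π n (sh (s i) y) = sh (s' i) y := fun i y hy =>
        hs' y (a3 x hx y hy) i
      exact Subgroup.subset_closure ⟨c, s', a2, (h2.mono a1).conj k, fun y hy i j =>
        k i y hy ▸ k j y hy ▸ h _ _ (h3 y (a1 hy) i j), L.conj n c s s' a2 (h2.mono a1) k⟩

theorem NR_supp {m : N} (hm : m ∈ L.NR R) {ω : X × Q} (h : ∀ ω', ¬R ω ω') : L.π m ω = ω := by
  refine (Subgroup.closure_le ((MulAction.stabilizer _ ω).comap L.π)).2 ?_ hm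
  rintro _ ⟨d, s, h1, h2, h3, rfl⟩
  change L.π (L.T d s) ω = ω
  rw [L.π_T d s h1 h2]
  exact fp_other _ fun i x hx e => h _ (e ▸ h3 x hx i i)

theorem NR_pres (ht : ∀ a b c, R a b → R b c → R a c) {m : N} (hm : m ∈ L.NR R) :
    Pres R (L.π m) := by
  have k : ∀ d s, Fr d s → Sub R d s → ∀ σ, Pres R (fp d s σ) := fun d s h2 h3 σ ω =>
    (fp_step h2 σ ω).imp_right fun ⟨i, j, x, hx, e, e'⟩ => e' ▸ e ▸ h3 x hx i j
  induction hm using Subgroup.closure_induction'' with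
  | mem _ h => obtain ⟨d, s, h1, h2, h3, rfl⟩ := h; exact L.π_T d s h1 h2 ▸ k d s h2 h3 _
  | inv_mem _ h =>
    obtain ⟨d, s, h1, h2, h3, rfl⟩ := h
    rw [map_inv, L.π_T d s h1 h2, cyc, ← map_inv]
    exact k d s h2 h3 _
  | one => exact fun ω => .inl (by simp)
  | mul a b _ _ ha hb =>
    intro ω
    rw [map_mul, Perm.mul_apply]
    rcases hb ω with e | e
    · rw [e]; exact ha ω
    · exact .inr ((ha _).elim (fun e' => e'.symm ▸ e) (ht _ _ _ e))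

/-- elements as words -/
theorem exists_word {m : N} (hm : m ∈ L.NR R) :
    ∃ (ρ : ℕ) (l : List (Set X × (Fin 3 → V × Q))),
      (∀ f ∈ l, Ok lab ρ f ∧ Sub R f.1 f.2) ∧ m = L.wd l Set.univ := by
  have k : ∀ d s, Loc lab d → Fr d s → Sub R d s → ∃ (ρ : ℕ) (l : List (Set X × (Fin 3 → V × Q))),
      (∀ f ∈ l, Ok lab ρ f ∧ Sub R f.1 f.2) ∧ L.T d s = L.wd l Set.univ := fun d s h1 h2 h3 =>
    (exists_ok h1 h2).imp fun ρ h => ⟨[(d, s)], by simpa using ⟨h, h3⟩, by simp [wd]⟩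
  induction hm using Subgroup.closure_induction'' with
  | mem _ h => obtain ⟨d, s, h1, h2, h3, rfl⟩ := h; exact k d s h1 h2 h3
  | inv_mem _ h =>
    obtain ⟨d, s, h1, h2, h3, rfl⟩ := h
    exact L.inv d s h1 h2 ▸ k d _ h1 (h2.comp (by decide)) fun x hx i j => h3 x hx _ _
  | one => exact ⟨0, [], by simp, rfl⟩
  | mul a b _ _ ha hb =>
    obtain ⟨ρ, l, h, rfl⟩ := ha
    obtain ⟨ρ', l', h', rfl⟩ := hb
    exact ⟨ρ + ρ', l ++ l', fun f hf => (List.mem_append.1 hf).elim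
      (fun e => ⟨ok_mono (h f e).1 (by omega), (h f e).2⟩)
      fun e => ⟨ok_mono (h' f e).1 (by omega), (h' f e).2⟩, by simp [wd]⟩

theorem NR_true : L.NR (fun _ _ => True) = ⊤ :=
  top_le_iff.1 (L.gen ▸ Subgroup.closure_mono fun _ ⟨d, s, h1, h2, e⟩ =>
    ⟨d, s, h1, h2, fun _ _ _ _ => trivial, e⟩)

theorem π_wd {ρ : ℕ} {l : List (Set X × (Fin 3 → V × Q))} (hl : ∀ f ∈ l, Ok lab ρ f) {E : Set X}
    (hE : Loc lab E) : L.π (L.wd l E) = P196.wd l E := by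
  rw [wd, map_list_prod, List.map_map]
  exact congrArg List.prod (List.map_congr_left fun f hf => L.π_T _ _
    (Loc.inter ⟨ρ, (hl f hf).1⟩ hE) ((hl f hf).2.1.mono Set.inter_subset_left))

theorem T_close {ρ δ : ℕ} {f : Set X × (Fin 3 → V × Q)} (h : Ok lab ρ f) (h' : Sub R f.1 f.2)
    {E : Set X} (hE : Loc lab E) (hδ : 2 * ρ ≤ δ) : L.T (f.1 ∩ E) f.2 ∈ L.NR (Close R E δ) := by
  refine Subgroup.subset_closure ⟨_, _, Loc.inter ⟨ρ, h.1⟩ hE, h.2.1.mono Set.inter_subset_left,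
    fun x hx i j => ?_, rfl⟩
  have a := h.2.2 i
  have b := h.2.2 j
  simp only [abs_le] at a b
  refine ⟨h' x hx.1 i j, ⟨-(f.2 i).1, ?_, ?_, by simpa [sh] using hx.2⟩,
    (f.2 j).1 + -(f.2 i).1, ?_, ?_, by simp [sh, add_vadd]⟩
  all_goals simp only [abs_le, Prod.fst_neg, Prod.snd_neg, Prod.fst_add, Prod.snd_add]; omega

/-- fragmentation along a local set -/
theorem frag [Finite A] (hs : ∀ a b, R a b → R b a) (ht : ∀ a b c, R a b → R b c → R a c) {ρ : ℕ}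
    {l : List (Set X × (Fin 3 → V × Q))} (hl : ∀ f ∈ l, Ok lab ρ f ∧ Sub R f.1 f.2) {E : Set X}
    (hE : Loc lab E) {δ : ℕ} (hδ : 4 * ρ * (l.length + 1) ≤ δ) :
    L.wd l E ∈ L.NR (Close R E δ) ∧ L.wd l Set.univ * (L.wd l E)⁻¹ ∈ L.NR (Close R Eᶜ δ) := by
  induction l generalizing δ with
  | nil => simp [wd]
  | cons f l ih =>
    obtain ⟨h1, h2⟩ := hl f List.mem_cons_self
    have hl' := fun f hf => hl f (List.mem_cons_of_mem _ hf)
    rw [List.length_cons, mul_add, mul_one] at hδ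
    have l1 : Loc lab f.1 := ⟨ρ, h1.1⟩
    have f1 := h1.2.1.mono (Set.inter_subset_left (t := E))
    refine ⟨mul_mem (L.T_close h1 h2 hE (by omega)) (ih hl' (by omega)).1, ?_⟩
    have e : L.T (f.1 ∩ Set.univ) f.2 = L.T (f.1 ∩ Eᶜ) f.2 * L.T (f.1 ∩ E) f.2 := by
      rw [← L.add _ _ _ (l1.inter hE.compl) (l1.inter hE) (Set.disjoint_left.2 fun _ a b => a.2 b.2)
        (h1.2.1.mono (Set.union_subset Set.inter_subset_left Set.inter_subset_left)),
        ← Set.inter_union_distrib_left, Set.compl_union_self]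
    have k : ∀ ω, ∃ u : V, |u.1| ≤ 2 * ρ ∧ |u.2| ≤ 2 * ρ ∧
        (L.π (L.T (f.1 ∩ E) f.2) ω).1 = u +ᵥ ω.1 ∧ ∀ ω', R ω ω' →
          R (L.π (L.T (f.1 ∩ E) f.2) ω) ω' := fun ω => by
      rw [L.π_T _ _ (l1.inter hE) f1, cyc]
      rcases fp_step f1 (finRotate 3) ω with e | ⟨i, j, x, hx, rfl, e⟩ <;> rw [e]
      · exact ⟨0, by simp, by simp, by simp, fun _ => id⟩
      · have a := h1.2.2 i
        have b := h1.2.2 j
        simp only [abs_le] at a b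
        refine ⟨(f.2 j).1 + -(f.2 i).1, ?_, ?_, by simp [sh, add_vadd],
          fun _ => ht _ _ _ (h2 x hx.1 j i)⟩
        all_goals simp only [abs_le, Prod.fst_neg, Prod.snd_neg, Prod.fst_add, Prod.snd_add]; omega
    have := mul_mem (L.T_close h1 h2 hE.compl (δ := δ) (by omega)) (L.NR_conj (L.T (f.1 ∩ E) f.2)
      (R' := Close R Eᶜ δ) (fun ω ω' ⟨a, ⟨v, v1, v2, v3⟩, w, w1, w2, w3⟩ => by
      obtain ⟨u, u1, u2, u3, u4⟩ := k ω
      obtain ⟨t, t1, t2, t3, t4⟩ := k ω'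
      generalize 4 * ρ * (l.length + 1) = δ' at *
      simp only [abs_le] at *
      refine ⟨hs _ _ (t4 _ (hs _ _ (u4 _ a))), ⟨v + -u, ?_, ?_, by simpa [u3, add_vadd] using v3⟩,
        t + (w + -u), ?_, ?_, by simp [t3, u3, w3, add_vadd]⟩
      all_goals simp only [abs_le, Prod.fst_neg, Prod.snd_neg, Prod.fst_add, Prod.snd_add]; omega)
      (ih hl' le_rfl).2)
    simpa only [wd, List.map_cons, List.prod_cons, e, mul_inv_rev, mul_assoc] using this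

section block

variable {I : Type} {d : Set X} {s : I → V × Q}

/-- the lifts over the bases in a family -/
def NB (s : I → V × Q) (P : Set X → Prop) : Subgroup N :=
  Subgroup.closure {n | ∃ c e, P c ∧ Function.Injective e ∧ n = L.T c (s ∘ e)}

theorem mem_NB {P : Set X → Prop} {c : Set X} (hc : P c) {e : Fin 3 → I}
    (he : Function.Injective e) : L.T c (s ∘ e) ∈ L.NB s P :=
  Subgroup.subset_closure ⟨c, e, hc, he, rfl⟩

theorem NB_le {P : Set X → Prop} (h : Fr d s) (hP : ∀ c, P c → Loc lab c ∧ c ⊆ d) :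
    L.NB s P ≤ L.NR (RF d s) :=
  Subgroup.closure_mono fun _ ⟨c, _, h1, h2, h3⟩ => ⟨c, _, (hP c h1).1,
    (h.mono (hP c h1).2).comp h2, fun x hx _ _ => ⟨x, (hP c h1).2 hx, _, _, rfl, rfl⟩, h3⟩

theorem NB_inj (he : L.Eps) [Fintype I] (hI : 5 ≤ Fintype.card I) (hd : Loc lab d) (h : Fr d s)
    {n : N} (hn : n ∈ L.NB s (· = d)) (h1 : L.π n = 1) : n = 1 := by
  classical
  rcases d.eq_empty_or_nonempty with rfl | ⟨y, hy⟩
  · exact (Subgroup.closure_le ⊥).2 (by rintro _ ⟨_, e, rfl, -, rfl⟩; exact L.T_empty _) hn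
  obtain ⟨t, ht, -⟩ := exists_fresh (∅ : Finset I) 3 (by simp; omega)
  have pq : t 0 ≠ t 1 := ht.ne (by decide)
  let S : Finset I := {i | i ≠ t 0 ∧ i ≠ t 1}
  have j3 : ∀ i ∈ S, Function.Injective ![t 0, t 1, i] := fun i hi =>
    inj3 pq (Finset.mem_filter.1 hi).2.1.symm (Finset.mem_filter.1 hi).2.2.symm
  have a : ∀ i ∈ S, L.π (L.T d (s ∘ ![t 0, t 1, i])) = cyc d (s ∘ ![t 0, t 1, i]) := fun i hi =>
    L.π_T _ _ hd (h.comp (j3 i hi))
  refine carmichael L.π S (fun i => L.T d (s ∘ ![t 0, t 1, i])) (sh (s (t 0)) y) (sh (s (t 1)) y)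
    (fun i => sh (s i) y) (fun i hi => L.cube _ _ hd (h.comp (j3 i hi))) (fun i hi j hj ij => ?_)
    (fun i hi => a i hi ▸ fp_apply (h.comp (j3 i hi)) _ hy 0)
    (fun i hi => a i hi ▸ fp_apply (h.comp (j3 i hi)) _ hy 1)
    (fun i hi => a i hi ▸ fp_apply (h.comp (j3 i hi)) _ hy 2)
    (fun i hi j hj ij => a i hi ▸ fp_other _ fun k x hx e => ?_)
    (fun e => pq (h _ _ y hy y hy e)) ((Subgroup.closure_le _).2 ?_ hn) h1
  · simp only [S, Finset.mem_filter] at hi hj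
    have := he d (s ∘ ![t 0, t 1, i, j]) hd (h.comp
      (inj4 pq hi.2.1.symm hi.2.2.symm hj.2.1.symm hj.2.2.symm ij))
    rwa [show (s ∘ ![t 0, t 1, i, j]) ∘ ![0, 1, 2] = s ∘ ![t 0, t 1, i] from
      funext fun k => by fin_cases k <;> rfl, show (s ∘ ![t 0, t 1, i, j]) ∘ ![0, 1, 3] =
        s ∘ ![t 0, t 1, j] from funext fun k => by fin_cases k <;> rfl] at this
  · have := h _ _ y hy x hx e
    simp only [S, Finset.mem_filter] at hj
    fin_cases k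
    exacts [hj.2.1 this, hj.2.2 this, ij this.symm]
  · rintro _ ⟨c, e, hc, hj, rfl⟩
    rw [show c = d from hc]
    set C := Subgroup.closure ((fun i => L.T d (s ∘ ![t 0, t 1, i])) '' S)
    have m : t 2 ∈ S := by simp [S, ht.eq_iff]
    have k : ∀ σ ∈ (C.map L.π).comap (fp d s), L.T d (s ∘ σ ∘ ![t 0, t 1, t 2]) ∈ C := by
      rintro σ ⟨u, hu, e⟩
      rw [← L.conj u d _ _ hd (h.comp (j3 _ m)) fun i x hx => e ▸ fp_apply h σ hx _]
      exact mul_mem (mul_mem hu (Subgroup.subset_closure ⟨_, m, rfl⟩)) (inv_mem hu)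
    obtain ⟨σ, hσ⟩ := Perm.exists_extending_pair _ e (j3 _ m) hj
    rcases gen_alt ((C.map L.π).comap (fp d s)) (p := t 0) (q := t 1) (fun i i0 i1 =>
      ⟨_, Subgroup.subset_closure ⟨i, by simp [S, i0, i1], rfl⟩, (a i (by simp [S, i0, i1])).trans
        (cyc_eq h pq i0.symm i1.symm)⟩) σ with b | b
    · exact funext hσ ▸ k σ b
    · rw [SetLike.mem_coe, ← inv_mem_iff, ← L.inv d _ hd (h.comp hj)]
      refine (funext fun i => ?_ : _ = (s ∘ e) ∘ ![1, 0, 2]) ▸ k _ b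
      fin_cases i <;> simp [← hσ, swap_apply_of_ne_of_ne, ht.eq_iff]

theorem NR_le_NB [Finite I] (hf : Free X) (h : Fr d s) (hd : Loc lab d) :
    L.NR (RF d s) ≤ L.NB s fun c => Loc lab c ∧ c ⊆ d := by
  classical
  refine (Subgroup.closure_le _).2 ?_
  rintro _ ⟨c, t, a1, a2, a3, rfl⟩
  have fin : {e : Fin 3 → I | Function.Injective e ∧
      t = fun k => ((s (e k)).1 + ((t 0).1 - (s (e 0)).1), (s (e k)).2)}.Finite := Set.toFinite _
  refine Loc.ind_cover fin.toFinset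
    (fun e => {x | ((t 0).1 - (s (e 0)).1) +ᵥ x ∈ d}) (fun _ _ => hd.shift _)
    (P := fun c' => c' ⊆ c → L.T c' t ∈ L.NB s fun c => Loc lab c ∧ c ⊆ d) (fun _ => ?_)
    (fun c1 c2 b1 b2 b3 b4 b5 b6 => ?_) a1 (fun x hx => ?_) (fun e he c' b1 b2 b3 => ?_) le_rfl
  · simp [T_empty]
  · rw [L.add c1 c2 t b1 b2 b3 (a2.mono b6)]
    exact mul_mem (b4 (Set.subset_union_left.trans b6)) (b5 (Set.subset_union_right.trans b6))
  · choose y hy i e e1 e2 using a3 x hx 0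
    have y0 : ∀ k, y k = y 0 := fun k =>
      sh_inj (h _ _ _ (hy k) _ (hy 0) ((e1 k).symm.trans (e1 0)) ▸ (e1 k).symm.trans (e1 0))
    have z : ∀ k, ((t k).1 - (s (e k)).1) +ᵥ x = y 0 := fun k => by
      rw [sub_eq_neg_add, add_vadd, neg_vadd_eq_iff, ← y0 k]
      exact congrArg Prod.fst (e2 k)
    refine ⟨e, fin.mem_toFinset.2 ⟨fun k k' ek => a2 k k' x hx x hx
      (by rw [e2, e2, ek, y0 k, y0 k']), funext fun k => Prod.ext ?_ (congrArg Prod.snd (e2 k) :)⟩,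
      show _ ∈ d from z 0 ▸ hy 0⟩
    have := hf (-((t 0).1 - (s (e 0)).1) + ((t k).1 - (s (e k)).1)) x
      (by rw [add_vadd, z k, ← z 0, neg_vadd_vadd])
    rw [neg_add_eq_zero.1 this]
    simp
  · obtain ⟨e1, e2⟩ := fin.mem_toFinset.1 he
    generalize (t 0).1 - (s (e 0)).1 = w at b1 e2
    have c1 : {x | -w +ᵥ x ∈ c'} ⊆ d := fun x hx => by simpa using (b1 hx).2
    have := L.shift _ (s ∘ e) w (b2.shift (-w)) ((h.mono c1).comp e1)
    simp only [Set.mem_ofPred_eq, neg_vadd_vadd, Set.ofPred_mem_eq, Function.comp_apply] at this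
    rw [e2, this]
    exact L.mem_NB ⟨b2.shift _, c1⟩ e1

theorem exists_rad {P : Set X → Prop} {n : N} (hn : n ∈ L.NB s fun c => Loc lab c ∧ P c) :
    ∃ ρ, n ∈ L.NB s fun c => (Loc lab c ∧ P c) ∧ ∀ x y, Agree lab ρ x y → x ∈ c → y ∈ c := by
  have m : ∀ {ρ ρ' : ℕ}, ρ ≤ ρ' → (L.NB s fun c => (Loc lab c ∧ P c) ∧
      ∀ x y, Agree lab ρ x y → x ∈ c → y ∈ c) ≤ L.NB s fun c => (Loc lab c ∧ P c) ∧
      ∀ x y, Agree lab ρ' x y → x ∈ c → y ∈ c := fun r => Subgroup.closure_mono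
    fun _ ⟨c, e, a1, a2⟩ => ⟨c, e, ⟨a1.1, fun x y b => a1.2 x y (b.mono r)⟩, a2⟩
  induction hn using Subgroup.closure_induction with
  | mem _ a =>
    obtain ⟨c, e, a1, a2, rfl⟩ := a
    exact a1.1.imp fun ρ b => L.mem_NB ⟨a1, b⟩ a2
  | one => exact ⟨0, one_mem _⟩
  | mul _ _ _ _ a b =>
    obtain ⟨ρ, a⟩ := a
    obtain ⟨ρ', b⟩ := b
    exact ⟨ρ + ρ', mul_mem (m (by omega) a) (m (by omega) b)⟩
  | inv _ _ a => exact a.imp fun _ => inv_mem

theorem cls_inj (he : L.Eps) [Fintype I] (hI : 5 ≤ Fintype.card I) (hd : Loc lab d) (h : Fr d s)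
    {B : Type} {κ : X → B} (l : ∀ S : Set B, Loc lab {x | κ x ∈ S}) (F : Finset B) {n : N}
    (a : n ∈ L.NB s fun c => ∃ b ∈ F, c = d ∩ {x | κ x ∈ ({b} : Set B)}) (a1 : L.π n = 1) :
    n = 1 := by
  classical
  induction F using Finset.induction_on generalizing n with
  | empty => exact (Subgroup.closure_le ⊥).2 (by rintro _ ⟨_, _, ⟨_, a, _⟩, _⟩; simp at a) a
  | insert b F hb ih =>
    set W := L.NB s fun c => ∃ b ∈ F, c = d ∩ {x | κ x ∈ ({b} : Set B)} with hW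
    have lc : Loc lab (d ∩ {x | κ x ∈ ({b} : Set B)}) := hd.inter (l _)
    have c1 : Fr (d ∩ {x | κ x ∈ ({b} : Set B)}) s := h.mono Set.inter_subset_left
    have f : ∀ m ∈ W, ∀ i, ∀ x ∈ d ∩ {x | κ x ∈ ({b} : Set B)},
        L.π m (sh (s i) x) = sh (s i) x := fun m hm i x hx => by
      refine L.NR_supp (L.NB_le (h.mono (Set.inter_subset_left (t := {x | κ x ∈ F}))) ?_ hm) ?_
      · rintro _ ⟨b', a, rfl⟩
        exact ⟨hd.inter (l _), fun x hx => ⟨hx.1, show κ x ∈ F from hx.2 ▸ a⟩⟩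
      · rintro _ ⟨y, hy, j, _, e, -⟩
        obtain rfl := h _ _ x hx.1 y hy.1 e
        exact hb (hx.2 ▸ sh_inj e ▸ hy.2)
    have : n ∈ L.NB s (· = d ∩ {x | κ x ∈ ({b} : Set B)}) ⊔ W := (Subgroup.closure_le _).2 (by
      rintro _ ⟨_, e, ⟨b', a, rfl⟩, he, rfl⟩
      rcases Finset.mem_insert.1 a with rfl | a
      · exact Subgroup.mem_sup_left (L.mem_NB (P := (· = _)) rfl he)
      · exact Subgroup.mem_sup_right (hW ▸ L.mem_NB ⟨b', a, rfl⟩ he)) a
    generalize d ∩ {x | κ x ∈ ({b} : Set B)} = c at lc c1 f this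
    have g : W ≤ Subgroup.normalizer (L.NB s (· = c) : Set N) := fun m hm =>
      Subgroup.centralizer_le_normalizer _ (by
        rw [NB, Subgroup.centralizer_closure]
        rintro _ ⟨_, e, rfl, he, rfl⟩
        exact (mul_inv_eq_iff_eq_mul.1 (L.conj m _ _ _ lc (c1.comp he) fun i => f m hm _)).symm)
    rw [← SetLike.mem_coe, Subgroup.coe_mul_of_right_le_normalizer_left _ _ g] at this
    obtain ⟨n1, m1, n2, m2, rfl⟩ := this
    obtain rfl : n1 = 1 := L.NB_inj he hI lc c1 m1 (Equiv.ext fun ω => by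
      by_cases e : ∃ ω', RF c s ω ω'
      · obtain ⟨_, x, hx, i, -, rfl, -⟩ := e
        simpa [f n2 m2 i x hx] using DFunLike.congr_fun a1 (sh (s i) x)
      · exact L.NR_supp (L.NB_le (P := (· = c)) c1 (fun _ e => ⟨e ▸ lc, e.le⟩) m1) (not_exists.1 e))
    simpa using ih m2 (by simpa using a1)

theorem T_mem_cls {B : Type} [Fintype B] {κ : X → B} (l : ∀ S : Set B, Loc lab {x | κ x ∈ S})
    (h : Fr d s) {c : Set X} (a1 : Loc lab c) (a2 : c ⊆ d) (a3 : ∀ x y, κ x = κ y → x ∈ c → y ∈ c)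
    {e : Fin 3 → I} (a4 : Function.Injective e) : L.T c (s ∘ e) ∈
      L.NB s fun c => ∃ b ∈ Finset.univ, c = d ∩ {x | κ x ∈ ({b} : Set B)} := by
  classical
  suffices ∀ F : Finset B, L.T (c ∩ {x | κ x ∈ (F : Set B)}) (s ∘ e) ∈ _ by
    simpa only [Finset.coe_univ, Set.mem_univ, Set.ofPred_true, Set.inter_univ]
      using this Finset.univ
  intro F
  induction F using Finset.induction_on with
  | empty => simp [T_empty]
  | insert b F hb ih =>
    rw [show c ∩ {x | κ x ∈ (↑(insert b F) : Set B)} = c ∩ {x | κ x ∈ ({b} : Set B)} ∪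
      c ∩ {x | κ x ∈ (F : Set B)} by ext; simp [and_or_left], L.add _ _ _ (a1.inter (l {b}))
      (a1.inter (l F)) (Set.disjoint_left.2 fun x u v => hb ((u.2 : κ x = b) ▸ v.2))
      ((h.mono fun x hx => a2 (hx.elim And.left And.left)).comp a4)]
    refine mul_mem ?_ ih
    rcases (c ∩ {x | κ x ∈ ({b} : Set B)}).eq_empty_or_nonempty with z | ⟨x, hx⟩
    · simp only [z, T_empty, one_mem]
    · exact L.mem_NB ⟨b, Finset.mem_univ _, Set.ext fun y => ⟨fun u => ⟨a2 u.1, u.2⟩, fun u =>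
        ⟨a3 x y (hx.2.trans u.2.symm) hx.1, u.2⟩⟩⟩ a4

theorem block_inj [Finite A] (hf : Free X) (he : L.Eps) {I : Type} [Fintype I]
    (hI : 5 ≤ Fintype.card I) {d : Set X} {s : I → V × Q} (hd : Loc lab d) (h : Fr d s) {n : N}
    (hn : n ∈ L.NR (RF d s)) (h1 : L.π n = 1) : n = 1 := by
  obtain ⟨ρ, hρ⟩ := L.exists_rad (L.NR_le_NB hf h hd hn)
  let B := (Finset.Icc (-ρ : ℤ) ρ ×ˢ Finset.Icc (-ρ : ℤ) ρ : Finset V) → A
  let κ : X → B := fun x v => lab (v.1 +ᵥ x)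
  have hκ : ∀ x y, Agree lab ρ x y ↔ κ x = κ y := fun x y =>
    ⟨fun a => funext fun v => by
      have := v.2
      simp only [Finset.mem_product, Finset.mem_Icc, ← abs_le] at this
      exact a _ this.1 this.2, fun a v v1 v2 => congrFun a ⟨v, by simp [← abs_le, v1, v2]⟩⟩
  have l : ∀ S : Set B, Loc lab {x | κ x ∈ S} := Loc.of_fun fun x y => (hκ x y).1
  have := Fintype.ofFinite B
  refine L.cls_inj he hI hd h l Finset.univ ((Subgroup.closure_le _).2 ?_ hρ) h1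
  rintro _ ⟨c, e, ⟨⟨a1, a2⟩, a3⟩, a4, rfl⟩
  exact L.T_mem_cls l h a1 a2 (fun x y u => a3 x y ((hκ x y).2 u)) a4

end block

theorem block_surj [Finite A] {I : Type} [Fintype I] [DecidableEq I] {d : Set X} {s : I → V × Q}
    (hd : Loc lab d) (h : Fr d s) {σ : X → Perm I} {ρ : ℕ}
    (hσ : ∀ x ∈ d, ∀ y ∈ d, Agree lab ρ x y → σ x = σ y) (hπ : ∀ x ∈ d, Perm.sign (σ x) = 1) :
    ∃ n ∈ L.NR (RF d s), L.π n = fq d s σ := by
  refine Loc.ind ρ (P := fun c => c ⊆ d → fq c s σ ∈ (L.NR (RF d s)).map L.π) (fun _ => ?_)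
    (fun c c' _ _ a3 a4 a5 a6 => ?_) hd (fun c a1 a2 a3 _ => ?_) le_rfl
  · rw [fq_empty]; exact one_mem _
  · rw [fq_union (h.mono a6) a3]
    exact mul_mem (a4 (Set.subset_union_left.trans a6)) (a5 (Set.subset_union_right.trans a6))
  · rcases c.eq_empty_or_nonempty with rfl | ⟨x, hx⟩
    · rw [fq_empty]; exact one_mem _
    rw [fq_congr (σ' := fun _ => σ x) fun y hy => hσ y (a1 hy) x (a1 hx) (a3 y hy x hx)]
    refine (Subgroup.closure_le (((L.NR (RF d s)).map L.π).comap (fp c s))).2 (fun g hg => ?_)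
      (Perm.closure_three_cycles_eq_alternating.ge (hπ x (a1 hx)))
    obtain ⟨a, ha⟩ := (Finset.card_pos (s := g.support)).1 (by rw [hg.card_support]; decide)
    have n := hg.nodup_iff_mem_support.2 ha
    simp only [List.nodup_cons, List.mem_cons, List.not_mem_nil, or_false, not_or] at n
    have j := inj3 n.1.1 n.1.2 n.2.1
    exact ⟨_, L.NB_le h (fun _ e => e) (L.mem_NB (P := fun c => Loc lab c ∧ c ⊆ d) ⟨a2, a1⟩ j),
      (L.π_T _ _ a2 ((h.mono a1).comp j)).trans ((cyc_eq (h.mono a1) n.1.1 n.1.2 n.2.1).trans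
        (congrArg _ (hg.eq_swap_mul_swap_iff_mem_support.2 ha).symm))⟩

end Lift

end Vale.Agent.P196
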