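import Vale.Agent.P196.SSL
import Vale.Agent.P196.KD

/-! Group theoretic lemmas for block systems. -/

namespace Vale.Agent.P196

open Equiv

variable {X A Q : Type} [AddAction V X] {lab : X → A} {N : Type} [Group N]

/-- Carmichael's presentation of the alternating groups, as an injectivity statement -/
theorem carmichael {I Ω : Type} (π : N →* Perm Ω) (S : Finset I) (x : I → N) (p q : Ω) (o : I → Ω)
    (h3 : ∀ i ∈ S, x i ^ 3 = 1) (h2 : ∀ i ∈ S, ∀ j ∈ S, i ≠ j → (x i * x j) ^ 2 = 1)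
    (hp : ∀ i ∈ S, π (x i) p = q) (hq : ∀ i ∈ S, π (x i) q = o i) (ho : ∀ i ∈ S, π (x i) (o i) = p)
    (hf : ∀ i ∈ S, ∀ j ∈ S, i ≠ j → π (x i) (o j) = o j) (hpq : p ≠ q) {n : N}
    (hn : n ∈ Subgroup.closure (x '' S)) (h1 : π n = 1) : n = 1 := by
  classical
  induction S using Finset.induction_on generalizing n with
  | empty => simpa using hn
  | insert a S ha ih =>
    have m : ∀ i ∈ S, i ∈ insert a S := fun _ => Finset.mem_insert_of_mem
    have ma := Finset.mem_insert_self a S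
    have na : ∀ i ∈ S, i ≠ a := fun i hi e => ha (e ▸ hi)
    have c : ∀ i ∈ insert a S, ∀ y, x i * (x i * (x i * y)) = y := fun i hi y => by
      rw [← mul_assoc, ← mul_assoc, ← pow_three', h3 i hi, one_mul]
    have r : ∀ i ∈ insert a S, ∀ j ∈ insert a S, i ≠ j → ∀ y,
        x i * (x j * y) = x j * (x j * (x i * (x i * y))) := fun i hi j hj ij y => by
      apply mul_left_cancel (a := x i * x j)
      rw [mul_assoc, mul_assoc, c j hj, c i hi, ← mul_assoc, ← mul_assoc, ← mul_assoc,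
        mul_assoc (x i * x j), ← sq, h2 i hi j hj ij, one_mul]
    let H := Subgroup.closure (x '' S)
    have g : ∀ i ∈ S, ∀ h ∈ H, x i * h ∈ H := fun i hi h hh =>
      H.mul_mem (Subgroup.subset_closure ⟨i, hi, rfl⟩) hh
    let P : N → Prop := fun n => ∃ h ∈ H, n = h ∨ n = x a * h ∨ n = x a * (x a * h) ∨
      ∃ i ∈ S, n = x i * (x a * (x a * h))
    have step : ∀ j ∈ insert a S, ∀ n, P n → P (x j * n) := by
      intro j hj n ⟨h, hh, e⟩
      rcases Finset.mem_insert.1 hj with rfl | hj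
      · rcases e with rfl | rfl | rfl | ⟨i, hi, rfl⟩
        · exact ⟨_, hh, .inr (.inl rfl)⟩
        · exact ⟨_, hh, .inr (.inr (.inl rfl))⟩
        · exact ⟨_, hh, .inl (c _ ma _)⟩
        · refine ⟨_, g i hi _ (g i hi _ hh), .inr (.inr (.inr ⟨i, hi, ?_⟩))⟩
          rw [r _ ma i (m i hi) (na i hi).symm, c _ ma, r i (m i hi) _ ma (na i hi)]
      · rcases e with rfl | rfl | rfl | ⟨i, hi, rfl⟩
        · exact ⟨_, g j hj _ hh, .inl rfl⟩
        · exact ⟨_, g j hj _ (g j hj _ hh), .inr (.inr (.inl (r j (m j hj) a ma (na j hj) _)))⟩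
        · exact ⟨_, hh, .inr (.inr (.inr ⟨j, hj, rfl⟩))⟩
        · by_cases e : j = i
          · exact ⟨_, g j hj _ hh, .inr (.inl (e ▸ (r a ma j (m j hj) (na j hj).symm _).symm))⟩
          · refine ⟨_, g i hi _ (g i hi _ (g j hj _ hh)), .inr (.inr (.inr ⟨i, hi, ?_⟩))⟩
            rw [r j (m j hj) i (m i hi) e, ← r a ma j (m j hj) (na j hj).symm,
              r i (m i hi) a ma (na i hi)]
    have hP : P n := by
      clear h1
      induction hn using Subgroup.closure_induction_left with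
      | one => exact ⟨1, H.one_mem, .inl rfl⟩
      | mul_left _ hy n _ h => obtain ⟨j, hj, rfl⟩ := hy; exact step j hj n h
      | inv_mul_cancel _ hy n _ h =>
        obtain ⟨j, hj, rfl⟩ := hy
        rw [show (x j)⁻¹ * n = x j * (x j * n) from inv_mul_eq_iff_eq_mul.2 (c j hj n).symm]
        exact step j hj _ (step j hj n h)
    obtain ⟨h, hh, e⟩ := hP
    have f : π h (o a) = o a := (Subgroup.closure_le ((MulAction.stabilizer _ (o a)).comap π)).2
      (by rintro _ ⟨i, hi, rfl⟩; exact hf i (m i hi) a ma (na i hi)) hh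
    have k : π n (o a) = o a := by rw [h1]; rfl
    have np : p ≠ o a := fun e => hpq ((ho a ma).symm.trans (e ▸ hp a ma))
    rcases e with rfl | rfl | rfl | ⟨i, hi, rfl⟩
    · exact ih (fun i hi => h3 i (m i hi)) (fun i hi j hj => h2 i (m i hi) j (m j hj))
        (fun i hi => hp i (m i hi)) (fun i hi => hq i (m i hi)) (fun i hi => ho i (m i hi))
        (fun i hi j hj => hf i (m i hi) j (m j hj)) hh h1
    all_goals simp only [map_mul, Perm.mul_apply, f, ho a ma, hp a ma] at k
    · exact absurd k np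
    · exact absurd ((k ▸ hq a ma).symm.trans (ho a ma)).symm np
    · rw [hq i (m i hi)] at k
      exact absurd ((ho i (m i hi)).symm.trans (k ▸ hf i (m i hi) a ma (na i hi))) np

theorem KBlockAux.gen_alt {I : Type} [Finite I] [DecidableEq I] {p q : I} (D : Subgroup (Perm I))
    (h : ∀ i, i ≠ p → i ≠ q → swap p q * swap q i ∈ D) (σ : Perm I) :
    σ ∈ D ∨ σ * swap p q ∈ D := by
  have b : ∀ i, i ≠ q → swap p q * swap q i ∈ D := fun i hi => by
    by_cases e : i = p
    · rw [e, swap_comm q, swap_mul_self]; exact D.one_mem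
    · exact h i e hi
  have i : ∀ {a c}, swap p q * swap a c ∈ D → swap a c * swap p q ∈ D := fun h => by
    simpa using D.inv_mem h
  have t : ∀ a c, a ≠ c → swap p q * swap a c ∈ D := fun a c ac => by
    by_cases e : a = q
    · exact e ▸ b c (e ▸ ac.symm)
    by_cases e' : c = q
    · exact e' ▸ swap_comm a c ▸ e' ▸ b a e
    have := D.mul_mem (b a e) (D.mul_mem (i (b c e')) (b a e))
    rwa [mul_assoc (swap q c), swap_mul_self_mul, mul_assoc, ← mul_assoc (swap q a), swap_comm q c,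
      swap_mul_swap_mul_swap e' ac.symm] at this
  suffices (σ ∈ D ∧ swap p q * σ * swap p q ∈ D) ∨ (σ * swap p q ∈ D ∧ swap p q * σ ∈ D) from
    this.imp And.left And.left
  induction σ using Perm.swap_induction_on with
  | one => exact .inl ⟨D.one_mem, by simp⟩
  | swap_mul f a c ac ih =>
    rcases ih with ⟨h1, h2⟩ | ⟨h1, h2⟩
    · exact .inr ⟨by simpa [mul_assoc] using D.mul_mem (i (t a c ac)) h2,
        by simpa [mul_assoc] using D.mul_mem (t a c ac) h1⟩
    · exact .inl ⟨by simpa [mul_assoc] using D.mul_mem (i (t a c ac)) h2,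
        by simpa [mul_assoc] using D.mul_mem (t a c ac) h1⟩

theorem exists_fq {I : Type} [Finite I] {d : Set X} {s : I → V × Q} (h : Fr d s)
    {g : Perm (X × Q)} (hg : Pres (RF d s) g) : ∃ σ : X → Perm I, g = fq d s σ := by
  have k : ∀ x, ∃ σ : Perm I, x ∈ d → ∀ i, g (sh (s i) x) = sh (s (σ i)) x := fun x => by
    by_cases hx : x ∈ d
    · have : ∀ i, ∃ j, g (sh (s i) x) = sh (s j) x := fun i => by
        rcases hg (sh (s i) x) with e | ⟨y, hy, i', j, e, e'⟩
        · exact ⟨i, e⟩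
        · obtain rfl := h _ _ x hx y hy e
          exact ⟨j, sh_inj e ▸ e'⟩
      choose f hf using this
      exact ⟨Equiv.ofBijective f (Finite.injective_iff_bijective.1 fun i j e =>
        h i j x hx x hx (g.injective (by rw [hf, hf, e]))), fun _ => hf⟩
    · exact ⟨1, fun h => absurd h hx⟩
  choose σ hσ using k
  exact ⟨σ, eq_fq h (fun i x hx => hσ x hx i) fun ω hω =>
    (hg ω).resolve_right fun ⟨y, hy, i, _, e, _⟩ => hω i y hy e⟩

theorem cx_wd {B : Type} {lab' : X → B} {ρ : ℕ} {l : List (Set X × (Fin 3 → V × Q))} {E : Set X}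
    (hl : ∀ f ∈ l, Ok lab' ρ (f.1 ∩ E, f.2)) : Cx lab' (2 * ρ * l.length) (wd l E) := by
  induction l with
  | nil => exact Cx.one
  | cons f l ih =>
    obtain ⟨h1, h2, h3⟩ := hl f List.mem_cons_self
    exact ((cx_cyc h1 h2 h3).mul (ih fun f hf => hl f (List.mem_cons_of_mem _ hf))).mono
      (by rw [List.length_cons, mul_add, mul_one, add_comm])

/-- two decompositions of central elements that differ by a common part -/
theorem split_lemma {G : Type} [Group G] (π : N →* G) (hc : π.ker ≤ Subgroup.center N)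
    {NA NB : Subgroup N} {w w' β β' δ : N} (hw : π w = 1) (hw' : π w' = 1) (hβ : β ∈ NB)
    (hβ' : β' ∈ NB) (hα : w * β⁻¹ ∈ NA) (hα' : w' * β'⁻¹ ∈ NA) (h1 : δ ∈ NA) (h2 : δ ∈ NB)
    (h3 : π δ = π β * (π β')⁻¹) :
    ∃ k1 ∈ NA, ∃ k2 ∈ NB, π k1 = 1 ∧ π k2 = 1 ∧ w * w'⁻¹ = k1 * k2 := by
  have h4 : π (δ⁻¹ * (β * β'⁻¹)) = 1 := by simp [h3]
  refine ⟨w * β⁻¹ * δ * (w' * β'⁻¹)⁻¹, NA.mul_mem (NA.mul_mem hα h1) (NA.inv_mem hα'), _,
    NB.mul_mem (NB.inv_mem h2) (NB.mul_mem hβ (NB.inv_mem hβ')), by simp [hw, hw', h3], h4, ?_⟩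
  rw [mul_assoc, Subgroup.mem_center_iff.1 (hc h4)]
  group

/-- a set whose finite subsets carry bounded invariants with finite fibres is finite -/
theorem finite_of_bounded {G B : Type} [Group G] [Finite B] {S K : Set G} (hK : K.Finite)
    (h : ∀ F : Finset G, (F : Set G) ⊆ S → ∃ D : G → B, ∀ w ∈ F, ∀ w' ∈ F, D w = D w' →
      w * w'⁻¹ ∈ K) : S.Finite := by
  classical
  have := Fintype.ofFinite B
  by_contra hS
  obtain ⟨F, h1, h2⟩ := Set.Infinite.exists_subset_card_eq hS
    ((Finset.univ (α := B) ×ˢ hK.toFinset).card + 1)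
  obtain ⟨D, hD⟩ := h F h1
  have := Finset.card_le_card_of_injOn (s := F) (t := Finset.univ (α := B) ×ˢ hK.toFinset)
    (fun w => (D w, w * (Function.invFunOn D F (D w))⁻¹)) (fun w hw => by
      simpa using hD w hw _ (Function.invFunOn_mem ⟨w, hw, rfl⟩)
        (Function.invFunOn_eq ⟨w, hw, rfl⟩).symm) fun w _ w' _ e => by
      obtain ⟨e1, e2⟩ := Prod.mk.inj e
      rwa [e1, mul_left_inj] at e2
  omega

end Vale.Agent.P196
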