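import Vale.Agent.P196.KBlock

/-! Rectangles and bands of a grid. -/

namespace Vale.Agent.P196

open Equiv

variable {X A Q : Type} [AddAction V X] {lab : X → A} {N : Type} [Group N]

namespace KRectAux

theorem eq_of_modEq {m a b : ℤ} (e : a ≡ b [ZMOD m]) (ha : 0 ≤ a ∧ a < m) (hb : 0 ≤ b ∧ b < m) :
    a = b := by
  rw [Int.ModEq, Int.emod_eq_of_lt ha.1 ha.2, Int.emod_eq_of_lt hb.1 hb.2] at e
  exact e

theorem emod_of_modEq {m a b : ℤ} (e : a ≡ b [ZMOD m]) (hb : 0 ≤ b ∧ b < m) : a % m = b := by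
  rw [Int.ModEq, Int.emod_eq_of_lt hb.1 hb.2] at e
  exact e

theorem in_emod {m l p t p' : ℤ} (hl : l ≤ m) (H : In m l p t) (e : p' ≡ p + t [ZMOD m]) :
    p' % m = p % m + t := by
  refine emod_of_modEq (e.trans ((Int.mod_modEq p m).symm.add_right t)) ⟨H.2.1, ?_⟩
  exact H.2.2.trans_le hl

theorem in_symm {m l p t p' : ℤ} (hm : 0 < m) (hl : l ≤ m) (H : In m l p t)
    (e : p' ≡ p + t [ZMOD m]) : In m l p' (-t) := by
  have := in_emod hl H e
  have h0 := Int.emod_nonneg p hm.ne'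
  obtain ⟨a, b, c⟩ := H
  refine ⟨?_, ?_, ?_⟩ <;> omega

theorem in_trans {m l p t p' t' : ℤ} (hl : l ≤ m) (H : In m l p t) (e : p' ≡ p + t [ZMOD m])
    (H' : In m l p' t') : In m l p (t' + t) := by
  have := in_emod hl H e
  obtain ⟨a, b, c⟩ := H
  obtain ⟨a', b', c'⟩ := H'
  refine ⟨?_, ?_, ?_⟩ <;> omega

theorem in_mono {m l l' p t : ℤ} (hl : l ≤ l') (H : In m l p t) : In m l' p t :=
  ⟨H.1.trans_le hl, H.2.1, H.2.2.trans_le hl⟩

theorem in_congr {m l p p' t : ℤ} (e : p ≡ p' [ZMOD m]) (H : In m l p t) : In m l p' t := by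
  unfold In at H ⊢
  rw [← show p % m = p' % m from e]
  exact H

theorem a_pos (h : Lev lab) (s : ℕ) : 0 < h.a s := by
  have := h.a_ge s; omega

theorem b_pos (h : Lev lab) (s : ℕ) : 0 < h.b s := by
  have := h.b_ge s; omega

theorem px_sub (h : Lev lab) (s : ℕ) (v : V) (x : X) (c : ℤ) :
    h.px s (v +ᵥ x) - c ≡ h.px s x - c + v.1 [ZMOD h.a s] := by
  have := (h.px_add s v x).sub_right c
  rwa [show h.px s x + v.1 - c = h.px s x - c + v.1 by ring] at this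

theorem py_sub (h : Lev lab) (s : ℕ) (v : V) (x : X) (c : ℤ) :
    h.py s (v +ᵥ x) - c ≡ h.py s x - c + v.2 [ZMOD h.b s] := by
  have := (h.py_add s v x).sub_right c
  rwa [show h.py s x + v.2 - c = h.py s x - c + v.2 by ring] at this

end KRectAux

open KRectAux

namespace Lev

variable (h : Lev lab) {s : ℕ} {x1 k y1 l : ℤ}

theorem Ry_symm (hl : l ≤ h.b s) (a b : X × Q) (H : h.Ry s y1 l a b) : h.Ry s y1 l b a := by
  obtain ⟨v, e, H⟩ := H
  refine ⟨-v, by rw [e, neg_vadd_vadd], in_symm (b_pos h s) hl H ?_⟩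
  rw [e]
  exact py_sub h s v _ _

theorem Ry_trans (hl : l ≤ h.b s) (a b c : X × Q) (H : h.Ry s y1 l a b) (H' : h.Ry s y1 l b c) :
    h.Ry s y1 l a c := by
  obtain ⟨v, e, H⟩ := H
  obtain ⟨v', e', H'⟩ := H'
  refine ⟨v' + v, by rw [e', e, add_vadd], in_trans hl H ?_ H'⟩
  rw [e]
  exact py_sub h s v _ _

theorem Rr_symm (hk : k ≤ h.a s) (hl : l ≤ h.b s) (a b : X × Q) (H : h.Rr s x1 k y1 l a b) :
    h.Rr s x1 k y1 l b a := by
  obtain ⟨v, e, H1, H2⟩ := H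
  refine ⟨-v, by rw [e, neg_vadd_vadd], in_symm (a_pos h s) hk H1 ?_,
    in_symm (b_pos h s) hl H2 ?_⟩
  · rw [e]
    exact px_sub h s v _ _
  · rw [e]
    exact py_sub h s v _ _

theorem Rr_trans (hk : k ≤ h.a s) (hl : l ≤ h.b s) (a b c : X × Q) (H : h.Rr s x1 k y1 l a b)
    (H' : h.Rr s x1 k y1 l b c) : h.Rr s x1 k y1 l a c := by
  obtain ⟨v, e, H1, H2⟩ := H
  obtain ⟨v', e', H1', H2'⟩ := H'
  refine ⟨v' + v, by rw [e', e, add_vadd], in_trans hk H1 ?_ H1', in_trans hl H2 ?_ H2'⟩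
  · rw [e]
    exact px_sub h s v _ _
  · rw [e]
    exact py_sub h s v _ _

theorem Ry_nest {t : ℕ} (hst : s ≤ t) (a b : X × Q) (H : h.Ry s 0 (h.b s) a b) :
    h.Ry t 0 (h.b t) a b := by
  obtain ⟨v, e, -, H2, H3⟩ := H
  refine ⟨v, e, ?_⟩
  obtain ⟨p1, p2⟩ := h.py_mem s a.1
  obtain ⟨q1, q2⟩ := h.py_mem t a.1
  rw [sub_zero, Int.emod_eq_of_lt p1 p2] at H2 H3
  unfold In
  rw [sub_zero, Int.emod_eq_of_lt q1 q2]
  obtain ⟨j, hj⟩ := h.b_dvd_le hst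
  obtain ⟨i, hi⟩ := (h.py_nest_le hst a.1).symm.dvd
  have hb := b_pos h s
  have i0 : 0 ≤ i := by
    by_contra hc
    have : h.b s * i ≤ h.b s * (-1) := mul_le_mul_of_nonneg_left (by omega) hb.le
    omega
  have i1 : i + 1 ≤ j := by
    by_contra hc
    have : h.b s * j ≤ h.b s * i := mul_le_mul_of_nonneg_left (by omega) hb.le
    omega
  have a1 : 0 ≤ h.b s * i := mul_nonneg hb.le i0
  have a2 : h.b s * (i + 1) ≤ h.b s * j := mul_le_mul_of_nonneg_left i1 hb.le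
  rw [mul_add, mul_one] at a2
  refine ⟨q2, ?_, ?_⟩ <;> omega

/-- a local rule for the enriched labels is a local rule -/
theorem cx_of_lab2 {δ : ℕ} {g : Perm (X × Q)} (hg : Cx (h.lab2 s) δ g) : ∃ R, Cx lab R g := by
  obtain ⟨ρ, hρ⟩ := h.loc s
  obtain ⟨c, h1, h2, h3⟩ := hg
  refine ⟨ρ + δ, c, h1, fun ω => ?_, fun x y q ha => h3 x y q fun v a1 a2 => ?_⟩
  · obtain ⟨a1, a2⟩ := h2 ω
    push_cast
    constructor <;> linarith [(Nat.cast_nonneg ρ : (0 : ℤ) ≤ ρ)]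
  · have b := hρ _ _ (ha.shift a1 a2)
    have b' := (ha.mono (Nat.le_add_left δ ρ)) v a1 a2
    simp only [lab2, b.1, b.2, b']

theorem ok_lab2 {ρ : ℕ} {f : Set X × (Fin 3 → V × Q)} (hf : Ok lab ρ f) (S : Set (ℤ × ℤ)) :
    Ok (h.lab2 s) ρ (f.1 ∩ {x | (h.px s x, h.py s x) ∈ S}, f.2) := by
  refine ⟨?_, hf.2.1.mono Set.inter_subset_left, hf.2.2⟩
  rintro x y ha ⟨h1, h2⟩
  refine ⟨hf.1 x y (fun v a1 a2 => congrArg Prod.fst (ha v a1 a2)) h1, ?_⟩
  have := congrArg Prod.snd (ha 0 (by simp) (by simp))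
  simp only [lab2, zero_vadd] at this
  change (h.px s y, h.py s y) ∈ S
  rw [← this]
  exact h2

/-- agreement on a window gives agreement in the enriched labels -/
theorem agree_lab2 {x y : X} (hx : h.px s x = h.px s y) (hy : h.py s x = h.py s y) {δ : ℕ} {v : V}
    (H : ∀ u : V, |u.1 - v.1| ≤ δ → |u.2 - v.2| ≤ δ → lab (u +ᵥ x) = lab (u +ᵥ y)) :
    Agree (h.lab2 s) δ (v +ᵥ x) (v +ᵥ y) := by
  intro w a1 a2
  rw [← add_vadd, ← add_vadd]
  have e1 : lab ((w + v) +ᵥ x) = lab ((w + v) +ᵥ y) := H _ (by simpa using a1) (by simpa using a2)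
  have e2 : h.px s ((w + v) +ᵥ x) = h.px s ((w + v) +ᵥ y) := by
    refine eq_of_modEq ((h.px_add s _ x).trans ?_) (h.px_mem s _) (h.px_mem s _)
    rw [hx]
    exact (h.px_add s _ y).symm
  have e3 : h.py s ((w + v) +ᵥ x) = h.py s ((w + v) +ᵥ y) := by
    refine eq_of_modEq ((h.py_add s _ x).trans ?_) (h.py_mem s _) (h.py_mem s _)
    rw [hy]
    exact (h.py_add s _ y).symm
  simp only [lab2, e1, e2, e3]

end Lev

namespace KRectAux

variable (h : Lev lab) (s : ℕ) (x1 k y1 l : ℤ)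

/-- the base of a rectangle -/
def d0 : Set X := {x | h.px s x ≡ x1 [ZMOD h.a s] ∧ h.py s x ≡ y1 [ZMOD h.b s]}

/-- the sheets of a rectangle -/
def s0 (Q : Type) (k l : ℤ) (i : Fin k.toNat × Fin l.toNat × Q) : V × Q :=
  (((i.1 : ℕ), (i.2.1 : ℕ)), i.2.2)

theorem loc_d0 : Loc lab (d0 h s x1 y1) :=
  (h.loc_px s {p | p ≡ x1 [ZMOD h.a s]}).inter (h.loc_py s {p | p ≡ y1 [ZMOD h.b s]})

theorem fin_lt {k : ℤ} (i : Fin k.toNat) : 0 ≤ ((i : ℕ) : ℤ) ∧ ((i : ℕ) : ℤ) < k := by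
  have := i.2
  omega

theorem px_d0 {x : X} (hx : h.px s x ≡ x1 [ZMOD h.a s]) (v : V) (hv : 0 ≤ v.1 ∧ v.1 < h.a s) :
    (h.px s (v +ᵥ x) - x1) % h.a s = v.1 := by
  refine emod_of_modEq ((px_sub h s v x x1).trans ?_) hv
  have := (hx.sub_right x1).add_right v.1
  rwa [sub_self, zero_add] at this

theorem py_d0 {x : X} (hx : h.py s x ≡ y1 [ZMOD h.b s]) (v : V) (hv : 0 ≤ v.2 ∧ v.2 < h.b s) :
    (h.py s (v +ᵥ x) - y1) % h.b s = v.2 := by
  refine emod_of_modEq ((py_sub h s v x y1).trans ?_) hv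
  have := (hx.sub_right y1).add_right v.2
  rwa [sub_self, zero_add] at this

variable {k l}

theorem fr_d0 (hk : k ≤ h.a s) (hl : l ≤ h.b s) : Fr (d0 h s x1 y1) (s0 Q k l) := by
  rintro ⟨i, j, q⟩ ⟨i', j', q'⟩ x hx y hy e
  have e1 : ((((i : ℕ) : ℤ), ((j : ℕ) : ℤ)) : V) +ᵥ x =
      ((((i' : ℕ) : ℤ), ((j' : ℕ) : ℤ)) : V) +ᵥ y := congrArg Prod.fst e
  have e2 : q = q' := congrArg Prod.snd e
  have a1 := px_d0 h s x1 hx.1 (((i : ℕ) : ℤ), ((j : ℕ) : ℤ))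
    ⟨(fin_lt i).1, (fin_lt i).2.trans_le hk⟩
  have a2 := px_d0 h s x1 hy.1 (((i' : ℕ) : ℤ), ((j' : ℕ) : ℤ))
    ⟨(fin_lt i').1, (fin_lt i').2.trans_le hk⟩
  have a3 := py_d0 h s y1 hx.2 (((i : ℕ) : ℤ), ((j : ℕ) : ℤ))
    ⟨(fin_lt j).1, (fin_lt j).2.trans_le hl⟩
  have a4 := py_d0 h s y1 hy.2 (((i' : ℕ) : ℤ), ((j' : ℕ) : ℤ))
    ⟨(fin_lt j').1, (fin_lt j').2.trans_le hl⟩
  rw [e1, a2] at a1
  rw [e1, a4] at a3
  have b1 : i = i' := Fin.ext (by simp only at a1; omega)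
  have b2 : j = j' := Fin.ext (by simp only at a3; omega)
  rw [b1, b2, e2]

theorem rf_of_rr {a b : X × Q} (H : h.Rr s x1 k y1 l a b) :
    RF (d0 h s x1 y1) (s0 Q k l) a b := by
  obtain ⟨v, e, ⟨a1, a2, a3⟩, b1, b2, b3⟩ := H
  have p0 := Int.emod_nonneg (h.px s a.1 - x1) (a_pos h s).ne'
  have q0 := Int.emod_nonneg (h.py s a.1 - y1) (b_pos h s).ne'
  have pm := Int.mod_modEq (h.px s a.1 - x1) (h.a s)
  have qm := Int.mod_modEq (h.py s a.1 - y1) (h.b s)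
  generalize (h.px s a.1 - x1) % h.a s = p at *
  generalize (h.py s a.1 - y1) % h.b s = q at *
  refine ⟨-((p, q) : V) +ᵥ a.1, ⟨?_, ?_⟩, (⟨p.toNat, by omega⟩, ⟨q.toNat, by omega⟩, a.2),
    (⟨(p + v.1).toNat, by omega⟩, ⟨(q + v.2).toNat, by omega⟩, b.2), ?_, ?_⟩
  · refine (h.px_add s _ _).trans ?_
    have := (pm.symm.add_right x1).sub_right p
    simpa [sub_eq_add_neg, add_comm, add_left_comm] using this
  · refine (h.py_add s _ _).trans ?_
    have := (qm.symm.add_right y1).sub_right q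
    simpa [sub_eq_add_neg, add_comm, add_left_comm] using this
  · refine Prod.ext ?_ rfl
    simp only [sh, s0, Int.toNat_of_nonneg p0, Int.toNat_of_nonneg q0, vadd_neg_vadd]
  · refine Prod.ext ?_ rfl
    simp only [sh, s0, Int.toNat_of_nonneg a2, Int.toNat_of_nonneg b2, e, ← add_vadd]
    congr 1
    ext <;> simp

theorem rr_of_rf (hk : k ≤ h.a s) (hl : l ≤ h.b s) {a b : X × Q}
    (H : RF (d0 h s x1 y1) (s0 Q k l) a b) : h.Rr s x1 k y1 l a b := by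
  obtain ⟨x, hx, ⟨i, j, q⟩, ⟨i', j', q'⟩, rfl, rfl⟩ := H
  have a1 := px_d0 h s x1 hx.1 (((i : ℕ) : ℤ), ((j : ℕ) : ℤ))
    ⟨(fin_lt i).1, (fin_lt i).2.trans_le hk⟩
  have a3 := py_d0 h s y1 hx.2 (((i : ℕ) : ℤ), ((j : ℕ) : ℤ))
    ⟨(fin_lt j).1, (fin_lt j).2.trans_le hl⟩
  have := fin_lt i
  have := fin_lt j
  have := fin_lt i'
  have := fin_lt j'
  refine ⟨(((i' : ℕ) : ℤ) - (i : ℕ), ((j' : ℕ) : ℤ) - (j : ℕ)), ?_, ?_, ?_⟩
  · simp only [sh, s0, ← add_vadd]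
    congr 1
    ext <;> simp
  · unfold In
    simp only [sh, s0, a1]
    omega
  · unfold In
    simp only [sh, s0, a3]
    omega

theorem sigma_eq {B I : Type} {lab' : X → B} (hf : Free X) {d : Set X} {t : I → V × Q}
    (ht : Fr d t) {σ : X → Perm I} {R : ℕ} (hc : Cx lab' R (fq d t σ)) {x y : X} (hx : x ∈ d)
    (hy : y ∈ d) (ha : ∀ i, Agree lab' R ((t i).1 +ᵥ x) ((t i).1 +ᵥ y)) : σ x = σ y := by
  obtain ⟨c, h1, -, h3⟩ := hc
  refine Equiv.ext fun i => ?_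
  have a1 := h1 (sh (t i) x)
  have a2 := h1 (sh (t i) y)
  have a3 : c (sh (t i) x) = c (sh (t i) y) := h3 _ _ (t i).2 (ha i)
  rw [fq_apply ht σ hx] at a1
  rw [fq_apply ht σ hy, ← a3] at a2
  generalize c (sh (t i) x) = c0 at a1 a2
  have b1 : (t (σ x i)).1 +ᵥ x = c0.1 +ᵥ (t i).1 +ᵥ x := congrArg Prod.fst a1
  have b2 : (t (σ x i)).2 = c0.2 := (Prod.ext_iff.1 a1).2
  have b3 : (t (σ x i)).1 = c0.1 + (t i).1 := by
    rw [← add_vadd] at b1
    have := hf (-(c0.1 + (t i).1) + (t (σ x i)).1) x (by rw [add_vadd, b1, neg_vadd_vadd])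
    exact (neg_add_eq_zero.1 this).symm
  refine ht _ _ y hy y hy (a2 ▸ ?_)
  exact Prod.ext (by simp only [sh, b3, add_vadd]) b2

end KRectAux

namespace Lift

variable [Finite A] [Fintype Q] (L : Lift lab Q N) (h : Lev lab) {s : ℕ} {x1 k y1 l : ℤ}

theorem rect_inj (hQ : 20 ≤ Fintype.card Q) (he : L.Eps) (hk : k ≤ h.a s) (hl : l ≤ h.b s) {n : N}
    (hn : n ∈ L.NR (h.Rr s x1 k y1 l)) (h1 : L.π n = 1) : n = 1 := by
  refine L.block_inj h.free he (I := Fin (h.a s).toNat × Fin (h.b s).toNat × Q) ?_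
    (loc_d0 h s x1 y1) (fr_d0 h s x1 y1 le_rfl le_rfl) (L.NR_mono ?_ hn) h1
  · simp only [Fintype.card_prod, Fintype.card_fin]
    have a1 : 1 ≤ (h.a s).toNat := by have := a_pos h s; omega
    have a2 : 1 ≤ (h.b s).toNat := by have := b_pos h s; omega
    calc 5 ≤ 1 * (1 * 20) := by norm_num
      _ ≤ _ := Nat.mul_le_mul a1 (Nat.mul_le_mul a2 hQ)
  · rintro a b ⟨v, e, H1, H2⟩
    exact rf_of_rr h s x1 y1 ⟨v, e, in_mono hk H1, in_mono hl H2⟩

/-- block-preserving local permutations with the same parities differ by a lift -/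
theorem rect_par (hk : k ≤ h.a s) (hl : l ≤ h.b s) {δ : ℕ} {B : Type} (ty : X → B)
    (hty : ∀ x y, h.px s x = 0 → h.py s x = 0 → h.px s y = 0 → h.py s y = 0 → ty x = ty y →
      ∀ v : V, x1 - δ ≤ v.1 → v.1 ≤ x1 + k + δ → y1 - δ ≤ v.2 → v.2 ≤ y1 + l + δ →
        lab (v +ᵥ x) = lab (v +ᵥ y)) :
    ∃ P : Perm (X × Q) → B → ℤˣ, ∀ g g', Cx (h.lab2 s) δ g → Cx (h.lab2 s) δ g' →
      Pres (h.Rr s x1 k y1 l) g → Pres (h.Rr s x1 k y1 l) g' → P g = P g' →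
      ∃ n ∈ L.NR (h.Rr s x1 k y1 l), L.π n = g * g'⁻¹ := by
  classical
  have hF : Fr (d0 h s x1 y1) (s0 Q k l) := fr_d0 h s x1 y1 hk hl
  have hσ : ∀ g, ∃ σ : X → Perm (Fin k.toNat × Fin l.toNat × Q),
      Pres (h.Rr s x1 k y1 l) g → g = fq (d0 h s x1 y1) (s0 Q k l) σ := by
    intro g
    by_cases hg : Pres (h.Rr s x1 k y1 l) g
    · obtain ⟨σ, e⟩ := exists_fq hF (g := g) fun ω => (hg ω).imp_right (rf_of_rr h s x1 y1)
      exact ⟨σ, fun _ => e⟩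
    · exact ⟨1, fun c => absurd c hg⟩
  choose σ hσ using hσ
  have hu : ∀ t : B, ∃ u : Option X, ∀ x, h.px s x = 0 ∧ h.py s x = 0 → ty x = t →
      ∃ y, u = some y ∧ (h.px s y = 0 ∧ h.py s y = 0) ∧ ty y = t := by
    intro t
    by_cases hx : ∃ y, (h.px s y = 0 ∧ h.py s y = 0) ∧ ty y = t
    · obtain ⟨y, hy⟩ := hx
      exact ⟨some y, fun _ _ _ => ⟨y, rfl, hy⟩⟩
    · exact ⟨none, fun x a b => absurd ⟨x, a, b⟩ hx⟩
  choose u hu using hu
  refine ⟨fun g t => (u t).elim 1 fun y => Perm.sign (σ g (((x1, y1) : V) +ᵥ y)), ?_⟩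
  intro g g' c c' p p' hP
  have e := hσ g p
  have e' := hσ g' p'
  have loc : ∀ g, Cx (h.lab2 s) δ g → Pres (h.Rr s x1 k y1 l) g → ∃ ρ, ∀ x ∈ d0 h s x1 y1,
      ∀ y ∈ d0 h s x1 y1, Agree lab ρ x y → σ g x = σ g y := by
    intro g c p
    obtain ⟨R, hR⟩ := h.cx_of_lab2 c
    rw [hσ g p] at hR
    refine ⟨R + (k.toNat + l.toNat), fun x hx y hy ha => sigma_eq h.free hF hR hx hy fun i => ?_⟩
    have := fin_lt i.1
    have := fin_lt i.2.1
    refine ha.shift ?_ ?_ <;> simp only [s0, abs_le] <;> push_cast <;> omega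
  obtain ⟨ρ, hρ⟩ := loc g c p
  obtain ⟨ρ', hρ'⟩ := loc g' c' p'
  have key : ∀ x ∈ d0 h s x1 y1, Perm.sign (σ g x) = Perm.sign (σ g' x) := by
    intro x hx
    have hz : h.px s (-((x1, y1) : V) +ᵥ x) = 0 ∧ h.py s (-((x1, y1) : V) +ᵥ x) = 0 := by
      refine ⟨eq_of_modEq ((h.px_add s _ _).trans ?_) (h.px_mem s _) ⟨le_rfl, a_pos h s⟩,
        eq_of_modEq ((h.py_add s _ _).trans ?_) (h.py_mem s _) ⟨le_rfl, b_pos h s⟩⟩
      · simpa using hx.1.add_right (-x1)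
      · simpa using hx.2.add_right (-y1)
    obtain ⟨y, hy1, hy2, hy3⟩ := hu _ _ hz rfl
    have hy : ((x1, y1) : V) +ᵥ y ∈ d0 h s x1 y1 := by
      refine ⟨(h.px_add s _ _).trans ?_, (h.py_add s _ _).trans ?_⟩
      · rw [hy2.1, zero_add]
      · rw [hy2.2, zero_add]
    have ag : ∀ i, Agree (h.lab2 s) δ ((s0 Q k l i).1 +ᵥ x)
        ((s0 Q k l i).1 +ᵥ ((x1, y1) : V) +ᵥ y) := by
      intro i
      have := fin_lt i.1
      have := fin_lt i.2.1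
      have := h.agree_lab2 (hz.1.trans hy2.1.symm) (hz.2.trans hy2.2.symm) (δ := δ)
        (v := (s0 Q k l i).1 + (x1, y1)) fun w a1 a2 => by
          simp only [s0, Prod.fst_add, Prod.snd_add, abs_le] at a1 a2
          apply hty _ _ hz.1 hz.2 hy2.1 hy2.2 hy3.symm <;> omega
      rwa [add_vadd, add_vadd, vadd_neg_vadd] at this
    have := congrFun hP (ty (-((x1, y1) : V) +ᵥ x))
    simp only [hy1, Option.elim_some] at this
    rw [sigma_eq h.free hF (σ := σ g) (e ▸ c) hx hy ag,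
      sigma_eq h.free hF (σ := σ g') (e' ▸ c') hx hy ag, this]
  obtain ⟨n, hn, en⟩ := L.block_surj (loc_d0 h s x1 y1) hF (σ := σ g * (σ g')⁻¹) (ρ := ρ + ρ')
    (fun x hx y hy ha => by
      rw [Pi.mul_apply, Pi.mul_apply, Pi.inv_apply, Pi.inv_apply,
        hρ x hx y hy (ha.mono (by omega)), hρ' x hx y hy (ha.mono (by omega))])
    (fun x hx => by
      rw [Pi.mul_apply, Pi.inv_apply, map_mul, map_inv, key x hx, mul_inv_cancel])
  refine ⟨n, L.NR_mono (fun a b H => rr_of_rf h s x1 y1 hk hl H) hn, ?_⟩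
  rw [en, map_mul, map_inv, ← e, ← e']

end Lift

namespace KRectAux

theorem rot_two (m : ℕ) (j : Fin (m + 2)) (hj : (j : ℕ) < m) :
    (((finRotate (m + 2) * finRotate (m + 2)) j : Fin (m + 2)) : ℕ) = j + 2 := by
  have a1 : ((finRotate (m + 2) j : Fin (m + 2)) : ℕ) = j + 1 :=
    coe_finRotate_of_ne_last (fun e => by rw [e] at hj; simp at hj)
  rw [Perm.mul_apply, coe_finRotate_of_ne_last (fun e => by rw [e] at a1; simp at a1; omega), a1]

theorem rot_step [Finite A] [Fintype Q] (L : Lift lab Q N) (h : Lev lab) {s : ℕ} {y1 : ℤ} {m : ℕ}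
    (hl : (m : ℤ) + 2 ≤ h.b s) {n : N} (hn : n ∈ L.NR (h.Ry s y1 m)) (h1 : L.π n = 1) :
    n ∈ L.NR (h.Ry s (y1 + 2) m) := by
  classical
  let d : Set X := {x | h.py s x ≡ y1 [ZMOD h.b s]}
  let t : Fin (m + 2) × Q → V × Q := fun i => ((0, ((i.1 : ℕ) : ℤ)), i.2)
  have hd : Loc lab d := h.loc_py s {p | p ≡ y1 [ZMOD h.b s]}
  have hF : Fr d t := by
    rintro ⟨j, q⟩ ⟨j', q'⟩ x hx y hy e
    have e1 : (((0 : ℤ), ((j : ℕ) : ℤ)) : V) +ᵥ x = (((0 : ℤ), ((j' : ℕ) : ℤ)) : V) +ᵥ y :=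
      congrArg Prod.fst e
    have e2 : q = q' := congrArg Prod.snd e
    have := j.2
    have := j'.2
    have a3 := py_d0 h s y1 hx ((0 : ℤ), ((j : ℕ) : ℤ)) ⟨by simp, by simp only; omega⟩
    have a4 := py_d0 h s y1 hy ((0 : ℤ), ((j' : ℕ) : ℤ)) ⟨by simp, by simp only; omega⟩
    rw [e1, a4] at a3
    have b2 : j = j' := Fin.ext (by simp only at a3; omega)
    rw [b2, e2]
  let r : Perm (Fin (m + 2) × Q) := Equiv.prodCongr (finRotate (m + 2)) (Equiv.refl Q)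
  have := fp_mem_A3 hd hF (π := r * r) (by rw [map_mul, Int.units_mul_self])
  rw [← L.range] at this
  obtain ⟨g, hg⟩ := this
  have act : ∀ ω : X × Q, (h.py s ω.1 - y1) % h.b s < m →
      L.π g ω = ((((0 : ℤ), (2 : ℤ)) : V) +ᵥ ω.1, ω.2) := by
    intro ω hω
    have q0 := Int.emod_nonneg (h.py s ω.1 - y1) (b_pos h s).ne'
    have qm := Int.mod_modEq (h.py s ω.1 - y1) (h.b s)
    generalize (h.py s ω.1 - y1) % h.b s = q at *
    have hx : -(((0 : ℤ), q) : V) +ᵥ ω.1 ∈ d := by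
      refine (h.py_add s _ _).trans ?_
      have := (qm.symm.add_right y1).sub_right q
      simpa [sub_eq_add_neg, add_comm, add_left_comm] using this
    have a1 := fp_apply hF (r * r) hx (⟨q.toNat, by omega⟩, ω.2)
    have a2 : sh (t (⟨q.toNat, by omega⟩, ω.2)) (-(((0 : ℤ), q) : V) +ᵥ ω.1) = ω := by
      refine Prod.ext ?_ rfl
      simp only [sh, t, Int.toNat_of_nonneg q0, vadd_neg_vadd]
    rw [a2] at a1
    rw [hg, a1]
    have a3 := rot_two m ⟨q.toNat, by omega⟩ (by simp only; omega)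
    refine Prod.ext ?_ rfl
    have a4 : (((r * r) (⟨q.toNat, by omega⟩, ω.2)).1 : ℕ) = q.toNat + 2 := a3
    simp only [sh, t, a4, ← add_vadd]
    congr 1
    ext
    · simp
    · simp only [Prod.snd_add, Prod.snd_neg]
      omega
  have := L.NR_conj (R' := h.Ry s (y1 + 2) m) g (fun ω ω' H => ?_) hn
  · rwa [Subgroup.mem_center_iff.1 (L.cen h1) g, mul_inv_cancel_right] at this
  · have H' := h.Ry_symm (by omega) _ _ H
    obtain ⟨v, e, H⟩ := H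
    obtain ⟨_, _, H', _⟩ := H'
    rw [act ω H.1, act ω' H']
    refine ⟨v, ?_, in_congr ?_ H⟩
    · simp only [e, ← add_vadd, add_comm]
    · have := py_sub h s (((0 : ℤ), (2 : ℤ)) : V) ω.1 (y1 + 2)
      rw [show h.py s ω.1 - (y1 + 2) + (((0 : ℤ), (2 : ℤ)) : V).2 = h.py s ω.1 - y1 by
        simp only; ring] at this
      exact this.symm

end KRectAux

namespace Lift

variable [Finite A] [Fintype Q] (L : Lift lab Q N) (h : Lev lab) {s : ℕ} {x1 k y1 l : ℤ}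

/-- central elements supported in bands can be moved into the standard bands -/
theorem rot (hl : l + 2 ≤ h.b s) {n : N} (hn : n ∈ L.NR (h.Ry s y1 l)) (h1 : L.π n = 1) :
    n ∈ L.NR (h.Ry s 0 (h.b s)) := by
  have hb := b_pos h s
  rcases lt_or_ge l 0 with hl0 | hl0
  · refine L.NR_mono ?_ hn
    rintro a b ⟨v, -, H, -⟩
    have := Int.emod_nonneg (h.py s a.1 - y1) hb.ne'
    omega
  obtain ⟨m, rfl⟩ := Int.eq_ofNat_of_zero_le hl0
  have y0 := Int.emod_nonneg y1 hb.ne'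
  have y2 := Int.emod_lt_of_pos y1 hb
  have start : n ∈ L.NR (h.Ry s (y1 % h.b s - h.b s) m) := by
    refine L.NR_mono ?_ hn
    rintro a b ⟨v, e, H⟩
    refine ⟨v, e, in_congr (Int.ModEq.sub_left _ ?_) H⟩
    refine (Int.mod_modEq y1 (h.b s)).symm.trans ?_
    exact Int.modEq_iff_dvd.2 ⟨-1, by ring⟩
  have step : ∀ j : ℕ, n ∈ L.NR (h.Ry s (y1 % h.b s - h.b s + 2 * j) m) := by
    intro j
    induction j with
    | zero => simpa using start
    | succ j ih =>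
      have := rot_step L h hl ih h1
      rwa [show y1 % h.b s - h.b s + 2 * (j : ℤ) + 2 = y1 % h.b s - h.b s + 2 * ((j + 1 : ℕ) : ℤ) by
        push_cast; ring] at this
  have fin := step ((1 - (y1 % h.b s - h.b s)) / 2).toNat
  have hy : y1 % h.b s - h.b s + 2 * (((1 - (y1 % h.b s - h.b s)) / 2).toNat : ℤ) = 0 ∨
      y1 % h.b s - h.b s + 2 * (((1 - (y1 % h.b s - h.b s)) / 2).toNat : ℤ) = 1 := by omega
  generalize y1 % h.b s - h.b s + 2 * (((1 - (y1 % h.b s - h.b s)) / 2).toNat : ℤ) = y at fin hy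
  refine L.NR_mono ?_ fin
  rintro a b ⟨v, e, H1, H2, H3⟩
  refine ⟨v, e, ?_⟩
  obtain ⟨p1, p2⟩ := h.py_mem s a.1
  unfold In
  rw [sub_zero, Int.emod_eq_of_lt p1 p2]
  by_cases hp : y ≤ h.py s a.1
  · rw [Int.emod_eq_of_lt (by omega) (by omega)] at H1 H2 H3
    omega
  · rw [emod_of_modEq (b := h.py s a.1 - y + h.b s) (Int.modEq_iff_dvd.2 ⟨1, by ring⟩)
      ⟨by omega, by omega⟩] at H1
    omega

end Lift

end Vale.Agent.P196
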