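import Mathlib

/-! Labelled `ℤ²`-sets, frames, and the group generated by elementary three-cycles. -/

namespace Vale.Agent.P196

open Equiv

/-- the plane lattice -/
abbrev V : Type := ℤ × ℤ

section defs

variable {X A Q : Type} [AddAction V X]

/-- two points carry the same labels up to distance `ρ` -/
def Agree (lab : X → A) (ρ : ℕ) (x y : X) : Prop :=
  ∀ v : V, |v.1| ≤ ρ → |v.2| ≤ ρ → lab (v +ᵥ x) = lab (v +ᵥ y)

/-- local sets -/
def Loc (lab : X → A) (d : Set X) : Prop := ∃ ρ, ∀ x y, Agree lab ρ x y → x ∈ d → y ∈ d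

/-- the point over `x` on the sheet `s` -/
def sh (s : V × Q) (x : X) : X × Q := (s.1 +ᵥ x, s.2)

/-- the sheets `s i` over `d` are pairwise disjoint -/
def Fr {I : Type} (d : Set X) (s : I → V × Q) : Prop :=
  ∀ i j, ∀ x ∈ d, ∀ y ∈ d, sh (s i) x = sh (s j) y → i = j

theorem sh_inj {s : V × Q} {x y : X} (h : sh s x = sh s y) : x = y :=
  vadd_left_cancel s.1 (congrArg Prod.fst h)

/-- the embedding of a frame -/
def Fr.emb {I : Type} {d : Set X} {s : I → V × Q} (h : Fr d s) : d × I ↪ X × Q :=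
  ⟨fun p => sh (s p.2) p.1.1, fun p p' e => by
    obtain ⟨⟨x, hx⟩, i⟩ := p
    obtain ⟨⟨y, hy⟩, j⟩ := p'
    obtain rfl := h i j x hx y hy e
    obtain rfl : x = y := sh_inj e
    rfl⟩

/-- fibrewise permutations -/
def fib {I : Type} (d : Set X) : (X → Perm I) →* Perm (d × I) where
  toFun σ := Equiv.prodCongrRight fun x => σ x.1
  map_one' := by ext p <;> simp
  map_mul' σ τ := by ext p <;> simp

open Classical in
/-- permutation of the sheets of a frame, depending on the base point -/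
noncomputable def fq {I : Type} (d : Set X) (s : I → V × Q) : (X → Perm I) →* Perm (X × Q) :=
  if h : Fr d s then (Perm.viaEmbeddingHom h.emb).comp (fib d) else 1

/-- permutation of the sheets of a frame -/
noncomputable def fp {I : Type} (d : Set X) (s : I → V × Q) : Perm I →* Perm (X × Q) :=
  (fq d s).comp (Pi.constMonoidHom X (Perm I))

/-- the elementary three-cycle `s 0 → s 1 → s 2 → s 0` over `d` -/
noncomputable def cyc (d : Set X) (s : Fin 3 → V × Q) : Perm (X × Q) := fp d s (finRotate 3)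

theorem fq_apply {I : Type} {d : Set X} {s : I → V × Q} (h : Fr d s) (σ : X → Perm I) {x : X}
    (hx : x ∈ d) (i : I) : fq d s σ (sh (s i) x) = sh (s (σ x i)) x := by
  rw [fq, dif_pos h]
  exact Perm.viaEmbedding_apply (fib d σ) h.emb (⟨x, hx⟩, i)

theorem fq_other {I : Type} {d : Set X} {s : I → V × Q} (σ : X → Perm I) {ω : X × Q}
    (hω : ∀ i, ∀ x ∈ d, ω ≠ sh (s i) x) : fq d s σ ω = ω := by
  unfold fq
  split_ifs with h
  · refine Perm.viaEmbedding_apply_of_notMem (fib d σ) h.emb ω ?_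
    rintro ⟨⟨⟨x, hx⟩, i⟩, e⟩
    exact hω i x hx e.symm
  · rfl

theorem fp_eq {I : Type} (d : Set X) (s : I → V × Q) (π : Perm I) :
    fp d s π = fq d s fun _ => π := rfl

theorem fp_apply {I : Type} {d : Set X} {s : I → V × Q} (h : Fr d s) (π : Perm I) {x : X}
    (hx : x ∈ d) (i : I) : fp d s π (sh (s i) x) = sh (s (π i)) x := fq_apply h _ hx i

theorem fp_other {I : Type} {d : Set X} {s : I → V × Q} (π : Perm I) {ω : X × Q}
    (hω : ∀ i, ∀ x ∈ d, ω ≠ sh (s i) x) : fp d s π ω = ω := fq_other _ hω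

/-- characterization of `fq` -/
theorem eq_fq {I : Type} {d : Set X} {s : I → V × Q} (h : Fr d s) {σ : X → Perm I}
    {u : Perm (X × Q)} (h1 : ∀ i, ∀ x ∈ d, u (sh (s i) x) = sh (s (σ x i)) x)
    (h2 : ∀ ω, (∀ i, ∀ x ∈ d, ω ≠ sh (s i) x) → u ω = ω) : u = fq d s σ := by
  refine Equiv.ext fun ω => ?_
  by_cases hω : ∀ i, ∀ x ∈ d, ω ≠ sh (s i) x
  · rw [h2 ω hω, fq_other σ hω]
  · push Not at hω
    obtain ⟨i, x, hx, rfl⟩ := hω
    rw [h1 i x hx, fq_apply h σ hx]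

/-- the group generated by the elementary three-cycles over local sets -/
def A3 (lab : X → A) (Q : Type) : Subgroup (Perm (X × Q)) :=
  Subgroup.closure {g | ∃ (d : Set X) (s : Fin 3 → V × Q), Loc lab d ∧ Fr d s ∧ g = cyc d s}

/-- `g` is given by a local rule of radius `R` -/
def Cx (lab : X → A) (R : ℕ) (g : Perm (X × Q)) : Prop :=
  ∃ c : X × Q → V × Q, (∀ ω, g ω = sh (c ω) ω.1) ∧
    (∀ ω, |(c ω).1.1| ≤ R ∧ |(c ω).1.2| ≤ R) ∧
    ∀ x y q, Agree lab R x y → c (x, q) = c (y, q)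

/-- coordinates along (`j`) and across (`a`) a cutting direction -/
def vec (dir : Bool) (j a : ℤ) : V := if dir then (a, j) else (j, a)

/-- thin cuts in the direction `dir`, with `c` types of special places, at scale `M` -/
def Thin (lab : X → A) (dir : Bool) (c M : ℕ) : Prop :=
  ∃ (H L N : ℤ) (C : Set X) (ψ : X → ℤ) (ty : X → Fin c),
    0 < H ∧ H ∣ L ∧ M * H ≤ L ∧
    (∀ x ∈ C, ∀ j, vec dir j 0 +ᵥ x ∈ C) ∧
    (∀ x, ∃ a, 0 ≤ a ∧ a ≤ N ∧ vec dir 0 a +ᵥ x ∈ C) ∧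
    (∀ x j, ψ (vec dir j 0 +ᵥ x) ≡ ψ x + j [ZMOD L]) ∧
    (∀ x ∈ C, ∀ y ∈ C, ψ x ≡ ψ y [ZMOD H] → 2 * H ≤ ψ x % L → 2 * H ≤ ψ y % L →
      ∀ a, |a| ≤ M * H → lab (vec dir 0 a +ᵥ x) = lab (vec dir 0 a +ᵥ y)) ∧
    ∀ x ∈ C, ∀ y ∈ C, ψ x % L = 0 → ψ y % L = 0 → ty x = ty y →
      ∀ j a, 0 ≤ j → j < 2 * H → |a| ≤ M * H → lab (vec dir j a +ᵥ x) = lab (vec dir j a +ᵥ y)

/-- nested local grids of growing mesh with boundedly many types of thin cells -/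
structure Lev (lab : X → A) where
  a : ℕ → ℤ
  b : ℕ → ℤ
  px : ℕ → X → ℤ
  py : ℕ → X → ℤ
  a_ge : ∀ s : ℕ, (s : ℤ) < a s
  b_ge : ∀ s : ℕ, (s : ℤ) < b s
  a_dvd : ∀ s, a s ∣ a (s + 1)
  b_dvd : ∀ s, b s ∣ b (s + 1)
  px_mem : ∀ s x, 0 ≤ px s x ∧ px s x < a s
  py_mem : ∀ s x, 0 ≤ py s x ∧ py s x < b s
  px_add : ∀ s (v : V) x, px s (v +ᵥ x) ≡ px s x + v.1 [ZMOD a s]
  py_add : ∀ s (v : V) x, py s (v +ᵥ x) ≡ py s x + v.2 [ZMOD b s]
  px_nest : ∀ s x, px (s + 1) x ≡ px s x [ZMOD a s]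
  py_nest : ∀ s x, py (s + 1) x ≡ py s x [ZMOD b s]
  loc : ∀ s, ∃ ρ, ∀ x y, Agree lab ρ x y → px s x = px s y ∧ py s x = py s y
  c : ℕ
  rankH : ∀ δ s0 : ℕ, ∃ s, s0 ≤ s ∧ ∀ y1 : ℤ, ∃ ty : X → Fin c, ∀ x y, px s x = 0 → py s x = 0 →
    px s y = 0 → py s y = 0 → ty x = ty y →
    ∀ v : V, -a s < v.1 → v.1 < 2 * a s → |v.2 - y1| ≤ δ → lab (v +ᵥ x) = lab (v +ᵥ y)
  rankV : ∀ δ s0 : ℕ, ∃ s, s0 ≤ s ∧ ∀ x1 : ℤ, ∃ ty : X → Fin c, ∀ x y, px s x = 0 → py s x = 0 →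
    px s y = 0 → py s y = 0 → ty x = ty y →
    ∀ v : V, |v.1 - x1| ≤ δ → -b s < v.2 → v.2 < 2 * b s → lab (v +ᵥ x) = lab (v +ᵥ y)
  part : ∀ ρ : ℕ, ∃ (D : Fin c → Set X) (F : Finset (V × Fin c)), (∀ t, Loc lab (D t)) ∧
    (∀ x, ∃! p, p ∈ F ∧ p.1 +ᵥ x ∈ D p.2) ∧
    ∀ p ∈ F, ∀ x y, p.1 +ᵥ x ∈ D p.2 → p.1 +ᵥ y ∈ D p.2 → Agree lab ρ x y

/-- uniform recurrence -/
def Mini (lab : X → A) : Prop :=
  ∀ d, Loc lab d → d.Nonempty → ∃ F : Finset V, ∀ x, ∃ v ∈ F, v +ᵥ x ∈ d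

/-- freeness -/
def Free (X : Type) [AddAction V X] : Prop := ∀ (v : V) (x : X), v +ᵥ x = x → v = 0

theorem Lev.free {lab : X → A} (h : Lev lab) : Free X := by
  intro v x e
  have h1 := h.px_add (v.1.natAbs + v.2.natAbs) v x
  have h2 := h.py_add (v.1.natAbs + v.2.natAbs) v x
  rw [e] at h1 h2
  have h3 := h.a_ge (v.1.natAbs + v.2.natAbs)
  have h4 := h.b_ge (v.1.natAbs + v.2.natAbs)
  have k1 := Int.eq_zero_of_abs_lt_dvd (by simpa using h1.dvd : h.a _ ∣ v.1) (by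
    rw [Int.abs_eq_natAbs]; push_cast at h3 ⊢; have := abs_nonneg v.2; omega)
  have k2 := Int.eq_zero_of_abs_lt_dvd (by simpa using h2.dvd : h.b _ ∣ v.2) (by
    rw [Int.abs_eq_natAbs]; push_cast at h4 ⊢; have := abs_nonneg v.1; omega)
  exact Prod.ext k1 k2

end defs

end Vale.Agent.P196
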