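import Vale.Agent.P196.StageA

/-! All stages: corners, windows, and commutativity of lattice valued tilings. -/

namespace Vale.Agent.P196

open Vale.Agent.P193 GridBAux StageAux

set_option linter.unusedSectionVars false

variable {L : Type} [SemilatticeInf L] [BoundedOrder L] [Compl L] [QL L]

namespace StageAux

variable {u : L} {P : V → Set Tile → L}

theorem atm_wg' {s : ℕ} (hp : ∀ o v, Lat s v → At P s (o + v) = At P s o) (o : V) (x : ℤ) :
    atm (Wg P s o) x = At P (s + 1) (o + sw s (sA s * x, 0)) := by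
  have h1 := lat_site s x (y := 0) (dvd_zero _)
  rw [mul_zero] at h1
  rw [At, hp o _ h1, add_assoc, ← sw_add]
  simp [atm, Wg]

theorem nxt_wg' {s : ℕ} (hp : ∀ o v, Lat s v → At P s (o + v) = At P s o) (o : V) (x : ℤ) :
    nxt (ee s) (Wg P s o) x = Wg P (s + 1) (o + sw s (sA s * x, 0)) := by
  funext v S
  have h1 : atm (Wg P s o) x ≤ At P s o := inf_le_left
  rw [nxt, Wg, ← inf_assoc, inf_eq_left.2 h1, atm_wg' hp, Wg, sw_succ, add_assoc, ← sw_add]
  congr 2
  · congr 2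
    simp only [Prod.swap_prod_mk, Prod.mk_add_mk, sA_succ, sB_succ]
    congr 1 <;> ring
  · ext t; simp [tps_succ]

theorem atm_zero {s : ℕ} (hp : ∀ o v, Lat s v → At P s (o + v) = At P s o) (o : V) :
    atm (Wg P s o) 0 = At P (s + 1) o := by
  rw [atm_wg' hp, mul_zero, Prod.mk_zero_zero, sw_zero, add_zero]

theorem nxt_zero {s : ℕ} (hp : ∀ o v, Lat s v → At P s (o + v) = At P s o) (o : V) :
    nxt (ee s) (Wg P s o) 0 = Wg P (s + 1) o := by
  rw [nxt_wg' hp, mul_zero, Prod.mk_zero_zero, sw_zero, add_zero]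

theorem per_grid (h : Conf u P) (s : ℕ) : (∀ o v, Lat s v → At P s (o + v) = At P s o) ∧
    ∀ o, Grid (ee s) (At P s o) (Wg P s o) := by
  induction s with
  | zero =>
    refine ⟨fun o v hv => ?_, grid_zero h⟩
    have h1 : (v.2 : ZMod (per (ee 0))) = 0 := by
      rw [cast_eq_zero, res_eq_zero]
      simpa [sA_succ, sB_zero, sw] using hv.2
    rw [at_zero h o v, h1]; rfl
  | succ s ih =>
    obtain ⟨hp, hg⟩ := ih
    refine ⟨fun o v hv => ?_, fun o => ?_⟩
    · obtain ⟨⟨m, hm⟩, ⟨k, hk⟩⟩ := lat_succ.1 hv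
      have h1 := (hg o).atm_low (per (ee (s + 1)) * k) (per (ee s) * m + 1)
        (by rw [res_mul_one]; exact one_ne_zero)
      have h2 := (hg o).atm_per (ee_succ s) 0 k
      rw [zero_add, ← h1, atm_zero hp] at h2
      rw [← h2, At, hp o v hv.succ, Wg, add_assoc, ← sw_sw s v, ← sw_add]
      congr 4
      refine Prod.ext ?_ ?_
      · simp only [Prod.fst_add, hk]; ring
      · simp only [Prod.snd_add, hm, sA_succ]; ring
    · have h1 := (hg o).next (ee_succ s) 0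
      rwa [atm_zero hp, nxt_zero hp] at h1

end StageAux

namespace Conf

variable {u : L} {P : V → Set Tile → L} (h : Conf u P)
include h

theorem at_per (s : ℕ) (o : V) {v : V} (hv : Lat s v) : At P s (o + v) = At P s o :=
  (per_grid h s).1 o v hv

theorem grid (s : ℕ) (o : V) : Grid (ee s) (At P s o) (Wg P s o) := (per_grid h s).2 o

theorem atm_wg (s : ℕ) (o : V) (x : ℤ) :
    atm (Wg P s o) x = At P (s + 1) (o + sw s (sA s * x, 0)) := atm_wg' (per_grid h s).1 o x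

theorem nxt_wg (s : ℕ) (o : V) (x : ℤ) :
    nxt (ee s) (Wg P s o) x = Wg P (s + 1) (o + sw s (sA s * x, 0)) := nxt_wg' (per_grid h s).1 o x

theorem atm0 (s : ℕ) (o : V) : atm (Wg P s o) 0 = At P (s + 1) o := atm_zero (per_grid h s).1 o

theorem nxt0 (s : ℕ) (o : V) : nxt (ee s) (Wg P s o) 0 = Wg P (s + 1) o :=
  nxt_zero (per_grid h s).1 o

theorem at_le (s : ℕ) (o : V) : At P s o ≤ u := by
  induction s with
  | zero => exact (h.site _).le _
  | succ s ih => exact inf_le_left.trans ih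

theorem at_anti {s s' : ℕ} (hs : s ≤ s') (o : V) : At P s' o ≤ At P s o := by
  induction s', hs using Nat.le_induction with
  | base => exact le_rfl
  | succ s' _ ih => exact inf_le_left.trans ih

theorem at_orth (s : ℕ) {o o' : V} (hv : ¬Lat s (o - o')) : At P s o ≤ (At P s o')ᶜ := by
  induction s with
  | zero =>
    have h1 := at_zero h o' (o - o')
    rw [add_sub_cancel] at h1
    rw [h1]
    refine (h.site o).orth (Set.disjoint_left.2 fun t (t1 : t.2.1 = 0) t2 => hv ?_)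
    have h2 := res_eq_zero.1 (cast_eq_zero.1 (Eq.trans (Eq.symm t2) t1))
    exact ⟨one_dvd _, by simpa [sA_succ, sB_zero, sw] using h2⟩
  | succ s ih =>
    by_cases hl : Lat s (o - o')
    · obtain ⟨⟨a, ha⟩, ⟨b, hb⟩⟩ := hl
      have h1 : o = o' + sw s (sA s * a, 0) + sw s (0, sA (s + 1) * b) := by
        rw [add_assoc, ← sw_add, Prod.mk_add_mk (sA s * a), add_zero, zero_add, ← ha, ← hb,
          Prod.mk.eta, sw_sw, add_sub_cancel]
      have h2 : Lat (s + 1) (sw s (0, sA (s + 1) * b)) := by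
        rw [lat_succ, sw_sw]; exact ⟨dvd_mul_right _ _, dvd_zero _⟩
      rw [h1, h.at_per _ _ h2, ← h.atm_wg, ← h.atm0]
      refine (h.grid s o').atm_orth (ee_succ s) fun hd => hv (lat_succ.2 ⟨⟨b, hb⟩, ?_⟩)
      rw [ha, mul_comm (sA s)]
      exact mul_dvd_mul_right (by simpa using hd) _
    · exact inf_le_left.trans ((ih hl).trans (QL.anti inf_le_left))

theorem at_cover (s : ℕ) : ∃ F : Finset V, u ⊓ (F.inf fun o => (At P s o)ᶜ) = ⊥ := by
  classical
  induction s with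
  | zero =>
    refine ⟨Finset.univ.image fun k : ZMod (per (ee 0)) => (0, -(k.val : ℤ)), ?_⟩
    rw [Finset.inf_image, ← ((h.site 0).comap fun t => t.2.1).cover]
    congr 2
    funext k
    have h1 := at_zero h (0, -(k.val : ℤ)) (0, (k.val : ℤ))
    rw [Prod.mk_add_mk, add_zero, neg_add_cancel, Int.cast_natCast, ZMod.natCast_zmod_val] at h1
    simp only [Function.comp_apply, h1]; rfl
  | succ s ih =>
    obtain ⟨F, hF⟩ := ih
    refine ⟨(F ×ˢ Finset.range (per (ee (s + 1)))).image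
      fun p => p.1 + sw s (sA s * (p.2 : ℤ), 0), le_bot_iff.1 (le_trans ?_ hF.le)⟩
    refine inf_le_inf_left _ (Finset.le_inf fun o ho => ?_)
    have hg := h.grid s o
    have h1 := hg.atm_cover (ee_succ s) 0
    have hS : ∀ x ∈ Set.range (atm (Wg P s o)), ∀ y ∈ Set.range (atm (Wg P s o)), Cm x y := by
      rintro _ ⟨x, rfl⟩ _ ⟨y, rfl⟩; exact hg.atm_cm_atm (ee_succ s) x y
    have h2 : Gen (Set.range (atm (Wg P s o)))
        ((Finset.range (per (ee (s + 1)))).inf fun k => (atm (Wg P s o) (0 + k))ᶜ) :=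
      (genSub _ hS).finf_mem _ fun k _ => (Gen.base (Set.mem_range_self _)).compl
    have h3 := h2.cm_of hS (hg.site 0).cm_u (by
      rintro _ ⟨x, rfl⟩; exact ((hg.site _).cm_top _).symm)
    refine le_trans (Finset.le_inf fun k hk => ?_) (q_le_compl_comm.1 (h3.le_compl h1.le))
    rw [zero_add, h.atm_wg]
    exact Finset.inf_le (f := fun o => (At P (s + 1) o)ᶜ)
      (Finset.mem_image.2 ⟨(o, k), Finset.mem_product.2 ⟨ho, hk⟩, rfl⟩)

theorem win_cm (s : ℕ) (o : V) (x : ℤ) (v : V) :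
    ∀ a ∈ {At P s o, lam (Wg P s o) x, lam (Wg P s o) (x - 1)} ∪ Set.range (Wg P s o v),
    ∀ b ∈ {At P s o, lam (Wg P s o) x, lam (Wg P s o) (x - 1)} ∪ Set.range (Wg P s o v),
      Cm a b := by
  have hg := h.grid s o
  have he := ee_succ s
  have k1 : ∀ w S, Cm (At P s o) (Wg P s o w S) := fun w S => ((hg.site w).cm_top S).symm
  rintro _ ((rfl | rfl | rfl) | ⟨S, rfl⟩) _ ((rfl | rfl | rfl) | ⟨S', rfl⟩)
  exacts [(hg.site 0).cm_u, k1 _ _, k1 _ _, k1 _ _, (k1 _ _).symm, hg.lam_cm he _ _ _,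
    hg.lam_cm he _ _ _, hg.lam_cm he _ _ _, (k1 _ _).symm, hg.lam_cm he _ _ _,
    hg.lam_cm he _ _ _, hg.lam_cm he _ _ _, (k1 _ _).symm, (hg.lam_cm he _ _ _).symm,
    (hg.lam_cm he _ _ _).symm, (hg.site _).cm _ _]

theorem win_cm' (s : ℕ) (o : V) (x : ℤ) (v : V) :
    ∀ b ∈ {At P s o, lam (Wg P s o) x, lam (Wg P s o) (x - 1)} ∪ Set.range (Wg P s o v),
      Cm (At P (s + 1) o) b := by
  have hg := h.grid s o
  have he := ee_succ s
  rw [← h.atm0]
  rintro _ ((rfl | rfl | rfl) | ⟨S, rfl⟩)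
  exacts [(hg.site _).cm_top _, hg.atm_cm he _ _ _, hg.atm_cm he _ _ _, hg.atm_cm he _ _ _]

theorem at_self (s : ℕ) (o : V) : Cm (At P s o) (At P s o) := ((h.grid s o).site 0).cm_u

theorem s_lam (s : ℕ) (o : V) (x : ℤ) :
    Gen {At P (s + 1) o} (At P (s + 1) o ⊓ lam (Wg P s o) x) := by
  have := (h.grid s o).t_lam (ee_succ s) 0 x
  rwa [h.atm0] at this

theorem s_top (s : ℕ) (o : V) (x q : ℤ) (S : Set Core) :
    At P (s + 1) o ⊓ Wg P s o (x, per (ee s) * q) S = Wg P (s + 1) o (q, x) {t | t.tp ∈ S} := by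
  rw [← h.nxt0, ← h.atm0, nxt, zero_add]; rfl

theorem s_low (s : ℕ) (o : V) (x q : ℤ) {r : ℕ} (h1 : 1 ≤ r) (hr : r < per (ee s)) (S : Set Core) :
    Gen ({At P (s + 1) o, lam (Wg P (s + 1) o) q} ∪
      Set.range fun S : Set Col => Wg P (s + 1) o (q, x) {t | t.ho ∈ S})
      (At P (s + 1) o ⊓ Wg P s o (x, per (ee s) * q + r) S) := by
  have := (h.grid s o).t_low (ee_succ s) 0 q x h1 hr S
  rwa [h.atm0, h.nxt0, zero_add] at this

theorem window (s : ℕ) (o : V) (x y X Y : ℤ) (hX : |X| < sA s) (hY : |Y| < sB s) (S : Set Tile) :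
    Gen ({At P s o, lam (Wg P s o) x, lam (Wg P s o) (x - 1)} ∪ Set.range (Wg P s o (x, y)))
      (At P s o ⊓ P (o + sw s (sA s * x + X, sB s * y + Y)) S) := by
  induction s generalizing x y X Y with
  | zero =>
    rw [sA_zero, Int.abs_lt_one_iff] at hX
    rw [sB_zero, Int.abs_lt_one_iff] at hY
    subst hX hY
    simp only [sA_zero, sB_zero, one_mul, add_zero]
    refine (window_zero h o x y S).mono (Set.union_subset_union_left _ ?_)
    rintro _ (rfl | rfl) <;> simp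
  | succ s ih =>
    obtain ⟨j, X', rfl, h1, h2⟩ := split_abs (sB_pos s) hX
    have h3 := ih y (per (ee s) * x + j) Y X' hY h1
    have h4 := gen_rel (h.win_cm s o y _) (h.win_cm' s o y _) (h.at_self _ o)
      (D' := {At P (s + 1) o, lam (Wg P (s + 1) o) x, lam (Wg P (s + 1) o) (x - 1)} ∪
        Set.range (Wg P (s + 1) o (x, y))) (.base (by simp)) ?_ h3
    · rw [← inf_assoc, inf_eq_left.2 (h.at_anti s.le_succ o)] at h4
      rw [sw_succ, Prod.swap_prod_mk, sA_succ, sB_succ,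
        show per (ee s) * sB s * x + (sB s * j + X') = sB s * (per (ee s) * x + j) + X' by ring]
      exact h4
    rintro _ ((rfl | rfl | rfl) | ⟨S, rfl⟩)
    · rw [inf_eq_left.2 (h.at_anti s.le_succ o)]; exact .base (by simp)
    · exact (h.s_lam s o _).mono (by simp)
    · exact (h.s_lam s o _).mono (by simp)
    rw [abs_lt] at h2
    rcases lt_trichotomy j 0 with hj | rfl | hj
    · have h5 := h.s_low s o y (x - 1) (r := (per (ee s) + j).toNat) (by omega) (by omega) S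
      rw [Int.toNat_of_nonneg (by omega),
        show per (ee s) * (x - 1) + (per (ee s) + j) = per (ee s) * x + j by ring] at h5
      refine h5.trans ?_
      rintro _ ((rfl | rfl) | ⟨S, rfl⟩)
      · exact .base (by simp)
      · exact .base (by simp)
      · obtain ⟨S', hS'⟩ := (h.grid (s + 1) o).ho_eq (x - 1) y S
        rw [sub_add_cancel] at hS'
        exact .base (Or.inr ⟨S', hS'.symm⟩)
    · rw [add_zero, h.s_top]; exact .base (Or.inr ⟨_, rfl⟩)
    · have h5 := h.s_low s o y x (r := j.toNat) (by omega) (by omega) S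
      rw [Int.toNat_of_nonneg hj.le] at h5
      refine h5.mono ?_
      rintro _ ((rfl | rfl) | ⟨S, rfl⟩)
      · simp
      · simp
      · exact Or.inr ⟨_, rfl⟩

theorem at_cm (s : ℕ) (o v : V) (S : Set Tile) : Cm (At P s o) (P v S) := by
  induction s with
  | zero =>
    have h1 := at_zero h o (v - o)
    rw [add_sub_cancel] at h1
    rw [h1]; exact (h.site v).cm _ _
  | succ s ih =>
    refine QL.Cm.loc (h.at_anti s.le_succ o) ih.symm ?_
    set w := sw s (v - o) with hw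
    have h1 := h.window s o (w.1 / sA s) (w.2 / sB s) (w.1 % sA s) (w.2 % sB s)
      (by rw [abs_of_nonneg (Int.emod_nonneg _ (sA_pos s).ne')]; exact Int.emod_lt_of_pos _ (sA_pos s))
      (by rw [abs_of_nonneg (Int.emod_nonneg _ (sB_pos s).ne')]; exact Int.emod_lt_of_pos _ (sB_pos s))
      S
    rw [Int.mul_ediv_add_emod, Int.mul_ediv_add_emod, Prod.mk.eta, hw, sw_sw, add_sub_cancel,
      inf_comm] at h1
    exact h1.cm_of (h.win_cm s o _ _) (h.at_self _ o) (h.win_cm' s o _ _)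

theorem at_cm_at (s s' : ℕ) (o o' : V) : Cm (At P s o) (At P s' o') := by
  induction s' with
  | zero => exact h.at_cm _ _ _ _
  | succ s' ih => exact ih.inf (h.at_cm _ _ _ _) (h.at_cm _ _ _ _)

end Conf

namespace StageAux

/-- the data `D` at stage `t` are determined by one tile at most `j` stages later -/
def Fate (P : V → Set Tile → L) (o : V) (t : ℕ) (D : Set L) (j : ℕ) : Prop :=
  ∃ s' o', t ≤ s' ∧ s' ≤ t + j ∧ At P s' o' = At P s' o ∧ ∀ z, Gen ({At P t o} ∪ D) z →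
    Gen ({At P s' o'} ∪ Set.range (P o')) (At P s' o' ⊓ z)

variable {u : L} {P : V → Set Tile → L} {o : V}

theorem Fate.mono {t j j' : ℕ} {D : Set L} (H : Fate P o t D j) (hj : j ≤ j') :
    Fate P o t D j' := by
  obtain ⟨s', o', h1, h2, h3⟩ := H
  exact ⟨s', o', h1, by omega, h3⟩

variable (h : Conf u P)
include h

theorem fate_done {t : ℕ} {D : Set L} {x y : ℤ} (hy : res (ee t) y = 0)
    (hD : D ⊆ Set.range (Wg P t o (x, y))) (j : ℕ) : Fate P o t D j := by
  have h1 := h.at_per t o (lat_site t x (res_eq_zero.1 hy))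
  refine ⟨t, _, le_rfl, by omega, h1, fun z hz => (Gen.base (by simp)).inf (hz.trans ?_)⟩
  rw [h1]
  rintro _ (rfl | hd)
  · exact .base (by simp)
  · obtain ⟨S, rfl⟩ := hD hd
    exact (Gen.base (by simp)).inf (.base (Or.inr ⟨_, rfl⟩))

theorem fate_step {t j : ℕ} {D D' : Set L} (x : ℤ) (v : V)
    (hD : D ⊆ {lam (Wg P t o) x, lam (Wg P t o) (x - 1)} ∪ Set.range (Wg P t o v))
    (H : ∀ d ∈ D, Gen ({At P (t + 1) o} ∪ D') (At P (t + 1) o ⊓ d))
    (H' : Fate P o (t + 1) D' j) : Fate P o t D (j + 1) := by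
  obtain ⟨s', o', h1, h2, h3, h4⟩ := H'
  refine ⟨s', o', by omega, by omega, h3, fun z hz => ?_⟩
  have hs : {At P t o} ∪ D ⊆
      {At P t o, lam (Wg P t o) x, lam (Wg P t o) (x - 1)} ∪ Set.range (Wg P t o v) := by
    rintro _ (rfl | hd)
    · simp
    · rcases hD hd with hd | hd
      · exact Or.inl (Or.inr hd)
      · exact Or.inr hd
  have h5 := h4 _ (gen_rel (fun a ha b hb => h.win_cm t o x v a (hs ha) b (hs hb))
    (fun b hb => h.win_cm' t o x v b (hs hb)) (h.at_self _ o) (.base (by simp)) ?_ hz)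
  · rwa [← inf_assoc, inf_eq_left.2 (h3.le.trans (h.at_anti h1 o))] at h5
  · rintro _ (rfl | hd)
    · rw [inf_eq_left.2 (h.at_anti t.le_succ o)]; exact .base (by simp)
    · exact H _ hd

theorem gen_lam (t : ℕ) (x : ℤ) (D' : Set L) :
    Gen ({At P (t + 1) o} ∪ D') (At P (t + 1) o ⊓ lam (Wg P t o) x) :=
  (h.s_lam t o x).mono Set.subset_union_left

theorem fate6 (t : ℕ) (x : ℤ) : Fate P o t {lam (Wg P t o) x} 1 := by
  refine fate_step h (D' := ∅) x 0 (by simp) ?_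
    (fate_done h (x := 0) (y := 0) (res_eq_zero.2 (dvd_zero _)) (by simp) 0)
  rintro _ rfl
  exact gen_lam h t x _

theorem gen_ho (t : ℕ) (x : ℤ) {y : ℤ} (hy : res (ee t) y ≠ 0) (S : Set Col) :
    Gen ({At P (t + 1) o} ∪ {lam (Wg P (t + 1) o) (y / per (ee t))})
      (At P (t + 1) o ⊓ Wg P t o (x, y) {c | c.ho ∈ S}) := by
  have := (h.grid t o).t_ho (ee_succ t) 0 (y / per (ee t)) x (Nat.one_le_iff_ne_zero.2 hy)
    (res_lt _ y) S
  rwa [h.atm0, h.nxt0, zero_add, ← res_spec] at this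

theorem gen_low (t : ℕ) (x : ℤ) {y : ℤ} (hy : res (ee t) y ≠ 0) (S : Set Core) :
    Gen ({At P (t + 1) o} ∪ ({lam (Wg P (t + 1) o) (y / per (ee t))} ∪
      Set.range fun S : Set Col => Wg P (t + 1) o (y / per (ee t), x) {c | c.ho ∈ S}))
      (At P (t + 1) o ⊓ Wg P t o (x, y) S) := by
  have := h.s_low t o x (y / per (ee t)) (Nat.one_le_iff_ne_zero.2 hy) (res_lt _ y) S
  rw [← res_spec] at this
  rw [← Set.union_assoc]
  exact this

theorem top_eq (t : ℕ) (x : ℤ) {y : ℤ} (hy : res (ee t) y = 0) (S : Set Core) :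
    At P (t + 1) o ⊓ Wg P t o (x, y) S = Wg P (t + 1) o (y / per (ee t), x) {c | c.tp ∈ S} := by
  have h1 := res_spec (ee t) y
  rw [hy, Nat.cast_zero, add_zero] at h1
  rw [← h.s_top, ← h1]

theorem fate5 (t : ℕ) (x y : ℤ) :
    Fate P o t (Set.range fun S : Set Col => Wg P t o (x, y) {c | c.ho ∈ S}) 2 := by
  have hs : (Set.range fun S : Set Col => Wg P t o (x, y) {c | c.ho ∈ S}) ⊆
      Set.range (Wg P t o (x, y)) := by rintro _ ⟨S, rfl⟩; exact ⟨_, rfl⟩
  by_cases hy : res (ee t) y = 0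
  · exact fate_done h hy hs _
  · refine fate_step h x (x, y) (hs.trans Set.subset_union_right) ?_ (fate6 h _ (y / per (ee t)))
    rintro _ ⟨S, rfl⟩
    exact gen_ho h t x hy S

theorem fate4 (t : ℕ) (x y : ℤ) :
    Fate P o t (Set.range fun S : Set Col => Wg P t o (x, y) {c | c.vo ∈ S}) 3 := by
  refine fate_step h x (x, y) ?_ ?_ (fate5 h _ (y / per (ee t)) x)
  · rintro _ ⟨S, rfl⟩; exact Or.inr ⟨_, rfl⟩
  · rintro _ ⟨S, rfl⟩
    have := (h.grid t o).t_vo (ee_succ t) 0 (y / per (ee t)) x (res_lt _ y) S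
    rwa [h.atm0, h.nxt0, zero_add, ← res_spec] at this

theorem fate3 (t : ℕ) (x y : ℤ) : Fate P o t ({lam (Wg P t o) x} ∪
    Set.range fun S : Set Col => Wg P t o (x, y) {c | c.ho ∈ S}) 4 := by
  have hs : ({lam (Wg P t o) x} ∪ Set.range fun S : Set Col => Wg P t o (x, y) {c | c.ho ∈ S}) ⊆
      {lam (Wg P t o) x, lam (Wg P t o) (x - 1)} ∪ Set.range (Wg P t o (x, y)) := by
    rintro _ (rfl | ⟨S, rfl⟩)
    · simp
    · exact Or.inr ⟨_, rfl⟩
  by_cases hy : res (ee t) y = 0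
  · refine fate_step h x (x, y) hs ?_ (fate4 h _ (y / per (ee t)) x)
    rintro _ (rfl | ⟨S, rfl⟩)
    · exact gen_lam h t x _
    · rw [top_eq h t x hy]; exact .base (Or.inr ⟨S, rfl⟩)
  · refine (fate_step h x (x, y) hs ?_ (fate6 h _ (y / per (ee t)))).mono (by omega)
    rintro _ (rfl | ⟨S, rfl⟩)
    · exact gen_lam h t x _
    · exact gen_ho h t x hy S

theorem fate2 (t : ℕ) (x y : ℤ) : Fate P o t (Set.range (Wg P t o (x, y))) 5 := by
  by_cases hy : res (ee t) y = 0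
  · exact fate_done h hy subset_rfl _
  · refine fate_step h x (x, y) Set.subset_union_right ?_ (fate3 h _ (y / per (ee t)) x)
    rintro _ ⟨S, rfl⟩
    exact gen_low h t x hy S

theorem fate1 (t : ℕ) (x y : ℤ) : Fate P o t
    ({lam (Wg P t o) x, lam (Wg P t o) (x - 1)} ∪ Set.range (Wg P t o (x, y))) 6 := by
  by_cases hy : res (ee t) y = 0
  · refine fate_step h x (x, y) subset_rfl ?_ (fate2 h _ (y / per (ee t)) x)
    rintro _ ((rfl | rfl) | ⟨S, rfl⟩)
    · exact gen_lam h t _ _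
    · exact gen_lam h t _ _
    · rw [top_eq h t x hy]; exact .base (Or.inr ⟨_, rfl⟩)
  · refine (fate_step h x (x, y) subset_rfl ?_ (fate3 h _ (y / per (ee t)) x)).mono (by omega)
    rintro _ ((rfl | rfl) | ⟨S, rfl⟩)
    · exact gen_lam h t _ _
    · exact gen_lam h t _ _
    · exact gen_low h t x hy S

omit h in
theorem box_split {a w t : ℤ} {ρ : ℕ} (ha : 2 * (ρ : ℤ) < a) (ht : |t| ≤ ρ) :
    |w + t - a * ((w + ρ) / a)| < a := by
  have h1 := Int.mul_ediv_add_emod (w + ρ) a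
  have h2 := Int.emod_nonneg (w + ρ) (b := a) (by omega)
  have h3 := Int.emod_lt_of_pos (w + ρ) (b := a) (by omega)
  rw [abs_le] at ht
  rw [abs_lt]
  constructor <;> omega

omit h in
theorem sw_abs (s : ℕ) {v : V} {ρ : ℤ} (h1 : |v.1| ≤ ρ) (h2 : |v.2| ≤ ρ) :
    |(sw s v).1| ≤ ρ ∧ |(sw s v).2| ≤ ρ := by
  unfold sw; split_ifs
  exacts [⟨h1, h2⟩, ⟨h2, h1⟩]

end StageAux

namespace Conf

variable {u : L} {P : V → Set Tile → L} (h : Conf u P)
include h

/-- every finite window is determined by the tile at a corner of one of seven stages -/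
theorem fate (ρ s1 : ℕ) : ∃ s0, s1 ≤ s0 ∧ ∀ o, ∃ s' o', s0 ≤ s' ∧ s' ≤ s0 + 6 ∧
    At P (s0 + 6) o ≤ At P s' o' ∧ ∀ v : V, |v.1| ≤ ρ → |v.2| ≤ ρ → ∀ S,
      Gen ({At P s' o'} ∪ Set.range (P o')) (At P s' o' ⊓ P v S) := by
  refine ⟨s1 + 2 * ρ + 1, by omega, fun o => ?_⟩
  set s := s1 + 2 * ρ + 1 with hs
  have hA : 2 * (ρ : ℤ) < sA s := by have := lt_sA s; omega
  have hB : 2 * (ρ : ℤ) < sB s := by have := le_sB s; omega
  set w := sw s (-o) with hw
  obtain ⟨s', o', h1, h2, h3, h4⟩ := fate1 h (o := o) s ((w.1 + ρ) / sA s) ((w.2 + ρ) / sB s)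
  refine ⟨s', o', h1, h2, (h.at_anti h2 o).trans h3.ge, fun v hv1 hv2 S => ?_⟩
  obtain ⟨a1, a2⟩ := sw_abs s hv1 hv2
  have h5 := h.window s o ((w.1 + ρ) / sA s) ((w.2 + ρ) / sB s) _ _ (box_split (w := w.1) hA a1)
    (box_split (w := w.2) hB a2) S
  rw [add_sub_cancel, add_sub_cancel, ← Prod.mk_add_mk, Prod.mk.eta, Prod.mk.eta, hw, ← sw_add,
    sw_sw, add_neg_cancel_left] at h5
  have h6 := h4 _ (by rw [← Set.union_assoc]; exact h5)
  rwa [← inf_assoc, inf_eq_left.2 (h3.le.trans (h.at_anti h1 o))] at h6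

theorem comm (v v' : V) (S S' : Set Tile) : Cm (P v S) (P v' S') := by
  obtain ⟨s0, -, H⟩ := h.fate (v.1.natAbs + v.2.natAbs + v'.1.natAbs + v'.2.natAbs) 0
  obtain ⟨F, hF⟩ := h.at_cover (s0 + 6)
  refine cm_of_cover F (At P (s0 + 6)) (fun _ _ _ _ => h.at_cm_at _ _ _ _)
    (fun _ _ => (h.at_cm _ _ _ _).symm) (fun _ _ => (h.at_cm _ _ _ _).symm) ((h.site v).cm _ _)
    ((h.site v').cm _ _) ((h.site v).le _) hF fun o _ => ?_
  obtain ⟨s', o', -, -, h1, h2⟩ := H o
  have hD : ∀ x ∈ {At P s' o'} ∪ Set.range (P o'), ∀ y ∈ {At P s' o'} ∪ Set.range (P o'),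
      Cm x y := by
    rintro _ (rfl | ⟨T, rfl⟩) _ (rfl | ⟨T', rfl⟩)
    exacts [h.at_self _ _, h.at_cm _ _ _ _, (h.at_cm _ _ _ _).symm, (h.site _).cm _ _]
  have g12 := Gen.cm hD
    (h2 v (by rw [← Int.natCast_natAbs]; omega) (by rw [← Int.natCast_natAbs]; omega) S)
    (h2 v' (by rw [← Int.natCast_natAbs]; omega) (by rw [← Int.natCast_natAbs]; omega) S')
  have k : ∀ w T, Cm (At P (s0 + 6) o) (At P s' o' ⊓ P w T) := fun w T =>
    (h.at_cm_at _ _ _ _).inf (h.at_cm _ _ _ _) (h.at_cm _ _ _ _)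
  have e : ∀ w T, P w T ⊓ At P (s0 + 6) o = At P (s0 + 6) o ⊓ (At P s' o' ⊓ P w T) := by
    intro w T
    rw [← inf_assoc, inf_eq_left.2 h1, inf_comm]
  rw [e, e]
  exact ((h.at_self _ _).inf (k v S) (k v S)).symm.inf
    ((k v' S').symm.inf g12.symm (k v S)).symm (k v' S')

end Conf

theorem conf_P0 : Conf Set.univ P0 where
  site _ := ⟨rfl, fun _ _ => rfl, fun _ => (Set.univ_inter _).symm, fun _ _ => trivial⟩
  valid v := Set.eq_univ_of_forall fun x => x.2.1 v
  hor i j S := Set.ext fun x => by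
    change hOut (x.1 (i, j)) ∈ S ↔ hIn (x.1 (i + 1, j)) ∈ S
    rw [x.2.2.1]
  ver i j S := Set.ext fun x => by
    change vOut (x.1 (i, j)) ∈ S ↔ vIn (x.1 (i, j + 1)) ∈ S
    rw [x.2.2.2]

end Vale.Agent.P196
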