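import Vale.Agent.P196.GridB

/-! The first stage of a lattice valued tiling. -/

namespace Vale.Agent.P196

open Vale.Agent.P193 GridBAux

set_option linter.unusedSectionVars false

variable {L : Type} [SemilatticeInf L] [BoundedOrder L] [Compl L] [QL L]

namespace StageAux

theorem sw_swap (s : ℕ) (v : V) : sw s v.swap = (sw s v).swap := by
  unfold sw; split_ifs <;> rfl

theorem sw_zero (s : ℕ) : sw s 0 = 0 := by
  unfold sw; split_ifs <;> rfl

theorem lat_succ {s : ℕ} {v : V} :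
    Lat (s + 1) v ↔ sA (s + 1) ∣ (sw s v).2 ∧ per (ee (s + 1)) * sA s ∣ (sw s v).1 := by
  rw [Lat, sw_succ, sw_swap]; rfl

theorem lat_site (s : ℕ) (x : ℤ) {y : ℤ} (hy : (per (ee s) : ℤ) ∣ y) :
    Lat s (sw s (sA s * x, sB s * y)) := by
  rw [Lat, sw_sw, sA_succ, mul_comm (per (ee s) : ℤ)]
  exact ⟨dvd_mul_right _ _, mul_dvd_mul_left _ hy⟩

theorem split_abs {b X : ℤ} {p : ℕ} (hb : 0 < b) (hX : |X| < p * b) :
    ∃ j X' : ℤ, X = b * j + X' ∧ |X'| < b ∧ |j| < p := by
  have key : ∀ X : ℤ, 0 ≤ X → X < p * b → ∃ j X' : ℤ, X = b * j + X' ∧ |X'| < b ∧ |j| < p := by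
    intro X h0 h1
    refine ⟨X / b, X % b, (Int.mul_ediv_add_emod X b).symm, ?_, ?_⟩
    · rw [abs_of_nonneg (Int.emod_nonneg _ hb.ne')]; exact Int.emod_lt_of_pos _ hb
    · rw [abs_of_nonneg (Int.ediv_nonneg h0 hb.le)]; exact Int.ediv_lt_of_lt_mul hb h1
  rcases le_total 0 X with h | h
  · exact key X h (by rwa [abs_of_nonneg h] at hX)
  · obtain ⟨j, X', h1, h2, h3⟩ := key (-X) (by omega) (by rwa [abs_of_nonpos h] at hX)
    exact ⟨-j, -X', by linear_combination -h1, by rwa [abs_neg], by rwa [abs_neg]⟩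

theorem cast_res (y : ℤ) : (y : ZMod (per (ee 0))).val = res (ee 0) y := by
  have h := ZMod.val_intCast (n := per (ee 0)) y
  rw [res, ← h, Int.toNat_natCast]

theorem cast_eq_zero {y : ℤ} : (y : ZMod (per (ee 0))) = 0 ↔ res (ee 0) y = 0 := by
  rw [← cast_res, ZMod.val_eq_zero]

variable {u : L} {P : V → Set Tile → L} (h : Conf u P)
include h

theorem idx_hor (k : ZMod (per (ee 0))) (x y a : ℤ) :
    P (x + a, y) {t | t.2.1 = k} = P (x, y) {t | t.2.1 = k} := by
  have key : ∀ x, P (x, y) {t | t.2.1 = k} = P (x + 1, y) {t | t.2.1 = k} :=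
    fun x => h.hor x y {l | l.1 = k}
  induction a using Int.induction_on with
  | zero => rw [add_zero]
  | succ a ih => rw [← add_assoc, ← key, ih]
  | pred a ih => rw [key, ← ih]; congr 2; ring

theorem idx_ver (k : ZMod (per (ee 0))) (x y b : ℤ) :
    P (x, y + b) {t | t.2.1 = k + b} = P (x, y) {t | t.2.1 = k} := by
  have key : ∀ y k, P (x, y) {t | t.2.1 = k} = P (x, y + 1) {t | t.2.1 = k + 1} := by
    intro y k
    have h1 := h.ver x y {l | l.1 = k + 1}
    have h2 : vOut ⁻¹' {l | l.1 = k + 1} = {t | t.2.1 = k} := by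
      ext t; simp [vOut]
    rw [h2] at h1
    exact h1
  induction b using Int.induction_on with
  | zero => simp
  | succ a ih => rw [← add_assoc, ← ih, key (y + a)]; push_cast; rw [add_assoc k]
  | pred a ih =>
    rw [key, ← ih]
    congr 2
    · ring
    · push_cast; rw [add_assoc k, sub_add_cancel]

theorem at_zero (o v : V) : At P 0 o = P (o + v) {t | t.2.1 = (v.2 : ZMod (per (ee 0)))} := by
  have h1 := idx_ver h 0 (o.1 + v.1) o.2 v.2
  rw [idx_hor h 0 o.1 o.2, zero_add] at h1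
  exact h1.symm

theorem lab_ver (x y b : ℤ) : P (x, y + b) {t | t.2.2 = true} = P (x, y) {t | t.2.2 = true} := by
  have key : ∀ y, P (x, y) {t | t.2.2 = true} = P (x, y + 1) {t | t.2.2 = true} :=
    fun y => h.ver x y {l | l.2.1 = true}
  induction b using Int.induction_on with
  | zero => rw [add_zero]
  | succ a ih => rw [← add_assoc, ← key, ih]
  | pred a ih => rw [key, ← ih]; congr 2; ring

omit h in
theorem wg_zero (o : V) (x y : ℤ) (S : Set Core) :
    Wg P 0 o (x, y) S = At P 0 o ⊓ P (o.1 + x, o.2 + y) {t | t.1 ∈ S} := by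
  simp only [Wg, sA_zero, sB_zero, one_mul]; rfl

theorem at_zero_le (o : V) (x y : ℤ) :
    At P 0 o ≤ P (o.1 + x, o.2 + y) ({t | t.2.1 = (y : ZMod (per (ee 0)))} ∩ {t | TV t}) :=
  le_inter (h.site _) (at_zero h o (x, y)).le (((h.site _).le _).trans (h.valid _).ge)

theorem site_zero {T : Type} (o v : V) (g : Tile → T) :
    Site (At P 0 o) fun S => At P 0 o ⊓ P v (g ⁻¹' S) := by
  refine ((h.site v).comap g).restrict ((h.site _).le _) fun S => ?_
  have h1 := at_zero h o (v - o)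
  rw [add_sub_cancel] at h1
  rw [h1]
  exact (h.site v).cm _ _

theorem ty_zero (o : V) (x : ℤ) {y : ℤ} (hy : res (ee 0) y ≠ 0) (y' : ℤ) :
    Wg P 0 o (x, y) {t | t.ho.ty = true} = At P 0 o ⊓ P (o.1 + x, o.2 + y') {t | t.2.2 = true} := by
  rw [wg_zero, lab_ver h, ← lab_ver h _ _ y]
  refine inf_eq_of (h.site _) (at_zero_le h o x y) fun t ⟨t1, t2⟩ => ?_
  have t3 := (t2.2 (by rw [t1]; exact fun h => hy (cast_eq_zero.1 h))).2.2
  change t.1.ho.ty = true ↔ t.2.2 = true
  rw [t3]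

theorem lam_zero (o : V) (x y' : ℤ) :
    lam (Wg P 0 o) x = At P 0 o ⊓ P (o.1 + x, o.2 + y') {t | t.2.2 = true} :=
  ty_zero h o x (by rw [res_one]; exact one_ne_zero) y'

theorem hor_zero (o : V) (x y : ℤ) (S : Set Col) :
    At P 0 o ⊓ P (o.1 + x, o.2 + y) {t | (hOut t).2 ∈ S} = Wg P 0 o (x + 1, y) {t | t.hi ∈ S} := by
  rw [wg_zero, ← add_assoc]
  exact congrArg _ (h.hor _ _ {l | l.2 ∈ S})

theorem grid_zero (o : V) : Grid (ee 0) (At P 0 o) (Wg P 0 o) where
  site v := site_zero h o _ fun t => tps 0 t.1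
  valid v := by
    obtain ⟨x, y⟩ := v
    rw [wg_zero]
    exact inf_eq_left.2 ((at_zero_le h o x y).trans ((h.site _).mono fun t ht => ht.2.1))
  vert x y S := by
    rw [wg_zero, wg_zero, ← add_assoc]
    exact congrArg _ (h.ver _ _ {l | l.2.2 ∈ S})
  hiR x y S hy := by
    rw [← hor_zero h, wg_zero]
    refine inf_eq_of (h.site _) (at_zero_le h o x y) fun t ⟨t1, _⟩ => ?_
    have t3 : t.2.1 = 0 := t1.trans (cast_eq_zero.2 hy)
    simp [hOut, t3]
  loR x y S hy := by
    rw [← hor_zero h, wg_zero]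
    refine inf_eq_of (h.site _) (at_zero_le h o x y) fun t ⟨t1, _⟩ => ?_
    have t3 : t.2.1 ≠ 0 := by rw [t1]; exact fun h => hy (cast_eq_zero.1 h)
    simp [hOut, t3]
  low x y hy := by
    rw [wg_zero]
    refine inf_eq_left.2 ((at_zero_le h o x y).trans ((h.site _).mono fun t ⟨t1, t2⟩ => ?_))
    have t3 := t2.2 (by rw [t1]; exact fun h => hy (cast_eq_zero.1 h))
    exact ⟨t3.1, by rw [t3.2.1, t1, cast_res]⟩
  lam x y hy := by rw [ty_zero h o x hy 0, lam_zero h o x 0]
  cm x y S _ := by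
    rw [lam_zero h o x y, wg_zero]
    exact (site_zero h o (o.1 + x, o.2 + y) id).cm {t | t.1 ∈ {t : Core | t.ho ∈ S}}
      {t | t.2.2 = true}

theorem window_zero (o : V) (x y : ℤ) (S : Set Tile) :
    Gen ({At P 0 o, lam (Wg P 0 o) x} ∪ Set.range (Wg P 0 o (x, y)))
      (At P 0 o ⊓ P (o.1 + x, o.2 + y) S) := by
  have hf := site_zero h o (o.1 + x, o.2 + y) fun t => t.1
  have hg := site_zero h o (o.1 + x, o.2 + y) fun t => t.2.2
  have hi := site_zero h o (o.1 + x, o.2 + y) id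
  have hs := h.site (o.1 + x, o.2 + y)
  refine (gen_of_det hf hg (fun S S' => hi.cm ((fun t => t.1) ⁻¹' S) ((fun t => t.2.2) ⁻¹' S'))
    (z := P (o.1 + x, o.2 + y) S) ?_ fun c b => ?_).trans ?_
  · rw [at_zero h o (x, y)]; exact hs.cm _ _
  · refine pt_dec hs (t := (c, (y : ZMod (per (ee 0))), b)) ?_ S
    refine (le_inter hs (le_inter hs (inf_le_left.trans inf_le_right)
      (inf_le_right.trans inf_le_right))
      ((inf_le_left.trans inf_le_left).trans (at_zero h o (x, y)).le)).trans (hs.mono ?_)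
    rintro ⟨c', k, b'⟩ ⟨⟨rfl, rfl⟩, h3⟩
    exact Prod.ext rfl (Prod.ext h3 rfl)
  · rintro _ (⟨S, rfl⟩ | ⟨S, rfl⟩)
    · exact .base (Or.inr ⟨S, wg_zero o x y S⟩)
    · refine (hg.gen_pts S).trans ?_
      have a0 : Gen ({At P 0 o, lam (Wg P 0 o) x} ∪ Set.range (Wg P 0 o (x, y)))
          (At P 0 o ⊓ P (o.1 + x, o.2 + y) {t | t.2.2 = true}) := by
        rw [← lam_zero h]; exact .base (by simp)
      rintro _ ⟨σ, rfl⟩
      cases σ
      · have a1 := hg.compl {true}
        rw [Bool.compl_singleton] at a1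
        have a2 := (Gen.base (x := At P 0 o) (by simp)).inf a0.compl
        erw [← a1] at a2
        exact a2
      · exact a0

end StageAux

end Vale.Agent.P196
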