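import Vale.Agent.P196.Tiles

/-! Arithmetic of the counter and of the parameters. -/

namespace Vale.Agent.P196

set_option linter.unusedVariables false

theorem per_pos (e : ℕ) : 0 < per e := pow_pos two_pos _

theorem res_lt (e : ℕ) (y : ℤ) : res e y < per e := by
  have h : (0 : ℤ) < per e := by exact_mod_cast per_pos e
  have h1 := Int.emod_lt_of_pos y h
  have h2 := Int.emod_nonneg y h.ne'
  unfold res
  omega

theorem res_add (e : ℕ) (x : ℤ) {r : ℕ} (hr : r < per e) : res e (per e * x + r) = r := by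
  unfold res
  rw [Int.mul_add_emod_self_left, Int.emod_eq_of_lt (by positivity) (by exact_mod_cast hr)]
  rfl

theorem res_spec (e : ℕ) (y : ℤ) : y = per e * (y / per e) + res e y := by
  have h : (0 : ℤ) < per e := by exact_mod_cast per_pos e
  unfold res
  rw [Int.toNat_of_nonneg (Int.emod_nonneg y h.ne'), Int.mul_ediv_add_emod]

theorem res_eq_zero {e : ℕ} {y : ℤ} : res e y = 0 ↔ (per e : ℤ) ∣ y := by
  have h : (0 : ℤ) < per e := by exact_mod_cast per_pos e
  have h2 := Int.emod_nonneg y h.ne'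
  rw [Int.dvd_iff_emod_eq_zero]
  unfold res
  omega

theorem res_one (e : ℕ) : res e 1 = 1 := by
  have h : 1 < per e := Nat.one_lt_two_pow (by omega)
  simpa using res_add e 0 h

theorem Core.tp_tp (t : Core) : t.tp.tp = t := rfl

theorem colH_tp {t : Core} : ColH t.tp ↔ RowH t := Iff.rfl

theorem rowH_tp {t : Core} : RowH t.tp ↔ ColH t := Iff.rfl

theorem valid_tp {t : Core} : Valid t.tp ↔ Valid t := or_comm

theorem rowH_of {t : Core} (h : Valid t) (h1 : t.vi.tr = .fin) (h2 : t.vo.tr = .start) :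
    RowH t := by
  refine h.resolve_left fun h => ?_
  cases hty : t.ho.ty
  · have := (h.gt hty).1
    rw [h1, h2] at this
    cases this
  · have := (h.eq hty).1
    rw [h1, h2] at this
    unfold step at this
    split_ifs at this

variable {e e' : ℕ}

theorem one_le_of (he : e' + 2 = 2 ^ e) : 1 ≤ e := by
  rcases e with _ | e
  · simp at he
  · omega

namespace TileAAux

theorem m_eq (he : e' + 2 = 2 ^ e) : 2 ^ (e + 1) = 2 * e' + 4 := by
  rw [pow_succ]; omega

theorem p2 (he : e' + 2 = 2 ^ e) : 2 ^ (2 * e + 2) = 2 ^ (e + 1) * (2 * e' + 4) := by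
  rw [← m_eq he, ← pow_add]; congr 1; ring

theorem p1 (he : e' + 2 = 2 ^ e) : 2 ^ (2 * e + 1) = 2 ^ (e + 1) * (e' + 2) := by
  rw [he, ← pow_add]; congr 1; ring

end TileAAux

open TileAAux

theorem used_iff (he : e' + 2 = 2 ^ e) {r : ℕ} :
    (PatN e r).used = true ↔ ∃ i < 2 * e' + 3, r = 2 ^ (e + 1) * (i + 1) := by
  have hM : 0 < 2 ^ (e + 1) := by positivity
  simp only [PatN, decide_eq_true_eq, p2 he]
  constructor
  · rintro ⟨⟨j, rfl⟩, h1, h2⟩
    have h3 := Nat.lt_of_mul_lt_mul_left h2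
    rcases j with _ | j
    · simp at h1
    · exact ⟨j, by omega, rfl⟩
  · rintro ⟨i, hi, rfl⟩
    exact ⟨⟨_, rfl⟩, by positivity, Nat.mul_lt_mul_of_pos_left (by omega) hM⟩

theorem top_iff (he : e' + 2 = 2 ^ e) {r : ℕ} :
    (PatN e r).top = true ↔ r = 2 ^ (e + 1) * (2 * e' + 3) := by
  simp only [PatN, decide_eq_true_eq, p2 he]
  rw [show 2 * e' + 4 = (2 * e' + 3) + 1 from rfl, Nat.mul_succ]
  omega

theorem first_iff {r : ℕ} : (PatN e r).first = true ↔ r = 1 := by simp [PatN]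

theorem first_of_used {r : ℕ} (h : (PatN e r).used = true) : (PatN e r).first = false := by
  simp only [PatN, decide_eq_true_eq, decide_eq_false_iff_not] at h ⊢
  rintro rfl
  have := Nat.le_of_dvd one_pos h.1
  have h2 : 1 < 2 ^ (e + 1) := Nat.one_lt_two_pow (by omega)
  omega

theorem used_row_lt (he : e' + 2 = 2 ^ e) {i : ℕ} (hi : i < 2 * e' + 3) :
    2 ^ (e + 1) * (i + 1) < 2 ^ (2 * e + 2) := by
  rw [p2 he]
  exact Nat.mul_lt_mul_of_pos_left (by omega) (by positivity)

theorem bitAt_used (he : e' + 2 = 2 ^ e) (k : ℕ) {i : ℕ} (hi : i < 2 * e' + 3) :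
    bitAt e k (2 ^ (e + 1) * (i + 1)) = k.testBit i := by
  unfold bitAt
  rw [(used_iff he).2 ⟨i, hi, rfl⟩, Nat.mul_div_cancel_left _ (by positivity)]
  simp

theorem bitAt_unused {k r : ℕ} (h : (PatN e r).used = false) : bitAt e k r = false := by
  simp [bitAt, h]

theorem bitAt_zero (r : ℕ) : bitAt e 0 r = false := by simp [bitAt]

theorem bitAt_last (he : e' + 2 = 2 ^ e) {r : ℕ} (h : (PatN e r).used = true) :
    bitAt e (per e' - 1) r = true := by
  obtain ⟨i, hi, rfl⟩ := (used_iff he).1 h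
  rw [bitAt_used he _ hi, per, Nat.testBit_two_pow_sub_one]
  simpa using hi

namespace TileAAux

/-- the accumulators after reading `i` bits -/
def acc (e' k : ℕ) : ℕ → Acc
  | 0 => ⟨true, true, true, true, false⟩
  | i + 1 => (acc e' k i).upd ⟨false, true, decide (i < e' + 1), false⟩ ((k - 1).testBit i)

theorem trk_run (he : e' + 2 = 2 ^ e) (k : ℕ) {r : ℕ} (h1 : 1 ≤ r)
    (h2 : r < 2 ^ (e + 1) * (2 * e' + 3)) : trk e k r = .run (acc e' k (r / 2 ^ (e + 1))) := by
  have hM : 1 < 2 ^ (e + 1) := Nat.one_lt_two_pow (by omega)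
  induction r, h1 using Nat.le_induction with
  | base =>
    rw [Nat.div_eq_of_lt hM]
    show step _ _ _ = _
    unfold step
    rw [if_pos (first_iff.2 rfl)]
    rfl
  | succ r hr ih =>
    have hf : ¬(PatN e (r + 1)).first = true := by rw [first_iff]; omega
    show step _ _ _ = _
    rw [ih (by omega)]
    unfold step
    rw [if_neg hf]
    by_cases hu : (PatN e (r + 1)).used = true
    · obtain ⟨i, hi, hri⟩ := (used_iff he).1 hu
      have ht : ¬(PatN e (r + 1)).top = true := by rw [top_iff he]; omega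
      have d1 : (r + 1) / 2 ^ (e + 1) = i + 1 := by
        rw [hri, Nat.mul_div_cancel_left _ (by omega)]
      have d2 : r / 2 ^ (e + 1) = i := by
        rw [Nat.mul_succ] at hri
        exact Nat.div_eq_of_lt_le (by rw [mul_comm]; omega)
          (by rw [mul_comm, Nat.mul_succ]; omega)
      have hl : (PatN e (r + 1)).low = decide (i < e' + 1) := by
        simp only [PatN, p1 he, hri, dvd_mul_right, true_and, decide_eq_decide]
        rw [Nat.mul_lt_mul_left (by omega)]
        have : 0 < 2 ^ (e + 1) * (i + 1) := by positivity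
        omega
      rw [if_pos hu]
      simp only [if_neg ht]
      rw [d1, d2, hri, bitAt_used he _ hi, ← hri]
      simp only [acc, Acc.upd, hl]
    · rw [if_neg hu, Nat.succ_div, if_neg, add_zero]
      rintro ⟨j, hj⟩
      refine hu ((used_iff he).2 ?_)
      rcases j with _ | j
      · omega
      · rw [hj] at h2
        have := Nat.lt_of_mul_lt_mul_left h2
        exact ⟨j, by omega, hj⟩

theorem trk_used (he : e' + 2 = 2 ^ e) (k : ℕ) {i : ℕ} (hi : i < 2 * e' + 3) :
    trk e k (2 ^ (e + 1) * (i + 1) - 1) = .run (acc e' k i) := by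
  have hM : 1 < 2 ^ (e + 1) := Nat.one_lt_two_pow (by omega)
  have h1 : 2 ^ (e + 1) * (i + 1) ≤ 2 ^ (e + 1) * (2 * e' + 3) := Nat.mul_le_mul_left _ hi
  have h2 : 2 ^ (e + 1) * (i + 1) = 2 ^ (e + 1) * i + 2 ^ (e + 1) := Nat.mul_succ _ _
  rw [trk_run he k (by omega) (by omega)]
  congr 2
  exact Nat.div_eq_of_lt_le (by rw [mul_comm]; omega) (by rw [mul_comm (i + 1)]; omega)

theorem mod_succ (k i : ℕ) : k % 2 ^ (i + 1) = k % 2 ^ i + if k.testBit i then 2 ^ i else 0 := by
  rw [Nat.mod_pow_succ, Nat.testBit_eq_decide_div_mod_eq]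
  rcases Nat.mod_two_eq_zero_or_one (k / 2 ^ i) with h | h <;> simp [h]

theorem bit_succ {k : ℕ} (h1 : 1 ≤ k) (i : ℕ) :
    k.testBit i = xor ((k - 1).testBit i) (decide (k % 2 ^ i = 0)) := by
  obtain ⟨m, rfl⟩ : ∃ m, k = m + 1 := ⟨k - 1, by omega⟩
  rw [Nat.testBit_eq_decide_div_mod_eq, Nat.testBit_eq_decide_div_mod_eq, Nat.succ_div,
    Nat.add_sub_cancel]
  by_cases h : 2 ^ i ∣ m + 1
  · rw [if_pos h, decide_eq_true (Nat.mod_eq_zero_of_dvd h)]
    rcases Nat.mod_two_eq_zero_or_one (m / 2 ^ i) with h | h <;> simp [h, Nat.add_mod]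
  · rw [if_neg h, decide_eq_false fun h' => h (Nat.dvd_of_mod_eq_zero h')]
    simp

theorem acc_carry {k : ℕ} (h1 : 1 ≤ k) (i : ℕ) :
    (acc e' k i).carry = decide (k % 2 ^ i = 0) := by
  induction i with
  | zero => simp [acc, Nat.mod_one]
  | succ i ih =>
    have hb := bit_succ h1 i
    have hm := mod_succ k i
    have hp : 0 < 2 ^ i := by positivity
    simp only [acc, Acc.upd, ih]
    by_cases h0 : k % 2 ^ i = 0 <;> cases hk : k.testBit i <;>
      cases hk' : (k - 1).testBit i <;> simp_all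

theorem acc_out {k : ℕ} (h1 : 1 ≤ k) (i : ℕ) :
    xor ((k - 1).testBit i) (acc e' k i).carry = k.testBit i := by
  rw [acc_carry h1, ← bit_succ h1]

theorem acc_inZero (k i : ℕ) : (acc e' k i).inZero = true ↔ (k - 1) % 2 ^ i = 0 := by
  induction i with
  | zero => simp [acc, Nat.mod_one]
  | succ i ih =>
    have hm := mod_succ (k - 1) i
    have hp : 0 < 2 ^ i := by positivity
    simp only [acc, Acc.upd, Bool.and_eq_true, ih, hm]
    cases hk' : (k - 1).testBit i <;> simp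

theorem acc_lowZero {k : ℕ} (h1 : 1 ≤ k) (i : ℕ) :
    (acc e' k i).lowZero = true ↔ k % 2 ^ min i (e' + 1) = 0 := by
  induction i with
  | zero => simp [acc, Nat.mod_one]
  | succ i ih =>
    have hm := mod_succ k i
    have hp : 0 < 2 ^ i := by positivity
    simp only [acc, Acc.upd, Bool.and_eq_true, ih, acc_out h1]
    by_cases hi : i < e' + 1
    · rw [min_eq_left hi.le, min_eq_left hi, hm]
      cases hk : k.testBit i <;> simp [hi]
    · rw [min_eq_right (by omega), min_eq_right (by omega)]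
      simp [hi]

theorem acc_highOne {k : ℕ} (h1 : 1 ≤ k) (i : ℕ) :
    ((acc e' k i).lowZero = true ∧ (acc e' k i).highOne = true) ↔
      k % 2 ^ i + 2 ^ min i (e' + 1) = 2 ^ i := by
  induction i with
  | zero => simp [acc, Nat.mod_one]
  | succ i ih =>
    have hm := mod_succ k i
    have hp : k % 2 ^ i < 2 ^ i := Nat.mod_lt _ (by positivity)
    simp only [acc, Acc.upd, Bool.and_eq_true, acc_out h1]
    by_cases hi : i < e' + 1
    · rw [min_eq_left hi.le] at ih
      rw [min_eq_left hi, hm]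
      cases hk : k.testBit i
      · simpa [hi] using ih
      · simp [hi]
    · rw [min_eq_right (by omega)] at ih
      have hq : 2 ^ (e' + 1) ≤ 2 ^ i := Nat.pow_le_pow_right two_pos (by omega)
      rw [min_eq_right (by omega), hm, pow_succ 2 i]
      cases hk : k.testBit i
      · simp only [hi, decide_false, Bool.or_false, Bool.false_eq_true, and_false, if_false,
          false_iff]
        omega
      · simp only [hi, decide_false, Bool.not_false, Bool.true_or, Bool.or_true, and_true,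
          if_true, ih]
        omega

theorem acc_prev {k : ℕ} (h1 : 1 ≤ k) (i : ℕ) : (acc e' k (i + 1)).prev = k.testBit i :=
  acc_out h1 i

theorem acc_top {k : ℕ} (h1 : 1 ≤ k) (h2 : k < per e') :
    ((k - 1).testBit (2 * e' + 2) && (acc e' k (2 * e' + 2)).carry) = false ∧
      PatN e' k = (acc e' k (2 * e' + 2)).comp ((k - 1).testBit (2 * e' + 2)) := by
  have hk : k % 2 ^ (2 * e' + 2 + 1) = k := Nat.mod_eq_of_lt h2
  have hk' : (k - 1) % 2 ^ (2 * e' + 2 + 1) = k - 1 :=
    Nat.mod_eq_of_lt (lt_of_le_of_lt (Nat.sub_le _ _) h2)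
  have a1 := acc_carry (e' := e') h1 (2 * e' + 2 + 1)
  have a2 := acc_inZero (e' := e') k (2 * e' + 2 + 1)
  have a3 := acc_lowZero (e' := e') h1 (2 * e' + 2)
  have a4 := acc_highOne (e' := e') h1 (2 * e' + 2)
  have a5 : (acc e' k (2 * e' + 2)).prev = k.testBit (2 * e' + 1) := acc_prev h1 _
  have m1 := mod_succ k (2 * e' + 2)
  have m2 := mod_succ k (2 * e' + 1)
  have l1 : k % 2 ^ (2 * e' + 2) < 2 ^ (2 * e' + 2) := Nat.mod_lt _ (by positivity)
  have l2 : k % 2 ^ (2 * e' + 1) < 2 ^ (2 * e' + 1) := Nat.mod_lt _ (by positivity)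
  have q1 : 2 ^ (2 * e' + 2) = 2 ^ (2 * e' + 1) * 2 := pow_succ _ _
  have q2 : 0 < 2 ^ (e' + 1) := by positivity
  rw [min_eq_right (by omega), ← Nat.dvd_iff_mod_eq_zero] at a3
  rw [min_eq_right (by omega)] at a4
  rw [hk] at a1 m1
  rw [hk'] at a2
  rw [show 2 * e' + 1 + 1 = 2 * e' + 2 from rfl] at m2
  refine ⟨a1.trans (decide_eq_false (by omega)), ?_⟩
  simp only [PatN, Acc.comp, acc_out h1, a5, Fl.mk.injEq]
  refine ⟨?_, ?_, ?_, ?_⟩ <;> rw [Bool.eq_iff_iff, decide_eq_true_eq]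
  · refine Iff.trans (by omega) a2.symm
  · rw [Bool.and_eq_true, a3]
    refine and_congr_right fun _ => ?_
    cases h : k.testBit (2 * e' + 2) <;> simp [h] at m1 ⊢ <;> omega
  · rw [Bool.and_eq_true, Bool.and_eq_true, a3, and_assoc]
    refine and_congr_right fun _ => ?_
    cases h : k.testBit (2 * e' + 2) <;> cases h' : k.testBit (2 * e' + 1) <;>
      simp [h, h'] at m1 m2 ⊢ <;> omega
  · rw [Bool.and_eq_true, Bool.and_eq_true, and_right_comm, a4]
    cases h : k.testBit (2 * e' + 2) <;> simp [h] at m1 ⊢ <;> omega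

theorem patN_quiet {r : ℕ} (h : 2 ^ (2 * e + 2) ≤ r) : PatN e r = ⟨false, false, false, false⟩ := by
  have h1 : 2 ^ (2 * e + 2) = 2 ^ (2 * e + 1) * 2 := pow_succ _ _
  have h2 : 0 < 2 ^ (2 * e + 1) := by positivity
  have h3 : 0 < 2 ^ (e + 1) := by positivity
  simp only [PatN, Fl.mk.injEq, decide_eq_false_iff_not]
  omega

end TileAAux

theorem trk_legal (he : e' + 2 = 2 ^ e) {k r : ℕ} (h1 : 1 ≤ k) (h2 : k < per e') (h3 : 1 ≤ r) :
    Legal (PatN e r) (bitAt e (k - 1) r) (trk e k (r - 1)) (PatN e' k) := by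
  refine ⟨fun h => ?_, fun _ hu => ?_⟩
  · rw [first_iff.1 h]; rfl
  · obtain ⟨i, hi, rfl⟩ := (used_iff he).1 hu
    refine ⟨_, trk_used he k hi, fun ht => ?_⟩
    have := Nat.eq_of_mul_eq_mul_left (by positivity) ((top_iff he).1 ht)
    obtain rfl : i = 2 * e' + 2 := by omega
    rw [bitAt_used he _ hi]
    exact acc_top h1 h2

theorem trk_bit (he : e' + 2 = 2 ^ e) {k r : ℕ} (h1 : 1 ≤ k) (h2 : k < per e')
    (h : (PatN e r).used = true) :
    bitAt e k r = xor (bitAt e (k - 1) r) (trk e k (r - 1)).carry := by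
  obtain ⟨i, hi, rfl⟩ := (used_iff he).1 h
  rw [bitAt_used he _ hi, bitAt_used he _ hi, trk_used he k hi]
  exact (acc_out h1 i).symm

theorem trk_fin (he : e' + 2 = 2 ^ e) {k r : ℕ} (h : 2 ^ (e + 1) * (2 * e' + 3) ≤ r) :
    trk e k r = .fin := by
  have hM : 1 < 2 ^ (e + 1) := Nat.one_lt_two_pow (by omega)
  have h2 : 2 ^ (e + 1) * (2 * e' + 3) = 2 ^ (e + 1) * (2 * e' + 2) + 2 ^ (e + 1) :=
    Nat.mul_succ _ _
  induction r, h using Nat.le_induction with
  | base =>
    have hu : (PatN e (2 ^ (e + 1) * (2 * e' + 3))).used = true :=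
      (used_iff he).2 ⟨2 * e' + 2, by omega, rfl⟩
    have h3 := trk_used he k (i := 2 * e' + 2) (by omega)
    have ht := (top_iff he).2 (rfl : 2 ^ (e + 1) * (2 * e' + 3) = _)
    have hf := first_of_used hu
    rw [show 2 * e' + 2 + 1 = 2 * e' + 3 from rfl] at h3
    obtain ⟨m, hm⟩ : ∃ m, 2 ^ (e + 1) * (2 * e' + 3) = m + 1 :=
      ⟨_, (Nat.sub_add_cancel (by omega)).symm⟩
    rw [hm] at hu h3 ht hf ⊢
    rw [Nat.add_sub_cancel] at h3
    simp [trk, step, hu, h3, ht, hf]
  | succ r hr ih =>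
    have hf : ¬(PatN e (r + 1)).first = true := by rw [first_iff]; omega
    simp [trk, step, ih, hf]

/-- at the top used line the rule forces the flags of the reading line -/
theorem flags_forced (he : e' + 2 = 2 ^ e) {k : ℕ} (h1 : 1 ≤ k) (h2 : k < per e') {g : Fl}
    (h : Legal (PatN e (2 ^ (e + 1) * (2 * e' + 3))) (bitAt e (k - 1) (2 ^ (e + 1) * (2 * e' + 3)))
      (trk e k (2 ^ (e + 1) * (2 * e' + 3) - 1)) g) : g = PatN e' k := by
  have hu : (PatN e (2 ^ (e + 1) * (2 * e' + 3))).used = true :=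
    (used_iff he).2 ⟨2 * e' + 2, by omega, rfl⟩
  have ht := (top_iff he).2 (rfl : 2 ^ (e + 1) * (2 * e' + 3) = _)
  obtain ⟨a, ha, h3⟩ := h.2 (first_of_used hu) hu
  obtain ⟨a', ha', h4⟩ := (trk_legal he h1 h2 (r := 2 ^ (e + 1) * (2 * e' + 3))
    (Nat.mul_pos (by positivity) (by omega))).2 (first_of_used hu) hu
  rw [ha] at ha'
  cases ha'
  rw [(h3 ht).2, (h4 ht).2]

theorem lowT_colH (he : e' + 2 = 2 ^ e) {k r : ℕ} (h2 : k < per e') (h3 : 1 ≤ r) {c : Col}
    {σ : Bool} (hc : k ≠ 0 → c.fl = PatN e' k ∧ c.ty = σ) : ColH (lowT e e' k r c σ) := by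
  by_cases hk : k = 0
  · subst hk
    refine ⟨rfl, rfl, rfl, rfl, fun h => ?_, fun h => ⟨bitAt_unused h, bitAt_unused h⟩, rfl, rfl,
      rfl, rfl, fun _ => ⟨rfl, fun h => ⟨bitAt_last he h, bitAt_zero r⟩⟩, fun h => ?_⟩
    · show ((PatN e r).first && σ) = false
      rw [show (PatN e r).first = false from h]; rfl
    · simp [lowT] at h
  · obtain ⟨c1, c2⟩ := hc hk
    have h1 : 1 ≤ k := Nat.one_le_iff_ne_zero.2 hk
    unfold ColH lowT
    simp only [if_neg hk]
    refine ⟨rfl, rfl, rfl, rfl, fun h => ?_, fun h => ⟨bitAt_unused h, bitAt_unused h⟩, rfl, rfl,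
      rfl, rfl, fun h => ?_, fun _ => ⟨?_, ?_, fun h => trk_bit he h1 h2 h, fun h => ?_⟩⟩
    · show ((PatN e r).first && σ) = false
      rw [show (PatN e r).first = false from h]; rfl
    · simp [hk] at h
    · obtain ⟨r, rfl⟩ : ∃ m, r = m + 1 := ⟨r - 1, by omega⟩
      rfl
    · show Legal _ _ _ c.fl
      rw [c1]
      exact trk_legal he h1 h2 h3
    · show ((PatN e r).first && σ) = c.ty
      rw [show (PatN e r).first = true from h, c2]; rfl

theorem lowT_quiet (he : e' + 2 = 2 ^ e) {k r r' : ℕ} (h : 2 ^ (2 * e + 2) ≤ r)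
    (h' : 2 ^ (2 * e + 2) ≤ r') (c : Col) (σ σ' : Bool) :
    lowT e e' k r c σ = lowT e e' k r' c σ' := by
  have hM : 0 < 2 ^ (e + 1) := by positivity
  have h2 : 2 ^ (2 * e + 2) = 2 ^ (e + 1) * (2 * e' + 3) + 2 ^ (e + 1) := by
    rw [p2 he]; exact Nat.mul_succ _ _
  unfold lowT
  rw [trk_fin he (r := r) (by omega), trk_fin he (r := r') (by omega),
    trk_fin he (r := r - 1) (by omega), trk_fin he (r := r' - 1) (by omega)]
  simp [bitAt, patN_quiet h, patN_quiet h']

theorem patN_generic {k : ℕ} (h0 : k % 2 ^ (e + 1) ≠ 0) (h1 : k % 2 ^ (e + 1) ≠ 1) :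
    PatN e k = ⟨false, false, false, false⟩ := by
  have hM : 1 < 2 ^ (e + 1) := Nat.one_lt_two_pow (by omega)
  have hd : ¬2 ^ (e + 1) ∣ k := fun h => h0 (Nat.mod_eq_zero_of_dvd h)
  simp only [PatN, Fl.mk.injEq, decide_eq_false_iff_not]
  refine ⟨?_, fun h => hd h.1, fun h => hd h.1, fun h => hd ?_⟩
  · rintro rfl
    exact h1 (Nat.mod_eq_of_lt hM)
  · rw [Nat.dvd_add_iff_left (dvd_refl (2 ^ (e + 1))), h]
    exact pow_dvd_pow _ (by omega)

theorem lowT_gen (he : e' + 2 = 2 ^ e) {k r : ℕ} (h : 2 ^ (2 * e + 2) ≤ r) (h0 : k ≠ 0) (h1 : k ≠ 1)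
    {c : Col} (c1 : c.fl = ⟨false, false, false, false⟩) (c2 : c.bit = false) (c3 : c.ty = false)
    (c4 : c.sg = false) (σ : Bool) : lowT e e' k r c σ = genT := by
  have hM : 0 < 2 ^ (e + 1) := by positivity
  have h2 : 2 ^ (2 * e + 2) = 2 ^ (e + 1) * (2 * e' + 3) + 2 ^ (e + 1) := by
    rw [p2 he]; exact Nat.mul_succ _ _
  unfold lowT genT
  rw [trk_fin he (r := r) (by omega), trk_fin he (r := r - 1) (by omega)]
  simp [bitAt, patN_quiet h, h0, h1, Col.set, c1, c2, c3, c4]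

theorem TileAAux.pow_big {n : ℕ} (h : 5 ≤ n) : 3 * n + 6 ≤ 2 ^ n := by
  induction n, h using Nat.le_induction with
  | base => norm_num
  | succ n _ ih => rw [pow_succ]; omega

theorem le_ee (s : ℕ) : s + 5 ≤ ee s := by
  induction s with
  | zero => exact le_rfl
  | succ s ih =>
    have := pow_big (n := ee s) (by omega)
    show s + 1 + 5 ≤ 2 ^ ee s - 2
    omega

theorem ee_succ (s : ℕ) : ee (s + 1) + 2 = 2 ^ ee s := by
  have := pow_big (n := ee s) (by have := le_ee s; omega)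
  show 2 ^ ee s - 2 + 2 = _
  omega

theorem sA_zero : sA 0 = 1 := rfl

theorem sB_zero : sB 0 = 1 := rfl

theorem sA_succ (s : ℕ) : sA (s + 1) = per (ee s) * sB s := rfl

theorem sB_succ (s : ℕ) : sB (s + 1) = sA s := rfl

theorem TileAAux.sAB_pos (s : ℕ) : 0 < sA s ∧ 0 < sB s := by
  induction s with
  | zero => exact ⟨one_pos, one_pos⟩
  | succ s ih =>
    rw [sA_succ, sB_succ]
    exact ⟨mul_pos (by exact_mod_cast per_pos _) ih.2, ih.1⟩

theorem sA_pos (s : ℕ) : 0 < sA s := (sAB_pos s).1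

theorem sB_pos (s : ℕ) : 0 < sB s := (sAB_pos s).2

theorem lt_sA (s : ℕ) : (s : ℤ) < sA s := by
  rcases s with _ | s
  · exact one_pos
  · have h1 := sB_pos s
    have h2 := le_ee s
    have h3 : 2 * ee s + 3 < per (ee s) := Nat.lt_two_pow_self
    have h4 : ((s + 1 : ℕ) : ℤ) < per (ee s) := by exact_mod_cast (by omega : s + 1 < per (ee s))
    rw [sA_succ]
    exact h4.trans_le (le_mul_of_one_le_right (by positivity) h1)

theorem le_sB (s : ℕ) : (s : ℤ) ≤ sB s := by
  rcases s with _ | s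
  · exact zero_le_one
  · rw [sB_succ]
    exact_mod_cast lt_sA s

theorem growth (s : ℕ) : sA s * sB s * 2 ^ s ≤ 2 ^ ee s := by
  induction s with
  | zero => norm_num [sA_zero, sB_zero, ee]
  | succ s ih =>
    have h1 := pow_big (n := ee s) (by have := le_ee s; omega)
    have h2 := ee_succ s
    calc sA (s + 1) * sB (s + 1) * 2 ^ (s + 1)
        = 2 ^ (2 * ee s + 4) * (sA s * sB s * 2 ^ s) := by
          rw [sA_succ, sB_succ, per]; push_cast; ring
      _ ≤ 2 ^ (2 * ee s + 4) * 2 ^ ee s := mul_le_mul_of_nonneg_left ih (by positivity)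
      _ = 2 ^ (2 * ee s + 4 + ee s) := (pow_add _ _ _).symm
      _ ≤ 2 ^ ee (s + 1) := pow_le_pow_right₀ one_le_two (by omega)

theorem sw_sw (s : ℕ) (v : V) : sw s (sw s v) = v := by
  unfold sw; split_ifs <;> rfl

theorem sw_add (s : ℕ) (v w : V) : sw s (v + w) = sw s v + sw s w := by
  unfold sw; split_ifs <;> rfl

theorem sw_neg (s : ℕ) (v : V) : sw s (-v) = -sw s v := by
  unfold sw; split_ifs <;> rfl

theorem sw_succ (s : ℕ) (v : V) : sw (s + 1) v = sw s v.swap := by
  unfold sw; split_ifs <;> first | rfl | omega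

theorem tps_succ (s : ℕ) (t : Core) : tps (s + 1) t = (tps s t).tp := by
  unfold tps; split_ifs <;> first | rfl | omega

theorem Lat.succ {s : ℕ} {v : V} (h : Lat (s + 1) v) : Lat s v := by
  have h0 : sw (s + 1) v = (sw s v).swap := by
    unfold sw; split_ifs <;> first | rfl | omega
  unfold Lat at h
  rw [h0] at h
  exact ⟨(dvd_mul_left _ _).trans h.2, h.1⟩

end Vale.Agent.P196
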