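import Vale.Agent.P193.QMB
import Vale.Agent.P196.SS

/-! The tile set, the junction rule, and lattice valued configurations. -/

namespace Vale.Agent.P196

open Vale.Agent.P193

/-- flags carried by a line -/
structure Fl where
  first : Bool
  used : Bool
  low : Bool
  top : Bool
  deriving DecidableEq

/-- accumulators of the reading head -/
structure Acc where
  carry : Bool
  inZero : Bool
  lowZero : Bool
  highOne : Bool
  prev : Bool
  deriving DecidableEq

/-- states of the reading head -/
inductive Tr
  | start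
  | run (a : Acc)
  | fin
  deriving DecidableEq

/-- colours of edges -/
structure Col where
  fl : Fl
  bit : Bool
  tr : Tr
  ty : Bool
  sg : Bool
  deriving DecidableEq

/-- colours of the four edges at a junction -/
structure Core where
  vi : Col
  vo : Col
  hi : Col
  ho : Col
  deriving DecidableEq

instance : Finite Fl := Finite.of_equiv _ (proxy_equiv% Fl)
instance : Finite Acc := Finite.of_equiv _ (proxy_equiv% Acc)
instance : Finite Tr := Finite.of_equiv _ (proxy_equiv% Tr)
instance : Finite Col := Finite.of_equiv _ (proxy_equiv% Col)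
instance : Finite Core := Finite.of_equiv _ (proxy_equiv% Core)

/-- the carry bit of a state -/
def Tr.carry : Tr → Bool
  | .run a => a.carry
  | _ => false

/-- update of the accumulators at a used line that is not the top one -/
def Acc.upd (a : Acc) (f : Fl) (b : Bool) : Acc where
  carry := b && a.carry
  inZero := a.inZero && !b
  lowZero := a.lowZero && (!f.low || !(xor b a.carry))
  highOne := a.highOne && (f.low || xor b a.carry)
  prev := xor b a.carry

/-- the flags computed at the top used line -/
def Acc.comp (a : Acc) (b : Bool) : Fl where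
  first := a.inZero && !b
  used := a.lowZero && !(xor b a.carry)
  low := a.lowZero && !(xor b a.carry) && !a.prev
  top := a.lowZero && !(xor b a.carry) && a.highOne

/-- transition of the head when crossing a line with flags `f` and bit `b` -/
def step (f : Fl) (b : Bool) (t : Tr) : Tr :=
  if f.first then .run ⟨true, true, true, true, false⟩
  else if f.used then
    match t with
    | .run a => if f.top then .fin else .run (a.upd f b)
    | t => t
  else t

/-- admissibility of a transition on a line with flags `g` -/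
def Legal (f : Fl) (b : Bool) (t : Tr) (g : Fl) : Prop :=
  (f.first = true → t = .start) ∧
    (f.first = false → f.used = true →
      ∃ a, t = .run a ∧ (f.top = true → (b && a.carry) = false ∧ g = a.comp b))

/-- the junction rule: upper line `ui → uo`, lower line `li → lo` -/
structure Junc (ui uo li lo : Col) : Prop where
  li_tr : li.tr = .fin
  lo_tr : lo.tr = .start
  l_fl : lo.fl = li.fl
  l_sg : lo.sg = li.sg
  l_sg0 : li.fl.first = false → li.sg = false
  l_bit0 : li.fl.used = false → li.bit = false ∧ lo.bit = false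
  u_fl : uo.fl = ui.fl
  u_sg : uo.sg = ui.sg
  u_bit : uo.bit = ui.bit
  u_ty : uo.ty = ui.ty
  gt : lo.ty = false → uo.tr = ui.tr ∧ (li.fl.used = true → li.bit = true ∧ lo.bit = false)
  eq : lo.ty = true → uo.tr = step li.fl li.bit ui.tr ∧ Legal li.fl li.bit ui.tr ui.fl ∧
    (li.fl.used = true → lo.bit = xor li.bit ui.tr.carry) ∧ (li.fl.first = true → li.sg = ui.ty)

/-- the column is the upper line -/
def ColH (t : Core) : Prop := Junc t.vi t.vo t.hi t.ho

/-- the row is the upper line -/
def RowH (t : Core) : Prop := Junc t.hi t.ho t.vi t.vo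

/-- admissible junctions -/
def Valid (t : Core) : Prop := ColH t ∨ RowH t

/-- transposition -/
def Core.tp (t : Core) : Core := ⟨t.hi, t.ho, t.vi, t.vo⟩

/-- a colour with its head state replaced -/
def Col.set (c : Col) (t : Tr) : Col := { c with tr := t }

/-- the period with parameter `e` -/
def per (e : ℕ) : ℕ := 2 ^ (2 * e + 3)

/-- the flags of the line with residue `r` -/
def PatN (e r : ℕ) : Fl where
  first := decide (r = 1)
  used := decide (2 ^ (e + 1) ∣ r ∧ 0 < r ∧ r < 2 ^ (2 * e + 2))
  low := decide (2 ^ (e + 1) ∣ r ∧ 0 < r ∧ r < 2 ^ (2 * e + 1))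
  top := decide (r + 2 ^ (e + 1) = 2 ^ (2 * e + 2))

/-- residue modulo the period -/
def res (e : ℕ) (y : ℤ) : ℕ := (y % (per e : ℤ)).toNat

/-- the bit on the line with residue `r` when the counter has value `k` -/
def bitAt (e k r : ℕ) : Bool := (PatN e r).used && k.testBit (r / 2 ^ (e + 1) - 1)

/-- the state of the head above the line with residue `r`, when the counter goes from `k - 1`
to `k` -/
def trk (e k : ℕ) : ℕ → Tr
  | 0 => .start
  | r + 1 => step (PatN e (r + 1)) (bitAt e (k - 1) (r + 1)) (trk e k r)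

/-- the junction at residue `r` in the column with counter value `k`, given the colour `c` at the
bottom of the column and the label `σ` -/
def lowT (e e' k r : ℕ) (c : Col) (σ : Bool) : Core where
  vi := if k = 0 then c else c.set (trk e k (r - 1))
  vo := if k = 0 then c else c.set (trk e k r)
  hi := ⟨PatN e r, bitAt e (if k = 0 then per e' - 1 else k - 1) r, .fin, decide (k ≠ 1),
    (PatN e r).first && σ⟩
  ho := ⟨PatN e r, bitAt e k r, .start, decide (k ≠ 0), (PatN e r).first && σ⟩

/-- the generic junction in the quiet zone -/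
def genT : Core where
  vi := ⟨⟨false, false, false, false⟩, false, .fin, false, false⟩
  vo := ⟨⟨false, false, false, false⟩, false, .fin, false, false⟩
  hi := ⟨⟨false, false, false, false⟩, false, .fin, true, false⟩
  ho := ⟨⟨false, false, false, false⟩, false, .start, true, false⟩

/-- the parameters of the stages -/
def ee : ℕ → ℕ
  | 0 => 5
  | s + 1 => 2 ^ ee s - 2

/-- the spacings of columns and rows at a stage -/
def sAB : ℕ → ℤ × ℤ
  | 0 => (1, 1)
  | s + 1 => (per (ee s) * (sAB s).2, (sAB s).1)

/-- spacing of the columns -/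
def sA (s : ℕ) : ℤ := (sAB s).1

/-- spacing of the rows -/
def sB (s : ℕ) : ℤ := (sAB s).2

/-- orientation of a stage -/
def sw (s : ℕ) (v : V) : V := if s % 2 = 0 then v else v.swap

/-- orientation of a stage, on junctions -/
def tps (s : ℕ) (t : Core) : Core := if s % 2 = 0 then t else t.tp

/-- the period lattice of the corners of a stage -/
def Lat (s : ℕ) (v : V) : Prop := sA s ∣ (sw s v).1 ∧ sA (s + 1) ∣ (sw s v).2

instance : NeZero (per (ee 0)) := ⟨pow_ne_zero _ two_ne_zero⟩

/-- tiles -/
abbrev Tile : Type := Core × ZMod (per (ee 0)) × Bool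

/-- admissible tiles -/
def TV (t : Tile) : Prop :=
  Valid t.1 ∧ (t.2.1 ≠ 0 → ColH t.1 ∧ t.1.ho.fl = PatN (ee 0) t.2.1.val ∧ t.1.ho.ty = t.2.2)

/-- label of the right edge -/
def hOut (t : Tile) : ZMod (per (ee 0)) × Col :=
  (t.2.1, if t.2.1 = 0 then t.1.ho else t.1.ho.set .fin)

/-- label of the left edge -/
def hIn (t : Tile) : ZMod (per (ee 0)) × Col := (t.2.1, t.1.hi)

/-- label of the upper edge -/
def vOut (t : Tile) : ZMod (per (ee 0)) × Bool × Col := (t.2.1 + 1, t.2.2, t.1.vo)

/-- label of the lower edge -/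
def vIn (t : Tile) : ZMod (per (ee 0)) × Bool × Col := (t.2.1, t.2.2, t.1.vi)

section lattice

variable {L : Type} [SemilatticeInf L] [BoundedOrder L] [Compl L] [QL L]

/-- a Boolean homomorphism into the interval below `u` -/
structure Site {T : Type} (u : L) (f : Set T → L) : Prop where
  univ : f Set.univ = u
  inter : ∀ S S', f (S ∩ S') = f S ⊓ f S'
  compl : ∀ S, f Sᶜ = u ⊓ (f S)ᶜ
  cm : ∀ S S', Cm (f S) (f S')

/-- the column `x` reads the counter -/
def lam (W : V → Set Core → L) (x : ℤ) : L := W (x, 1) {t | t.ho.ty = true}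

/-- the column `x` resets the counter -/
def atm (W : V → Set Core → L) (x : ℤ) : L := W (x, 1) {t | t.ho.ty = false}

/-- lattice valued configurations of junctions at one stage -/
structure Grid (e : ℕ) (u : L) (W : V → Set Core → L) : Prop where
  site : ∀ v, Site u (W v)
  valid : ∀ v, W v {t | Valid t} = u
  vert : ∀ x y (S : Set Col), W (x, y) {t | t.vo ∈ S} = W (x, y + 1) {t | t.vi ∈ S}
  hiR : ∀ x y (S : Set Col), res e y = 0 → W (x, y) {t | t.ho ∈ S} = W (x + 1, y) {t | t.hi ∈ S}
  loR : ∀ x y (S : Set Col), res e y ≠ 0 →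
    W (x, y) {t | t.ho.set .fin ∈ S} = W (x + 1, y) {t | t.hi ∈ S}
  low : ∀ x y, res e y ≠ 0 → W (x, y) {t | ColH t ∧ t.ho.fl = PatN e (res e y)} = u
  lam : ∀ x y, res e y ≠ 0 → W (x, y) {t | t.ho.ty = true} = lam W x
  cm : ∀ x y (S : Set Col), res e y = 0 → Cm (W (x, y) {t | t.ho ∈ S}) (P196.lam W x)

/-- the configuration of the next stage -/
def nxt (e : ℕ) (W : V → Set Core → L) (x0 : ℤ) (v : V) (S : Set Core) : L :=
  atm W x0 ⊓ W (x0 + v.2, per e * v.1) {t | t.tp ∈ S}

/-- lattice valued tilings -/
structure Conf (u : L) (P : V → Set Tile → L) : Prop where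
  site : ∀ v, Site u (P v)
  valid : ∀ v, P v {t | TV t} = u
  hor : ∀ x y S, P (x, y) (hOut ⁻¹' S) = P (x + 1, y) (hIn ⁻¹' S)
  ver : ∀ x y S, P (x, y) (vOut ⁻¹' S) = P (x, y + 1) (vIn ⁻¹' S)

/-- `o` is a corner of stage `s` -/
def At {L : Type} [Min L] (P : V → Set Tile → L) : ℕ → V → L
  | 0, o => P o {t | t.2.1 = 0}
  | s + 1, o => At P s o ⊓ P (o + sw s (0, sB s)) {t | (tps s t.1).ho.ty = false}

/-- the configuration of stage `s` seen from the corner `o` -/
def Wg (P : V → Set Tile → L) (s : ℕ) (o : V) (v : V) (S : Set Core) : L :=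
  At P s o ⊓ P (o + sw s (sA s * v.1, sB s * v.2)) {t | tps s t.1 ∈ S}

end lattice

/-- tilings of the plane -/
def IsT (x : V → Tile) : Prop :=
  (∀ v, TV (x v)) ∧ (∀ i j, hOut (x (i, j)) = hIn (x (i + 1, j))) ∧
    ∀ i j, vOut (x (i, j)) = vIn (x (i, j + 1))

/-- the subshift of all tilings -/
def X0 : Type := {x : V → Tile // IsT x}

instance : AddAction V X0 where
  vadd v x := ⟨fun u => x.1 (u + v), fun _ => x.2.1 _, fun i j => by
    have := x.2.2.1 (i + v.1) (j + v.2)
    rwa [show (i + v.1 + 1, j + v.2) = (i + 1, j) + v from Prod.ext (by simp; ring) rfl] at this,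
    fun i j => by
    have := x.2.2.2 (i + v.1) (j + v.2)
    rwa [show (i + v.1, j + v.2 + 1) = (i, j + 1) + v from Prod.ext rfl (by simp; ring)] at this⟩
  zero_vadd x := Subtype.ext (funext fun u => congrArg x.1 (add_zero u))
  add_vadd v w x := Subtype.ext (funext fun u => congrArg x.1 (by
    show u + (v + w) = u + v + w
    rw [add_assoc]))

theorem X0.vadd_apply (v : V) (x : X0) (u : V) : (v +ᵥ x).1 u = x.1 (u + v) := rfl

/-- the tile at the origin -/
def lab0 (x : X0) : Tile := x.1 0

/-- the tautological set valued tiling -/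
def P0 (v : V) (S : Set Tile) : Set X0 := {x | x.1 v ∈ S}

theorem At_shift (s : ℕ) (o v : V) (x : X0) : v +ᵥ x ∈ At P0 s o ↔ x ∈ At P0 s (o + v) := by
  induction s with
  | zero => rfl
  | succ s ih =>
    show v +ᵥ x ∈ At P0 s o ∧ _ ↔ x ∈ At P0 s (o + v) ∧ _
    rw [ih]
    refine and_congr_right fun _ => ?_
    show (tps s (x.1 (o + sw s (0, sB s) + v)).1).ho.ty = false ↔
      (tps s (x.1 (o + v + sw s (0, sB s))).1).ho.ty = false
    rw [add_right_comm]

/-- tilings whose corners of stage `t` carry tiles from `J` -/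
def X1 (t : ℕ) (J : Set Tile) : Type := {x : X0 // ∀ o, x ∈ At P0 t o → x.1 o ∈ J}

instance (t : ℕ) (J : Set Tile) : AddAction V (X1 t J) where
  vadd v x := ⟨v +ᵥ x.1, fun o h => x.2 (o + v) ((At_shift t o v x.1).1 h)⟩
  zero_vadd x := Subtype.ext (zero_vadd V x.1)
  add_vadd v w x := Subtype.ext (add_vadd v w x.1)

theorem X1.vadd_val {t : ℕ} {J : Set Tile} (v : V) (x : X1 t J) : (v +ᵥ x).1 = v +ᵥ x.1 := rfl

/-- the tile at the origin -/
def lab1 (t : ℕ) (J : Set Tile) (x : X1 t J) : Tile := lab0 x.1

end Vale.Agent.P196
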